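import Crest.Agent.R160.Prod

/-!
# Row 160 (S0241): Anova
Efron–Stein / ANOVA decomposition on a countable product, in the only form we need.
For a finite `K` put `P K z ω = ∫ z (K.piecewise ω ω') dω'`.  Key identity (two uses of
`measurePreserving_swap`): `∫ P K z * P L z' = ∫ P (K ∩ L) z * P (K ∩ L) z' =: b (K ∩ L)`.
Components `z_S = ∑_{K ⊆ S} (-1)^{|S \ K|} P K z`, `a z S = ∫ z_S²`.  Möbius inversion gives
`P Λ z = ∑_{S ⊆ Λ} z_S`, `∫ z_S z'_{S'} = 0` for `S ≠ S'`.  Finally `P Λ_n z → z` a.e./in `L¹` along an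
exhausting sequence (identify `P K z` with the conditional expectation on `Filtration.piFinset K`, Lévy's
upward theorem `MeasureTheory.Integrable.tendsto_ae_condExp`).
-/

set_option autoImplicit false

open MeasureTheory Filter Topology
open scoped unitInterval

noncomputable section

namespace Crest.Agent.R160

universe u

variable {ι E : Type*} [MeasurableSpace E] (ν : Measure E) [IsProbabilityMeasure ν]

namespace Anova

open Classical in
/-- Möbius transform -/
def Mob (f : Finset ι → ℝ) (s : Finset ι) : ℝ :=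
  ∑ K ∈ s.powerset, (-1 : ℝ) ^ (s.card + K.card) * f K

open Classical in
lemma Mob_insert (f : Finset ι → ℝ) {s : Finset ι} {i : ι} (hi : i ∉ s) :
    Mob f (insert i s) = Mob (fun K => f (insert i K)) s - Mob f s := by
  unfold Mob
  rw [Finset.sum_powerset_insert hi, Finset.card_insert_of_notMem hi, sub_eq_neg_add,
    ← Finset.sum_neg_distrib]
  congr 1
  · refine Finset.sum_congr rfl fun K _ => ?_
    ring
  · refine Finset.sum_congr rfl fun K hK => ?_
    rw [Finset.card_insert_of_notMem fun h => hi (Finset.mem_powerset.1 hK h)]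
    ring

lemma Mob_empty (f : Finset ι → ℝ) : Mob f ∅ = f ∅ := by simp [Mob]

lemma Mob_congr {f g : Finset ι → ℝ} {s : Finset ι} (h : ∀ K, K ⊆ s → f K = g K) :
    Mob f s = Mob g s :=
  Finset.sum_congr rfl fun K hK => by rw [h K (Finset.mem_powerset.1 hK)]

lemma Mob_zero (s : Finset ι) : Mob (fun _ => 0) s = 0 := by simp [Mob]

lemma sum_Mob (U : Finset ι) (f : Finset ι → ℝ) : ∑ s ∈ U.powerset, Mob f s = f U := by
  classical
  induction U using Finset.induction_on generalizing f with
  | empty => simp [Mob_empty]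
  | insert i U hi ih =>
    rw [Finset.sum_powerset_insert hi, ← ih fun K => f (insert i K), ← Finset.sum_add_distrib]
    refine Finset.sum_congr rfl fun K hK => ?_
    have := Mob_insert f (s := K) (i := i) fun h => hi (Finset.mem_powerset.1 hK h)
    rw [this]
    ring

lemma Mob_map (e : ι ↪ ι) (s : Finset ι) (f : Finset ι → ℝ) :
    Mob f (s.map e) = Mob (fun K => f (K.map e)) s := by
  classical
  induction s using Finset.induction_on generalizing f with
  | empty => simp [Mob_empty]
  | insert i s hi ih =>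
    have h1 := Mob_insert f (s := s.map e) (i := e i) (by simpa using hi)
    have h2 := Mob_insert (fun K => f (K.map e)) hi
    rw [ih, ih] at h1
    simp only [Finset.map_insert] at h2 ⊢
    convert h1.trans h2.symm

open Classical in
lemma Mob_eq_zero {f : Finset ι → ℝ} {s : Finset ι} {i : ι} (hi : i ∈ s)
    (hf : ∀ K, f (insert i K) = f K) : Mob f s = 0 := by
  have h1 := Mob_insert f (s := s.erase i) (i := i) (by simp)
  simp only [hf, sub_self, Finset.insert_erase hi] at h1
  exact h1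

lemma Mob_comm (f : Finset ι → Finset ι → ℝ) (s t : Finset ι) :
    Mob (fun K => Mob (fun L => f K L) t) s = Mob (fun L => Mob (fun K => f K L) s) t := by
  simp only [Mob, Finset.mul_sum]
  rw [Finset.sum_comm]
  refine Finset.sum_congr rfl fun _ _ => Finset.sum_congr rfl fun _ _ => ?_
  ring

open Classical in
/-- averaging out the coordinates outside `K` -/
def P (K : Set ι) (z : (ι → E) → ℝ) (ω : ι → E) : ℝ := ∫ ω', z (K.piecewise ω ω') ∂(PP ι ν)

variable {ν}

lemma P_BM (K : Set ι) {z : (ι → E) → ℝ} (hz : BM z) : BM (P ν K z) := by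
  classical
  exact BM.integral_prod_right (F := fun p : (ι → E) × (ι → E) => z (K.piecewise p.1 p.2))
    (hz.comp (measurable_piecewise_pair K)) _

lemma P_dep (K : Set ι) (z : (ι → E) → ℝ) : DependsOn (P ν K z) K := by
  classical
  intro ω₁ ω₂ h
  unfold P
  congr 1
  funext ω'
  congr 1
  funext i
  by_cases hi : i ∈ K <;> simp [hi, h]

lemma P_of_dep {K : Set ι} {z : (ι → E) → ℝ} (hz : DependsOn z K) : P ν K z = z := by
  classical
  funext ω
  unfold P
  have : ∀ ω', z (K.piecewise ω ω') = z ω := fun ω' => hz fun i hi => by simp [hi]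
  simp [this]

open Classical in
lemma integral_mul_P (K : Set ι) {z w : (ι → E) → ℝ} (hz : BM z) (hw : BM w) :
    ∫ ω, z ω * P ν K w ω ∂(PP ι ν) =
      ∫ p, z p.1 * w (K.piecewise p.1 p.2) ∂((PP ι ν).prod (PP ι ν)) := by
  rw [integral_prod _ (((hz.comp measurable_fst).mul
    (hw.comp (measurable_piecewise_pair K))).integrable _)]
  simp only [P, integral_const_mul]

lemma P_adj (K : Set ι) {z w : (ι → E) → ℝ} (hz : BM z) (hw : BM w) :
    ∫ ω, P ν K z ω * w ω ∂(PP ι ν) = ∫ ω, z ω * P ν K w ω ∂(PP ι ν) := by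
  classical
  have h1 := integral_mul_P (ν := ν) K hw hz
  simp_rw [mul_comm (P ν K z _)]
  rw [h1, integral_mul_P K hz hw]
  have hm := measurePreserving_swap (ι := ι) ν K
  have hF : BM fun p : (ι → E) × (ι → E) => z p.1 * w (K.piecewise p.1 p.2) :=
    (hz.comp measurable_fst).mul (hw.comp (measurable_piecewise_pair K))
  conv_rhs => rw [← hm.map_eq, integral_map hm.measurable.aemeasurable hF.meas.aestronglyMeasurable]
  congr 1
  funext p
  rw [mul_comm]
  congr 2
  funext i
  by_cases hi : i ∈ K <;> simp [hi]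

lemma P_P (K L : Set ι) {z : (ι → E) → ℝ} (hz : BM z) : P ν K (P ν L z) = P ν (K ∩ L) z := by
  classical
  funext ω
  have hF : BM fun ω' : ι → E => z ((K ∩ L).piecewise ω ω') :=
    (hz.comp (measurable_piecewise_pair (K ∩ L))).comp (f := fun ω' => (ω, ω'))
      measurable_prodMk_left
  have h1 := integral_freeze ν Lᶜ (hF.integrable (PP ι ν))
  unfold P
  convert h1.symm using 6 with ω' ω''
  funext i
  by_cases hi : i ∈ K <;> by_cases hj : i ∈ L <;> simp [hi, hj]

variable (ν) in
/-- the basic correlation -/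
def cc (z z' : (ι → E) → ℝ) (K : Set ι) : ℝ := ∫ ω, z ω * P ν K z' ω ∂(PP ι ν)

lemma integral_P_mul_P (K L : Set ι) {z z' : (ι → E) → ℝ} (hz : BM z) (hz' : BM z') :
    ∫ ω, P ν K z ω * P ν L z' ω ∂(PP ι ν) = cc ν z z' (K ∩ L) := by
  rw [P_adj K hz (P_BM L hz'), P_P K L hz', cc]

variable (ν) in
/-- the components -/
def comp (z : (ι → E) → ℝ) (s : Finset ι) (ω : ι → E) : ℝ := Mob (fun K => P ν (↑K) z ω) s

lemma comp_BM {z : (ι → E) → ℝ} (hz : BM z) (s : Finset ι) : BM (comp ν z s) :=
  BM.sum _ fun _ _ => (BM.const _).mul (P_BM _ hz)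

lemma integral_comp_mul {z z' : (ι → E) → ℝ} (hz : BM z) (hz' : BM z') (s t : Finset ι) :
    ∫ ω, comp ν z s ω * comp ν z' t ω ∂(PP ι ν) =
      Mob (fun K => Mob (fun L => cc ν z z' (K ∩ L)) t) s := by
  simp only [comp, Mob, Finset.sum_mul_sum]
  simp only [Finset.mul_sum]
  rw [integral_finsetSum _ fun K _ => (BM.sum _ fun L _ =>
    ((BM.const _).mul (P_BM _ hz)).mul ((BM.const _).mul (P_BM _ hz'))).integrable _]
  refine Finset.sum_congr rfl fun K _ => ?_
  rw [integral_finsetSum _ fun L _ =>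
    (((BM.const _).mul (P_BM _ hz)).mul ((BM.const _).mul (P_BM _ hz'))).integrable _]
  refine Finset.sum_congr rfl fun L _ => ?_
  rw [← integral_P_mul_P _ _ hz hz', ← integral_const_mul, ← integral_const_mul]
  congr 1
  funext ω
  ring

lemma comp_orth {z z' : (ι → E) → ℝ} (hz : BM z) (hz' : BM z') {s t : Finset ι} (h : s ≠ t) :
    ∫ ω, comp ν z s ω * comp ν z' t ω ∂(PP ι ν) = 0 := by
  classical
  rw [integral_comp_mul hz hz']
  by_cases hst : s ⊆ t
  · obtain ⟨i, hit, his⟩ : ∃ i ∈ t, i ∉ s := by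
      by_contra hcon
      push Not at hcon
      exact h (Finset.Subset.antisymm hst hcon)
    rw [← Mob_zero s]
    refine Mob_congr fun K hK => Mob_eq_zero hit fun L => ?_
    congr 1
    ext j
    by_cases hj : j = i
    · subst hj
      have : j ∉ K := fun h => his (hK h)
      simp [this]
    · simp [hj]
  · obtain ⟨i, his, hit⟩ := Finset.not_subset.1 hst
    rw [Mob_comm, ← Mob_zero t]
    refine Mob_congr fun K hK => Mob_eq_zero his fun L => ?_
    congr 1
    ext j
    by_cases hj : j = i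
    · subst hj
      have : j ∉ K := fun h => hit (hK h)
      simp [this]
    · simp [hj]

lemma sum_comp (z : (ι → E) → ℝ) (U : Finset ι) (ω : ι → E) :
    ∑ s ∈ U.powerset, comp ν z s ω = P ν U z ω := sum_Mob U _

lemma cc_eq_sum {z z' : (ι → E) → ℝ} (hz : BM z) (hz' : BM z') (U : Finset ι) :
    cc ν z z' U = ∑ s ∈ U.powerset, ∫ ω, comp ν z s ω * comp ν z' s ω ∂(PP ι ν) := by
  have h1 := integral_P_mul_P (ν := ν) U U hz hz'
  rw [Set.inter_self] at h1
  rw [← h1]
  simp only [← sum_comp, Finset.sum_mul_sum]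
  rw [integral_finsetSum _ fun K _ => (BM.sum _ fun L _ =>
    (comp_BM hz _).mul (comp_BM hz' _)).integrable _]
  refine Finset.sum_congr rfl fun K hK => ?_
  rw [integral_finsetSum _ fun L _ => ((comp_BM hz _).mul (comp_BM hz' _)).integrable _,
    Finset.sum_eq_single_of_mem K hK fun L _ hL => comp_orth hz hz' hL.symm]

lemma cc_le {z : (ι → E) → ℝ} (hz : BM z) (U : Set ι) : cc ν z z U ≤ ∫ ω, z ω ^ 2 ∂(PP ι ν) := by
  have h1 := integral_P_mul_P (ν := ν) U U hz hz
  rw [Set.inter_self] at h1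
  have hP := P_BM (ν := ν) U hz
  have h2 : 0 ≤ ∫ ω, (z ω ^ 2 - 2 * (z ω * P ν U z ω)) + P ν U z ω * P ν U z ω ∂(PP ι ν) :=
    integral_nonneg fun ω => by
      have := sq_nonneg (z ω - P ν U z ω)
      simp only [Pi.zero_apply]
      nlinarith
  rw [integral_add (((hz.pow 2).sub ((BM.const 2).mul (hz.mul hP))).integrable _)
    ((hP.mul hP).integrable _), integral_sub ((hz.pow 2).integrable _)
    (((BM.const 2).mul (hz.mul hP)).integrable _), integral_const_mul, h1] at h2
  unfold cc at h2 ⊢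
  linarith

lemma cc_relab {z z' : (ι → E) → ℝ} (hz : BM z) (hz' : BM z') (e : ι ≃ ι)
    (h : z' =ᵐ[PP ι ν] fun ω => z fun i => ω (e i)) (K : Set ι) :
    cc ν z' z' (e '' K) = cc ν z z K := by
  classical
  unfold cc
  rw [integral_mul_P _ hz' hz', integral_mul_P _ hz hz]
  have hr := measurePreserving_relabel ν (e := e) e.injective
  have hm := hr.prod hr
  have hF : BM fun p : (ι → E) × (ι → E) => z p.1 * z (K.piecewise p.1 p.2) :=
    (hz.comp measurable_fst).mul (hz.comp (measurable_piecewise_pair K))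
  conv_rhs => rw [← hm.map_eq, integral_map hm.measurable.aemeasurable hF.meas.aestronglyMeasurable]
  have h1 := (measurePreserving_fst (μ := PP ι ν) (ν := PP ι ν)).quasiMeasurePreserving.ae h
  have h2 := ((measurePreserving_fst (μ := PP ι ν) (ν := PP ι ν)).comp
    (measurePreserving_swap (ι := ι) ν (e '' K))).quasiMeasurePreserving.ae h
  refine integral_congr_ae ?_
  filter_upwards [h1, h2] with p hp1 hp2
  simp only [Function.comp_apply] at hp2
  rw [hp1, hp2]
  congr 2
  funext i
  by_cases hi : i ∈ K <;> simp [hi]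

lemma tendsto_cc [Countable ι] {z z' : (ι → E) → ℝ} (hz : BM z) (hz' : BM z') :
    ∃ U : ℕ → Finset ι,
      Tendsto (fun n => cc ν z z' (U n)) atTop (𝓝 (∫ ω, z ω * z' ω ∂(PP ι ν))) := by
  classical
  obtain ⟨U, hU, hU'⟩ := exists_seq_monotone_tendsto_atTop_atTop (Finset ι)
  refine ⟨U, ?_⟩
  have : Nonempty E := nonempty_of_isProbabilityMeasure ν
  let ℱ : Filtration ℕ (MeasurableSpace.pi : MeasurableSpace (ι → E)) :=
    ⟨fun n => Filtration.piFinset (X := fun _ => E) (U n),
      fun _ _ h => Filtration.piFinset.mono (hU h), fun n => Filtration.piFinset.le _⟩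
  have hsup : (MeasurableSpace.pi : MeasurableSpace (ι → E)) ≤ ⨆ n, ℱ n := by
    refine iSup_le fun i => ?_
    obtain ⟨n, hn⟩ := (hU'.eventually (eventually_ge_atTop {i})).exists
    refine le_trans ?_ (le_iSup (fun n => ℱ n) n)
    have hi : i ∈ (U n : Set ι) := hn (Finset.mem_singleton_self i)
    exact (measurable_comap_of_dependsOn (F := fun ω : ι → E => ω i) (measurable_pi_apply i)
      (K := (U n : Set ι)) fun _ _ h => h i hi).comap_le
  have hlim := (hz'.integrable (PP ι ν)).tendsto_ae_condExp (ℱ := ℱ)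
    (hz'.meas.mono hsup le_rfl).stronglyMeasurable
  have hid : ∀ n, P ν (U n) z' =ᵐ[PP ι ν] (PP ι ν)[z' | ℱ n] := by
    intro n
    refine ae_eq_condExp_of_forall_setIntegral_eq (ℱ.le n) (hz'.integrable _)
      (fun s _ _ => ((P_BM _ hz').integrable _).integrableOn) (fun s hs _ => ?_)
      (measurable_comap_of_dependsOn (P_BM _ hz').meas
        (P_dep _ _)).stronglyMeasurable.aestronglyMeasurable
    have hs' : MeasurableSet s := ℱ.le n s hs
    have hb : BM (s.indicator (1 : (ι → E) → ℝ)) :=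
      ⟨measurable_one.indicator hs', 1, fun ω => by
        by_cases h : ω ∈ s <;> simp [h]⟩
    have hd : DependsOn (s.indicator (1 : (ι → E) → ℝ)) (U n) := by
      have : Measurable[Filtration.piFinset (X := fun _ => E) (U n)]
        (s.indicator (1 : (ι → E) → ℝ)) := Measurable.indicator measurable_const hs
      exact this.dependsOn_of_piFinset
    have h1 := P_adj (ν := ν) (U n) hb hz'
    rw [P_of_dep hd] at h1
    rw [← integral_indicator hs', ← integral_indicator hs']
    convert h1.symm using 2 <;> funext ω <;> by_cases h : ω ∈ s <;> simp [h]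
  obtain ⟨C, hC⟩ := hz.bdd
  obtain ⟨C', hC'⟩ := hz'.bdd
  refine tendsto_integral_of_dominated_convergence (fun _ => C * C')
    (fun n => (hz.mul (P_BM _ hz')).meas.aestronglyMeasurable) (integrable_const _)
    (fun n => ae_of_all _ fun ω => ?_) ?_
  · rw [Real.norm_eq_abs, abs_mul]
    refine mul_le_mul (hC ω) ?_ (abs_nonneg _) ((abs_nonneg _).trans (hC ω))
    rw [P, ← Real.norm_eq_abs]
    refine le_trans (norm_integral_le_of_norm_le_const (C := C') (ae_of_all _ fun ω' => hC' _)) ?_
    simp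
  · filter_upwards [hlim, ae_all_iff.2 hid] with ω h1 h2
    simp only [h2]
    exact h1.const_mul _

end Anova

open Anova in
theorem exists_anova [Countable ι] :
    ∃ a : ((ι → E) → ℝ) → Finset ι → ℝ,
      (∀ z s, 0 ≤ a z s) ∧
      (∀ z, BM z → ∀ Λ : Finset (Finset ι), ∑ s ∈ Λ, a z s ≤ ∫ ω, z ω ^ 2 ∂(PP ι ν)) ∧
      (∀ z z', BM z → BM z' → ∀ e : ι ≃ ι, (z' =ᵐ[PP ι ν] fun ω => z fun i => ω (e i)) →
        ∀ s : Finset ι, a z' (s.map e.toEmbedding) = a z s) ∧
      (∀ z, BM z → ∀ K : Set ι,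
        (∀ Ψ, BM Ψ → DependsOn Ψ K → ∫ ω, z ω * Ψ ω ∂(PP ι ν) = 0) →
        ∀ s : Finset ι, (s : Set ι) ⊆ K → a z s = 0) ∧
      (∀ z z', BM z → BM z' → ∀ c : ℝ,
        (∀ Λ : Finset (Finset ι), ∑ s ∈ Λ, Real.sqrt (a z s) * Real.sqrt (a z' s) ≤ c) →
        |∫ ω, z ω * z' ω ∂(PP ι ν)| ≤ c) := by
  classical
  have key : ∀ z : (ι → E) → ℝ, BM z → ∀ s, ∫ ω, comp ν z s ω ^ 2 ∂(PP ι ν) =
      Mob (fun K => Mob (fun L => cc ν z z (K ∩ L)) s) s := by
    intro z hz s
    simp only [sq]
    exact integral_comp_mul hz hz s s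
  refine ⟨fun z s => ∫ ω, comp ν z s ω ^ 2 ∂(PP ι ν), fun z s => integral_nonneg fun _ => sq_nonneg _,
    fun z hz Λ => ?_, fun z z' hz hz' e h s => ?_, fun z hz K hK s hs => ?_,
    fun z z' hz hz' c hc => ?_⟩
  · refine le_trans ?_ (cc_le hz (Λ.biUnion id : Finset ι))
    rw [cc_eq_sum hz hz]
    simp only [sq]
    refine Finset.sum_le_sum_of_subset_of_nonneg (fun s hs => ?_)
      fun _ _ _ => integral_nonneg fun _ => mul_self_nonneg _
    exact Finset.mem_powerset.2 (Finset.subset_biUnion_of_mem id hs)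
  · simp only [key z hz, key z' hz', Mob_map]
    refine Mob_congr fun K _ => Mob_congr fun L _ => ?_
    rw [← cc_relab hz hz' e h, Set.image_inter e.injective]
    simp
  · simp only [key z hz]
    rw [← Mob_zero s]
    refine Mob_congr fun L hL => ?_
    rw [← Mob_zero s]
    refine Mob_congr fun L' _ => ?_
    refine hK _ (P_BM _ hz) ((P_dep _ _).mono ?_)
    exact Set.inter_subset_left.trans ((Finset.coe_subset.2 hL).trans hs)
  · obtain ⟨U, hU⟩ := tendsto_cc (ν := ν) hz hz'
    refine le_of_tendsto' hU.abs fun n => le_trans ?_ (hc (U n).powerset)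
    rw [cc_eq_sum hz hz']
    refine (Finset.abs_sum_le_sum_abs _ _).trans (Finset.sum_le_sum fun s _ => ?_)
    rw [← Real.sqrt_mul (integral_nonneg fun _ => sq_nonneg _)]
    exact Real.abs_le_sqrt (sq_integral_mul_le _ (comp_BM hz s) (comp_BM hz' s))

end Crest.Agent.R160
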