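import Crest.Agent.R160.Decouple

/-!
# Row 160 (S0241): Bad
The contribution of one vertex.  `k = dist o u`, `n = (k-1)/4`, `s₀ = y n/256`, `p = geod o u`.
A.e. `cov = θ^k exp (-cost)` (`Good.cov_eq_exp_cost`).  `cvar_exp_neg_le` with `A = cost`:
main part `exp (-2 s₀) cvar cost ≤ exp (-2s₀) * 3 (25 d k NA + 2 cosh⁴ N)`.  Bad part: `(res cost)² ≤
(k+2) ∑_ξ (res A_ξ)²` over the `k` edges and two endpoints.  `bad_le` bounds `∫ Z 1{cost < 2 s₀}` for any
bounded `Z ≥ 0` invariant under the automorphisms fixing an edge `p i, p (i+1)` of the path: either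
`k - i - 1 ≥ 2n` (use `q l = p (i + l)`) or `i ≥ 2n` (use `q l = p (i + 1 - l)`), and
`1{cost < 2 s₀} ≤ beta` because `cost ≥ (1/2) ∑ (outward alpha on the portion)`; `decouple`.  For the
conditional indicator use `integral_mul_condExp` and `condExp_act`.  The second summand of `term`:
`exp (-2 cost) ≤ exp (-2 s₀) + 1{cost < 2 s₀}`.  The case `k = 0` is direct.
-/

set_option autoImplicit false

open MeasureTheory Filter Topology
open scoped unitInterval

noncomputable section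

namespace Crest.Agent.R160

universe u

namespace Setup

variable {V : Type u} (S : Setup V)

variable {S} {r : X → ℝ} {J : ℕ}

lemma sum_ecost_le_cost (Y : V → ℝ) (p : ℕ → V) {k n : ℕ} (e : ℕ → ℕ)
    (he : Set.InjOn e (Finset.range n)) (hk : ∀ l, l < n → e l < k) :
    ∑ l ∈ Finset.range n, S.ecost Y (p (e l)) (p (e l + 1)) ≤ S.cost Y p k := by
  have h1 : ∑ l ∈ Finset.range n, S.ecost Y (p (e l)) (p (e l + 1)) ≤
      ∑ m ∈ Finset.range k, S.ecost Y (p m) (p (m + 1)) := by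
    rw [← Finset.sum_image (f := fun m => S.ecost Y (p m) (p (m + 1))) he]
    refine Finset.sum_le_sum_of_subset_of_nonneg (fun m hm => ?_) fun _ _ _ => ecost_nonneg _ _ _
    obtain ⟨l, hl, rfl⟩ := Finset.mem_image.1 hm
    exact Finset.mem_range.2 (hk l (Finset.mem_range.1 hl))
  have h2 := lc_nonneg (S.cav Y (p 0) (p 0))
  have h3 := lc_nonneg (S.cav Y (p k) (p k))
  unfold cost
  linarith

lemma alpha_le_ecost (Y : V → ℝ) (x y : V) : alpha S.θ (S.cav Y x y) ≤ 2 * S.ecost Y x y := by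
  have := alpha_nonneg S.hθ0 S.theta_sq_le (S.cav Y y x)
  unfold ecost
  linarith

/-- a portion of the path on one side of the edge `p i, p (i+1)` -/
lemma exists_portion {p : ℕ → V} {k i : ℕ} (hp : S.IsNB p k) (hi : i < k) {n : ℕ}
    (hn : 4 * n + 1 ≤ k) : ∃ q : ℕ → V, S.IsNB q (2 * n + 1) ∧
      ((q 0 = p i ∧ q 1 = p (i + 1)) ∨ (q 0 = p (i + 1) ∧ q 1 = p i)) ∧
      ∀ Y : V → ℝ, ∑ l ∈ Finset.range n, alpha S.θ (S.cav Y (q (n + l + 2)) (q (n + l + 1))) ≤
        2 * S.cost Y p k := by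
  by_cases h : i + 2 * n + 1 ≤ k
  · refine ⟨fun l => p (i + l), (hp.shift i).mono (by omega), Or.inl ⟨rfl, rfl⟩, fun Y => ?_⟩
    have h1 := sum_ecost_le_cost (S := S) Y p (k := k) (n := n) (fun l => i + (n + l + 1))
      (fun a _ b _ hab => by simpa using hab) (fun l hl => by omega)
    refine le_trans ?_ (mul_le_mul_of_nonneg_left h1 zero_le_two)
    rw [Finset.mul_sum]
    refine Finset.sum_le_sum fun l _ => ?_
    rw [ecost_symm]
    exact alpha_le_ecost Y _ _
  · refine ⟨fun l => p (i + 1 - l), (hp.mono (k' := i + 1) hi).rev.mono (by omega),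
      Or.inr ⟨rfl, rfl⟩, fun Y => ?_⟩
    have h1 := sum_ecost_le_cost (S := S) Y p (k := k) (n := n) (fun l => i + 1 - (n + l + 2))
      (fun a ha b hb hab => by
        have ha' := Finset.mem_range.1 ha
        have hb' := Finset.mem_range.1 hb
        simp only at hab
        omega) (fun l hl => by omega)
    refine le_trans ?_ (mul_le_mul_of_nonneg_left h1 zero_le_two)
    rw [Finset.mul_sum]
    refine Finset.sum_le_sum fun l hl => ?_
    have hl' := Finset.mem_range.1 hl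
    rw [show i + 1 - (n + l + 2) + 1 = i + 1 - (n + l + 1) by omega]
    exact alpha_le_ecost Y _ _

open Classical in
theorem bad_le (hr : Measurable r) {Λ y : ℝ} (hΛ : 1 ≤ Λ) (hy : 0 ≤ y) (h1 : ∀ ξ, S.H1 (r ξ) Λ y)
    {p : ℕ → V} {k i : ℕ} (hp : S.IsNB p k) (hi : i < k)
    {Z : Om V → ℝ} (hZ : Measurable Z) {C : ℝ} (hC : 0 ≤ C) (hZ0 : ∀ᵐ ω ∂(mu V), 0 ≤ Z ω)
    (hZC : ∀ᵐ ω ∂(mu V), Z ω ≤ C)
    (hinv : ∀ g : S.G ≃g S.G, g (p i) = p i → g (p (i + 1)) = p (i + 1) →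
      (fun ω => Z (S.act g ω)) =ᵐ[mu V] Z) {N : ℝ} (hN : ∫ ω, Z ω ∂(mu V) ≤ C * N) :
    ∫ ω, Z ω * (if S.cost (S.Y Set.univ (r (ω Idx.rho)) ω) p k <
        2 * (y * (((k - 1) / 4 : ℕ) : ℝ) / 256) then 1 else 0) ∂(mu V) ≤
      C * ((2 * Real.exp (-(Λ * y * (((k - 1) / 4 : ℕ) : ℝ) / 64)) + (3 / 4 : ℝ) ^ ((k - 1) / 4)) * N +
        min N (Real.exp (-((3 / 2 : ℝ) ^ ((k - 1) / 4))))) := by
  set n := (k - 1) / 4 with hn
  obtain ⟨q, hq, hq01, hcost⟩ := exists_portion hp hi (n := n) (by omega)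
  have hR : Measurable fun ω : Om V => r (ω Idx.rho) := hr.comp (measurable_pi_apply _)
  have hdec := decouple hr hΛ hy h1 hq hZ hZ0 hZC (fun g h0 h1 => by
    rcases hq01 with ⟨e0, e1⟩ | ⟨e0, e1⟩
    · rw [e0] at h0; rw [e1] at h1; exact hinv g h0 h1
    · rw [e0] at h0; rw [e1] at h1; exact hinv g h1 h0)
  have iZ : Integrable Z (mu V) := by
    refine Integrable.of_bound hZ.aestronglyMeasurable C ?_
    filter_upwards [hZ0, hZC] with ω h0 h1
    rw [Real.norm_eq_abs, abs_of_nonneg h0]; exact h1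
  have bβ := BM_beta (S := S) hR Λ y q n
  have iZβ : Integrable (fun ω => Z ω * S.beta (fun ω => r (ω Idx.rho)) Λ y q n ω) (mu V) := by
    obtain ⟨B, hB⟩ := bβ.bdd
    exact iZ.mul_bdd bβ.meas.aestronglyMeasurable (Eventually.of_forall hB)
  have n0 : 0 ≤ᵐ[mu V] fun ω => Z ω * (if S.cost (S.Y Set.univ (r (ω Idx.rho)) ω) p k <
      2 * (y * (n : ℝ) / 256) then 1 else 0) := by
    filter_upwards [hZ0] with ω h0
    simp only [Pi.zero_apply]
    split_ifs
    · rwa [mul_one]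
    · rw [mul_zero]
  have e1 := integral_mono_of_nonneg n0 iZ (by
    filter_upwards [hZ0] with ω h0
    split_ifs
    · rw [mul_one]
    · rwa [mul_zero])
  have e2 := integral_mono_of_nonneg n0 iZβ (by
    filter_upwards [hZ0] with ω h0
    refine mul_le_mul_of_nonneg_left ?_ h0
    unfold beta
    split_ifs with h
    · refine le_min le_rfl (Real.one_le_exp (mul_nonneg (by linarith) ?_))
      have := hcost (S.Y Set.univ (r (ω Idx.rho)) ω)
      linarith
    · exact le_min zero_le_one (Real.exp_pos _).le)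
  have e3 : 0 ≤ ∫ ω, Z ω ∂(mu V) := integral_nonneg_of_ae hZ0
  have e4 : 0 ≤ 2 * Real.exp (-(Λ * y * (n : ℝ) / 64)) + (3 / 4 : ℝ) ^ n := by positivity
  have e5 := mul_le_mul_of_nonneg_left hN e4
  have e6 := mul_nonneg e4 e3
  rcases min_cases N (Real.exp (-((3 / 2 : ℝ) ^ n))) with ⟨h, -⟩ | ⟨h, -⟩ <;> rw [h] <;> linarith

end Setup

end Crest.Agent.R160
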