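import Crest.Agent.R160.Defs

/-!
# Row 160 (S0241): Calc0
One-variable facts about `fm`, `alpha`, `bco`, `lc`, `tanh`, `artanh`, `Lim`.
-/

set_option autoImplicit false

open MeasureTheory Filter Topology
open scoped unitInterval

noncomputable section

namespace Crest.Agent.R160

universe u

lemma hasDerivAt_tanh' (x : ℝ) : HasDerivAt Real.tanh (1 - Real.tanh x ^ 2) x := by
  have hc := Real.cosh_pos x
  have h := (Real.hasDerivAt_sinh x).div (Real.hasDerivAt_cosh x) hc.ne'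
  have e : Real.tanh = fun y => Real.sinh y / Real.cosh y := by
    funext y; exact Real.tanh_eq_sinh_div_cosh y
  have e2 : 1 - Real.tanh x ^ 2 =
      (Real.cosh x * Real.cosh x - Real.sinh x * Real.sinh x) / Real.cosh x ^ 2 := by
    rw [Real.tanh_eq_sinh_div_cosh]
    field_simp
  rw [e2, e]
  exact h

lemma one_sub_tanh_sq_eq (x : ℝ) : 1 - Real.tanh x ^ 2 = 1 / Real.cosh x ^ 2 := by
  have hc := Real.cosh_pos x
  rw [Real.tanh_eq_sinh_div_cosh]
  field_simp
  nlinarith [Real.cosh_sq x]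

lemma one_sub_tanh_sq_pos (x : ℝ) : 0 < 1 - Real.tanh x ^ 2 := by
  have := Real.tanh_sq_lt_one x; linarith

/-- mean value theorem, symmetric form -/
lemma exists_mvt {f f' : ℝ → ℝ} (hf : ∀ x, HasDerivAt f (f' x) x) (a b : ℝ) :
    ∃ c, min a b ≤ c ∧ c ≤ max a b ∧ f a - f b = f' c * (a - b) := by
  rcases lt_trichotomy a b with h | h | h
  · obtain ⟨c, hc, hc2⟩ := exists_hasDerivAt_eq_slope f f' h
      (fun x _ => (hf x).continuousAt.continuousWithinAt) (fun x _ => hf x)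
    refine ⟨c, by simp [hc.1.le], by simp [hc.2.le], ?_⟩
    rw [hc2]; field_simp [(sub_pos.2 h).ne']; ring
  · subst h; exact ⟨a, by simp, by simp, by simp⟩
  · obtain ⟨c, hc, hc2⟩ := exists_hasDerivAt_eq_slope f f' h
      (fun x _ => (hf x).continuousAt.continuousWithinAt) (fun x _ => hf x)
    refine ⟨c, by simp [hc.1.le], by simp [hc.2.le], ?_⟩
    rw [hc2]; field_simp [(sub_pos.2 h).ne']

lemma lip_of_deriv {f f' : ℝ → ℝ} (hf : ∀ x, HasDerivAt f (f' x) x) {C : ℝ} (a b : ℝ)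
    (hC : ∀ c, min a b ≤ c → c ≤ max a b → |f' c| ≤ C) : |f a - f b| ≤ C * |a - b| := by
  obtain ⟨c, h1, h2, h3⟩ := exists_mvt hf a b
  rw [h3, abs_mul]
  exact mul_le_mul_of_nonneg_right (hC c h1 h2) (abs_nonneg _)

lemma tanh_mono' : Monotone Real.tanh := by
  intro a b hab
  obtain ⟨c, -, -, h3⟩ := exists_mvt hasDerivAt_tanh' b a
  have := mul_nonneg (one_sub_tanh_sq_pos c).le (sub_nonneg.2 hab)
  linarith

lemma tanh_add' (a b : ℝ) :
    Real.tanh (a + b) = (Real.tanh a + Real.tanh b) / (1 + Real.tanh a * Real.tanh b) := by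
  have ha := Real.cosh_pos a
  have hb := Real.cosh_pos b
  have hab := Real.cosh_pos (a + b)
  rw [Real.cosh_add] at hab
  simp only [Real.tanh_eq_sinh_div_cosh, Real.sinh_add, Real.cosh_add]
  field_simp
lemma continuous_tanh' : Continuous Real.tanh :=
  continuous_iff_continuousAt.2 fun x => (hasDerivAt_tanh' x).continuousAt
lemma tanh_lipschitz (a b : ℝ) : |Real.tanh a - Real.tanh b| ≤ |a - b| := by
  have := lip_of_deriv hasDerivAt_tanh' (C := 1) a b (fun c _ _ => by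
    rw [abs_of_pos (one_sub_tanh_sq_pos c)]; nlinarith [sq_nonneg (Real.tanh c)])
  simpa using this
lemma abs_tanh_le_one (a : ℝ) : |Real.tanh a| ≤ 1 := (Real.abs_tanh_lt_one a).le
lemma mul_tanh_nonneg (a : ℝ) : 0 ≤ a * Real.tanh a := by
  rcases le_total 0 a with h | h
  · have := tanh_mono' h
    rw [Real.tanh_zero] at this
    exact mul_nonneg h this
  · have := tanh_mono' h
    rw [Real.tanh_zero] at this
    exact mul_nonneg_of_nonpos_of_nonpos h this
lemma measurable_artanh : Measurable Real.artanh := by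
  unfold Real.artanh
  fun_prop
lemma artanh_neg' {x : ℝ} (hx : |x| < 1) : Real.artanh (-x) = -Real.artanh x := by
  have h := Real.tanh_artanh (x := x) (abs_lt.1 hx)
  rw [← h, ← Real.tanh_neg, Real.artanh_tanh, Real.artanh_tanh]
lemma sub_le_cosh_sq_mul {a b B : ℝ} (ha : |a| ≤ B) (hb : |b| ≤ B) :
    |a - b| ≤ Real.cosh B ^ 2 * |Real.tanh a - Real.tanh b| := by
  obtain ⟨c, h1, h2, h3⟩ := exists_mvt hasDerivAt_tanh' a b
  have hc : |c| ≤ B := by
    rw [abs_le] at ha hb ⊢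
    constructor
    · exact le_trans (le_min ha.1 hb.1) h1
    · exact le_trans h2 (max_le ha.2 hb.2)
  have hB : Real.cosh c ≤ Real.cosh B := by
    rw [Real.cosh_le_cosh]; exact hc.trans (le_abs_self B)
  have hp := Real.cosh_pos c
  rw [h3, abs_mul, abs_of_pos (one_sub_tanh_sq_pos c), one_sub_tanh_sq_eq, ← mul_assoc]
  have : 1 ≤ Real.cosh B ^ 2 * (1 / Real.cosh c ^ 2) := by
    rw [mul_one_div, le_div_iff₀ (by positivity), one_mul]
    exact pow_le_pow_left₀ hp.le hB 2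
  nlinarith [abs_nonneg (a - b)]
lemma abs_artanh_le {x : ℝ} (hx : |x| ≤ 1 / 2) : |Real.artanh x| ≤ 2 * |x| := by
  have hx1 : x ∈ Set.Ioo (-1 : ℝ) 1 := abs_lt.1 (by linarith)
  have h := sub_le_cosh_sq_mul (a := Real.artanh x) (b := 0) (B := |Real.artanh x|) le_rfl
    (by simp)
  rw [Real.cosh_abs, Real.cosh_artanh hx1, Real.tanh_artanh hx1, Real.tanh_zero, sub_zero,
    sub_zero] at h
  have hx2 : x ^ 2 ≤ 1 / 4 := by
    have := sq_abs x
    nlinarith [abs_nonneg x]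
  have hs : (1 / Real.sqrt (1 - x ^ 2)) ^ 2 ≤ 2 := by
    rw [div_pow, Real.sq_sqrt (by linarith), one_pow, div_le_iff₀ (by linarith)]
    linarith
  exact h.trans (mul_le_mul_of_nonneg_right hs (abs_nonneg _))
lemma tendsto_of_tanh {a : ℕ → ℝ} {B m : ℝ} (ha : ∀ n, |a n| ≤ B)
    (h : Tendsto (fun n => Real.tanh (a n)) atTop (𝓝 m)) :
    ∃ l, Tendsto a atTop (𝓝 l) ∧ Real.tanh l = m := by
  have h1 : m ≤ Real.tanh B := le_of_tendsto' h fun n => tanh_mono' (abs_le.1 (ha n)).2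
  have h2 : Real.tanh (-B) ≤ m := ge_of_tendsto' h fun n => tanh_mono' (abs_le.1 (ha n)).1
  have hm : m ∈ Set.Ioo (-1 : ℝ) 1 :=
    ⟨(Real.neg_one_lt_tanh _).trans_le h2, h1.trans_lt (Real.tanh_lt_one _)⟩
  refine ⟨Real.artanh m, ?_, Real.tanh_artanh hm⟩
  rw [tendsto_iff_norm_sub_tendsto_zero]
  set C := max B |Real.artanh m|
  have h3 : Tendsto (fun n => Real.cosh C ^ 2 * |Real.tanh (a n) - m|) atTop (𝓝 0) := by
    have := (tendsto_iff_norm_sub_tendsto_zero.1 h).const_mul (Real.cosh C ^ 2)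
    simpa using this
  refine squeeze_zero (fun n => norm_nonneg _) (fun n => ?_) h3
  have := sub_le_cosh_sq_mul (a := a n) (b := Real.artanh m) (B := C)
    ((ha n).trans (le_max_left _ _)) (le_max_right _ _)
  rwa [Real.tanh_artanh hm] at this
lemma tanh_update (H : ℝ) {τ : ℝ} (hτ : |τ| < 1) :
    Real.tanh (H + Real.artanh τ) - Real.tanh H =
      (1 - Real.tanh H ^ 2) * (τ / (1 + Real.tanh H * τ)) := by
  rw [tanh_add', Real.tanh_artanh (abs_lt.1 hτ)]
  have h1 : |Real.tanh H * τ| < 1 := by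
    rw [abs_mul]
    exact mul_lt_one_of_nonneg_of_lt_one_right (abs_tanh_le_one H) (abs_nonneg _) hτ
  have h2 : 0 < 1 + Real.tanh H * τ := by linarith [(abs_lt.1 h1).1]
  field_simp
  ring
/-- `exp (s artanh τ) = (1 + s τ)/√(1-τ²)` for `s = ±1` -/
lemma exp_mul_artanh {τ s : ℝ} (hτ : |τ| < 1) (hs : s = 1 ∨ s = -1) :
    Real.exp (s * Real.artanh τ) = (1 + s * τ) / Real.sqrt (1 - τ ^ 2) := by
  have hx : τ ∈ Set.Ioo (-1 : ℝ) 1 := abs_lt.1 hτ
  rcases hs with rfl | rfl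
  · rw [one_mul, ← Real.cosh_add_sinh, Real.cosh_artanh hx, Real.sinh_artanh hx]; ring
  · rw [neg_one_mul, ← Real.cosh_sub_sinh, Real.cosh_artanh hx, Real.sinh_artanh hx]; ring
lemma one_sub_tanh_le (H : ℝ) : 1 - Real.tanh H ≤ 2 * Real.exp (-H) := by
  have h1 := Real.exp_pos H
  have h2 := Real.exp_pos (-H)
  have h3 : 1 ≤ Real.cosh H := Real.one_le_cosh H
  rw [Real.cosh_eq] at h3
  rw [Real.tanh_eq]
  have : 1 - (Real.exp H - Real.exp (-H)) / (Real.exp H + Real.exp (-H)) =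
      2 * Real.exp (-H) / (Real.exp H + Real.exp (-H)) := by
    field_simp; ring
  rw [this, div_le_iff₀ (by positivity)]
  nlinarith
lemma exp_le_quad {x B : ℝ} (hx : |x| ≤ B) : Real.exp x ≤ 1 + x + x ^ 2 * Real.exp B := by
  obtain ⟨c, h1, h2, h3⟩ := exists_mvt Real.hasDerivAt_exp x 0
  rw [Real.exp_zero, sub_zero] at h3
  obtain ⟨c', h1', h2', h3'⟩ := exists_mvt Real.hasDerivAt_exp c 0
  rw [Real.exp_zero, sub_zero] at h3'
  have hB := abs_le.1 hx
  have hcx : 0 ≤ c * x ∧ c * x ≤ x ^ 2 ∧ c' ≤ B := by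
    rcases le_total 0 x with h | h
    · rw [min_eq_right h] at h1; rw [max_eq_left h] at h2
      rw [max_eq_left h1] at h2'
      exact ⟨mul_nonneg h1 h, by nlinarith, by linarith⟩
    · rw [min_eq_left h] at h1; rw [max_eq_right h] at h2
      rw [max_eq_right h2] at h2'
      exact ⟨mul_nonneg_of_nonpos_of_nonpos h2 h, by nlinarith, by linarith⟩
  have he : Real.exp c' ≤ Real.exp B := Real.exp_le_exp.2 hcx.2.2
  have hp := Real.exp_pos c'
  have : Real.exp x = 1 + x + Real.exp c' * (c * x) := by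
    have : Real.exp c = 1 + Real.exp c' * c := by linarith
    rw [this] at h3; linarith
  rw [this]
  have := mul_le_mul he hcx.2.1 hcx.1 (Real.exp_pos B).le
  linarith

lemma hasDerivAt_lc (x : ℝ) : HasDerivAt lc (Real.tanh x) x := by
  have h := (Real.hasDerivAt_cosh x).log (Real.cosh_pos x).ne'
  rw [Real.tanh_eq_sinh_div_cosh]
  exact h
lemma lc_nonneg (h : ℝ) : 0 ≤ lc h := Real.log_nonneg (Real.one_le_cosh h)
lemma lc_neg (h : ℝ) : lc (-h) = lc h := by simp [lc]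
lemma lc_lipschitz (a b : ℝ) : |lc a - lc b| ≤ |a - b| := by
  have := lip_of_deriv hasDerivAt_lc (C := 1) a b (fun c _ _ => abs_tanh_le_one c)
  simpa using this
lemma lc_le (h : ℝ) : lc h ≤ |h| := by
  have := lc_lipschitz h 0
  simp only [lc, Real.cosh_zero, Real.log_one, sub_zero] at this
  exact (le_abs_self _).trans this
lemma continuous_lc : Continuous lc :=
  continuous_iff_continuousAt.2 fun x => (hasDerivAt_lc x).continuousAt
lemma one_sub_tanh_sq (h : ℝ) : 1 - Real.tanh h ^ 2 = Real.exp (-(2 * lc h)) := by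
  rw [one_sub_tanh_sq_eq, Real.exp_neg, lc, show (2 : ℝ) = ((2 : ℕ) : ℝ) by norm_num,
    Real.exp_nat_mul, Real.exp_log (Real.cosh_pos h), one_div]

lemma abs_clamp_le {l : ℝ} (hl : 0 ≤ l) (x : ℝ) : |clamp l x| ≤ l := by
  unfold clamp
  rw [abs_le]
  exact ⟨le_max_left _ _, max_le (by linarith) (min_le_left _ _)⟩
lemma clamp_eq {l x : ℝ} (hx : |x| ≤ l) : clamp l x = x := by
  unfold clamp
  rw [abs_le] at hx
  rw [min_eq_right hx.2, max_eq_right hx.1]
lemma clamp_lipschitz (l a b : ℝ) : |clamp l a - clamp l b| ≤ |a - b| := by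
  unfold clamp
  rw [max_comm (-l), max_comm (-l), min_comm l, min_comm l]
  refine (abs_max_sub_max_le_abs _ _ _).trans ?_
  have := abs_min_sub_min_le_max a l b l
  simpa using this
lemma continuous_clamp (l : ℝ) : Continuous (clamp l) := by
  unfold clamp
  fun_prop

lemma Lim_eq {a : ℕ → ℝ} {l : ℝ} (h : Tendsto a atTop (𝓝 l)) : Lim a = l := by
  unfold Lim
  rw [if_pos ⟨l, h⟩]
  exact h.limUnder_eq
lemma tendsto_Lim {a : ℕ → ℝ} (h : ∃ l, Tendsto a atTop (𝓝 l)) : Tendsto a atTop (𝓝 (Lim a)) := by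
  obtain ⟨l, hl⟩ := h
  rw [Lim_eq hl]; exact hl
lemma Lim_of_not {a : ℕ → ℝ} (h : ¬ ∃ l, Tendsto a atTop (𝓝 l)) : Lim a = 0 := by
  unfold Lim
  rw [if_neg h]
lemma Lim_neg (a : ℕ → ℝ) : Lim (fun n => -a n) = -Lim a := by
  by_cases h : ∃ l, Tendsto a atTop (𝓝 l)
  · exact Lim_eq (tendsto_Lim h).neg
  · rw [Lim_of_not h, Lim_of_not, neg_zero]
    rintro ⟨l, hl⟩
    exact h ⟨-l, by simpa using hl.neg⟩
lemma abs_Lim_le {a : ℕ → ℝ} {B : ℝ} (h : ∀ n, |a n| ≤ B) : |Lim a| ≤ B := by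
  by_cases h' : ∃ l, Tendsto a atTop (𝓝 l)
  · exact le_of_tendsto' (tendsto_Lim h').abs h
  · rw [Lim_of_not h', abs_zero]
    exact (abs_nonneg _).trans (h 0)
lemma measurable_Lim {Ω : Type*} [MeasurableSpace Ω] {f : ℕ → Ω → ℝ} (hf : ∀ n, Measurable (f n)) :
    Measurable fun ω => Lim fun n => f n ω := by
  unfold Lim
  refine Measurable.ite (measurableSet_exists_tendsto hf) ?_ measurable_const
  exact (MeasureTheory.StronglyMeasurable.limUnder fun n => (hf n).stronglyMeasurable).measurable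

end Crest.Agent.R160
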