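import Crest.Agent.R160.Calc0

/-!
# Row 160 (S0241): Calc1
One-variable facts about `fm`, `alpha`, `bco`, `lc`, `tanh`, `artanh`, `Lim`.
-/

set_option autoImplicit false

open MeasureTheory Filter Topology
open scoped unitInterval

noncomputable section

namespace Crest.Agent.R160

universe u

section theta
variable {θ : ℝ} (h0 : 0 ≤ θ) (h1 : θ ^ 2 ≤ 1 / 2)
include h0 h1

lemma theta_le : θ ≤ 3 / 4 := by nlinarith
lemma abs_theta_tanh_le (h : ℝ) : |θ * Real.tanh h| ≤ 3 / 4 := by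
  rw [abs_mul, abs_of_nonneg h0]
  have := theta_le h0 h1
  nlinarith [abs_tanh_le_one h, abs_nonneg (Real.tanh h)]
lemma theta_tanh_mem (h : ℝ) : θ * Real.tanh h ∈ Set.Ioo (-1 : ℝ) 1 :=
  abs_lt.1 ((abs_theta_tanh_le h0 h1 h).trans_lt (by norm_num))
lemma den_pos (h : ℝ) : 0 < 1 - θ ^ 2 * Real.tanh h ^ 2 := by
  have _ := h0
  nlinarith [Real.tanh_sq_lt_one h, sq_nonneg (Real.tanh h), sq_nonneg θ]
lemma den_pos' (a b : ℝ) : 0 < 1 + Real.tanh a * (θ * Real.tanh b) := by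
  have h2 : |Real.tanh a * (θ * Real.tanh b)| ≤ 3 / 4 := by
    rw [abs_mul]
    nlinarith [abs_tanh_le_one a, abs_theta_tanh_le h0 h1 b, abs_nonneg (Real.tanh a),
      abs_nonneg (θ * Real.tanh b)]
  linarith [(abs_le.1 h2).1]
lemma tanh_fm (h : ℝ) : Real.tanh (fm θ h) = θ * Real.tanh h :=
  Real.tanh_artanh (theta_tanh_mem h0 h1 h)
lemma fm_zero : fm θ 0 = 0 := by
  have _ := h0; have _ := h1
  simp [fm]
lemma fm_neg (h : ℝ) : fm θ (-h) = -fm θ h := by
  unfold fm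
  rw [Real.tanh_neg, mul_neg, artanh_neg' (abs_lt.2 (theta_tanh_mem h0 h1 h))]
lemma abs_fm_le_one (h : ℝ) : |fm θ h| ≤ 1 := by
  have ht : (3 / 4 : ℝ) ≤ Real.tanh 1 := by
    rw [Real.tanh_eq, le_div_iff₀ (by positivity)]
    have e1 := Real.exp_one_gt_d9
    have e2 : Real.exp 1 * Real.exp (-1) = 1 := by rw [← Real.exp_add]; simp
    have e3 := Real.exp_pos (-1)
    nlinarith
  have key : ∀ x : ℝ, fm θ x ≤ 1 := fun x => by
    have hx := theta_tanh_mem h0 h1 x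
    have := Real.artanh_le_artanh hx.1 (Real.tanh_lt_one 1)
      ((le_abs_self _).trans ((abs_theta_tanh_le h0 h1 x).trans ht))
    rwa [Real.artanh_tanh] at this
  rw [abs_le]
  refine ⟨?_, key h⟩
  have := key (-h)
  rw [fm_neg h0 h1] at this
  linarith
lemma hasDerivAt_fm (x : ℝ) : HasDerivAt (fm θ) (bco θ x) x := by
  have e : fm θ = fun y => 1 / 2 * (Real.log (1 + θ * Real.tanh y) -
      Real.log (1 - θ * Real.tanh y)) := by
    funext y
    have hy := theta_tanh_mem h0 h1 y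
    unfold fm
    rw [Real.artanh_eq_half_log ⟨hy.1.le, hy.2.le⟩, Real.log_div (by linarith [hy.1])
      (by linarith [hy.2])]
  have hx := theta_tanh_mem h0 h1 x
  have p1 : 0 < 1 + θ * Real.tanh x := by linarith [hx.1]
  have p2 : 0 < 1 - θ * Real.tanh x := by linarith [hx.2]
  have d1 := (((hasDerivAt_tanh' x).const_mul θ).const_add 1).log p1.ne'
  have d2 := (((hasDerivAt_tanh' x).const_mul θ).const_sub 1).log p2.ne'
  have d3 := (d1.sub d2).const_mul (1 / 2)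
  have e2 : bco θ x = 1 / 2 * (θ * (1 - Real.tanh x ^ 2) / (1 + θ * Real.tanh x) -
      -(θ * (1 - Real.tanh x ^ 2)) / (1 - θ * Real.tanh x)) := by
    unfold bco
    have : 1 - θ ^ 2 * Real.tanh x ^ 2 = (1 + θ * Real.tanh x) * (1 - θ * Real.tanh x) := by ring
    rw [this]
    field_simp
    ring
  rw [e2, e]
  exact d3
lemma bco_nonneg' (x : ℝ) : 0 ≤ bco θ x :=
  div_nonneg (mul_nonneg h0 (one_sub_tanh_sq_pos x).le) (den_pos h0 h1 x).le
lemma bco_le' (x : ℝ) : bco θ x ≤ θ := by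
  unfold bco
  rw [div_le_iff₀ (den_pos h0 h1 x)]
  refine mul_le_mul_of_nonneg_left ?_ h0
  nlinarith [sq_nonneg (Real.tanh x)]
lemma fm_lipschitz (a b : ℝ) : |fm θ a - fm θ b| ≤ θ * |a - b| :=
  lip_of_deriv (hasDerivAt_fm h0 h1) a b fun c _ _ => by
    rw [abs_of_nonneg (bco_nonneg' h0 h1 c)]; exact bco_le' h0 h1 c
lemma abs_fm_le (h : ℝ) : |fm θ h| ≤ θ * |h| := by
  have := fm_lipschitz h0 h1 h 0
  rwa [fm_zero h0 h1, sub_zero, sub_zero] at this
lemma continuous_fm : Continuous (fm θ) :=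
  continuous_iff_continuousAt.2 fun x => (hasDerivAt_fm h0 h1 x).continuousAt
lemma sq_tanh_le_fm_sq (h : ℝ) : θ ^ 2 * Real.tanh h ^ 2 ≤ fm θ h ^ 2 := by
  rw [← mul_pow, ← tanh_fm h0 h1, sq_le_sq]
  have := tanh_lipschitz (fm θ h) 0
  simpa using this
/-- one step of the Gibbs recursion -/
lemma edge_average (h : ℝ) {s : ℝ} (hs : s = 1 ∨ s = -1) :
    (1 + θ) / 2 * Real.exp (s * h) + (1 - θ) / 2 * Real.exp (-s * h) =
      Real.cosh h / Real.cosh (fm θ h) * Real.exp (s * fm θ h) := by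
  have ht := tanh_fm h0 h1 h
  have c1 := Real.cosh_pos h
  have c2 := Real.cosh_pos (fm θ h)
  rw [Real.tanh_eq_sinh_div_cosh, Real.tanh_eq_sinh_div_cosh] at ht
  have ht' : Real.sinh (fm θ h) = θ * Real.sinh h * Real.cosh (fm θ h) / Real.cosh h := by
    field_simp at ht ⊢
    linarith
  rcases hs with rfl | rfl
  · rw [one_mul, one_mul, neg_one_mul, ← Real.cosh_add_sinh, ← Real.cosh_add_sinh (fm θ h),
      ← Real.cosh_sub_sinh, ht']
    field_simp
    ring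
  · rw [neg_neg, one_mul, neg_one_mul, neg_one_mul, ← Real.cosh_add_sinh h,
      ← Real.cosh_sub_sinh (fm θ h), ← Real.cosh_sub_sinh, ht']
    field_simp
    ring
lemma alpha_arg_ge (h : ℝ) : 1 ≤ 1 + (1 - θ ^ 2) * Real.sinh h ^ 2 := by
  have _ := h0
  have : 0 ≤ (1 - θ ^ 2) * Real.sinh h ^ 2 := mul_nonneg (by linarith) (sq_nonneg _)
  linarith
lemma alpha_nonneg (h : ℝ) : 0 ≤ alpha θ h := Real.log_nonneg (alpha_arg_ge h0 h1 h)
lemma alpha_neg (h : ℝ) : alpha θ (-h) = alpha θ h := by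
  have _ := h0; have _ := h1
  simp [alpha]
lemma hasDerivAt_alpha (x : ℝ) : HasDerivAt (alpha θ)
    ((1 - θ ^ 2) * (2 * Real.sinh x * Real.cosh x) / (1 + (1 - θ ^ 2) * Real.sinh x ^ 2)) x := by
  have p := alpha_arg_ge h0 h1 x
  have d := ((((Real.hasDerivAt_sinh x).pow 2).const_mul (1 - θ ^ 2)).const_add 1).log
    (by simpa using (by linarith : (1 + (1 - θ ^ 2) * Real.sinh x ^ 2) ≠ 0))
  refine HasDerivAt.congr_deriv (f' := _) d ?_
  simp
lemma abs_deriv_alpha_le (x : ℝ) :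
    |(1 - θ ^ 2) * (2 * Real.sinh x * Real.cosh x) / (1 + (1 - θ ^ 2) * Real.sinh x ^ 2)| ≤
      2 * |Real.tanh x| := by
  have p := alpha_arg_ge h0 h1 x
  have c := Real.cosh_pos x
  have k : 0 ≤ 1 - θ ^ 2 := by linarith
  rw [abs_div, abs_of_pos (by linarith : 0 < 1 + (1 - θ ^ 2) * Real.sinh x ^ 2),
    div_le_iff₀ (by linarith), Real.tanh_eq_sinh_div_cosh, abs_mul, abs_mul, abs_mul, abs_div,
    abs_of_nonneg k, abs_of_pos c, abs_two]
  have e : (1 - θ ^ 2) * (2 * |Real.sinh x| * Real.cosh x) =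
      2 * (|Real.sinh x| / Real.cosh x) * ((1 - θ ^ 2) * Real.cosh x ^ 2) := by
    field_simp
  rw [e]
  refine mul_le_mul_of_nonneg_left ?_ (by positivity)
  rw [Real.cosh_sq]
  nlinarith [sq_nonneg θ]
lemma continuous_alpha : Continuous (alpha θ) :=
  continuous_iff_continuousAt.2 fun x => (hasDerivAt_alpha h0 h1 x).continuousAt
lemma alpha_lipschitz (a b : ℝ) : |alpha θ a - alpha θ b| ≤ 2 * |a - b| :=
  lip_of_deriv (hasDerivAt_alpha h0 h1) a b fun c _ _ =>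
    (abs_deriv_alpha_le h0 h1 c).trans (by linarith [abs_tanh_le_one c])
lemma alpha_le (h : ℝ) : alpha θ h ≤ 2 * |h| := by
  have := alpha_lipschitz h0 h1 h 0
  have e : alpha θ 0 = 0 := by simp [alpha]
  rw [e, sub_zero, sub_zero] at this
  exact (le_abs_self _).trans this
lemma alpha_clamp_lipschitz {l : ℝ} (hl0 : 0 ≤ l) (hl1 : l ≤ 1) (a b : ℝ) :
    |alpha θ (clamp l a) - alpha θ (clamp l b)| ≤ 4 * l * |a - b| := by
  have _ := hl1
  have ha := abs_le.1 (abs_clamp_le hl0 a)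
  have hb := abs_le.1 (abs_clamp_le hl0 b)
  have h2 := lip_of_deriv (hasDerivAt_alpha h0 h1) (C := 4 * l) (clamp l a) (clamp l b)
    fun c hc1 hc2 => by
      have hc : |c| ≤ l := abs_le.2
        ⟨le_trans (le_min ha.1 hb.1) hc1, le_trans hc2 (max_le ha.2 hb.2)⟩
      have h3 : |Real.tanh c| ≤ |c| := by simpa using tanh_lipschitz c 0
      exact (abs_deriv_alpha_le h0 h1 c).trans (by linarith)
  exact h2.trans (mul_le_mul_of_nonneg_left (clamp_lipschitz l a b) (by linarith))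
/-- Bernoulli: `(1 + κ sinh²)^(-Λ) ≤ 1/(1 + Λ h²/2)`. -/
lemma exp_neg_alpha_le {Λ : ℝ} (hΛ : 1 ≤ Λ) (h : ℝ) :
    Real.exp (-(Λ * alpha θ h)) ≤ 1 - min (Λ * h ^ 2) 1 / 4 := by
  have p := alpha_arg_ge h0 h1 h
  have hs : h ^ 2 ≤ Real.sinh h ^ 2 := by
    rw [sq_le_sq, Real.abs_sinh]
    exact Real.self_le_sinh_iff.2 (abs_nonneg h)
  have hb : 1 + Λ * ((1 - θ ^ 2) * Real.sinh h ^ 2) ≤ Real.exp (Λ * alpha θ h) := by
    have := one_add_mul_self_le_rpow_one_add (s := (1 - θ ^ 2) * Real.sinh h ^ 2) (by linarith) hΛ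
    rwa [Real.rpow_def_of_pos (by linarith), mul_comm (Real.log _)] at this
  have hy : 0 ≤ Λ * h ^ 2 := by positivity
  have h2 : 1 + Λ * h ^ 2 / 2 ≤ Real.exp (Λ * alpha θ h) := by
    refine le_trans ?_ hb
    have : h ^ 2 / 2 ≤ (1 - θ ^ 2) * Real.sinh h ^ 2 := by nlinarith [sq_nonneg h]
    nlinarith
  rw [Real.exp_neg]
  refine (inv_anti₀ (by linarith) h2).trans ?_
  rw [inv_le_iff_one_le_mul₀ (by linarith)]
  rcases le_total (Λ * h ^ 2) 1 with h3 | h3
  · rw [min_eq_left h3]; nlinarith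
  · rw [min_eq_right h3]; nlinarith
lemma bco_eq (h : ℝ) : bco θ h = θ * Real.exp (-alpha θ h) := by
  have p := alpha_arg_ge h0 h1 h
  have c := Real.cosh_pos h
  unfold bco alpha
  rw [Real.exp_neg, Real.exp_log (by linarith), one_sub_tanh_sq_eq]
  have e : 1 - θ ^ 2 * Real.tanh h ^ 2 = (1 + (1 - θ ^ 2) * Real.sinh h ^ 2) / Real.cosh h ^ 2 := by
    rw [Real.tanh_eq_sinh_div_cosh]
    field_simp
    rw [Real.cosh_sq]; ring
  rw [e]
  field_simp
lemma continuous_bco : Continuous (bco θ) := by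
  have e : bco θ = fun h => θ * Real.exp (-alpha θ h) := funext (bco_eq h0 h1)
  rw [e]
  exact continuous_const.mul (Real.continuous_exp.comp (continuous_alpha h0 h1).neg)
/-- the magnetisation at one end of an edge is an affine function of that at the other end -/
lemma edge_regression (h h' h'' : ℝ) :
    Real.tanh (h + fm θ h'') - Real.tanh (h + fm θ h') =
      bco θ h * (Real.tanh (h'' + fm θ h) - Real.tanh (h' + fm θ h)) := by
  simp only [tanh_add', tanh_fm h0 h1, bco]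
  have p1 := (den_pos' h0 h1 h h'').ne'
  have p2 := (den_pos' h0 h1 h h').ne'
  have p3 := (den_pos' h0 h1 h'' h).ne'
  have p4 := (den_pos' h0 h1 h' h).ne'
  have p5 := (den_pos h0 h1 h).ne'
  rw [div_sub_div _ _ p1 p2, div_sub_div _ _ p3 p4, div_mul_div_comm,
    div_eq_div_iff (mul_ne_zero p1 p2) (mul_ne_zero p5 (mul_ne_zero p3 p4))]
  ring
/-- two formulas for the covariance across an edge -/
lemma edge_cov_symm (h h' : ℝ) :
    (1 - Real.tanh (h + fm θ h') ^ 2) * bco θ h' = (1 - Real.tanh (h' + fm θ h) ^ 2) * bco θ h := by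
  simp only [tanh_add', tanh_fm h0 h1, bco]
  have p2 := (den_pos' h0 h1 h h').ne'
  have p4 := (den_pos' h0 h1 h' h).ne'
  have p5 := (den_pos h0 h1 h).ne'
  have p6 := (den_pos h0 h1 h').ne'
  rw [div_pow, div_pow, one_sub_div (pow_ne_zero 2 p2), one_sub_div (pow_ne_zero 2 p4),
    div_mul_div_comm, div_mul_div_comm,
    div_eq_div_iff (mul_ne_zero (pow_ne_zero 2 p2) p6) (mul_ne_zero (pow_ne_zero 2 p4) p5)]
  ring
/-- `θ artanh μ - artanh (θ μ) ≥ θ (1-θ²) μ³/3` for `μ = tanh h ≥ 0`, times `θ μ`. -/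
lemma fm_moment_le (h : ℝ) :
    fm θ h * Real.tanh (fm θ h) ≤
      θ ^ 2 * (h * Real.tanh h) - θ ^ 2 * (1 - θ ^ 2) / 3 * Real.tanh h ^ 4 := by
  have hd : ∀ x, HasDerivAt (fun y => θ * y - θ * (1 - θ ^ 2) / 3 * Real.tanh y ^ 3 - fm θ y)
      (θ - θ * (1 - θ ^ 2) * (Real.tanh x ^ 2 * (1 - Real.tanh x ^ 2)) - bco θ x) x := by
    intro x
    have d := (((hasDerivAt_id x).const_mul θ).sub
      (((hasDerivAt_tanh' x).pow 3).const_mul (θ * (1 - θ ^ 2) / 3))).sub (hasDerivAt_fm h0 h1 x)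
    refine HasDerivAt.congr_deriv (f' := _) d ?_
    simp
    ring
  obtain ⟨c, -, -, hc⟩ := exists_mvt hd h 0
  simp only [fm_zero h0 h1, Real.tanh_zero, mul_zero, sub_zero, ne_eq, OfNat.ofNat_ne_zero,
    not_false_eq_true, zero_pow] at hc
  have hpos : 0 ≤ θ - θ * (1 - θ ^ 2) * (Real.tanh c ^ 2 * (1 - Real.tanh c ^ 2)) - bco θ c := by
    have p5 := den_pos h0 h1 c
    have q := one_sub_tanh_sq_pos c
    have k : 0 ≤ 1 - θ ^ 2 := by linarith
    have e : θ - bco θ c = θ * (1 - θ ^ 2) * (Real.tanh c ^ 2 * (1 / (1 - θ ^ 2 * Real.tanh c ^ 2))) := by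
      unfold bco
      field_simp
      ring
    have f : 1 - Real.tanh c ^ 2 ≤ 1 / (1 - θ ^ 2 * Real.tanh c ^ 2) := by
      rw [le_div_iff₀ p5]
      have a1 : 0 ≤ θ ^ 2 * Real.tanh c ^ 2 := by positivity
      nlinarith [sq_nonneg (Real.tanh c)]
    have g := mul_le_mul_of_nonneg_left (mul_le_mul_of_nonneg_left f (sq_nonneg (Real.tanh c)))
      (mul_nonneg h0 k)
    linarith
  rw [tanh_fm h0 h1]
  have m := mul_nonneg (mul_nonneg h0 hpos) (mul_tanh_nonneg h)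
  have e : θ ^ 2 * (h * Real.tanh h) - θ ^ 2 * (1 - θ ^ 2) / 3 * Real.tanh h ^ 4 -
      fm θ h * (θ * Real.tanh h) = θ * Real.tanh h *
        (θ * h - θ * (1 - θ ^ 2) / 3 * Real.tanh h ^ 3 - fm θ h) := by ring
  rw [hc] at e
  nlinarith
lemma fm_mgf_le {c : ℝ} (hc : 0 ≤ c) (h : ℝ) :
    Real.cosh (c * fm θ h) + Real.tanh (fm θ h) * Real.sinh (c * fm θ h) ≤
      Real.cosh (θ * c * h) + Real.tanh h * Real.sinh (θ * c * h) := by
  have key : ∀ x : ℝ, 0 ≤ x → Real.cosh (c * fm θ x) + Real.tanh (fm θ x) * Real.sinh (c * fm θ x) ≤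
      Real.cosh (θ * c * x) + Real.tanh x * Real.sinh (θ * c * x) := by
    intro x hx
    have t0 : 0 ≤ Real.tanh x := by simpa using tanh_mono' hx
    have f0 : 0 ≤ fm θ x := Real.artanh_nonneg (mul_nonneg h0 t0)
    have f1 : fm θ x ≤ θ * x := by
      have := abs_fm_le h0 h1 x
      rwa [abs_of_nonneg f0, abs_of_nonneg hx] at this
    have g0 : 0 ≤ c * fm θ x := mul_nonneg hc f0
    have g1 : c * fm θ x ≤ θ * c * x := by nlinarith
    have a1 : Real.cosh (c * fm θ x) ≤ Real.cosh (θ * c * x) := by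
      rw [Real.cosh_le_cosh, abs_of_nonneg g0, abs_of_nonneg (g0.trans g1)]; exact g1
    have a2 : Real.sinh (c * fm θ x) ≤ Real.sinh (θ * c * x) := Real.sinh_le_sinh.2 g1
    have a3 : Real.tanh (fm θ x) ≤ Real.tanh x := by
      rw [tanh_fm h0 h1]
      nlinarith [theta_le h0 h1]
    have := mul_le_mul a3 a2 (Real.sinh_nonneg_iff.2 g0) t0
    linarith
  rcases le_total 0 h with hh | hh
  · exact key h hh
  · have := key (-h) (by linarith)
    simpa [fm_neg h0 h1] using this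

end theta

end Crest.Agent.R160
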