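import Crest.Agent.R160.Calc1

/-!
# Row 160 (S0241): Calc2
The quantile function `Qf`, the distribution function `Ff`, the normalised jump `gj`, amplitudes.
`w = Qf a u` is the root in `[-1,1]` of `a w² + 2 w = 4u - 2 + a`.  `integral_Qf` is the change of
variables `u = Ff a w` on `[-1,1]` (`integral_image_eq_integral_abs_deriv_smul` or the `lintegral`
version), followed by `w = 2u - 1`.
-/

set_option autoImplicit false

open MeasureTheory Filter Topology
open scoped unitInterval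

noncomputable section

namespace Crest.Agent.R160

universe u

lemma Qf_facts {a u : ℝ} (ha : |a| ≤ 1 / 2) (hu0 : 0 ≤ u) (hu1 : u ≤ 1) :
    0 < 1 + a * Qf a u ∧ a * Qf a u ^ 2 + 2 * Qf a u = 4 * u - 2 + a := by
  have hab := abs_le.1 ha
  have hD : 0 < 1 + a * (4 * u - 2 + a) := by
    rcases le_total 0 a with h | h
    · nlinarith [mul_nonneg h hu0]
    · nlinarith [mul_nonneg (neg_nonneg.2 h) (sub_nonneg.2 hu1)]
  have hS := Real.sqrt_pos.2 hD
  have hS2 := Real.sq_sqrt hD.le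
  set S := Real.sqrt (1 + a * (4 * u - 2 + a)) with hSdef
  have hQ : Qf a u * (1 + S) = 4 * u - 2 + a := by
    unfold Qf
    rw [← hSdef]
    field_simp
  have haQ : a * Qf a u = S - 1 := by
    have h1 : (a * Qf a u - (S - 1)) * (1 + S) = 0 := by
      have : (a * Qf a u - (S - 1)) * (1 + S) = a * (Qf a u * (1 + S)) - (S ^ 2 - 1) := by ring
      rw [this, hQ, hS2]; ring
    rcases mul_eq_zero.1 h1 with h | h
    · linarith
    · linarith
  refine ⟨by linarith, ?_⟩
  have : a * Qf a u ^ 2 + 2 * Qf a u = Qf a u * (a * Qf a u + 2) := by ring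
  rw [this, haQ, ← hQ]; ring

lemma abs_Qf_le {a u : ℝ} (ha : |a| ≤ 1 / 2) (hu0 : 0 ≤ u) (hu1 : u ≤ 1) : |Qf a u| ≤ 1 := by
  obtain ⟨h1, h2⟩ := Qf_facts ha hu0 hu1
  have hab := abs_le.1 ha
  rw [abs_le]
  constructor
  · by_contra h
    push Not at h
    have : (Qf a u + 1) * (2 + a * (Qf a u - 1)) < 0 :=
      mul_neg_of_neg_of_pos (by linarith) (by linarith)
    nlinarith
  · by_contra h
    push Not at h
    have : (1 - Qf a u) * (2 + a * (Qf a u + 1)) < 0 :=
      mul_neg_of_neg_of_pos (by linarith) (by linarith)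
    nlinarith
lemma abs_mul_le_half {a w : ℝ} (ha : |a| ≤ 1 / 2) (hw : |w| ≤ 1) : |a * w| ≤ 1 / 2 := by
  rw [abs_mul]
  nlinarith [abs_nonneg a, abs_nonneg w]
lemma Ff_mem {a w : ℝ} (ha : |a| ≤ 1 / 2) (hw : |w| ≤ 1) : Ff a w ∈ Set.Icc (0 : ℝ) 1 := by
  have h1 := abs_le.1 (abs_mul_le_half ha hw)
  have hab := abs_le.1 ha
  have hw' := abs_le.1 hw
  unfold Ff
  constructor
  · have : 0 ≤ (w + 1) * (2 + a * (w - 1)) := mul_nonneg (by linarith) (by linarith)
    nlinarith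
  · have : 0 ≤ (1 - w) * (2 + a * (w + 1)) := mul_nonneg (by linarith) (by linarith)
    nlinarith
lemma Qf_Ff {a w : ℝ} (ha : |a| ≤ 1 / 2) (hw : |w| ≤ 1) : Qf a (Ff a w) = w := by
  have h1 := abs_le.1 (abs_mul_le_half ha hw)
  unfold Qf Ff
  have e : 4 * ((w + 1) / 2 + a * (w ^ 2 - 1) / 4) - 2 + a = w * (2 + a * w) := by ring
  rw [e, show 1 + a * (w * (2 + a * w)) = (1 + a * w) ^ 2 by ring, Real.sqrt_sq (by linarith)]
  have : (1 + (1 + a * w)) ≠ 0 := by linarith
  rw [div_eq_iff this]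
  ring
lemma Ff_Qf {a u : ℝ} (ha : |a| ≤ 1 / 2) (hu0 : 0 ≤ u) (hu1 : u ≤ 1) : Ff a (Qf a u) = u := by
  obtain ⟨-, h2⟩ := Qf_facts ha hu0 hu1
  unfold Ff
  linarith
lemma Ff_neg (a w : ℝ) : Ff (-a) (-w) = 1 - Ff a w := by unfold Ff; ring
lemma Qf_zero (u : ℝ) : Qf 0 u = 2 * u - 1 := by
  unfold Qf
  simp
  ring
lemma Qf_lipschitz {a a' u : ℝ} (ha : |a| ≤ 1 / 2) (ha' : |a'| ≤ 1 / 2) (hu0 : 0 ≤ u) (hu1 : u ≤ 1) :
    |Qf a u - Qf a' u| ≤ |a - a'| := by
  obtain ⟨-, h2⟩ := Qf_facts ha hu0 hu1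
  obtain ⟨-, h2'⟩ := Qf_facts ha' hu0 hu1
  have hw := abs_Qf_le ha hu0 hu1
  have hw' := abs_Qf_le ha' hu0 hu1
  have b1 := abs_le.1 (abs_mul_le_half ha hw)
  have b2 := abs_le.1 (abs_mul_le_half ha hw')
  set w := Qf a u
  set w' := Qf a' u
  have e : (w - w') * (2 + a * (w + w')) = (a - a') * (1 - w' ^ 2) := by linarith
  have p1 : 1 ≤ 2 + a * (w + w') := by linarith
  have p2 : 0 ≤ 1 - w' ^ 2 := by
    have := sq_abs w'
    nlinarith [abs_nonneg w']
  have e2 := congrArg abs e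
  rw [abs_mul, abs_mul, abs_of_pos (by linarith : 0 < 2 + a * (w + w')), abs_of_nonneg p2] at e2
  nlinarith [abs_nonneg (w - w'), abs_nonneg (a - a'), sq_nonneg w']
lemma measurable_Qf : Measurable fun p : ℝ × ℝ => Qf p.1 p.2 := by
  unfold Qf
  fun_prop
lemma measurable_Ff : Measurable fun p : ℝ × ℝ => Ff p.1 p.2 := by
  unfold Ff
  fun_prop
lemma measurable_gj : Measurable fun p : ℝ × ℝ × ℝ => gj p.1 p.2.1 p.2.2 := by
  unfold gj Qf
  fun_prop
lemma measurable_tm (j : ℕ) : Measurable (tm j) := by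
  unfold tm
  fun_prop
lemma measurable_amp (j : ℕ) : Measurable (amp j) := by
  unfold amp
  refine Measurable.ite measurableSet_Iio ?_ measurable_const
  exact ((measurable_tm j).min measurable_const).div_const 2

lemma integral_I_eq_Icc (f : ℝ → ℝ) : ∫ u : I, f u = ∫ x in Set.Icc (0 : ℝ) 1, f x :=
  integral_subtype measurableSet_Icc f

lemma integral_I_eq (f : ℝ → ℝ) : ∫ u : I, f u = ∫ x in (0 : ℝ)..1, f x := by
  rw [integral_I_eq_Icc, intervalIntegral.integral_of_le zero_le_one, integral_Icc_eq_integral_Ioc]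

lemma integral_I_symm (f : ℝ → ℝ) : ∫ u : I, f (1 - u) = ∫ u : I, f u := by
  rw [integral_I_eq (fun x => f (1 - x)), integral_I_eq, intervalIntegral.integral_comp_sub_left]
  simp

lemma abs_two_mul_sub_one_le_I (u : I) : |2 * (u : ℝ) - 1| ≤ 1 := by
  have := u.2.1; have := u.2.2
  rw [abs_le]; constructor <;> linarith

lemma integral_I_odd {g : ℝ → ℝ} (hg : ∀ w, |w| ≤ 1 → g (-w) = -g w) :
    ∫ u : I, g (2 * (u : ℝ) - 1) = 0 := by
  have h := integral_I_symm (fun x => g (2 * x - 1))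
  have h2 : ∫ u : I, g (2 * (1 - (u : ℝ)) - 1) = ∫ u : I, -g (2 * (u : ℝ) - 1) := by
    refine integral_congr_ae (Eventually.of_forall fun u => ?_)
    simp only
    rw [← hg _ (abs_two_mul_sub_one_le_I u)]
    congr 1; ring
  rw [h2, integral_neg] at h
  linarith

lemma integrable_I {f : ℝ → ℝ} (hf : Measurable f) {C : ℝ} (hC : ∀ u : I, |f u| ≤ C) :
    Integrable (fun u : I => f u) := by
  refine Integrable.of_bound (hf.comp measurable_subtype_coe).aestronglyMeasurable C ?_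
  exact Eventually.of_forall hC

lemma integral_I_sq : ∫ u : I, (2 * (u : ℝ) - 1) ^ 2 = 1 / 3 := by
  rw [integral_I_eq (fun x => (2 * x - 1) ^ 2)]
  have : (fun x : ℝ => (2 * x - 1) ^ 2) = fun x => 4 * x ^ 2 - 4 * x ^ 1 + 1 := by
    funext x; ring
  rw [this]
  simp (disch := (apply Continuous.intervalIntegrable; fun_prop)) only
    [intervalIntegral.integral_add, intervalIntegral.integral_sub,
      intervalIntegral.integral_const_mul, integral_pow, intervalIntegral.integral_const]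
  norm_num

lemma integral_Qf' {a : ℝ} (ha : |a| ≤ 1 / 2) (φ : ℝ → ℝ) :
    ∫ u : I, φ (Qf a u) = ∫ u : I, φ (2 * (u : ℝ) - 1) * (1 + a * (2 * (u : ℝ) - 1)) := by
  have hw : ∀ t ∈ Set.Icc (0 : ℝ) 1, |2 * t - 1| ≤ 1 := fun t ht => abs_two_mul_sub_one_le_I ⟨t, ht⟩
  have himg : (fun t : ℝ => Ff a (2 * t - 1)) '' Set.Icc 0 1 = Set.Icc 0 1 := by
    apply Set.Subset.antisymm
    · rintro _ ⟨t, ht, rfl⟩
      exact Ff_mem ha (hw t ht)
    · intro u hu
      have h1 := abs_le.1 (abs_Qf_le ha hu.1 hu.2)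
      refine ⟨(Qf a u + 1) / 2, ⟨by linarith, by linarith⟩, ?_⟩
      simp only
      rw [show 2 * ((Qf a u + 1) / 2) - 1 = Qf a u by ring, Ff_Qf ha hu.1 hu.2]
  have hder : ∀ t ∈ Set.Icc (0 : ℝ) 1, HasDerivWithinAt (fun t : ℝ => Ff a (2 * t - 1))
      (1 + a * (2 * t - 1)) (Set.Icc 0 1) t := by
    intro t _
    have d0 := ((hasDerivAt_id t).const_mul 2).sub_const 1
    have d := ((d0.add_const 1).div_const 2).add ((((d0.pow 2).sub_const 1).const_mul a).div_const 4)
    refine (HasDerivAt.congr_deriv (f' := _) d ?_).hasDerivWithinAt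
    simp
    ring
  have hinj : Set.InjOn (fun t : ℝ => Ff a (2 * t - 1)) (Set.Icc 0 1) := by
    intro t ht t' ht' h
    have h1 := Qf_Ff ha (hw t ht)
    have h2 := Qf_Ff ha (hw t' ht')
    simp only at h
    rw [h, h2] at h1
    linarith
  rw [integral_I_eq_Icc (fun u => φ (Qf a u)),
    integral_I_eq_Icc (fun u => φ (2 * u - 1) * (1 + a * (2 * u - 1)))]
  conv_lhs => rw [← himg]
  rw [integral_image_eq_integral_abs_deriv_smul measurableSet_Icc hder hinj]
  refine setIntegral_congr_fun measurableSet_Icc fun t ht => ?_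
  have h1 := abs_le.1 (abs_mul_le_half ha (hw t ht))
  simp only [smul_eq_mul]
  rw [Qf_Ff ha (hw t ht), abs_of_pos (by linarith), mul_comm]

/-- `Qf a U` has density `(1 + a w)/2` on `[-1,1]`. -/
lemma integral_Qf {a : ℝ} (ha : |a| ≤ 1 / 2) {φ : ℝ → ℝ} (hφ : Measurable φ)
    (hb : ∃ C, ∀ w, |w| ≤ 1 → |φ w| ≤ C) :
    ∫ u : I, φ (Qf a u) = ∫ u : I, φ (2 * (u : ℝ) - 1) * (1 + a * (2 * (u : ℝ) - 1)) := by
  have _ := hφ; have _ := hb
  exact integral_Qf' ha φ
/-- `s * Qf a U` has density `(1 + s a w)/2` on `[-1,1]` for `s = ±1`. -/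
lemma integral_sgn_Qf {a s : ℝ} (ha : |a| ≤ 1 / 2) (hs : s = 1 ∨ s = -1) {φ : ℝ → ℝ}
    (hφ : Measurable φ) (hb : ∃ C, ∀ w, |w| ≤ 1 → |φ w| ≤ C) :
    ∫ u : I, φ (s * Qf a u) =
      ∫ u : I, φ (2 * (u : ℝ) - 1) * (1 + s * a * (2 * (u : ℝ) - 1)) := by
  have _ := hφ; have _ := hb
  rcases hs with rfl | rfl
  · simp only [one_mul]
    exact integral_Qf' ha φ
  · rw [integral_Qf' ha (fun w => φ (-1 * w)),
      ← integral_I_symm (fun u => φ (2 * u - 1) * (1 + -1 * a * (2 * u - 1)))]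
    refine integral_congr_ae (Eventually.of_forall fun u => ?_)
    simp only
    congr 1
    · congr 1; ring
    · ring

lemma amp_nonneg (j : ℕ) {s : ℝ} (hs : 0 ≤ s) : 0 ≤ amp j s := by
  unfold amp tm
  split_ifs
  · have : 0 ≤ min ((j : ℝ) + 2 * s) 1 := le_min (by positivity) zero_le_one
    linarith
  · exact le_rfl
lemma amp_le_half (j : ℕ) (s : ℝ) : amp j s ≤ 1 / 2 := by
  unfold amp
  split_ifs
  · linarith [min_le_right (tm j s) 1]
  · norm_num
lemma amp_le_of_tm_le (j : ℕ) {s t : ℝ} (ht : 0 ≤ t) (h : tm j s ≤ t) : amp j s ≤ min t 1 / 2 := by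
  unfold amp
  split_ifs
  · linarith [min_le_min_right 1 h]
  · have : 0 ≤ min t 1 := le_min ht zero_le_one
    linarith
lemma amp_eq_zero (j : ℕ) {s : ℝ} (h : (j : ℝ) + 1 ≤ tm j s) : amp j s = 0 := by
  unfold amp
  rw [if_neg]
  unfold tm at h
  linarith

lemma gj_zero (m u : ℝ) : gj 0 m u = 0 := by simp [gj]
lemma gj_facts {e m u : ℝ} (he0 : 0 ≤ e) (he : e ≤ 1 / 2) (hm : |m| ≤ 1) (hu0 : 0 ≤ u)
    (hu1 : u ≤ 1) : |e * m| ≤ 1 / 2 ∧ |e * Qf (e * m) u| ≤ e ∧
      1 / 2 ≤ 1 + m * (e * Qf (e * m) u) := by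
  have h1 : |e * m| ≤ 1 / 2 := abs_mul_le_half (by rwa [abs_of_nonneg he0]) hm
  have h2 := abs_Qf_le h1 hu0 hu1
  have h3 := abs_le.1 (abs_mul_le_half h1 h2)
  refine ⟨h1, ?_, by nlinarith⟩
  rw [abs_mul, abs_of_nonneg he0]
  nlinarith
lemma abs_gj_le {e m u : ℝ} (he0 : 0 ≤ e) (he : e ≤ 1 / 2) (hm : |m| ≤ 1) (hu0 : 0 ≤ u)
    (hu1 : u ≤ 1) : |gj e m u| ≤ 2 * e := by
  obtain ⟨-, h2, h3⟩ := gj_facts he0 he hm hu0 hu1
  unfold gj
  rw [abs_div, abs_of_pos (by linarith : 0 < 1 + m * (e * Qf (e * m) u)), div_le_iff₀ (by linarith)]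
  nlinarith
lemma gj_lipschitz {e m m' u : ℝ} (he0 : 0 ≤ e) (he : e ≤ 1 / 2) (hm : |m| ≤ 1) (hm' : |m'| ≤ 1)
    (hu0 : 0 ≤ u) (hu1 : u ≤ 1) : |gj e m u - gj e m' u| ≤ 4 * e * |m - m'| := by
  obtain ⟨h1, h2, h3⟩ := gj_facts he0 he hm hu0 hu1
  obtain ⟨h1', h2', h3'⟩ := gj_facts he0 he hm' hu0 hu1
  have hq := Qf_lipschitz h1 h1' hu0 hu1
  rw [← mul_sub, abs_mul, abs_of_nonneg he0] at hq
  have hx : |e * Qf (e * m) u - e * Qf (e * m') u| ≤ e * (e * |m - m'|) := by
    rw [← mul_sub, abs_mul, abs_of_nonneg he0]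
    exact mul_le_mul_of_nonneg_left hq he0
  unfold gj
  set x := e * Qf (e * m) u
  set x' := e * Qf (e * m') u
  have p : 0 < 1 + m * x := by linarith
  have p' : 0 < 1 + m' * x' := by linarith
  rw [div_sub_div _ _ p.ne' p'.ne', abs_div, abs_of_pos (mul_pos p p'), div_le_iff₀ (mul_pos p p')]
  have e1 : x * (1 + m' * x') - (1 + m * x) * x' = (x - x') - x * x' * (m - m') := by ring
  have e2 : |x * x' * (m - m')| ≤ e * (e * |m - m'|) := by
    rw [abs_mul, abs_mul, ← mul_assoc]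
    exact mul_le_mul_of_nonneg_right (mul_le_mul h2 h2' (abs_nonneg _) he0) (abs_nonneg _)
  have e3 : 1 / 4 ≤ (1 + m * x) * (1 + m' * x') := by nlinarith
  have e4 : 0 ≤ e * |m - m'| := mul_nonneg he0 (abs_nonneg _)
  rw [e1]
  refine (abs_sub _ _).trans ?_
  nlinarith
lemma integral_gj {e m : ℝ} (he0 : 0 ≤ e) (he : e ≤ 1 / 2) (hm : |m| ≤ 1) :
    ∫ u : I, gj e m u = 0 := by
  have h1 : |e * m| ≤ 1 / 2 := abs_mul_le_half (by rwa [abs_of_nonneg he0]) hm
  have h := integral_Qf' h1 (fun w => e * w / (1 + m * (e * w)))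
  unfold gj
  rw [h, ← integral_I_odd (g := fun w => e * w) (fun w _ => by ring)]
  refine integral_congr_ae (Eventually.of_forall fun u => ?_)
  have h3 := abs_le.1 (abs_mul_le_half h1 (abs_two_mul_sub_one_le_I u))
  have p : 1 + m * (e * (2 * (u : ℝ) - 1)) ≠ 0 := by nlinarith
  simp only
  rw [div_mul_eq_mul_div, div_eq_iff p]
  ring

lemma integral_sq_Qf {a : ℝ} (ha : |a| ≤ 1 / 2) : ∫ u : I, (a * Qf a u) ^ 2 = a ^ 2 / 3 := by
  rw [integral_Qf' ha (fun w => (a * w) ^ 2)]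
  have e : ∀ u : I, (a * (2 * (u : ℝ) - 1)) ^ 2 * (1 + a * (2 * (u : ℝ) - 1)) =
      a ^ 2 * (2 * (u : ℝ) - 1) ^ 2 + (a * (2 * (u : ℝ) - 1)) ^ 3 := fun u => by ring
  simp_rw [e]
  rw [integral_add, integral_const_mul, integral_I_sq,
    integral_I_odd (g := fun w => (a * w) ^ 3) (fun w _ => by ring)]
  · ring
  · exact Continuous.integrable_of_hasCompactSupport (by fun_prop) (HasCompactSupport.of_compactSpace _)
  · exact Continuous.integrable_of_hasCompactSupport (by fun_prop) (HasCompactSupport.of_compactSpace _)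

lemma integral_I_ite {c : ℝ} (hc0 : 0 ≤ c) (hc1 : c ≤ 1) (f : ℝ → ℝ) :
    ∫ s : I, (if (s : ℝ) < c then f s else 0) = ∫ x in (0 : ℝ)..c, f x := by
  rw [integral_I_eq_Icc (fun s => if s < c then f s else 0)]
  have : (fun s : ℝ => if s < c then f s else 0) = (Set.Iio c).indicator f := by
    funext s; simp [Set.indicator_apply]
  rw [this, setIntegral_indicator measurableSet_Iio, intervalIntegral.integral_of_le hc0,
    integral_Ioc_eq_integral_Ioo, ← integral_Ico_eq_integral_Ioo]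
  congr 2
  ext x
  simp only [Set.mem_inter_iff, Set.mem_Icc, Set.mem_Iio, Set.mem_Ico]
  constructor
  · rintro ⟨⟨a, -⟩, b⟩; exact ⟨a, b⟩
  · rintro ⟨a, b⟩; exact ⟨⟨a, by linarith⟩, b⟩

/-- information carried by the first slot before time `r` (exact value `min r 1 ^ 3 / 72`) -/
lemma slot_zero_lower {r : ℝ} (hr : 0 < r) :
    min r 1 ^ 3 / 192 ≤
      ∫ s : I, ∫ u : I, (if tm 0 s < r then (amp 0 s * Qf (amp 0 s) u) ^ 2 else 0) := by
  have hρ : 0 < min r 1 := lt_min hr one_pos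
  have hρ1 : min r 1 ≤ 1 := min_le_right _ _
  have e : ∀ s : I, ∫ u : I, (if tm 0 s < r then (amp 0 s * Qf (amp 0 s) u) ^ 2 else 0) =
      if (s : ℝ) < min r 1 / 2 then (s : ℝ) ^ 2 / 3 else 0 := by
    intro s
    have s0 := s.2.1
    have ha : |amp 0 s| ≤ 1 / 2 := by
      rw [abs_of_nonneg (amp_nonneg 0 s0)]; exact amp_le_half 0 s
    by_cases h1 : tm 0 s < r
    · simp only [h1, if_true]
      rw [integral_sq_Qf ha]
      unfold tm at h1
      simp only [Nat.cast_zero, zero_add] at h1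
      unfold amp tm
      by_cases h2 : (s : ℝ) < 1 / 2
      · rw [if_pos h2, if_pos, min_eq_left (by simp only [Nat.cast_zero]; linarith)]
        · simp only [Nat.cast_zero]; ring
        · rw [lt_div_iff₀ two_pos, lt_min_iff]; constructor <;> linarith
      · rw [if_neg h2, if_neg (by linarith)]; simp
    · simp only [h1, if_false]
      unfold tm at h1
      simp only [Nat.cast_zero, zero_add] at h1
      rw [if_neg (by linarith [min_le_left r 1])]
      simp
  simp_rw [e]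
  rw [integral_I_ite (by linarith) (by linarith) (fun x => x ^ 2 / 3),
    intervalIntegral.integral_div, integral_pow]
  have : 0 ≤ min r 1 ^ 3 := by positivity
  norm_num
  nlinarith
/-- a slot of a later round contracts `exp (-field)` -/
lemma slot_exp_neg {j : ℕ} (hj : 1 ≤ j) :
    ∫ s : I, ∫ u : I, Real.exp (-Real.artanh (amp j s * Qf (amp j s) u)) ≤ 47 / 48 := by
  set c := ∫ u : I, Real.exp (-Real.artanh (1 / 2 * Qf (1 / 2) u)) with hc
  have hc' : c ≤ 23 / 24 := by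
    rw [hc, integral_Qf' (by norm_num) (fun w => Real.exp (-Real.artanh (1 / 2 * w)))]
    have e1 : ∫ u : I, (1 - (2 * (u : ℝ) - 1) ^ 2 / 8) = 23 / 24 := by
      rw [integral_sub (integrable_const _), integral_div, integral_I_sq]
      · simp; norm_num
      · exact Continuous.integrable_of_hasCompactSupport (by fun_prop)
          (HasCompactSupport.of_compactSpace _)
    rw [← e1]
    refine integral_mono_of_nonneg (Eventually.of_forall fun u => ?_) ?_
      (Eventually.of_forall fun u => ?_)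
    · have := abs_le.1 (abs_two_mul_sub_one_le_I u)
      exact mul_nonneg (Real.exp_pos _).le (by linarith)
    · exact Continuous.integrable_of_hasCompactSupport (by fun_prop)
        (HasCompactSupport.of_compactSpace _)
    · have hw := abs_two_mul_sub_one_le_I u
      set w := 2 * (u : ℝ) - 1
      have hτ : |1 / 2 * w| ≤ 1 / 2 := abs_mul_le_half (by norm_num) hw
      have h := exp_mul_artanh (τ := 1 / 2 * w) (s := -1) (by linarith) (Or.inr rfl)
      simp only
      rw [neg_one_mul] at h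
      rw [h]
      have hτ' := abs_le.1 hτ
      have hp : 0 < 1 - (1 / 2 * w) ^ 2 := by nlinarith
      have hs := Real.sqrt_pos.2 hp
      have hs2 := Real.sq_sqrt hp.le
      rw [div_mul_eq_mul_div, div_le_iff₀ hs]
      set S := Real.sqrt (1 - (1 / 2 * w) ^ 2)
      have : (1 + -1 * (1 / 2 * w)) * (1 + 1 / 2 * w) = S * S := by nlinarith
      rw [this]
      refine mul_le_mul_of_nonneg_right ?_ hs.le
      nlinarith [sq_nonneg (S - 1)]
  have e : ∀ s : I, ∫ u : I, Real.exp (-Real.artanh (amp j s * Qf (amp j s) u)) =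
      1 + if (s : ℝ) < 1 / 2 then c - 1 else 0 := by
    intro s
    have s0 := s.2.1
    have hj' : (1 : ℝ) ≤ j := by exact_mod_cast hj
    unfold amp tm
    by_cases h2 : (s : ℝ) < 1 / 2
    · rw [if_pos h2, if_pos h2, min_eq_right (by linarith), ← hc]; ring
    · rw [if_neg h2, if_neg h2]; simp
  simp_rw [e]
  rw [integral_add (integrable_const _), integral_I_ite (by norm_num) (by norm_num) (fun _ => c - 1)]
  · simp
    linarith
  · refine integrable_I (f := fun s => if s < 1 / 2 then c - 1 else 0)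
      (Measurable.ite measurableSet_Iio measurable_const measurable_const) (C := |c - 1|) fun u => ?_
    split_ifs
    · exact le_rfl
    · simp
/-- likelihood-ratio symmetry of one slot, for fixed amplitude -/
lemma slot_LR {e : ℝ} (he0 : 0 ≤ e) (he : e ≤ 1 / 2) {φ : ℝ → ℝ} (hφ : Continuous φ)
    (hodd : ∀ x, φ (-x) = -φ x) :
    ∫ u : I, φ (Real.artanh (e * Qf e u)) =
      ∫ u : I, φ (Real.artanh (e * Qf e u)) * Real.tanh (Real.artanh (e * Qf e u)) := by
  have ha : |e| ≤ 1 / 2 := by rwa [abs_of_nonneg he0]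
  obtain ⟨C, hC⟩ := isCompact_Icc.exists_bound_of_continuousOn (s := Set.Icc (-1 : ℝ) 1)
    hφ.continuousOn
  have hb : ∀ w : ℝ, |w| ≤ 1 → |φ (Real.artanh (e * w))| ≤ C := fun w hw => by
    have h1 := abs_mul_le_half ha hw
    have h2 := abs_artanh_le h1
    exact hC _ (abs_le.1 (by linarith))
  have hC0 : 0 ≤ C := (abs_nonneg _).trans (hb 0 (by simp))
  have hm : Measurable fun w : ℝ => φ (Real.artanh (e * w)) :=
    hφ.measurable.comp (measurable_artanh.comp (measurable_const_mul e))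
  rw [integral_Qf' ha (fun w => φ (Real.artanh (e * w))),
    integral_Qf' ha (fun w => φ (Real.artanh (e * w)) * Real.tanh (Real.artanh (e * w)))]
  have h0 := integral_I_odd (g := fun w => φ (Real.artanh (e * w)) * (1 - (e * w) ^ 2))
    (fun w hw => by
      have h1 := abs_mul_le_half ha hw
      rw [mul_neg, artanh_neg' (by linarith), hodd]; ring)
  have e2 : ∀ u : I, φ (Real.artanh (e * (2 * (u : ℝ) - 1))) *
      Real.tanh (Real.artanh (e * (2 * (u : ℝ) - 1))) * (1 + e * (2 * (u : ℝ) - 1)) =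
      φ (Real.artanh (e * (2 * (u : ℝ) - 1))) * (1 + e * (2 * (u : ℝ) - 1)) -
        φ (Real.artanh (e * (2 * (u : ℝ) - 1))) * (1 - (e * (2 * (u : ℝ) - 1)) ^ 2) := fun u => by
    have h1 := abs_mul_le_half ha (abs_two_mul_sub_one_le_I u)
    rw [Real.tanh_artanh (abs_lt.1 (by linarith))]; ring
  simp_rw [e2]
  have hm2 : Measurable fun u : ℝ => φ (Real.artanh (e * (2 * u - 1))) := hm.comp (by fun_prop)
  rw [integral_sub, h0, sub_zero]
  · refine integrable_I (f := fun u => φ (Real.artanh (e * (2 * u - 1))) * (1 + e * (2 * u - 1)))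
      (hm2.mul (by fun_prop)) (C := C * 2) fun u => ?_
    have h1 := abs_le.1 (abs_mul_le_half ha (abs_two_mul_sub_one_le_I u))
    rw [abs_mul]
    exact mul_le_mul (hb _ (abs_two_mul_sub_one_le_I u)) (abs_le.2 ⟨by linarith, by linarith⟩)
      (abs_nonneg _) hC0
  · refine integrable_I
      (f := fun u => φ (Real.artanh (e * (2 * u - 1))) * (1 - (e * (2 * u - 1)) ^ 2))
      (hm2.mul (by fun_prop)) (C := C * 2) fun u => ?_
    have h1 := abs_le.1 (abs_mul_le_half ha (abs_two_mul_sub_one_le_I u))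
    rw [abs_mul]
    exact mul_le_mul (hb _ (abs_two_mul_sub_one_le_I u))
      (abs_le.2 ⟨by nlinarith, by nlinarith⟩) (abs_nonneg _) hC0

end Crest.Agent.R160
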