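import Crest.Agent.R160.Defs

/-!
# Row 160 (S0241): Calc3
Series bounds and the final Gronwall/Osgood argument (pure real analysis).
`gronwall_zero`: on an interval `[a,b]` where `Step` holds with rate `ℒ` for all subintervals,
subdividing finely gives `N b ≤ exp (2Λℒ(b-a)) (N a + 2ℒ(b-a) exp (-Λ))` for all `Λ ≥ 1`.  Chain the
blocks `[(ρ^(n+1))^6, (ρ^n)^6]`, `n₁ ≤ n < n₂`, whose total `Δ = Σ ℒ·length ≤ C ρ^n₁/(1-ρ) < 1/4`;
let `n₂ → ∞` (`N s ≤ C s`), then `Λ → ∞`: `N = 0` on `(0,(ρ^n₁)^6]`.  Then move forward by steps of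
length `≤ 1/(4ℒ)` that do not cross integers.
-/

set_option autoImplicit false

open MeasureTheory Filter Topology
open scoped unitInterval

noncomputable section

namespace Crest.Agent.R160

universe u

/-- `∑ exp (-a k) ≤ 2 / a` for `0 < a ≤ 1`. -/
lemma calc3_sum_exp_neg {a : ℝ} (ha : 0 < a) (ha1 : a ≤ 1) (K : ℕ) :
    ∑ k ∈ Finset.range K, Real.exp (-(a * k)) ≤ 2 / a := by
  have hq : Real.exp (-a) ≤ 1 - a / 2 := by
    have h1 : 1 + a ≤ Real.exp a := by linarith [Real.add_one_le_exp a]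
    have h2 : Real.exp (-a) * Real.exp a = 1 := by rw [← Real.exp_add]; simp
    have h3 : 0 < Real.exp (-a) := Real.exp_pos _
    have h4 : Real.exp (-a) * (1 + a) ≤ 1 := by nlinarith
    by_contra h
    push Not at h
    nlinarith
  have key : ∀ K : ℕ, ∑ k ∈ Finset.range K, Real.exp (-(a * k)) ≤
      2 / a * (1 - Real.exp (-(a * K))) := by
    intro K
    induction K with
    | zero => simp
    | succ K ih =>
      rw [Finset.sum_range_succ]
      have e : Real.exp (-(a * ((K + 1 : ℕ) : ℝ))) = Real.exp (-(a * K)) * Real.exp (-a) := by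
        rw [← Real.exp_add]; congr 1; push_cast; ring
      rw [e]
      have hp : 0 < Real.exp (-(a * K)) := Real.exp_pos _
      have h5 : Real.exp (-(a * K)) * Real.exp (-a) ≤ Real.exp (-(a * K)) * (1 - a / 2) :=
        mul_le_mul_of_nonneg_left hq hp.le
      have h6 : 2 / a * (1 - Real.exp (-(a * K)) * (1 - a / 2)) =
          2 / a * (1 - Real.exp (-(a * K))) + Real.exp (-(a * K)) := by
        field_simp; ring
      have h7 : 0 ≤ 2 / a := by positivity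
      calc _ ≤ 2 / a * (1 - Real.exp (-(a * K))) + Real.exp (-(a * K)) := by linarith
        _ = 2 / a * (1 - Real.exp (-(a * K)) * (1 - a / 2)) := h6.symm
        _ ≤ _ := mul_le_mul_of_nonneg_left (by linarith) h7
  have h7 : 0 ≤ 2 / a := by positivity
  have := key K
  have hp : 0 < Real.exp (-(a * K)) := Real.exp_pos _
  nlinarith

/-- the general polynomial-weighted bound -/
lemma calc3_sum_pow_exp (j : ℕ) {r : ℝ} (hr : 0 < r) (hr2 : r ≤ 2) (K : ℕ) :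
    ∑ k ∈ Finset.range K, ((k : ℝ) + 2) ^ j * Real.exp (-(r * (((k - 1) / 4 : ℕ) : ℝ))) ≤
      (Real.exp 3 * (j.factorial : ℝ) * 8 ^ j * 16) / r ^ (j + 1) := by
  have hterm : ∀ k : ℕ, ((k : ℝ) + 2) ^ j * Real.exp (-(r * (((k - 1) / 4 : ℕ) : ℝ))) ≤
      (Real.exp 3 * (j.factorial : ℝ) * 8 ^ j / r ^ j) * Real.exp (-(r / 8 * k)) := by
    intro k
    have hk : (k : ℝ) ≤ 4 * (((k - 1) / 4 : ℕ) : ℝ) + 4 := by
      have : k ≤ 4 * ((k - 1) / 4) + 4 := by omega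
      exact_mod_cast this
    have h1 : (r / 8 * ((k : ℝ) + 2)) ^ j / (j.factorial : ℝ) ≤ Real.exp (r / 8 * ((k : ℝ) + 2)) :=
      Real.pow_div_factorial_le_exp _ (by positivity) j
    have hf : (0 : ℝ) < j.factorial := by exact_mod_cast j.factorial_pos
    have h2 : ((k : ℝ) + 2) ^ j ≤
        (j.factorial : ℝ) * 8 ^ j / r ^ j * Real.exp (r / 8 * ((k : ℝ) + 2)) := by
      rw [div_le_iff₀ hf, mul_pow, div_pow] at h1
      rw [div_mul_eq_mul_div, le_div_iff₀ (by positivity)]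
      have h8 : (0 : ℝ) < 8 ^ j := by positivity
      have : r ^ j / 8 ^ j * ((k : ℝ) + 2) ^ j * 8 ^ j = ((k : ℝ) + 2) ^ j * r ^ j := by
        field_simp
      calc ((k : ℝ) + 2) ^ j * r ^ j = r ^ j / 8 ^ j * ((k : ℝ) + 2) ^ j * 8 ^ j := this.symm
        _ ≤ Real.exp (r / 8 * ((k : ℝ) + 2)) * (j.factorial : ℝ) * 8 ^ j :=
            mul_le_mul_of_nonneg_right h1 h8.le
        _ = _ := by ring
    have h3 : Real.exp (r / 8 * ((k : ℝ) + 2)) * Real.exp (-(r * (((k - 1) / 4 : ℕ) : ℝ))) ≤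
        Real.exp 3 * Real.exp (-(r / 8 * k)) := by
      rw [← Real.exp_add, ← Real.exp_add]
      apply Real.exp_le_exp.mpr
      nlinarith
    calc _ ≤ ((j.factorial : ℝ) * 8 ^ j / r ^ j * Real.exp (r / 8 * ((k : ℝ) + 2))) *
          Real.exp (-(r * (((k - 1) / 4 : ℕ) : ℝ))) :=
          mul_le_mul_of_nonneg_right h2 (Real.exp_pos _).le
      _ = ((j.factorial : ℝ) * 8 ^ j / r ^ j) * (Real.exp (r / 8 * ((k : ℝ) + 2)) *
          Real.exp (-(r * (((k - 1) / 4 : ℕ) : ℝ)))) := by ring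
      _ ≤ ((j.factorial : ℝ) * 8 ^ j / r ^ j) * (Real.exp 3 * Real.exp (-(r / 8 * k))) :=
          mul_le_mul_of_nonneg_left h3 (by positivity)
      _ = _ := by ring
  have hs := calc3_sum_exp_neg (a := r / 8) (by positivity) (by linarith) K
  calc _ ≤ ∑ k ∈ Finset.range K,
        (Real.exp 3 * (j.factorial : ℝ) * 8 ^ j / r ^ j) * Real.exp (-(r / 8 * k)) :=
        Finset.sum_le_sum fun k _ => hterm k
    _ = (Real.exp 3 * (j.factorial : ℝ) * 8 ^ j / r ^ j) *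
        ∑ k ∈ Finset.range K, Real.exp (-(r / 8 * k)) := by rw [Finset.mul_sum]
    _ ≤ (Real.exp 3 * (j.factorial : ℝ) * 8 ^ j / r ^ j) * (2 / (r / 8)) :=
        mul_le_mul_of_nonneg_left hs (by positivity)
    _ = _ := by field_simp; ring

lemma sum_exp_le : ∃ C : ℝ, 0 < C ∧ ∀ r : ℝ, 0 < r → r ≤ 2 → ∀ K : ℕ,
    (∑ k ∈ Finset.range K, Real.exp (-(r * (((k - 1) / 4 : ℕ) : ℝ))) ≤ C / r) ∧
    (∑ k ∈ Finset.range K, ((k : ℝ) + 2) * Real.exp (-(r * (((k - 1) / 4 : ℕ) : ℝ))) ≤ C / r ^ 2) ∧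
    (∑ k ∈ Finset.range K, ((k : ℝ) + 2) ^ 2 * Real.exp (-(r * (((k - 1) / 4 : ℕ) : ℝ))) ≤
      C / r ^ 3) := by
  have he : 0 < Real.exp 3 := Real.exp_pos _
  refine ⟨Real.exp 3 * 2048, by positivity, fun r hr hr2 K => ⟨?_, ?_, ?_⟩⟩
  · have := calc3_sum_pow_exp 0 hr hr2 K
    simp only [pow_zero, one_mul, zero_add, pow_one, Nat.factorial_zero, Nat.cast_one,
      mul_one] at this
    refine this.trans (div_le_div_of_nonneg_right (by nlinarith) hr.le)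
  · have := calc3_sum_pow_exp 1 hr hr2 K
    simp only [pow_one, Nat.factorial_one, Nat.cast_one, mul_one] at this
    refine this.trans (div_le_div_of_nonneg_right (by nlinarith) (by positivity))
  · have := calc3_sum_pow_exp 2 hr hr2 K
    simp only [Nat.factorial_two, Nat.cast_ofNat] at this
    refine this.trans (div_le_div_of_nonneg_right (by nlinarith) (by positivity))

lemma sum_geom_le : ∃ C : ℝ, 0 < C ∧ ∀ K : ℕ,
    ∑ k ∈ Finset.range K, ((k : ℝ) + 2) ^ 2 * (3 / 4 : ℝ) ^ ((k - 1) / 4) ≤ C := by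
  obtain ⟨C, hC, h⟩ := sum_exp_le
  have h14 : (3 / 4 : ℝ) ≤ Real.exp (-(1 / 4)) := by
    linarith [Real.add_one_le_exp (-(1 / 4) : ℝ)]
  -- `3/4 ≤ exp (-1/4)` goes the right way
  refine ⟨C / (1 / 4) ^ 3, by positivity, fun K => ?_⟩
  refine le_trans (Finset.sum_le_sum fun k _ => ?_) (h (1 / 4) (by norm_num) (by norm_num) K).2.2
  refine mul_le_mul_of_nonneg_left ?_ (by positivity)
  calc (3 / 4 : ℝ) ^ ((k - 1) / 4) ≤ Real.exp (-(1 / 4)) ^ ((k - 1) / 4) :=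
        pow_le_pow_left₀ (by norm_num) h14 _
    _ = _ := by rw [← Real.exp_nat_mul]; congr 1; ring

lemma min_exp_le {N Λ q : ℝ} (hN : 0 ≤ N) (hΛ : 1 ≤ Λ) (hq : 0 < q) :
    min N (Real.exp (-(1 / q))) ≤ 2 * q * (Λ * N + Real.exp (-Λ)) := by
  have hE : 0 < Real.exp (-Λ) := Real.exp_pos _
  by_cases h : 1 ≤ 2 * q * Λ
  · refine (min_le_left _ _).trans ?_
    have : 0 ≤ 2 * q * Real.exp (-Λ) := by positivity
    nlinarith
  · push Not at h
    refine (min_le_right _ _).trans ?_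
    have h1 : Λ ≤ 1 / (2 * q) := by
      rw [le_div_iff₀ (by positivity)]; linarith
    have h2 : Real.exp (-(1 / (2 * q))) ≤ Real.exp (-Λ) := Real.exp_le_exp.mpr (by linarith)
    have h3 : Real.exp (-(1 / (2 * q))) ≤ 2 * q := by
      have h4 : 1 / (2 * q) ≤ Real.exp (1 / (2 * q)) := by
        linarith [Real.add_one_le_exp (1 / (2 * q))]
      rw [Real.exp_neg, inv_le_comm₀ (Real.exp_pos _) (by positivity)]
      simpa using h4
    have h5 : Real.exp (-(1 / q)) = Real.exp (-(1 / (2 * q))) * Real.exp (-(1 / (2 * q))) := by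
      rw [← Real.exp_add]; congr 1; field_simp; ring
    have h6 : 0 ≤ 2 * q * (Λ * N) := by positivity
    calc Real.exp (-(1 / q)) = _ := h5
      _ ≤ 2 * q * Real.exp (-Λ) := mul_le_mul h3 h2 (Real.exp_pos _).le (by positivity)
      _ ≤ _ := by nlinarith

/-- split at `n₀` with `(3/2)^n₀ ≈ Λ`: `n₀³ ≲ Λ`, and the tail is `≲ exp (-Λ)`. -/
lemma sum_min_le : ∃ C : ℝ, 0 < C ∧ ∀ N Λ : ℝ, 0 ≤ N → 1 ≤ Λ → ∀ K : ℕ,
    ∑ k ∈ Finset.range K, ((k : ℝ) + 2) ^ 2 * min N (Real.exp (-((3 / 2 : ℝ) ^ ((k - 1) / 4)))) ≤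
      C * (Λ * N + Real.exp (-Λ)) := by
  obtain ⟨C, hC, h⟩ := sum_geom_le
  refine ⟨2 * C, by positivity, fun N Λ hN hΛ K => ?_⟩
  have hX : 0 ≤ Λ * N + Real.exp (-Λ) := by
    have := Real.exp_pos (-Λ)
    have : 0 ≤ Λ * N := mul_nonneg (by linarith) hN
    linarith
  calc _ ≤ ∑ k ∈ Finset.range K, ((k : ℝ) + 2) ^ 2 * (3 / 4 : ℝ) ^ ((k - 1) / 4) *
        (2 * (Λ * N + Real.exp (-Λ))) := by
        refine Finset.sum_le_sum fun k _ => ?_
        rw [mul_assoc]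
        refine mul_le_mul_of_nonneg_left ?_ (by positivity)
        have h1 := min_exp_le (q := (2 / 3 : ℝ) ^ ((k - 1) / 4)) hN hΛ (by positivity)
        have h2 : 1 / (2 / 3 : ℝ) ^ ((k - 1) / 4) = (3 / 2 : ℝ) ^ ((k - 1) / 4) := by
          rw [one_div, ← inv_pow]; norm_num
        rw [h2] at h1
        have h3 : (2 / 3 : ℝ) ^ ((k - 1) / 4) ≤ (3 / 4 : ℝ) ^ ((k - 1) / 4) :=
          pow_le_pow_left₀ (by norm_num) (by norm_num) _
        nlinarith
    _ = (∑ k ∈ Finset.range K, ((k : ℝ) + 2) ^ 2 * (3 / 4 : ℝ) ^ ((k - 1) / 4)) *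
        (2 * (Λ * N + Real.exp (-Λ))) := by rw [Finset.sum_mul]
    _ ≤ C * (2 * (Λ * N + Real.exp (-Λ))) := mul_le_mul_of_nonneg_right (h K) (by positivity)
    _ = _ := by ring

/-- the one-step inequality -/
def Step (N : ℝ → ℝ) (s t l : ℝ) : Prop :=
  ∀ Λ : ℝ, 1 ≤ Λ → (t - s) * l * Λ ≤ 1 / 2 →
    N t ≤ (1 + 2 * ((t - s) * l * Λ)) * N s + 2 * ((t - s) * l) * Real.exp (-Λ)

lemma Step.mono {N : ℝ → ℝ} (hN : ∀ t, 0 ≤ N t) {s t l l' : ℝ} (h : Step N s t l) (hst : s ≤ t)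
    (hl : 0 ≤ l) (hll : l ≤ l') : Step N s t l' := by
  intro Λ hΛ hh
  have h0 : 0 ≤ t - s := by linarith
  have h1 : (t - s) * l ≤ (t - s) * l' := mul_le_mul_of_nonneg_left hll h0
  have h2 : (t - s) * l * Λ ≤ (t - s) * l' * Λ := mul_le_mul_of_nonneg_right h1 (by linarith)
  have h3 := h Λ hΛ (h2.trans hh)
  have h4 := hN s
  have h5 := Real.exp_pos (-Λ)
  have _ := hl
  nlinarith

/-- the integrated form of the one-step inequality -/
def Calc3Good (N : ℝ → ℝ) (a b Δ : ℝ) : Prop :=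
  ∀ Λ : ℝ, 1 ≤ Λ → N b ≤ Real.exp (2 * Λ * Δ) * (N a + 2 * Δ * Real.exp (-Λ))

lemma calc3_chain {x y z Λ Δ₁ Δ₂ : ℝ} (hΛ : 1 ≤ Λ) (h₁ : 0 ≤ Δ₁) (h₂ : 0 ≤ Δ₂)
    (hxy : y ≤ Real.exp (2 * Λ * Δ₁) * (x + 2 * Δ₁ * Real.exp (-Λ)))
    (hyz : z ≤ Real.exp (2 * Λ * Δ₂) * (y + 2 * Δ₂ * Real.exp (-Λ))) :
    z ≤ Real.exp (2 * Λ * (Δ₁ + Δ₂)) * (x + 2 * (Δ₁ + Δ₂) * Real.exp (-Λ)) := by
  have e : Real.exp (2 * Λ * (Δ₁ + Δ₂)) = Real.exp (2 * Λ * Δ₂) * Real.exp (2 * Λ * Δ₁) := by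
    rw [← Real.exp_add]; congr 1; ring
  have h1 : 1 ≤ Real.exp (2 * Λ * Δ₁) := Real.one_le_exp (by positivity)
  have h2 : 0 ≤ 2 * Δ₂ * Real.exp (-Λ) := by positivity
  rw [e, mul_assoc]
  refine hyz.trans (mul_le_mul_of_nonneg_left ?_ (Real.exp_pos _).le)
  nlinarith

lemma Calc3Good.trans {N : ℝ → ℝ} {a b c Δ₁ Δ₂ : ℝ} (h₁ : 0 ≤ Δ₁) (h₂ : 0 ≤ Δ₂)
    (hab : Calc3Good N a b Δ₁) (hbc : Calc3Good N b c Δ₂) : Calc3Good N a c (Δ₁ + Δ₂) :=
  fun Λ hΛ => calc3_chain hΛ h₁ h₂ (hab Λ hΛ) (hbc Λ hΛ)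

lemma Calc3Good.mono {N : ℝ → ℝ} (hN : ∀ t, 0 ≤ N t) {a b Δ Δ' : ℝ} (h₁ : 0 ≤ Δ) (h₂ : Δ ≤ Δ')
    (hab : Calc3Good N a b Δ) : Calc3Good N a b Δ' := by
  intro Λ hΛ
  refine (hab Λ hΛ).trans (mul_le_mul (Real.exp_le_exp.mpr (by nlinarith)) ?_ ?_
    (Real.exp_pos _).le)
  · have := Real.exp_pos (-Λ)
    nlinarith
  · have := Real.exp_pos (-Λ)
    have := hN a
    positivity

lemma calc3Good_refl (N : ℝ → ℝ) (a : ℝ) : Calc3Good N a a 0 := by
  intro Λ _; simp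

/-- subdividing finely -/
lemma calc3Good_of_steps {N : ℝ → ℝ} (hN : ∀ t, 0 ≤ N t) {a b l : ℝ} (hab : a ≤ b) (hl : 0 ≤ l)
    (h : ∀ s t, a ≤ s → s < t → t ≤ b → Step N s t l) : Calc3Good N a b ((b - a) * l) := by
  rcases hab.eq_or_lt with rfl | hab
  · simpa using calc3Good_refl N a
  intro Λ hΛ
  obtain ⟨n, hn⟩ := exists_nat_gt (2 * ((b - a) * l * Λ))
  have hba : 0 < b - a := by linarith
  have hn0 : (0 : ℝ) < n := lt_of_le_of_lt (by positivity) hn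
  set δ : ℝ := (b - a) / n with hδ
  have hδ0 : 0 < δ := by positivity
  have hδn : δ * n = b - a := by rw [hδ]; field_simp
  have hδl : δ * l * Λ ≤ 1 / 2 := by
    have : δ * l * Λ * n = (b - a) * l * Λ := by rw [← hδn]; ring
    by_contra hc
    push Not at hc
    nlinarith
  have key : ∀ i : ℕ, i ≤ n → N (a + δ * i) ≤
      Real.exp (2 * Λ * (δ * i * l)) * (N a + 2 * (δ * i * l) * Real.exp (-Λ)) := by
    intro i
    induction i with
    | zero => intro _; simp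
    | succ i ih =>
      intro hi
      have ih' := ih (by omega)
      have hi' : ((i + 1 : ℕ) : ℝ) ≤ n := by exact_mod_cast hi
      have hs := h (a + δ * i) (a + δ * ((i + 1 : ℕ) : ℝ)) (by
          have : 0 ≤ δ * i := by positivity
          linarith) (by push_cast; nlinarith) (by nlinarith)
      have e : a + δ * ((i + 1 : ℕ) : ℝ) - (a + δ * i) = δ := by push_cast; ring
      have hs' := hs Λ hΛ (by rw [e]; exact hδl)
      rw [e] at hs'
      have h2 : N (a + δ * ((i + 1 : ℕ) : ℝ)) ≤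
          Real.exp (2 * Λ * (δ * l)) * (N (a + δ * i) + 2 * (δ * l) * Real.exp (-Λ)) := by
        have h3 : 1 + 2 * (δ * l * Λ) ≤ Real.exp (2 * Λ * (δ * l)) := by
          have := Real.add_one_le_exp (2 * Λ * (δ * l))
          linarith
        have h4 := hN (a + δ * i)
        have h5 : 0 ≤ 2 * (δ * l) * Real.exp (-Λ) := by positivity
        have h6 : 0 ≤ δ * l * Λ := by positivity
        nlinarith
      have := calc3_chain hΛ (by positivity) (by positivity) ih' h2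
      have e2 : δ * i * l + δ * l = δ * ((i + 1 : ℕ) : ℝ) * l := by push_cast; ring
      rwa [e2] at this
  have := key n le_rfl
  rw [hδn] at this
  simpa using this

/-- letting `Λ → ∞` -/
lemma calc3_zero_of_le {x Δ : ℝ} (hx : 0 ≤ x) (hΔ : Δ < 1 / 2)
    (h : ∀ Λ : ℝ, 1 ≤ Λ → x ≤ Real.exp (2 * Λ * Δ) * (2 * Δ * Real.exp (-Λ))) : x = 0 := by
  have h1 : Tendsto (fun Λ : ℝ => 2 * Δ * Real.exp (-((1 - 2 * Δ) * Λ))) atTop (𝓝 (2 * Δ * 0)) := by
    refine Tendsto.const_mul _ (Real.tendsto_exp_neg_atTop_nhds_zero.comp ?_)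
    exact Tendsto.const_mul_atTop (by linarith) tendsto_id
  rw [mul_zero] at h1
  refine le_antisymm (ge_of_tendsto h1 ?_) hx
  filter_upwards [eventually_ge_atTop (1 : ℝ)] with Λ hΛ
  refine (h Λ hΛ).trans (le_of_eq ?_)
  have : Real.exp (-((1 - 2 * Δ) * Λ)) = Real.exp (2 * Λ * Δ) * Real.exp (-Λ) := by
    rw [← Real.exp_add]; congr 1; ring
  rw [this]; ring

/-- forward propagation of zeros -/
lemma calc3_forward {N : ℝ → ℝ} (hN : ∀ t, 0 ≤ N t) {a b l : ℝ} (hab : a ≤ b) (hl : 0 ≤ l)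
    (h : ∀ s t, a ≤ s → s < t → t ≤ b → Step N s t l) (ha : N a = 0) : N b = 0 := by
  set δ : ℝ := 1 / (4 * (l + 1)) with hδ
  have hδ0 : 0 < δ := by positivity
  have hδl : δ * l < 1 / 2 := by
    have : δ * (4 * (l + 1)) = 1 := by rw [hδ]; field_simp
    nlinarith
  have key : ∀ k : ℕ, ∀ u, a ≤ u → u ≤ b → u ≤ a + δ * k → N u = 0 := by
    intro k
    induction k with
    | zero =>
      intro u h1 _ h3
      have : u = a := by simp at h3; linarith
      rw [this, ha]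
    | succ k ih =>
      intro u h1 h2 h3
      by_cases hu : u ≤ a + δ * k
      · exact ih u h1 h2 hu
      push Not at hu
      have hk : 0 ≤ δ * k := by positivity
      have hv := ih (a + δ * k) (by linarith) (by linarith) le_rfl
      have hg := calc3Good_of_steps hN hu.le hl
        (fun s t hs hst ht => h s t (by linarith) hst (by linarith))
      have hlt : (u - (a + δ * k)) * l < 1 / 2 := by
        have : u - (a + δ * k) ≤ δ := by push_cast at h3; linarith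
        nlinarith
      refine calc3_zero_of_le (hN u) hlt fun Λ hΛ => ?_
      have := hg Λ hΛ
      rwa [hv, zero_add] at this
  obtain ⟨k, hk⟩ := exists_nat_ge ((b - a) / δ)
  refine key k b hab le_rfl ?_
  rw [div_le_iff₀ hδ0] at hk
  linarith

theorem gronwall_zero (N : ℝ → ℝ) (hN : ∀ t, 0 ≤ N t)
    (hC : ∃ C : ℝ, ∀ s, 0 < s → s ≤ 1 → N s ≤ C * s)
    (hA : ∀ (J : ℕ) (s₀ : ℝ), 0 < s₀ → ∃ l : ℝ, 0 ≤ l ∧ ∀ (j : ℕ) (s t : ℝ), j < J → s₀ ≤ s → s < t →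
      (j : ℝ) ≤ s → t ≤ j + 1 → Step N s t l)
    (hB : ∃ (ρ C : ℝ) (n₀ : ℕ), 0 < ρ ∧ ρ < 1 ∧ 0 ≤ C ∧ ∀ (n : ℕ) (s t : ℝ), n₀ ≤ n →
      (ρ ^ (n + 1)) ^ 6 ≤ s → s < t → t ≤ (ρ ^ n) ^ 6 → Step N s t (C * ρ ^ n / (ρ ^ n) ^ 6)) :
    ∀ t, 0 < t → N t = 0 := by
  obtain ⟨C₀, hC₀⟩ := hC
  obtain ⟨ρ, C, n₀, hρ0, hρ1, hC, hB⟩ := hB
  have hρ' : 0 < 1 - ρ := by linarith
  -- one block
  have block : ∀ n, n₀ ≤ n → Calc3Good N ((ρ ^ (n + 1)) ^ 6) ((ρ ^ n) ^ 6) (C * ρ ^ n) := by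
    intro n hn
    have hle : (ρ ^ (n + 1)) ^ 6 ≤ (ρ ^ n) ^ 6 :=
      pow_le_pow_left₀ (by positivity) (pow_le_pow_of_le_one hρ0.le hρ1.le (by omega)) _
    have hg := calc3Good_of_steps hN hle (l := C * ρ ^ n / (ρ ^ n) ^ 6) (by positivity)
      (fun s t hs hst ht => hB n s t hn hs hst ht)
    refine hg.mono hN (mul_nonneg (by linarith) (by positivity)) ?_
    have h1 : (0 : ℝ) < (ρ ^ n) ^ 6 := by positivity
    have h2 : (0 : ℝ) < (ρ ^ (n + 1)) ^ 6 := by positivity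
    calc _ ≤ (ρ ^ n) ^ 6 * (C * ρ ^ n / (ρ ^ n) ^ 6) :=
          mul_le_mul_of_nonneg_right (by linarith) (by positivity)
      _ = _ := by field_simp
  -- chained blocks
  have chain : ∀ m n, n₀ ≤ n →
      Calc3Good N ((ρ ^ (n + m)) ^ 6) ((ρ ^ n) ^ 6) (C * ρ ^ n / (1 - ρ)) := by
    intro m
    induction m with
    | zero =>
      intro n _
      exact (calc3Good_refl N _).mono hN le_rfl (by positivity)
    | succ m ih =>
      intro n hn
      have h1 := ih (n + 1) (by omega)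
      have h2 := h1.trans (by positivity) (by positivity) (block n hn)
      have e1 : n + 1 + m = n + (m + 1) := by ring
      have e2 : C * ρ ^ (n + 1) / (1 - ρ) + C * ρ ^ n = C * ρ ^ n / (1 - ρ) := by
        field_simp; ring
      rwa [e1, e2] at h2
  have hpow : Tendsto (fun n : ℕ => ρ ^ n) atTop (𝓝 0) :=
    tendsto_pow_atTop_nhds_zero_of_lt_one hρ0.le hρ1
  have hpow6 : Tendsto (fun n : ℕ => (ρ ^ n) ^ 6) atTop (𝓝 0) := by
    simpa using hpow.pow 6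
  have hsmall : ∀ᶠ n : ℕ in atTop, C * ρ ^ n / (1 - ρ) < 1 / 2 := by
    have : Tendsto (fun n : ℕ => C * ρ ^ n / (1 - ρ)) atTop (𝓝 (C * 0 / (1 - ρ))) :=
      (hpow.const_mul C).div_const _
    exact this.eventually (gt_mem_nhds (by simp))
  have hzero : ∀ᶠ n : ℕ in atTop, N ((ρ ^ n) ^ 6) = 0 := by
    filter_upwards [hsmall, eventually_ge_atTop n₀] with n h1 h2
    refine calc3_zero_of_le (hN _) h1 fun Λ hΛ => ?_
    have ht : Tendsto (fun m : ℕ => Real.exp (2 * Λ * (C * ρ ^ n / (1 - ρ))) *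
        (C₀ * (ρ ^ (n + m)) ^ 6 + 2 * (C * ρ ^ n / (1 - ρ)) * Real.exp (-Λ))) atTop
        (𝓝 (Real.exp (2 * Λ * (C * ρ ^ n / (1 - ρ))) *
        (C₀ * 0 + 2 * (C * ρ ^ n / (1 - ρ)) * Real.exp (-Λ)))) := by
      refine Tendsto.const_mul _ (Tendsto.add_const _ (Tendsto.const_mul _ ?_))
      have : Tendsto (fun m : ℕ => n + m) atTop atTop := tendsto_atTop_mono (fun m => by
        simp) tendsto_id
      exact hpow6.comp this
    rw [mul_zero, zero_add] at ht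
    refine ge_of_tendsto' ht fun m => (chain m n h2 Λ hΛ).trans ?_
    refine mul_le_mul_of_nonneg_left ?_ (Real.exp_pos _).le
    have := hC₀ ((ρ ^ (n + m)) ^ 6) (by positivity)
      (pow_le_one₀ (by positivity) (pow_le_one₀ hρ0.le hρ1.le))
    linarith
  intro t ht
  obtain ⟨n, hn1, hn2⟩ := (hzero.and (hpow6.eventually (ge_mem_nhds ht))).exists
  set s₀ : ℝ := (ρ ^ n) ^ 6 with hs₀
  have hs₀0 : 0 < s₀ := by positivity
  obtain ⟨J, hJ⟩ := exists_nat_ge t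
  obtain ⟨l, hl, hA⟩ := hA J s₀ hs₀0
  have key : ∀ j : ℕ, j ≤ J → ∀ u, s₀ ≤ u → u ≤ j → N u = 0 := by
    intro j
    induction j with
    | zero => intro _ u h1 h2; simp at h2; linarith
    | succ j ih =>
      intro hj u h1 h2
      by_cases hu : u ≤ j
      · exact ih (by omega) u h1 hu
      push Not at hu
      have ha : N (max s₀ j) = 0 := by
        rcases le_total s₀ j with h | h
        · rw [max_eq_right h]; exact ih (by omega) _ h le_rfl
        · rw [max_eq_left h]; exact hn1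
      refine calc3_forward hN (max_le h1 hu.le) hl (fun s t hs hst htu => ?_) ha
      exact hA j s t (by omega) ((le_max_left _ _).trans hs) hst ((le_max_right _ _).trans hs)
        (by push_cast at h2; linarith)
  exact key J le_rfl t hn2 hJ

end Crest.Agent.R160
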