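import Crest.Agent.R160.Cav0

/-!
# Row 160 (S0241): Cav
Deterministic facts about the cavity fields.
`mag_update`: `Y'` and `Y` differ only at `u = p k`, so `cav (p i) (p (i+1))` is unchanged
(`IsNB.not_mem_D`, `cav_congr`); `edge_regression` gives
`mag' (p i) - mag (p i) = bco (cav (p i) (p (i+1))) * (mag' (p (i+1)) - mag (p (i+1)))`, and at `u` use
`tanh_update`.  `cov_eq_exp_cost`: by `edge_cov_symm`,
`cov = (1 - mag (p 0)²) ∏ bco (cav (p (i+1)) (p i))` as well; multiply the two formulas.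
-/

set_option autoImplicit false

open MeasureTheory Filter Topology
open scoped unitInterval

noncomputable section

namespace Crest.Agent.R160

universe u

namespace Setup

variable {V : Type u} (S : Setup V)

variable {S}

lemma DE_of_mem_ch {y x z : V} (hz : z ∈ S.ch y x) : S.DE z y := Or.inr (mem_ch.1 hz).1.symm

lemma DE_self (y : V) : S.DE y y := Or.inl rfl

lemma cavN_eq_zero {Y : V → ℝ} {y x : V} (h : S.DE y x) (hY : ∀ v ∈ S.D y x, Y v = 0) (n : ℕ) :
    S.cavN n Y y x = 0 := by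
  rw [cavN_congr (Y' := fun _ => 0) h fun v hv => hY v ((mem_DN h).1 hv).1, cavN_zero]

lemma cavN_stable {Y : V → ℝ} {n : ℕ} {y x : V} (h : S.DE y x)
    (hY : ∀ v ∈ S.D y x, n ≤ S.G.dist v y → Y v = 0) {m : ℕ} (hm : n ≤ m) :
    S.cavN m Y y x = S.cavN n Y y x := by
  induction n generalizing y x m with
  | zero => rw [cavN_zero_depth]; exact cavN_eq_zero h (fun v hv => hY v hv (Nat.zero_le _)) m
  | succ n ih =>
    obtain ⟨m, rfl⟩ : ∃ m', m = m' + 1 := ⟨m - 1, by omega⟩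
    rw [cavN_succ, cavN_succ]
    congr 1
    refine Finset.sum_congr rfl fun z hz => ?_
    rw [ih (DE_of_mem_ch hz) _ (by omega)]
    intro v hv hn
    refine hY v (D_subset h hz hv) ?_
    have := (mem_D_adj (mem_ch.1 hz).1.symm).1 hv
    omega

lemma tendsto_cavN_of_support {Y : V → ℝ} {F : Finset V} (hF : ∀ v, v ∉ F → Y v = 0) {y x : V}
    (h : S.DE y x) {n : ℕ} (hn : ∀ v ∈ F, S.G.dist v y < n) :
    Tendsto (fun m => S.cavN m Y y x) atTop (𝓝 (S.cavN n Y y x)) := by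
  refine tendsto_atTop_of_eventually_const (i₀ := n) fun m hm => ?_
  refine cavN_stable h (fun v _ hv => hF v fun hvF => ?_) hm
  exact absurd (hn v hvF) (by omega)

/-- a field supported in the finite set `F` : the recursion stabilises -/
lemma cavN_eq_cav_of_support {Y : V → ℝ} {F : Finset V} (hF : ∀ v, v ∉ F → Y v = 0) {y x : V}
    (h : S.DE y x) {n : ℕ} (hn : ∀ v ∈ F, S.G.dist v y < n) : S.cavN n Y y x = S.cav Y y x :=
  (Lim_eq (tendsto_cavN_of_support hF h hn)).symm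

lemma good_of_support {Y : V → ℝ} {F : Finset V} (hF : ∀ v, v ∉ F → Y v = 0) : S.Good Y := by
  intro y x h
  refine ⟨_, tendsto_cavN_of_support hF h (n := F.sup (fun v => S.G.dist v y) + 1) fun v hv => ?_⟩
  exact Nat.lt_succ_of_le (Finset.le_sup (f := fun v => S.G.dist v y) hv)

lemma Good.tendsto {Y : V → ℝ} (hY : S.Good Y) {y x : V} (h : S.DE y x) :
    Tendsto (fun n => S.cavN n Y y x) atTop (𝓝 (S.cav Y y x)) := tendsto_Lim (hY y x h)

lemma Good.cav_rec {Y : V → ℝ} (hY : S.Good Y) {y x : V} (h : S.DE y x) :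
    S.cav Y y x = Y y + ∑ z ∈ S.ch y x, fm S.θ (S.cav Y z y) := by
  have h1 : Tendsto (fun n => S.cavN (n + 1) Y y x) atTop (𝓝 (S.cav Y y x)) :=
    (tendsto_add_atTop_iff_nat (f := fun n => S.cavN n Y y x) 1).2 (hY.tendsto h)
  have h2 : Tendsto (fun n => S.cavN (n + 1) Y y x) atTop
      (𝓝 (Y y + ∑ z ∈ S.ch y x, fm S.θ (S.cav Y z y))) := by
    simp only [cavN_succ]
    refine tendsto_const_nhds.add (tendsto_finsetSum _ fun z hz => ?_)
    exact ((continuous_fm S.hθ0 S.theta_sq_le).tendsto _).comp (hY.tendsto (DE_of_mem_ch hz))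
  exact tendsto_nhds_unique h1 h2

lemma Good.cav_self {Y : V → ℝ} (hY : S.Good Y) {y x : V} (h : S.G.Adj y x) :
    S.cav Y y y = S.cav Y y x + fm S.θ (S.cav Y x y) := by
  rw [hY.cav_rec (DE_self y), hY.cav_rec (y := y) (x := x) (Or.inr h), sum_nb_eq h]
  ring

lemma cavN_eq_indicator_D (Y : V → ℝ) {y x : V} (h : S.DE y x) (n : ℕ) :
    S.cavN n Y y x = S.cavN n ((S.D y x).indicator Y) y y := by
  rcases h with rfl | h
  · rw [D_self, Set.indicator_univ]
  · cases n with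
    | zero => rfl
    | succ n =>
      rw [cavN_succ, cavN_succ, sum_nb_eq h, Set.indicator_of_mem (self_mem_D (Or.inr h)),
        cavN_eq_zero (y := x) (x := y) (Or.inr h.symm), fm_zero S.hθ0 S.theta_sq_le, zero_add]
      · congr 1
        refine Finset.sum_congr rfl fun z hz => ?_
        congr 1
        refine cavN_congr (DE_of_mem_ch hz) fun v hv => ?_
        rw [Set.indicator_of_mem (D_subset (Or.inr h) hz ((mem_DN (DE_of_mem_ch hz)).1 hv).1)]
      · intro v hv
        rw [D_compl h] at hv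
        exact Set.indicator_of_notMem hv _

/-- cavity fields are total fields of truncated external fields -/
lemma cav_eq_indicator (Y : V → ℝ) {y x : V} (h : S.DE y x) :
    S.cav Y y x = S.cav ((S.D y x).indicator Y) y y := by
  unfold cav
  congr 1
  funext n
  exact cavN_eq_indicator_D Y h n

lemma cavN_eq_indicator (Y : V → ℝ) {y x : V} (h : S.DE y x) (n : ℕ) :
    S.cavN n Y y x = S.cav ((S.DN n y x : Set V).indicator Y) y y := by
  have h1 : S.cavN n Y y x = S.cavN n ((S.DN n y x : Set V).indicator Y) y x :=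
    cavN_congr h fun v hv => (Set.indicator_of_mem (Finset.mem_coe.2 hv) Y).symm
  rw [h1, cavN_eq_cav_of_support (F := S.DN n y x)
    (fun v hv => Set.indicator_of_notMem (fun h' => hv (Finset.mem_coe.1 h')) Y) h
    (fun v hv => ((mem_DN h).1 hv).2), cav_eq_indicator _ h, Set.indicator_indicator,
    Set.inter_eq_self_of_subset_right]
  intro v hv
  exact ((mem_DN h).1 (Finset.mem_coe.1 hv)).1

/-- a change of the field at `u` only propagates along the geodesic by regression -/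
lemma mag_sub_eq_prod {Y Y' : V → ℝ} (hY : S.Good Y) (hY' : S.Good Y') {u : V}
    (hYY : ∀ v, v ≠ u → Y' v = Y v) (k : ℕ) : ∀ p : ℕ → V, S.IsNB p k → p k = u →
      S.mag Y' (p 0) - S.mag Y (p 0) =
        (∏ i ∈ Finset.range k, bco S.θ (S.cav Y (p i) (p (i + 1)))) * (S.mag Y' u - S.mag Y u) := by
  induction k with
  | zero => intro p _ hu; simp [hu]
  | succ k ih =>
    intro p hp hu
    have hp' : S.IsNB (fun l => p (l + 1)) k :=
      ⟨fun i hi => hp.1 (i + 1) (by omega), fun i hi => hp.2 (i + 1) (by omega)⟩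
    have h1 := ih (fun l => p (l + 1)) hp' hu
    have hadj : S.G.Adj (p 0) (p 1) := hp.1 0 (by omega)
    have hc : S.cav Y' (p 0) (p 1) = S.cav Y (p 0) (p 1) := by
      refine cav_congr (Or.inr hadj) fun v hv => hYY v ?_
      rintro rfl
      exact hp.not_mem_D (i := 0) (j := k + 1) (by omega) le_rfl (hu ▸ hv)
    rw [Finset.prod_range_succ', mul_comm _ (bco _ _), mul_assoc, ← h1]
    simp only [mag, zero_add]
    rw [hY.cav_self hadj, hY'.cav_self hadj, hY.cav_self hadj.symm, hY'.cav_self hadj.symm, hc]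
    exact edge_regression S.hθ0 S.theta_sq_le _ _ _

theorem mag_update [DecidableEq V] {Y : V → ℝ} {p : ℕ → V} {k : ℕ} (hp : S.IsNB p k) {τ : ℝ}
    (hτ : |τ| < 1) (hY : S.Good Y)
    (hY' : S.Good (Function.update Y (p k) (Y (p k) + Real.artanh τ))) :
    S.mag (Function.update Y (p k) (Y (p k) + Real.artanh τ)) (p 0) - S.mag Y (p 0) =
      S.cov Y p k * (τ / (1 + S.mag Y (p k) * τ)) := by
  have hYY : ∀ v, v ≠ p k → Function.update Y (p k) (Y (p k) + Real.artanh τ) v = Y v :=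
    fun v hv => Function.update_of_ne hv _ _
  rw [mag_sub_eq_prod hY hY' hYY k p hp rfl]
  have h1 : S.cav (Function.update Y (p k) (Y (p k) + Real.artanh τ)) (p k) (p k) =
      S.cav Y (p k) (p k) + Real.artanh τ := by
    rw [hY.cav_rec (DE_self _), hY'.cav_rec (DE_self _), Function.update_self]
    have : ∑ z ∈ S.ch (p k) (p k),
        fm S.θ (S.cav (Function.update Y (p k) (Y (p k) + Real.artanh τ)) z (p k)) =
        ∑ z ∈ S.ch (p k) (p k), fm S.θ (S.cav Y z (p k)) := by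
      refine Finset.sum_congr rfl fun z hz => ?_
      congr 1
      refine cav_congr (DE_of_mem_ch hz) fun v hv => hYY v ?_
      rintro rfl
      exact not_mem_D (mem_ch.1 hz).1.symm hv
    rw [this]
    ring
  unfold cov
  simp only [mag]
  rw [h1, tanh_update _ hτ]
  ring

lemma one_sub_mag_sq_nonneg (Y : V → ℝ) (v : V) : 0 ≤ 1 - S.mag Y v ^ 2 := by
  have := abs_mag_le (S := S) Y v
  have h2 : S.mag Y v ^ 2 ≤ 1 := by
    rw [← sq_abs]
    exact pow_le_one₀ (abs_nonneg _) this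
  linarith

lemma bco_nonneg (h : ℝ) : 0 ≤ bco S.θ h := by
  rw [bco_eq S.hθ0 S.theta_sq_le]
  exact mul_nonneg S.hθ0 (Real.exp_pos _).le

lemma exp_neg_alpha_le_one (h : ℝ) : Real.exp (-alpha S.θ h) ≤ 1 :=
  Real.exp_le_one_iff.2 (neg_nonpos.2 (alpha_nonneg S.hθ0 S.theta_sq_le h))

lemma bco_le_theta (h : ℝ) : bco S.θ h ≤ S.θ := by
  rw [bco_eq S.hθ0 S.theta_sq_le]
  exact mul_le_of_le_one_right S.hθ0 (exp_neg_alpha_le_one h)

lemma bco_le_one (h : ℝ) : bco S.θ h ≤ 1 :=
  (bco_le_theta h).trans ((theta_le S.hθ0 S.theta_sq_le).trans (by norm_num))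

lemma cov_nonneg (Y : V → ℝ) (p : ℕ → V) (k : ℕ) : 0 ≤ S.cov Y p k :=
  mul_nonneg (one_sub_mag_sq_nonneg Y _) (Finset.prod_nonneg fun _ _ => bco_nonneg _)

lemma cov_le_prod (Y : V → ℝ) (p : ℕ → V) (k : ℕ) :
    S.cov Y p k ≤ ∏ i ∈ Finset.range k, bco S.θ (S.cav Y (p i) (p (i + 1))) := by
  refine mul_le_of_le_one_left (Finset.prod_nonneg fun _ _ => bco_nonneg _) ?_
  have := sq_nonneg (S.mag Y (p k))
  linarith

lemma cov_le_one (Y : V → ℝ) (p : ℕ → V) (k : ℕ) : S.cov Y p k ≤ 1 :=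
  (cov_le_prod Y p k).trans
    (Finset.prod_le_one (fun _ _ => bco_nonneg _) fun _ _ => bco_le_one _)

lemma cov_sq_le (Y : V → ℝ) (p : ℕ → V) (k : ℕ) :
    S.cov Y p k ^ 2 ≤ (S.θ ^ 2) ^ k *
      ∏ i ∈ Finset.range k, Real.exp (-alpha S.θ (S.cav Y (p i) (p (i + 1)))) := by
  refine (pow_le_pow_left₀ (cov_nonneg Y p k) (cov_le_prod Y p k) 2).trans ?_
  rw [← Finset.prod_pow, ← Finset.card_range k, ← Finset.prod_const, Finset.card_range,
    ← Finset.prod_mul_distrib]
  refine Finset.prod_le_prod (fun _ _ => sq_nonneg _) fun i _ => ?_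
  rw [bco_eq S.hθ0 S.theta_sq_le, mul_pow]
  refine mul_le_mul_of_nonneg_left ?_ (sq_nonneg _)
  rw [sq]
  exact mul_le_of_le_one_left (Real.exp_pos _).le (exp_neg_alpha_le_one _)

lemma ecost_nonneg (Y : V → ℝ) (x y : V) : 0 ≤ S.ecost Y x y := by
  unfold ecost
  have h1 := alpha_nonneg S.hθ0 S.theta_sq_le (S.cav Y x y)
  have h2 := alpha_nonneg S.hθ0 S.theta_sq_le (S.cav Y y x)
  linarith

lemma ecost_symm (Y : V → ℝ) (x y : V) : S.ecost Y x y = S.ecost Y y x := by
  unfold ecost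
  ring

lemma ecost_neg (Y : V → ℝ) (x y : V) : S.ecost (fun v => -Y v) x y = S.ecost Y x y := by
  unfold ecost
  rw [cav_neg, cav_neg, alpha_neg S.hθ0 S.theta_sq_le, alpha_neg S.hθ0 S.theta_sq_le]

lemma cost_nonneg (Y : V → ℝ) (p : ℕ → V) (k : ℕ) : 0 ≤ S.cost Y p k :=
  add_nonneg (add_nonneg (Finset.sum_nonneg fun _ _ => ecost_nonneg _ _ _) (lc_nonneg _))
    (lc_nonneg _)

/-- the covariance read from the other end -/
lemma Good.cov_eq_rev {Y : V → ℝ} (hY : S.Good Y) {p : ℕ → V} {k : ℕ} (hp : S.IsNB p k) :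
    S.cov Y p k =
      (1 - S.mag Y (p 0) ^ 2) * ∏ i ∈ Finset.range k, bco S.θ (S.cav Y (p (i + 1)) (p i)) := by
  induction k with
  | zero => simp [cov]
  | succ k ih =>
    have hadj : S.G.Adj (p k) (p (k + 1)) := hp.1 k (by omega)
    have h1 := ih (hp.mono (Nat.le_succ k))
    have h2 : (1 - S.mag Y (p (k + 1)) ^ 2) * bco S.θ (S.cav Y (p k) (p (k + 1))) =
        (1 - S.mag Y (p k) ^ 2) * bco S.θ (S.cav Y (p (k + 1)) (p k)) := by
      simp only [mag]
      rw [hY.cav_self hadj, hY.cav_self hadj.symm]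
      exact edge_cov_symm S.hθ0 S.theta_sq_le _ _
    unfold cov at h1 ⊢
    rw [Finset.prod_range_succ, Finset.prod_range_succ, ← mul_assoc, ← mul_assoc, ← h1]
    calc _ = ((1 - S.mag Y (p (k + 1)) ^ 2) * bco S.θ (S.cav Y (p k) (p (k + 1)))) *
          ∏ i ∈ Finset.range k, bco S.θ (S.cav Y (p i) (p (i + 1))) := by ring
      _ = _ := by rw [h2]; ring

theorem Good.cov_eq_exp_cost {Y : V → ℝ} (hY : S.Good Y) {p : ℕ → V} {k : ℕ} (hp : S.IsNB p k) :
    S.cov Y p k = S.θ ^ k * Real.exp (-S.cost Y p k) := by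
  have hpos : 0 ≤ S.θ ^ k * Real.exp (-S.cost Y p k) :=
    mul_nonneg (pow_nonneg S.hθ0 k) (Real.exp_pos _).le
  rw [← sq_eq_sq₀ (cov_nonneg Y p k) hpos, sq]
  nth_rewrite 1 [hY.cov_eq_rev hp]
  unfold cov cost
  simp only [mag, one_sub_tanh_sq, bco_eq S.hθ0 S.theta_sq_le, Finset.prod_mul_distrib,
    Finset.prod_const, Finset.card_range, ← Real.exp_sum, ecost]
  rw [mul_pow, ← Real.exp_nat_mul, ← Finset.sum_div, Finset.sum_add_distrib,
    Finset.sum_neg_distrib, Finset.sum_neg_distrib]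
  set A := ∑ i ∈ Finset.range k, alpha S.θ (S.cav Y (p i) (p (i + 1)))
  set B := ∑ i ∈ Finset.range k, alpha S.θ (S.cav Y (p (i + 1)) (p i))
  set a := lc (S.cav Y (p 0) (p 0))
  set b := lc (S.cav Y (p k) (p k))
  have : ((2 : ℕ) : ℝ) * -((A + B) / 2 + a + b) = -(2 * a) + -B + -(2 * b) + -A := by
    push_cast; ring
  rw [this, Real.exp_add, Real.exp_add, Real.exp_add]
  ring

/-- continuity of `cov` in the cavity fields -/
lemma tendsto_cov {Yn : ℕ → V → ℝ} {Y : V → ℝ}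
    (h : ∀ y x, S.DE y x → Tendsto (fun n => S.cav (Yn n) y x) atTop (𝓝 (S.cav Y y x)))
    {p : ℕ → V} {k : ℕ} (hp : S.IsNB p k) :
    Tendsto (fun n => S.cov (Yn n) p k) atTop (𝓝 (S.cov Y p k)) := by
  unfold cov
  refine Tendsto.mul (tendsto_const_nhds.sub (Tendsto.pow ?_ 2))
    (tendsto_finsetProd _ fun i hi => ?_)
  · exact (continuous_tanh'.tendsto _).comp (h _ _ (DE_self _))
  · exact ((continuous_bco S.hθ0 S.theta_sq_le).tendsto _).comp
      (h _ _ (Or.inr (hp.1 i (Finset.mem_range.1 hi))))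

end Setup

end Crest.Agent.R160
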