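import Crest.Agent.R160.Tree1
import Crest.Agent.R160.Calc1

/-!
# Row 160 (S0241): Cav0
Deterministic facts about the cavity fields.
`mag_update`: `Y'` and `Y` differ only at `u = p k`, so `cav (p i) (p (i+1))` is unchanged
(`IsNB.not_mem_D`, `cav_congr`); `edge_regression` gives
`mag' (p i) - mag (p i) = bco (cav (p i) (p (i+1))) * (mag' (p (i+1)) - mag (p (i+1)))`, and at `u` use
`tanh_update`.  `cov_eq_exp_cost`: by `edge_cov_symm`,
`cov = (1 - mag (p 0)²) ∏ bco (cav (p (i+1)) (p i))` as well; multiply the two formulas.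
-/

set_option autoImplicit false

open MeasureTheory Filter Topology
open scoped unitInterval

noncomputable section

namespace Crest.Agent.R160

universe u

namespace Setup

variable {V : Type u} (S : Setup V)

variable {S}

lemma cavN_succ (n : ℕ) (Y : V → ℝ) (y x : V) :
    S.cavN (n + 1) Y y x = Y y + ∑ z ∈ S.ch y x, fm S.θ (S.cavN n Y z y) := rfl

lemma cavN_zero_depth (Y : V → ℝ) (y x : V) : S.cavN 0 Y y x = 0 := rfl

lemma cavN_neg (n : ℕ) (Y : V → ℝ) (y x : V) : S.cavN n (fun v => -Y v) y x = -S.cavN n Y y x := by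
  induction n generalizing y x with
  | zero => simp [cavN_zero_depth]
  | succ n ih =>
    rw [cavN_succ, cavN_succ, neg_add, ← Finset.sum_neg_distrib]
    congr 1
    refine Finset.sum_congr rfl fun z _ => ?_
    rw [ih, fm_neg S.hθ0 S.theta_sq_le]

lemma cav_neg (Y : V → ℝ) (y x : V) : S.cav (fun v => -Y v) y x = -S.cav Y y x := by
  unfold cav
  simp only [cavN_neg]
  exact Lim_neg _

lemma cav_sgn_mul {c : ℝ} (hc : c = 1 ∨ c = -1) (Y : V → ℝ) (y x : V) :
    S.cav (fun v => c * Y v) y x = c * S.cav Y y x := by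
  rcases hc with rfl | rfl
  · simp
  · simp only [neg_mul, one_mul]
    exact cav_neg Y y x

lemma cavN_congr {n : ℕ} {Y Y' : V → ℝ} {y x : V} (h : S.DE y x)
    (hY : ∀ v ∈ S.DN n y x, Y v = Y' v) : S.cavN n Y y x = S.cavN n Y' y x := by
  classical
  induction n generalizing y x with
  | zero => rfl
  | succ n ih =>
    rw [cavN_succ, cavN_succ]
    have hy : Y y = Y' y := by
      refine hY y ((mem_DN h).2 ⟨self_mem_D h, ?_⟩)
      rw [dist_eq_zero.2 rfl]
      exact Nat.succ_pos n
    rw [hy]
    congr 1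
    refine Finset.sum_congr rfl fun z hz => ?_
    have hz' : S.DE z y := Or.inr (mem_ch.1 hz).1.symm
    rw [ih hz']
    intro v hv
    obtain ⟨hv1, hv2⟩ := (mem_DN hz').1 hv
    refine hY v ((mem_DN h).2 ⟨D_subset h hz hv1, ?_⟩)
    rcases dist_adj (mem_ch.1 hz).1 v with h1 | h1 <;> omega

lemma cav_congr {Y Y' : V → ℝ} {y x : V} (h : S.DE y x) (hY : ∀ v ∈ S.D y x, Y v = Y' v) :
    S.cav Y y x = S.cav Y' y x := by
  unfold cav
  congr 1
  funext n
  exact cavN_congr h fun v hv => hY v ((mem_DN h).1 hv).1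

lemma cavN_zero (n : ℕ) (y x : V) : S.cavN n (fun _ => 0) y x = 0 := by
  induction n generalizing y x with
  | zero => rfl
  | succ n ih =>
    rw [cavN_succ, zero_add]
    refine Finset.sum_eq_zero fun z _ => ?_
    rw [ih, fm_zero S.hθ0 S.theta_sq_le]

lemma cavN_map (g : S.G ≃g S.G) (n : ℕ) (Y : V → ℝ) (y x : V) :
    S.cavN n (fun v => Y (g v)) y x = S.cavN n Y (g y) (g x) := by
  induction n generalizing y x with
  | zero => rfl
  | succ n ih =>
    rw [cavN_succ, cavN_succ, sum_ch_map g y x]
    congr 1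
    refine Finset.sum_congr rfl fun z _ => ?_
    rw [ih]

lemma cav_map (g : S.G ≃g S.G) (Y : V → ℝ) (y x : V) :
    S.cav (fun v => Y (g v)) y x = S.cav Y (g y) (g x) := by
  unfold cav
  simp only [cavN_map]

lemma abs_cavN_le {Y : V → ℝ} {y : V} {B : ℝ} (hB : |Y y| ≤ B) (n : ℕ) (x : V) :
    |S.cavN n Y y x| ≤ B + S.d := by
  cases n with
  | zero =>
    rw [cavN_zero_depth, abs_zero]
    have h0 : 0 ≤ B := (abs_nonneg (Y y)).trans hB
    positivity
  | succ n =>
    rw [cavN_succ]
    refine (abs_add_le _ _).trans (add_le_add hB ?_)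
    refine (Finset.abs_sum_le_sum_abs _ _).trans ?_
    calc ∑ z ∈ S.ch y x, |fm S.θ (S.cavN n Y z y)| ≤ ∑ _z ∈ S.ch y x, (1 : ℝ) :=
          Finset.sum_le_sum fun z _ => abs_fm_le_one S.hθ0 S.theta_sq_le _
      _ = (S.ch y x).card := by simp
      _ ≤ S.d := by exact_mod_cast card_ch_le y x

lemma abs_cav_le {Y : V → ℝ} {y : V} {B : ℝ} (hB : |Y y| ≤ B) (x : V) :
    |S.cav Y y x| ≤ B + S.d :=
  abs_Lim_le fun n => abs_cavN_le hB n x

lemma measurable_cavN (n : ℕ) (y x : V) : Measurable fun Y : V → ℝ => S.cavN n Y y x := by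
  induction n generalizing y x with
  | zero => exact measurable_const
  | succ n ih =>
    simp only [cavN_succ]
    refine (measurable_pi_apply y).add (Finset.measurable_sum _ fun z _ => ?_)
    exact (continuous_fm S.hθ0 S.theta_sq_le).measurable.comp (ih z y)

lemma measurable_cav (y x : V) : Measurable fun Y : V → ℝ => S.cav Y y x :=
  measurable_Lim fun n => measurable_cavN n y x

lemma measurable_mag (v : V) : Measurable fun Y : V → ℝ => S.mag Y v :=
  continuous_tanh'.measurable.comp (measurable_cav v v)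

lemma measurable_cov (p : ℕ → V) (k : ℕ) : Measurable fun Y : V → ℝ => S.cov Y p k := by
  unfold cov
  refine (measurable_const.sub ((measurable_mag _).pow_const 2)).mul
    (Finset.measurable_prod _ fun i _ => ?_)
  exact (continuous_bco S.hθ0 S.theta_sq_le).measurable.comp (measurable_cav _ _)

lemma measurable_ecost (x y : V) : Measurable fun Y : V → ℝ => S.ecost Y x y := by
  unfold ecost
  have h := (continuous_alpha S.hθ0 S.theta_sq_le).measurable
  exact ((h.comp (measurable_cav x y)).add (h.comp (measurable_cav y x))).div_const 2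

lemma measurable_cost (p : ℕ → V) (k : ℕ) : Measurable fun Y : V → ℝ => S.cost Y p k := by
  unfold cost
  exact ((Finset.measurable_sum _ fun i _ => measurable_ecost _ _).add
    (continuous_lc.measurable.comp (measurable_cav _ _))).add
    (continuous_lc.measurable.comp (measurable_cav _ _))

lemma abs_mag_le (Y : V → ℝ) (v : V) : |S.mag Y v| ≤ 1 := abs_tanh_le_one _

end Setup

end Crest.Agent.R160
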