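import Crest.Agent.R160.Tree1

/-!
# Row 160 (S0241): Tree2
Counting in the regular tree.
`radial_bound`: put `l = dist x x' ≥ 1`, `C i n = {v | dist x v = i + n, dist x' v = l - i + n}`
(`i ≤ l`).  Every `v` lies in some `C i n` and `|C i n| ≤ (d-1)^n`: if `dist x v + dist x' v > l` then
`par x v = par x' v` (otherwise `x … v … x'` is non-backtracking of length `> l`), and a vertex has at
most `d-1` such children since `l ≥ 1`; `C i 0` is the single point `geod x x' i`.  Then
Cauchy–Schwarz in `n` for each `i`.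
-/

set_option autoImplicit false

open MeasureTheory Filter Topology
open scoped unitInterval

noncomputable section

namespace Crest.Agent.R160

universe u

namespace Setup

variable {V : Type u} (S : Setup V)

include S in
lemma countable_V : Countable V := by
  rw [← Set.countable_univ_iff]
  have : (Set.univ : Set V) = ⋃ n : ℕ, (S.ball n S.o : Set V) := by
    ext v
    simp only [Set.mem_univ, Set.mem_iUnion, Finset.mem_coe, true_iff]
    exact ⟨_, mem_ball.mpr (Nat.lt_succ_self _)⟩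
  rw [this]
  exact Set.countable_iUnion fun n => (S.ball n S.o).countable_toSet

include S in
lemma countable_Idx : Countable (Idx V) := by
  haveI := S.countable_V
  let f : Bool ⊕ (V × V) ⊕ (V × ℕ) ⊕ (V × ℕ) → Idx V := fun
    | .inl true => Idx.rho
    | .inl false => Idx.root
    | .inr (.inl p) => Idx.edge s(p.1, p.2)
    | .inr (.inr (.inl p)) => Idx.time p.1 p.2
    | .inr (.inr (.inr p)) => Idx.noise p.1 p.2
  have hf : Function.Surjective f := by
    intro i
    cases i with
    | rho => exact ⟨.inl true, rfl⟩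
    | root => exact ⟨.inl false, rfl⟩
    | edge e =>
      induction e using Sym2.ind with
      | h a b => exact ⟨.inr (.inl (a, b)), rfl⟩
    | time v j => exact ⟨.inr (.inr (.inl (v, j))), rfl⟩
    | noise v j => exact ⟨.inr (.inr (.inr (v, j))), rfl⟩
  exact hf.countable

variable {S}

lemma t2_triangle (x y z : V) : S.G.dist x z ≤ S.G.dist x y + S.G.dist y z :=
  S.tree.connected.dist_triangle

lemma t2_dist_par_le (u x : V) : S.G.dist u (S.par u x) ≤ S.G.dist u x := by
  by_cases h : x = u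
  · subst h; rw [par_self]
  · have := dist_par (S := S) h; omega

lemma t2_ne_of_dist {x v : V} {k : ℕ} (h : S.G.dist x v = k + 1) : v ≠ x := by
  rintro rfl
  rw [SimpleGraph.dist_self] at h
  omega

lemma t2_mem_ch_par {x v : V} {k : ℕ} (h : S.G.dist x v = k + 1) :
    v ∈ S.ch (S.par x v) (S.par x (S.par x v)) := by
  have hne := t2_ne_of_dist h
  refine mem_ch.mpr ⟨(adj_par hne).symm, fun heq => ?_⟩
  have h1 := dist_par (S := S) hne
  have h2 := t2_dist_par_le (S := S) x (S.par x v)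
  rw [← heq] at h2
  omega

lemma t2_cast_sub : ((S.d - 1 : ℕ) : ℝ) = (S.d : ℝ) - 1 := by
  have := S.hd
  rw [Nat.cast_sub (by omega)]; simp

lemma card_sphere_le (x : V) (k : ℕ) (F : Finset V) (hF : ∀ v ∈ F, S.G.dist x v = k) :
    (F.card : ℝ) ≤ 2 * ((S.d : ℝ) - 1) ^ k := by
  classical
  have h2 := S.two_le_d_sub_one
  induction k generalizing F with
  | zero =>
    have : F.card ≤ 1 := Finset.card_le_one.mpr fun a ha b hb => by
      rw [← dist_eq_zero.mp (hF a ha), ← dist_eq_zero.mp (hF b hb)]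
    have : (F.card : ℝ) ≤ 1 := by exact_mod_cast this
    simp only [pow_zero]; linarith
  | succ k ih =>
    rcases Nat.eq_zero_or_pos k with rfl | hk
    · have h1 : F ⊆ S.nb x := fun v hv => mem_nb.mpr (dist_eq_one.mp (hF v hv))
      have h3 := Finset.card_le_card h1
      rw [card_nb] at h3
      have h4 : (F.card : ℝ) ≤ S.d := by exact_mod_cast h3
      simp only [zero_add, pow_one]; linarith
    · have hd : ∀ y ∈ F.image (S.par x), S.G.dist x y = k := by
        intro y hy
        obtain ⟨v, hv, rfl⟩ := Finset.mem_image.mp hy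
        have := dist_par (S := S) (t2_ne_of_dist (hF v hv))
        have := hF v hv
        omega
      have h1 := Finset.card_le_mul_card_image (f := S.par x) F (S.d - 1) (by
        intro y hy
        have hy0 : y ≠ x := by
          obtain ⟨k', rfl⟩ : ∃ k', k = k' + 1 := ⟨k - 1, by omega⟩
          exact t2_ne_of_dist (hd y hy)
        rw [← card_ch_adj (adj_par hy0)]
        refine Finset.card_le_card fun v hv => ?_
        obtain ⟨hv1, rfl⟩ := Finset.mem_filter.mp hv
        exact t2_mem_ch_par (hF v hv1))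
      have h3 := ih _ hd
      have h4 : (F.card : ℝ) ≤ ((S.d : ℝ) - 1) * (F.image (S.par x)).card := by
        rw [← t2_cast_sub]; exact_mod_cast h1
      have h5 := mul_le_mul_of_nonneg_left h3 (show 0 ≤ (S.d : ℝ) - 1 by linarith)
      rw [pow_succ]; linarith

lemma t2_grow (u : V) (m : ℕ) (F : Finset V) (hF : ∀ y ∈ F, S.G.dist u y = m) :
    ∃ F' : Finset V, (∀ z ∈ F', S.G.dist u z = m + 1 ∧ ∃ y ∈ F, S.G.Adj y z) ∧
      (S.d - 1) * F.card ≤ F'.card := by
  classical
  have key : ∀ y ∈ F, ∀ z ∈ S.ch y (S.par u y), S.G.dist u z = m + 1 ∧ y = S.par u z := by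
    intro y hy z hz
    obtain ⟨h1, h2⟩ := mem_ch.mp hz
    have h3 := dist_of_ne_par h1 h2
    exact ⟨by rw [h3, hF y hy], eq_par h1.symm (by omega)⟩
  refine ⟨F.biUnion fun y => S.ch y (S.par u y), fun z hz => ?_, ?_⟩
  · obtain ⟨y, hy, hz⟩ := Finset.mem_biUnion.mp hz
    exact ⟨(key y hy z hz).1, y, hy, (mem_ch.mp hz).1⟩
  · rw [Finset.card_biUnion, mul_comm]
    · refine Finset.card_nsmul_le_sum F _ _ fun y _ => ?_
      rw [← card_nb (S := S) y]
      unfold ch
      convert Finset.pred_card_le_card_erase (s := S.nb y) (a := S.par u y)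
    · intro y hy y' hy' hne
      refine Finset.disjoint_left.mpr fun z hz hz' => hne ?_
      rw [(key y hy z hz).2, (key y' hy' z hz').2]

lemma exists_sphere (x : V) (k : ℕ) :
    ∃ F : Finset V, (∀ v ∈ F, S.G.dist x v = k) ∧ ((S.d : ℝ) - 1) ^ k ≤ F.card := by
  induction k with
  | zero => exact ⟨{x}, by simp, by simp⟩
  | succ k ih =>
    obtain ⟨F, h1, h2⟩ := ih
    obtain ⟨F', h3, h4⟩ := t2_grow x k F h1
    refine ⟨F', fun v hv => (h3 v hv).1, ?_⟩
    have h5 : ((S.d : ℝ) - 1) * F.card ≤ F'.card := by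
      rw [← t2_cast_sub]; exact_mod_cast h4
    have h6 := mul_le_mul_of_nonneg_left h2
      (show 0 ≤ (S.d : ℝ) - 1 by linarith [S.two_le_d_sub_one])
    rw [pow_succ]; linarith

lemma t2_sum_le (x : V) (A : Finset V) (T : Finset ℕ) (hT : ∀ v ∈ A, S.G.dist x v ∈ T)
    (φ : ℕ → ℝ) (hφ : ∀ k, 0 ≤ φ k) (F : V → ℝ) (hF : ∀ v ∈ A, F v ≤ φ (S.G.dist x v)) :
    ∑ v ∈ A, F v ≤ ∑ k ∈ T, 2 * ((S.d : ℝ) - 1) ^ k * φ k := by
  rw [← Finset.sum_fiberwise_of_maps_to hT]
  refine Finset.sum_le_sum fun k _ => ?_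
  have h1 : ∑ v ∈ A with S.G.dist x v = k, F v ≤ (A.filter fun v => S.G.dist x v = k).card • φ k :=
    Finset.sum_le_card_nsmul _ _ _ fun v hv => by
      obtain ⟨h1, h2⟩ := Finset.mem_filter.mp hv
      rw [← h2]; exact hF v h1
  rw [nsmul_eq_mul] at h1
  refine h1.trans (mul_le_mul_of_nonneg_right ?_ (hφ k))
  exact card_sphere_le x k _ fun v hv => (Finset.mem_filter.mp hv).2

lemma sum_ball_le (x : V) (n : ℕ) (φ : ℕ → ℝ) (hφ : ∀ k, 0 ≤ φ k) (F : V → ℝ)
    (hF : ∀ v, F v ≤ φ (S.G.dist x v)) :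
    ∑ v ∈ S.ball n x, F v ≤ ∑ k ∈ Finset.range n, 2 * ((S.d : ℝ) - 1) ^ k * φ k :=
  t2_sum_le x _ _ (fun v hv => by
    rw [Finset.mem_range, SimpleGraph.dist_comm]; exact mem_ball.mp hv) φ hφ F (fun v _ => hF v)

open Classical in
lemma sum_annulus_le (x : V) (n N : ℕ) (φ : ℕ → ℝ) (hφ : ∀ k, 0 ≤ φ k) (F : V → ℝ)
    (hF : ∀ v ∈ S.ball N x, F v ≤ φ (S.G.dist x v)) :
    ∑ v ∈ S.ball N x \ S.ball n x, F v ≤ ∑ k ∈ Finset.Ico n N, 2 * ((S.d : ℝ) - 1) ^ k * φ k :=
  t2_sum_le x _ _ (fun v hv => by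
    obtain ⟨h1, h2⟩ := Finset.mem_sdiff.mp hv
    rw [mem_ball] at h1 h2
    rw [Finset.mem_Ico, SimpleGraph.dist_comm]
    exact ⟨not_lt.mp h2, h1⟩) φ hφ F (fun v hv => hF v (Finset.mem_sdiff.mp hv).1)

/-- if the parents towards `x` and `x'` differ, the vertex lies between `x` and `x'` -/
lemma t2_between (x x' : V) (a : ℕ) : ∀ v, S.G.dist x v = a → (a = 0 ∨ S.par x v ≠ S.par x' v) →
    S.G.dist x' x = S.G.dist x' v + a := by
  induction a with
  | zero => intro v hv _; rw [dist_eq_zero.mp hv]; rfl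
  | succ a ih =>
    intro v hv h
    have hne := t2_ne_of_dist hv
    have h1 : S.par x v ≠ S.par x' v := h.resolve_left (by omega)
    have h2 := adj_par (S := S) hne
    have h3 := dist_of_ne_par h2 h1
    have h4 := dist_par (S := S) hne
    have h5 : v = S.par x' (S.par x v) := eq_par h2.symm (by omega)
    have h6 := ih (S.par x v) (by omega) (Or.inr (by
      rw [← h5]
      intro heq
      have := t2_dist_par_le (S := S) x (S.par x v)
      rw [heq] at this
      omega))
    omega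

/-- a vertex between `x` and `x'` lies on the geodesic -/
lemma t2_eq_geod (x x' : V) (i : ℕ) : ∀ v, S.G.dist x v = i →
    i + S.G.dist x' v = S.G.dist x x' → v = S.geod x x' i := by
  induction i with
  | zero => intro v hv _; rw [geod_zero, dist_eq_zero.mp hv]
  | succ i ih =>
    intro v hv h
    have hne := t2_ne_of_dist hv
    have h2 := adj_par (S := S) hne
    have h4 := dist_par (S := S) hne
    have h5 := t2_triangle (S := S) x (S.par x v) x'
    have h6 := t2_triangle (S := S) x' v (S.par x v)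
    rw [dist_eq_one.mpr h2] at h6
    rw [SimpleGraph.dist_comm (u := S.par x v)] at h5
    have h7 := ih (S.par x v) (by omega) (by omega)
    rw [geod_succ, ← h7]
    exact eq_par h2.symm (by omega)

lemma t2_parity (v x' : V) (l : ℕ) : ∀ x, S.G.dist x' x = l →
    (S.G.dist v x + S.G.dist v x' + l) % 2 = 0 := by
  induction l with
  | zero => intro x hx; rw [dist_eq_zero.mp hx]; omega
  | succ l ih =>
    intro x hx
    have hne := t2_ne_of_dist hx
    have h4 := dist_par (S := S) hne
    have h1 := ih (S.par x' x) (by omega)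
    rcases dist_adj (adj_par (S := S) hne) v with h | h <;> omega

lemma t2_card_cell {x x' : V} (hne : x ≠ x') (i j : ℕ) (hij : i + j = S.G.dist x x') (n : ℕ) :
    ∀ F : Finset V, (∀ v ∈ F, S.G.dist x v = i + n ∧ S.G.dist x' v = j + n) →
      F.card ≤ (S.d - 1) ^ n := by
  classical
  induction n with
  | zero =>
    intro F hF
    rw [pow_zero]
    refine Finset.card_le_one.mpr fun a ha b hb => ?_
    rw [t2_eq_geod x x' i a (hF a ha).1 (by have := (hF a ha).2; omega),
      t2_eq_geod x x' i b (hF b hb).1 (by have := (hF b hb).2; omega)]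
  | succ n ih =>
    intro F hF
    have hpar : ∀ v ∈ F, S.par x v = S.par x' v := by
      intro v hv
      by_contra hcon
      have h1 := t2_between x x' _ v rfl (Or.inr hcon)
      rw [SimpleGraph.dist_comm] at h1
      have := hF v hv
      omega
    have hd : ∀ y ∈ F.image (S.par x), S.G.dist x y = i + n ∧ S.G.dist x' y = j + n := by
      intro y hy
      obtain ⟨v, hv, rfl⟩ := Finset.mem_image.mp hy
      obtain ⟨h1, h2⟩ := hF v hv
      have h3 := dist_par (S := S) (t2_ne_of_dist (k := i + n) h1)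
      have h4 := dist_par (S := S) (t2_ne_of_dist (k := j + n) h2)
      rw [← hpar v hv] at h4
      omega
    have h1 := Finset.card_le_mul_card_image (f := S.par x) F (S.d - 1) (by
      intro y _
      by_cases hy : y = x
      · have hy' : y ≠ x' := hy ▸ hne
        rw [← card_ch_adj (adj_par hy')]
        refine Finset.card_le_card fun v hv => ?_
        obtain ⟨hv1, rfl⟩ := Finset.mem_filter.mp hv
        rw [hpar v hv1]
        exact t2_mem_ch_par (k := j + n) (hF v hv1).2
      · rw [← card_ch_adj (adj_par hy)]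
        refine Finset.card_le_card fun v hv => ?_
        obtain ⟨hv1, rfl⟩ := Finset.mem_filter.mp hv
        exact t2_mem_ch_par (k := i + n) (hF v hv1).1)
    rw [pow_succ']
    exact h1.trans (Nat.mul_le_mul_left _ (ih _ hd))

lemma radial_bound (ψ : ℕ → ℝ) (hψ : ∀ m, 0 ≤ ψ m) (E : ℝ)
    (hE : ∀ M, ∑ m ∈ Finset.range M, ((S.d : ℝ) - 1) ^ m * ψ m ^ 2 ≤ E)
    {x x' : V} (hne : x ≠ x') (F : Finset V) :
    ∑ v ∈ F, ψ (S.G.dist x v) * ψ (S.G.dist x' v) ≤
      ((S.G.dist x x' : ℝ) + 1) * (Real.sqrt ((S.d : ℝ) - 1))⁻¹ ^ S.G.dist x x' * E := by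
  classical
  set l := S.G.dist x x' with hl
  set r := (S.d : ℝ) - 1 with hr
  have hr0 : 0 < r := by linarith [S.two_le_d_sub_one]
  set s := Real.sqrt r with hs
  have hs0 : 0 < s := Real.sqrt_pos.mpr hr0
  have hss : s ^ 2 = r := Real.sq_sqrt hr0.le
  let g : V → ℕ × ℕ := fun v =>
    ((S.G.dist x v + l - S.G.dist x' v) / 2, (S.G.dist x v + S.G.dist x' v - l) / 2)
  have hg : ∀ v, (g v).1 ≤ l ∧ S.G.dist x v = (g v).1 + (g v).2 ∧
      S.G.dist x' v = l - (g v).1 + (g v).2 := by
    intro v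
    have h1 := t2_parity (S := S) v x' _ x rfl
    have h2 := t2_triangle (S := S) x v x'
    have h3 := t2_triangle (S := S) x x' v
    have h4 := t2_triangle (S := S) x' x v
    rw [SimpleGraph.dist_comm (u := v), SimpleGraph.dist_comm (u := v),
      SimpleGraph.dist_comm (u := x') (v := x)] at h1
    rw [SimpleGraph.dist_comm (u := v)] at h2
    rw [SimpleGraph.dist_comm (u := x') (v := x)] at h4
    simp only [g]
    omega
  obtain ⟨M, hM⟩ : ∃ M : ℕ, ∀ v ∈ F, (g v).2 < M :=
    ⟨F.sup (fun v => (g v).2) + 1, fun v hv =>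
      Nat.lt_succ_of_le (Finset.le_sup (f := fun v => (g v).2) hv)⟩
  have hmaps : ∀ v ∈ F, g v ∈ Finset.range (l + 1) ×ˢ Finset.range M := fun v hv =>
    Finset.mem_product.mpr ⟨Finset.mem_range.mpr (Nat.lt_succ_of_le (hg v).1),
      Finset.mem_range.mpr (hM v hv)⟩
  have hshift : ∀ i, ∑ n ∈ Finset.range M, r ^ (i + n) * ψ (i + n) ^ 2 ≤ E := by
    intro i
    refine le_trans ?_ (hE (i + M))
    rw [Finset.sum_range_add]
    exact le_add_of_nonneg_left (Finset.sum_nonneg fun m _ => by positivity)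
  rw [← Finset.sum_fiberwise_of_maps_to hmaps, Finset.sum_product]
  have hrow : ∀ i ∈ Finset.range (l + 1), ∑ n ∈ Finset.range M,
      ∑ v ∈ F with g v = (i, n), ψ (S.G.dist x v) * ψ (S.G.dist x' v) ≤ s⁻¹ ^ l * E := by
    intro i hi
    have hil : i ≤ l := Nat.lt_succ_iff.mp (Finset.mem_range.mp hi)
    have hcell : ∀ n, ∑ v ∈ F with g v = (i, n), ψ (S.G.dist x v) * ψ (S.G.dist x' v) ≤
        s⁻¹ ^ l * ((r ^ (i + n) * ψ (i + n) ^ 2 + r ^ (l - i + n) * ψ (l - i + n) ^ 2) / 2) := by
      intro n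
      have hmem : ∀ v ∈ F.filter (fun v => g v = (i, n)),
          S.G.dist x v = i + n ∧ S.G.dist x' v = l - i + n := by
        intro v hv
        have h1 := (Finset.mem_filter.mp hv).2
        have h2 := hg v
        rw [h1] at h2
        exact h2.2
      have h1 := Finset.sum_le_card_nsmul (F.filter (fun v => g v = (i, n)))
        (fun v => ψ (S.G.dist x v) * ψ (S.G.dist x' v)) (ψ (i + n) * ψ (l - i + n))
        (fun v hv => by rw [(hmem v hv).1, (hmem v hv).2])
      rw [nsmul_eq_mul] at h1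
      have h2 := t2_card_cell hne i (l - i) (by omega) n _ hmem
      have h3 : ((F.filter (fun v => g v = (i, n))).card : ℝ) ≤ r ^ n := by
        rw [hr, ← t2_cast_sub]; exact_mod_cast h2
      refine h1.trans ((mul_le_mul_of_nonneg_right h3 (mul_nonneg (hψ _) (hψ _))).trans ?_)
      have e1 : r ^ n * (ψ (i + n) * ψ (l - i + n)) =
          s⁻¹ ^ l * ((s ^ (i + n) * ψ (i + n)) * (s ^ (l - i + n) * ψ (l - i + n))) := by
        have e2 : s ^ (i + n) * s ^ (l - i + n) = s ^ l * r ^ n := by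
          rw [← hss, ← pow_mul, ← pow_add, ← pow_add]; congr 1; omega
        have e3 : s⁻¹ ^ l * s ^ l = 1 := by rw [← mul_pow, inv_mul_cancel₀ hs0.ne', one_pow]
        calc r ^ n * (ψ (i + n) * ψ (l - i + n))
            = (s⁻¹ ^ l * s ^ l) * r ^ n * (ψ (i + n) * ψ (l - i + n)) := by rw [e3, one_mul]
          _ = s⁻¹ ^ l * ((s ^ l * r ^ n) * (ψ (i + n) * ψ (l - i + n))) := by ring
          _ = _ := by rw [← e2]; ring
      rw [e1]
      refine mul_le_mul_of_nonneg_left ?_ (by positivity)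
      have e4 : ∀ m, r ^ m * ψ m ^ 2 = (s ^ m * ψ m) ^ 2 := by
        intro m; rw [← hss, ← pow_mul, mul_pow, ← pow_mul, mul_comm 2 m]
      rw [e4, e4]
      nlinarith [sq_nonneg (s ^ (i + n) * ψ (i + n) - s ^ (l - i + n) * ψ (l - i + n))]
    refine (Finset.sum_le_sum fun n _ => hcell n).trans ?_
    rw [← Finset.mul_sum, ← Finset.sum_div, Finset.sum_add_distrib]
    refine mul_le_mul_of_nonneg_left ?_ (by positivity)
    linarith [hshift i, hshift (l - i)]
  refine (Finset.sum_le_card_nsmul _ _ _ hrow).trans (le_of_eq ?_)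
  rw [Finset.card_range, nsmul_eq_mul]
  push_cast
  ring

/-- `2^n` non-backtracking continuations of the directed edge `x' → x` whose subtrees at depth `n`
are pairwise disjoint. -/
lemma exists_desc {x' x : V} (h : S.G.Adj x' x) (n k : ℕ) :
    ∃ (J : Finset V) (q : V → ℕ → V), 2 ^ n ≤ J.card ∧
      (∀ y ∈ J, S.IsNB (q y) k ∧ S.IsNB (q y) (n + 1) ∧ q y 0 = x' ∧ q y 1 = x) ∧
      (J : Set V).PairwiseDisjoint fun y => S.D (q y (n + 1)) (q y n) := by
  have h1 : S.G.dist x' x = 1 := dist_eq_one.mpr h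
  have hJ : ∃ J : Finset V, 2 ^ n ≤ J.card ∧
      ∀ y ∈ J, S.G.dist x' y = n + 1 ∧ S.G.dist x y = n := by
    induction n with
    | zero => exact ⟨{x}, by simp, by simp [h]⟩
    | succ n ih =>
      obtain ⟨J, h2, h3⟩ := ih
      obtain ⟨J', h4, h5⟩ := t2_grow x' (n + 1) J (fun y hy => (h3 y hy).1)
      refine ⟨J', ?_, fun z hz => ?_⟩
      · have := S.hd
        rw [pow_succ']
        exact (Nat.mul_le_mul (by omega) h2).trans h5
      · obtain ⟨h6, y, hy, h7⟩ := h4 z hz
        have h8 := t2_triangle (S := S) x y z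
        have h9 := t2_triangle (S := S) x' x z
        rw [dist_eq_one.mpr h7, (h3 y hy).2] at h8
        exact ⟨h6, by omega⟩
  obtain ⟨J, hcard, hJ⟩ := hJ
  have hq : ∀ y, ∃ q : ℕ → V, S.IsNB q (max k (n + 1)) ∧
      ∀ i, i ≤ S.G.dist x' y → q i = S.geod x' y i := fun y => (geod_isNB x' y).extend _
  choose q hq1 hq2 using hq
  have hlast : ∀ y ∈ J, q y (n + 1) = y := by
    intro y hy
    rw [hq2 y _ (hJ y hy).1.ge, ← (hJ y hy).1, geod_dist]
  have hadj : ∀ y ∈ J, S.G.Adj y (q y n) := by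
    intro y hy
    have := (hq1 y).1 n (lt_of_lt_of_le (Nat.lt_succ_self n) (le_max_right _ _))
    rw [hlast y hy] at this
    exact this.symm
  have hprev : ∀ y ∈ J, q y n = S.par x' y := by
    intro y hy
    refine eq_par (hadj y hy) ?_
    rw [hq2 y n (by rw [(hJ y hy).1]; omega), dist_geod x' y (by rw [(hJ y hy).1]; omega),
      (hJ y hy).1]
    omega
  have hD : ∀ y ∈ J, ∀ v ∈ S.D (q y (n + 1)) (q y n), y = S.geod x' v (n + 1) := by
    intro y hy v hv
    rw [hlast y hy, mem_D_adj (hadj y hy), hprev y hy] at hv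
    have h2 := t2_between x' v _ y (hJ y hy).1 (Or.inr (by
      intro heq
      have := t2_dist_par_le (S := S) v y
      rw [← heq] at this
      omega))
    refine t2_eq_geod x' v _ y (hJ y hy).1 ?_
    rw [SimpleGraph.dist_comm (u := x')]
    omega
  refine ⟨J, q, hcard, fun y hy => ⟨(hq1 y).mono (le_max_left _ _), (hq1 y).mono (le_max_right _ _),
    ?_, ?_⟩, ?_⟩
  · rw [hq2 y 0 (Nat.zero_le _), geod_zero]
  · rw [hq2 y 1 (by rw [(hJ y hy).1]; omega)]
    refine (t2_eq_geod x' y 1 x h1 ?_).symm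
    rw [SimpleGraph.dist_comm, (hJ y hy).1, (hJ y hy).2]
    omega
  · intro y hy y' hy' hne
    refine Set.disjoint_left.mpr fun v hv hv' => hne ?_
    rw [hD y hy v hv, ← hD y' hy' v hv']

end Setup

end Crest.Agent.R160
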