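import Crest.Agent.R160.Sigma
import Crest.Agent.R160.Tree2

/-!
# Row 160 (S0241): Past
Innovations: the conditional law of an observation given the past.
`innov`: resample `noise a` (`obs_T_dependsOn`): the left side is
`∫ ∫ Φ(obs, 2u-1) (1 + spin * eps * (2u-1)) du` by `integral_sgn_Qf`; this is affine in `spin a.1` with
`FF D (T a)`-measurable coefficients, so `pf` replaces `spin` by the magnetisation; go back by
`integral_Qf`.
-/

set_option autoImplicit false

open MeasureTheory Filter Topology
open scoped unitInterval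

noncomputable section

namespace Crest.Agent.R160

universe u

namespace Setup

variable {V : Type u} (S : Setup V)

variable {S}

lemma past_nu_tm (j : ℕ) (c : ℝ) : nu {ξ : X | tm j (ξ.1 : ℝ) = c} = 0 := by
  have e : {ξ : X | tm j (ξ.1 : ℝ) = c} = {u : I | tm j (u : ℝ) = c} ×ˢ (Set.univ : Set Bool) := by
    ext ξ; simp
  have hs : ({u : I | tm j (u : ℝ) = c}).Subsingleton := by
    intro u hu u' hu'
    simp only [Set.mem_ofPred_eq, tm] at hu hu'
    exact Subtype.ext (by linarith)
  rw [e, nu, Measure.prod_prod, hs.measure_zero, zero_mul]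

lemma past_T_ne {a b : V × ℕ} (h : a ≠ b) : ∀ᵐ ω ∂(mu V), T a ω ≠ T b ω := by
  classical
  have hS : MeasurableSet {ω : Om V | T a ω = T b ω} :=
    measurableSet_eq_fun (measurable_T a) (measurable_T b)
  have hmp := measurePreserving_update (ι := Idx V) nu (Idx.time a.1 a.2)
  have h1 := hmp.measure_preimage hS.nullMeasurableSet
  rw [ae_iff]
  simp only [ne_eq, not_not]
  change PP (Idx V) nu _ = 0
  rw [← h1]
  refine Measure.measure_prod_null_of_ae_null (hmp.measurable hS) (Eventually.of_forall fun ω => ?_)
  have hne : Idx.time b.1 b.2 ≠ Idx.time a.1 a.2 := by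
    intro hh
    injection hh with h1 h2
    exact h (Prod.ext h1 h2).symm
  have e : Prod.mk ω ⁻¹' ((fun p : (Idx V → X) × X => Function.update p.1 (Idx.time a.1 a.2) p.2) ⁻¹'
      {ω : Om V | T a ω = T b ω}) = {ξ : X | tm a.2 (ξ.1 : ℝ) = T b ω} := by
    ext ξ
    simp only [Set.mem_preimage, Set.mem_ofPred_eq, T, sv, Function.update_self,
      Function.update_of_ne hne]
  simp only [e, Pi.zero_apply]
  exact past_nu_tm _ _

include S in
theorem ae_distinct : ∀ᵐ ω ∂(mu V), ∀ a b : V × ℕ, T a ω = T b ω → a = b := by
  have := S.countable_V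
  refine ae_all_iff.2 fun a => ae_all_iff.2 fun b => ?_
  by_cases h : a = b
  · exact Eventually.of_forall fun _ _ => h
  · filter_upwards [past_T_ne h] with ω hω hh using absurd hh hω

lemma past_measurable_eps (D : Set V) (R : Om V → ℝ) (b : V × ℕ) : Measurable[S.FF D R] (eps b) := by
  refine measurable_FF_timeDep D R (measurable_eps b) fun ω ω' h => ?_
  simp only [eps, sv]
  rw [h _ (Or.inr ⟨b.1, b.2, rfl⟩)]

lemma measurableSet_FF_T_lt (D : Set V) {R : Om V → ℝ} {J : ℕ} (hR : IsTime R J) (b : V × ℕ) :
    MeasurableSet[S.FF D R] {ω | T b ω < R ω} :=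
  measurableSet_lt (measurable_FF_time D R (isTime_T b)) (measurable_FF_time D R hR)

open Classical in
/-- the field just before slot `b` is revealed is known at any later time -/
lemma measurable_FF_Y_T (D : Set V) {R : Om V → ℝ} {J : ℕ} (hR : IsTime R J) (b : V × ℕ) :
    Measurable[S.FF D R] fun ω => if T b ω < R ω then S.Y D (T b ω) ω else 0 :=
  measurable_FF_past' D (isTime_T b) (g := fun O => fld O.2) (measurable_fld.comp measurable_snd)
    (measurableSet_FF_T_lt D hR b) (fun _ h => h.le) measurable_const

open Classical in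
lemma measurable_FF_U {R : Om V → ℝ} {J : ℕ} (hR : IsTime R J) (b : V × ℕ) :
    Measurable[S.FF Set.univ R] fun ω => if T b ω < R ω then S.U b ω else 0 := by
  have e : (fun ω => if T b ω < R ω then S.U b ω else 0) = fun ω => if T b ω < R ω then
      Set.projIcc 0 1 zero_le_one (Ff (eps b ω *
        S.mag (if T b ω < R ω then S.Y Set.univ (T b ω) ω else 0) b.1)
        (if T b ω < R ω then S.w b ω else 0)) else 0 := by
    funext ω
    by_cases h : T b ω < R ω
    · simp only [h, if_true]
      rfl
    · simp only [h, if_false]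
  rw [e]
  refine Measurable.ite (measurableSet_FF_T_lt _ hR b) ?_ measurable_const
  refine continuous_projIcc.measurable.comp ?_
  exact measurable_Ff.comp
    (((past_measurable_eps _ R b).mul ((measurable_mag b.1).comp (measurable_FF_Y_T _ hR b))).prodMk
      (measurable_FF_w R (Set.mem_univ b.1)))

open Classical in
lemma measurable_FF_jump {D : Set V} {R : Om V → ℝ} {J : ℕ} (hR : IsTime R J) {b : V × ℕ}
    (hb : b.1 ∈ D) :
    Measurable[S.FF D R] fun ω => if T b ω < R ω then S.jump D b ω else 0 := by
  have e : (fun ω => if T b ω < R ω then S.jump D b ω else 0) = fun ω => if T b ω < R ω then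
      S.cov (if T b ω < R ω then S.Y D (T b ω) ω else 0) (S.geod S.o b.1) (S.G.dist S.o b.1) *
        ((eps b ω * (if T b ω < R ω then S.w b ω else 0)) /
          (1 + S.mag (if T b ω < R ω then S.Y D (T b ω) ω else 0) b.1 *
            (eps b ω * (if T b ω < R ω then S.w b ω else 0)))) else 0 := by
    funext ω
    by_cases h : T b ω < R ω
    · simp only [h, if_true]
      rfl
    · simp only [h, if_false]
  rw [e]
  refine Measurable.ite (measurableSet_FF_T_lt _ hR b) ?_ measurable_const
  have hY := measurable_FF_Y_T (S := S) D hR b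
  have ht := (past_measurable_eps (S := S) D R b).mul (measurable_FF_w (S := S) R hb)
  exact ((measurable_cov _ _).comp hY).mul
    (ht.div (measurable_const.add (((measurable_mag b.1).comp hY).mul ht)))

/-- the revealed labels are part of the past -/
lemma measurable_FF_cut {R : Om V → ℝ} {J : ℕ} (hR : IsTime R J) :
    Measurable[S.FF Set.univ R] fun ω => cut (R ω) (S.L ω) := by
  classical
  refine @measurable_pi_lambda _ _ _ (S.FF Set.univ R) _ _ fun v =>
    @measurable_pi_lambda _ _ _ (S.FF Set.univ R) _ _ fun j => ?_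
  have e : (fun ω => cut (R ω) (S.L ω) v j) = fun ω =>
      ((if T (v, j) ω < R ω then (ω (Idx.time v j)).1 else 1 : I),
        (if T (v, j) ω < R ω then S.U (v, j) ω else 0 : I)) := by
    funext ω
    have e1 : tm j ((S.L ω v j).1 : ℝ) = T (v, j) ω := rfl
    simp only [cut, e1]
    by_cases h : T (v, j) ω < R ω
    · simp only [h, if_true]
      rfl
    · simp only [h, if_false]
  rw [e]
  refine Measurable.prodMk ?_ (measurable_FF_U hR (v, j))
  refine Measurable.ite (measurableSet_FF_T_lt _ hR (v, j)) ?_ measurable_const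
  refine measurable_FF_timeDep _ R (measurable_fst.comp (measurable_pi_apply _)) fun ω ω' h => ?_
  rw [h _ (Or.inr ⟨v, j, rfl⟩)]

lemma GG_le_FF {R : Om V → ℝ} {J : ℕ} (hR : IsTime R J) : S.GG R ≤ S.FF Set.univ R := by
  have h : Measurable[S.FF Set.univ R] (S.Gam R) :=
    (measurable_fst.comp (measurable_FF_obs Set.univ R)).prodMk (measurable_FF_cut hR)
  exact h.comap_le

end Setup

end Crest.Agent.R160
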