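import Crest.Agent.R160.Subst
import Crest.Agent.R160.Past

/-!
# Row 160 (S0241): Compet
Growth of the conditional variance over a time interval.
Let `ρ = rhoT s t`.  For each `u` choose (Doob–Dynkin, `exists_condExp_version`,
`Measurable.exists_eq_measurable_comp`) `ψc u, ψm u : X × (V → Lab) → ℝ` with values in `[0,1]`, `[-1,1]` and
`ψc u ∘ Gam ρ = E[cov | GG ρ]`, `ψm u ∘ Gam ρ = E[mR ρ u | GG ρ]` a.e.  For a slot `a = (u, j')` put
`ξ r = (projIcc ((r-s)/(t-s)), true)`, `Jbar a = ψc u (ξ (T a), cut (T a) L) * gj (eps a) (ψm u (…)) (U a)`.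
`jump_sub_le`: only `j' = j` contributes (`amp_eq_zero`, `le_T`), `(jump - Jbar)² ≤ 8 ε² (c - ψc)² +
32 ε² c² (m - ψm)²` with `ε ≤ min t 1 / 2`, then `subst_time` (non-anticipation: `Y_congr_of_le_T`,
`cut_L_congr_of_le_T`), `integral_param` at `rho` and `integral_nu` (factor 2).
`NN_le`: competitor `E[mR s o | GG s] + ∑_{a ∈ ball n × range (j+1)} 1{s ≤ T a < R} Jbar a` is
`GG R`-measurable (`cut_cut`); the differences `1 (jump a - Jbar a)` and `res (GG s) (mR s o)` are pairwise
orthogonal (`jump_univ_eq`, `integral_mul_gj`); `expansion` controls the remainder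
(`(x + y)² ≤ (1+η) x² + (1+1/η) y²`).
-/

set_option autoImplicit false

open MeasureTheory Filter Topology
open scoped unitInterval

noncomputable section

namespace Crest.Agent.R160

universe u

namespace Setup

variable {V : Type u} (S : Setup V)

variable {S}

/-- Doob–Dynkin for conditional expectations given the labels -/
lemma exists_GG_version {R : Om V → ℝ} (hR : Measurable R) {Z : Om V → ℝ} (hZ : Measurable Z)
    (hZ1 : ∀ ω, |Z ω| ≤ 1) : ∃ ψ : X × (V → Lab) → ℝ, Measurable ψ ∧ (∀ p, |ψ p| ≤ 1) ∧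
      (fun ω => ψ (S.Gam R ω)) =ᵐ[mu V] (mu V)[Z | S.GG R] := by
  obtain ⟨W, hWm, hWb, hW⟩ := exists_condExp_version (μ := mu V) (GG_le (S := S) hR) hZ
    (a := -1) (b := 1) fun ω => abs_le.1 (hZ1 ω)
  obtain ⟨ψ, hψ, hWψ⟩ := hWm.exists_eq_measurable_comp
  refine ⟨fun p => max (-1) (min 1 (ψ p)), measurable_const.max (measurable_const.min hψ),
    fun p => abs_le.2 ⟨le_max_left _ _, max_le (by norm_num) (min_le_left _ _)⟩, ?_⟩
  filter_upwards [hW] with ω hω
  have h1 : W ω = ψ (S.Gam R ω) := congrFun hWψ ω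
  rw [← hω, ← h1, min_eq_right (hWb ω).2, max_eq_right (hWb ω).1]

lemma jump_sub_sq_le {e C c M m U : ℝ} (he0 : 0 ≤ e) (he : e ≤ 1 / 2) (hM : |M| ≤ 1) (hm : |m| ≤ 1)
    (hU0 : 0 ≤ U) (hU1 : U ≤ 1) :
    (C * gj e M U - c * gj e m U) ^ 2 ≤ 32 * e ^ 2 * ((C - c) ^ 2 + C ^ 2 * (M - m) ^ 2) := by
  have h1 := abs_gj_le he0 he hm hU0 hU1
  have h2 := gj_lipschitz he0 he hM hm hU0 hU1
  have h3 : gj e m U ^ 2 ≤ 4 * e ^ 2 := by
    rw [← sq_abs]
    nlinarith [abs_nonneg (gj e m U)]
  have h4 : (gj e M U - gj e m U) ^ 2 ≤ 16 * e ^ 2 * (M - m) ^ 2 := by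
    rw [← sq_abs, ← sq_abs (M - m)]
    have := pow_le_pow_left₀ (abs_nonneg _) h2 2
    nlinarith
  have h5 : C * gj e M U - c * gj e m U = (C - c) * gj e m U + C * (gj e M U - gj e m U) := by ring
  rw [h5]
  have h6 := mul_le_mul_of_nonneg_left h3 (sq_nonneg (C - c))
  have h7 := mul_le_mul_of_nonneg_left h4 (sq_nonneg C)
  have h8 : 0 ≤ e ^ 2 * (C - c) ^ 2 := by positivity
  nlinarith [sq_nonneg ((C - c) * gj e m U - C * (gj e M U - gj e m U))]

open Classical in
theorem exists_competitor {j : ℕ} {s t : ℝ} (hs : 0 < s) (hst : s < t) (hj : (j : ℝ) ≤ s)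
    (ht : t ≤ j + 1) (u : V) :
    ∃ c m : ℝ × (V → Lab) → ℝ, Measurable c ∧ Measurable m ∧ (∀ p, |c p| ≤ 1) ∧ (∀ p, |m p| ≤ 1) ∧
      ∑ j' ∈ Finset.range (j + 1),
        ∫ ω, (if s ≤ T (u, j') ω ∧ T (u, j') ω < t then
          (S.jump Set.univ (u, j') ω - c (T (u, j') ω, cut (T (u, j') ω) (S.L ω)) *
            gj (eps (u, j') ω) (m (T (u, j') ω, cut (T (u, j') ω) (S.L ω))) (S.U (u, j') ω)) ^ 2
          else 0) ∂(mu V) ≤
        32 * (t - s) * min t 1 ^ 2 * S.term (rhoT s t) u := by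
  set r₀ : X → ℝ := fun ξ => s + (t - s) * (ξ.1 : ℝ) with hr₀
  have mr₀ : Measurable r₀ :=
    ((measurable_subtype_coe.comp measurable_fst).const_mul _).const_add _
  have hρ : Measurable (rhoT s t : Om V → ℝ) := measurable_rhoT s t
  set cv : ℝ × Om V → ℝ := fun p =>
    S.cov (S.Y Set.univ p.1 p.2) (S.geod S.o u) (S.G.dist S.o u) with hcv
  set mg : ℝ × Om V → ℝ := fun p => S.mag (S.Y Set.univ p.1 p.2) u with hmg
  have cv1 : ∀ p, |cv p| ≤ 1 := fun p => by
    rw [abs_of_nonneg (cov_nonneg _ _ _)]; exact cov_le_one _ _ _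
  have mg1 : ∀ p, |mg p| ≤ 1 := fun p => abs_mag_le _ _
  have bcv : BM cv := ⟨(measurable_cov _ _).comp (measurable_Y _), 1, cv1⟩
  have bmg : BM mg := ⟨(measurable_mag _).comp (measurable_Y _), 1, mg1⟩
  have mρ : Measurable fun ω : Om V => (rhoT s t ω, ω) := hρ.prodMk measurable_id
  obtain ⟨ψc, hψc, hψc1, hc⟩ := exists_GG_version (S := S) hρ (bcv.comp mρ).meas fun ω => cv1 _
  obtain ⟨ψm, hψm, hψm1, hm⟩ := exists_GG_version (S := S) hρ (bmg.comp mρ).meas fun ω => mg1 _
  have bψc : BM ψc := ⟨hψc, 1, hψc1⟩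
  have bψm : BM ψm := ⟨hψm, 1, hψm1⟩
  set H : X × ℝ × Om V → ℝ := fun p => (cv p.2 - ψc (p.1, cut p.2.1 (S.L p.2.2))) ^ 2 +
    cv p.2 ^ 2 * (mg p.2 - ψm (p.1, cut p.2.1 (S.L p.2.2))) ^ 2 with hH
  have mcut : Measurable fun p : X × ℝ × Om V => (p.1, cut p.2.1 (S.L p.2.2)) :=
    measurable_fst.prodMk (measurable_cut.comp ((measurable_fst.comp measurable_snd).prodMk
      (measurable_L.comp (measurable_snd.comp measurable_snd))))
  have bH1 := ((bcv.comp measurable_snd).sub (bψc.comp mcut)).pow 2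
  have bH2 := ((bcv.comp measurable_snd).pow 2).mul
    (((bmg.comp measurable_snd).sub (bψm.comp mcut)).pow 2)
  have bH : BM H := bH1.add bH2
  have H0 : ∀ p, 0 ≤ H p := fun p => by simp only [hH]; positivity
  -- `term` in terms of `H`
  have hterm : S.term (rhoT s t) u = ∫ ω, H (ω Idx.rho, rhoT s t ω, ω) ∂(mu V) := by
    have mm : Measurable fun ω : Om V => (ω Idx.rho, rhoT s t ω, ω) :=
      (measurable_pi_apply _).prodMk mρ
    simp only [hH]
    rw [integral_add ((bH1.comp mm).integrable _) ((bH2.comp mm).integrable _), term, cvar]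
    congr 1
    · refine integral_congr_ae ?_
      filter_upwards [hc] with ω hω
      rw [res, ← hω]
      rfl
    · refine integral_congr_ae ?_
      filter_upwards [hm] with ω hω
      rw [res]
      erw [← hω]
      rfl
  have bH' : BM fun p : X × Om V => H (p.1, r₀ p.1, p.2) :=
    bH.comp (measurable_fst.prodMk ((mr₀.comp measurable_fst).prodMk measurable_snd))
  have hterm2 : ∫ v : I, ∫ ω, H ((v, true), s + (t - s) * v, ω) ∂(mu V) ≤
      2 * S.term (rhoT s t) u := by
    have e1 := integral_param nu Idx.rho bH' (fun ξ ω ω' h => by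
      simp only [hH, hcv, hmg, Y_dependsOn_rho (S := S) Set.univ (r₀ ξ) h, L_dependsOn_rho (S := S) h])
    have e2 := integral_nu (bH'.integral_prod_right (mu V))
    have e3 : 0 ≤ ∫ v : I, ∫ ω, H ((v, false), s + (t - s) * v, ω) ∂(mu V) :=
      integral_nonneg fun v => integral_nonneg fun ω => H0 _
    have e4 : S.term (rhoT s t) u = ((∫ v : I, ∫ ω, H ((v, true), s + (t - s) * v, ω) ∂(mu V)) +
        ∫ v : I, ∫ ω, H ((v, false), s + (t - s) * v, ω) ∂(mu V)) / 2 :=
      hterm.trans (e1.trans e2)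
    linarith
  set ξ : ℝ → X := fun r => (Set.projIcc 0 1 zero_le_one ((r - s) / (t - s)), true) with hξ
  have mξ : Measurable ξ :=
    (continuous_projIcc.measurable.comp ((measurable_id.sub_const s).div_const _)).prodMk
      measurable_const
  have hξv : ∀ v : I, ξ (s + (t - s) * v) = (v, true) := by
    intro v
    have := (sub_pos.2 hst).ne'
    have e : (s + (t - s) * v - s) / (t - s) = v := by field_simp; ring
    simp only [hξ, e, Set.projIcc_val]
  have mp : Measurable fun p : ℝ × (V → Lab) => (ξ p.1, p.2) :=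
    (mξ.comp measurable_fst).prodMk measurable_snd
  refine ⟨fun p => ψc (ξ p.1, p.2), fun p => ψm (ξ p.1, p.2), hψc.comp mp, hψm.comp mp,
    fun p => hψc1 _, fun p => hψm1 _, ?_⟩
  set F : ℝ × Om V → ℝ := fun p => H (ξ p.1, p) with hF
  have bF : BM F := bH.comp ((mξ.comp measurable_fst).prodMk measurable_id)
  have hpt : ∀ (j' : ℕ) (ω : Om V), (S.jump Set.univ (u, j') ω -
      ψc (ξ (T (u, j') ω), cut (T (u, j') ω) (S.L ω)) * gj (eps (u, j') ω)
        (ψm (ξ (T (u, j') ω), cut (T (u, j') ω) (S.L ω))) (S.U (u, j') ω)) ^ 2 ≤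
      32 * eps (u, j') ω ^ 2 * F (T (u, j') ω, ω) := by
    intro j' ω
    rw [jump_univ_eq]
    exact jump_sub_sq_le (eps_nonneg _ _) (eps_le_half _ _) (abs_mag_le _ _) (hψm1 _)
      (S.U (u, j') ω).2.1 (S.U (u, j') ω).2.2
  have ht0 : 0 ≤ t := by linarith
  have hts := (sub_pos.2 hst).le
  rw [Finset.sum_range_succ, Finset.sum_eq_zero, zero_add]
  · have e1 := subst_time (u, j) hj hst ht bF (fun p => H0 _) (by
      intro r ω ω' h h1 h2
      have h' : ∀ i, i ∉ slotIdx (u, j) → ω i = ω' i := fun i hi =>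
        h i fun e => hi (Or.inl e)
      simp only [hF, hH, hcv, hmg, Y_congr_of_le_T (S := S) Set.univ h' h1 h2,
        cut_L_congr_of_le_T (S := S) h' h1 h2])
    simp only [hF, hξv] at e1
    have e2 := mul_le_mul_of_nonneg_left hterm2 hts
    have e3 : BM fun ω => if s ≤ T (u, j) ω ∧ T (u, j) ω < t then F (T (u, j) ω, ω) else 0 :=
      BM.ite (p := fun ω => s ≤ T (u, j) ω ∧ T (u, j) ω < t)
        ((measurableSet_le measurable_const (measurable_T _)).inter
        (measurableSet_lt (measurable_T _) measurable_const))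
        (bF.comp ((measurable_T _).prodMk measurable_id)) (BM.const 0)
    have e4 := mul_le_mul_of_nonneg_left (e1.trans e2) (show 0 ≤ 8 * min t 1 ^ 2 by positivity)
    have e5 : 0 ≤ S.term (rhoT s t) u := by
      rw [hterm]; exact integral_nonneg fun ω => H0 _
    have e6 : 0 ≤ (t - s) * min t 1 ^ 2 * S.term (rhoT s t) u := by positivity
    rw [← integral_const_mul] at e4
    refine le_trans (integral_mono_of_nonneg (Eventually.of_forall fun ω => ?_)
      (((BM.const _).mul e3).integrable _) (Eventually.of_forall fun ω => ?_))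
      (e4.trans (by linarith))
    · simp only [Pi.zero_apply]
      split_ifs
      · positivity
      · exact le_rfl
    · simp only
      split_ifs with h
      · refine (hpt j ω).trans (mul_le_mul_of_nonneg_right ?_ (H0 _))
        have e7 : eps (u, j) ω ≤ min t 1 / 2 := amp_le_of_tm_le j ht0 h.2.le
        have e8 := pow_le_pow_left₀ (eps_nonneg _ _) e7 2
        linarith
      · simp
  · intro j' hj'
    have hj'' : (j' : ℝ) + 1 ≤ j := by exact_mod_cast Finset.mem_range.1 hj'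
    refine integral_eq_zero_of_ae (Eventually.of_forall fun ω => ?_)
    simp only [Pi.zero_apply]
    split_ifs with h
    · have e1 : eps (u, j') ω = 0 := amp_eq_zero j' ((hj''.trans hj).trans h.1)
      have e2 := hpt j' ω
      rw [e1] at e2 ⊢
      refine le_antisymm (e2.trans (le_of_eq (by ring))) (sq_nonneg _)
    · rfl

end Setup

end Crest.Agent.R160
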