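import Crest.Agent.R160.Tree1

/-!
# Row 160 (S0241): Tree3
The automorphism group acts transitively on non-backtracking paths of a given length.
Construction: root `r = p 0`.  For a vertex `u` choose a bijection `β` from `nb u` to `nb u'`
(`u'` the image of `u`) with prescribed values (`Finset.exists_equiv_extend_of_card_eq`): on the path
the neighbours `p (i±1) ↦ q (i±1)`, off the path only `par r u ↦` image of the parent.  Define the pair
(image of `v`, image of `par r v`) by recursion on `dist r v`.  The resulting map `φ` is bijective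
from `nb u` onto `nb (φ u)` for every `u`; hence it sends non-backtracking paths to
non-backtracking paths, preserves `dist` (`IsNB.dist` on `geod`), is injective, reflects adjacency, and is
onto by induction on the distance from `φ r`.
-/

set_option autoImplicit false

open MeasureTheory Filter Topology
open scoped unitInterval

noncomputable section

namespace Crest.Agent.R160

universe u

namespace Setup

variable {V : Type u} (S : Setup V)

variable {S}

/-- a bijection between two neighbourhoods with two prescribed values -/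
lemma exists_nb_bij {u u' a b a' b' : V} (ha : S.G.Adj u a) (hb : S.G.Adj u b)
    (ha' : S.G.Adj u' a') (hb' : S.G.Adj u' b') (hab : a = b ↔ a' = b') :
    ∃ β : V → V, Set.BijOn β (S.nb u) (S.nb u') ∧ β a = a' ∧ β b = b' := by
  classical
  obtain ⟨β0, h0⟩ : ∃ β : V → V, Set.BijOn β (S.nb u) (S.nb u') := by
    let e := Finset.equivOfCardEq ((card_nb (S := S) u).trans (card_nb (S := S) u').symm)
    refine ⟨fun v => if h : v ∈ S.nb u then (e ⟨v, h⟩ : V) else v, fun v hv => ?_,
      fun v hv w hw hvw => ?_, fun v hv => ?_⟩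
    · have hv' : v ∈ S.nb u := hv
      simp only [dif_pos hv']
      exact (e ⟨v, hv'⟩).2
    · have hv' : v ∈ S.nb u := hv
      have hw' : w ∈ S.nb u := hw
      simp only [dif_pos hv', dif_pos hw'] at hvw
      exact congrArg Subtype.val (e.injective (Subtype.ext hvw))
    · refine ⟨(e.symm ⟨v, hv⟩ : V), (e.symm ⟨v, hv⟩).2, ?_⟩
      simp only [dif_pos (e.symm ⟨v, hv⟩).2, Subtype.coe_eta, Equiv.apply_symm_apply]
  have ma : a ∈ (S.nb u : Set V) := mem_nb.2 ha
  have mb : b ∈ (S.nb u : Set V) := mem_nb.2 hb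
  have ma' : a' ∈ (S.nb u' : Set V) := mem_nb.2 ha'
  have mb' : b' ∈ (S.nb u' : Set V) := mem_nb.2 hb'
  have h1 : Set.BijOn (Equiv.swap (β0 a) a' ∘ β0) (S.nb u) (S.nb u') :=
    (Equiv.swap_bijOn_self (iff_of_true (h0.mapsTo ma) ma')).comp h0
  set β1 := Equiv.swap (β0 a) a' ∘ β0 with hβ1
  have e1 : β1 a = a' := by simp [hβ1]
  have h2 : Set.BijOn (Equiv.swap (β1 b) b' ∘ β1) (S.nb u) (S.nb u') :=
    (Equiv.swap_bijOn_self (iff_of_true (h1.mapsTo mb) mb')).comp h1
  refine ⟨_, h2, ?_, by simp⟩
  by_cases hE : a = b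
  · rw [hE, hab.1 hE]
    simp
  · rw [Function.comp_apply, e1]
    refine Equiv.swap_apply_of_ne_of_ne ?_ (fun e => hE (hab.2 e))
    intro e
    exact hE (h1.injOn ma mb (e1.trans e))

/-- the local bijections adapted to two paths -/
lemma exists_local_bij {p q : ℕ → V} {k : ℕ} (hp : S.IsNB p k) (hq : S.IsNB q k) (u u' : V) :
    ∃ β : V → V, Set.BijOn β (S.nb u) (S.nb u') ∧
      (u ≠ p 0 → u' ≠ q 0 → β (S.par (p 0) u) = S.par (q 0) u') ∧
      ∀ i, i < k → u = p i → u' = q i → β (p (i + 1)) = q (i + 1) := by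
  have huniq : ∀ i j, i < k → j < k → p i = p j → i = j := by
    intro i j hi hj e
    have h1 := hp.dist (Nat.zero_le i) hi.le
    have h2 := hp.dist (Nat.zero_le j) hj.le
    rw [e] at h1
    omega
  have hne : ∀ {p : ℕ → V}, S.IsNB p k → ∀ i, i < k → p i ≠ p 0 →
      S.par (p 0) (p i) ≠ p (i + 1) := by
    intro p hp i hi h0 e
    have h1 := hp.dist (Nat.zero_le i) hi.le
    have h2 := hp.dist (Nat.zero_le (i + 1)) hi
    have h3 := dist_par (S := S) h0
    rw [e] at h3
    omega
  by_cases H2 : ∃ i, i < k ∧ u = p i ∧ u' = q i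
  · obtain ⟨i, hi, rfl, rfl⟩ := H2
    by_cases H1 : p i ≠ p 0 ∧ q i ≠ q 0
    · obtain ⟨β, h1, h2, h3⟩ := exists_nb_bij (adj_par H1.1) (hp.1 i hi) (adj_par H1.2) (hq.1 i hi)
        (iff_of_false (hne hp i hi H1.1) (hne hq i hi H1.2))
      refine ⟨β, h1, fun _ _ => h2, fun j hj e _ => ?_⟩
      rw [← huniq i j hi hj e]
      exact h3
    · obtain ⟨β, h1, h2, -⟩ := exists_nb_bij (hp.1 i hi) (hp.1 i hi) (hq.1 i hi) (hq.1 i hi)
        (iff_of_true rfl rfl)
      refine ⟨β, h1, fun a b => absurd ⟨a, b⟩ H1, fun j hj e _ => ?_⟩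
      rw [← huniq i j hi hj e]
      exact h2
  · by_cases H1 : u ≠ p 0 ∧ u' ≠ q 0
    · obtain ⟨β, h1, h2, -⟩ := exists_nb_bij (S := S) (adj_par H1.1) (adj_par H1.1) (adj_par H1.2)
        (adj_par H1.2) (iff_of_true rfl rfl)
      exact ⟨β, h1, fun _ _ => h2, fun j hj e e' => absurd ⟨j, hj, e, e'⟩ H2⟩
    · obtain ⟨z, hz, -⟩ := exists_ch_ne (S := S) u u u
      obtain ⟨z', hz', -⟩ := exists_ch_ne (S := S) u' u' u'
      obtain ⟨β, h1, -, -⟩ := exists_nb_bij (mem_ch.1 hz).1 (mem_ch.1 hz).1 (mem_ch.1 hz').1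
        (mem_ch.1 hz').1 (iff_of_true rfl rfl)
      exact ⟨β, h1, fun a b => absurd ⟨a, b⟩ H1, fun j hj e e' => absurd ⟨j, hj, e, e'⟩ H2⟩

/-- the recursion defining the automorphism -/
def autN (r r' : V) (β : V → V → V → V) : ℕ → V → V
  | 0, _ => r'
  | n + 1, v => β (S.par r v) (autN r r' β n (S.par r v)) v

theorem exists_aut {p q : ℕ → V} {k : ℕ} (hp : S.IsNB p k) (hq : S.IsNB q k) :
    ∃ g : S.G ≃g S.G, ∀ i, i ≤ k → g (p i) = q i := by
  choose β hβ hpar hpath using exists_local_bij hp hq
  set r := p 0 with hr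
  set r' := q 0 with hr'
  obtain ⟨φ, φ0, φ1⟩ : ∃ φ : V → V, φ r = r' ∧
      ∀ v, v ≠ r → φ v = β (S.par r v) (φ (S.par r v)) v := by
    refine ⟨fun v => autN (S := S) r r' β (S.G.dist r v) v, ?_, fun v hv => ?_⟩
    · simp [autN]
    · beta_reduce
      rw [← dist_par hv, autN]
  have c1 : ∀ n v, S.G.dist r v = n →
      S.G.dist r' (φ v) = n ∧ (v ≠ r → S.par r' (φ v) = φ (S.par r v)) := by
    intro n
    induction n with
    | zero =>
      intro v hv
      have e : r = v := dist_eq_zero.1 hv
      subst e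
      exact ⟨by rw [φ0]; simp, fun h => absurd rfl h⟩
    | succ n ih =>
      intro v hv
      have hvr : v ≠ r := by
        rintro rfl
        simp at hv
      have hd := dist_par (S := S) hvr
      set u := S.par r v with hu
      have hdu : S.G.dist r u = n := by omega
      have hadj : S.G.Adj u v := (adj_par hvr).symm
      have mv : v ∈ (S.nb u : Set V) := mem_nb.2 hadj
      have hadj' : S.G.Adj (φ u) (φ v) := by
        rw [φ1 v hvr]
        exact mem_nb.1 ((hβ u (φ u)).mapsTo mv)
      have hne : φ v ≠ S.par r' (φ u) := by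
        by_cases hur : u = r
        · rw [hur, φ0, par_self]
          rw [hur, φ0] at hadj'
          exact hadj'.ne'
        · have hur' : φ u ≠ r' := by
            intro e
            have h1 := (ih u hdu).1
            rw [e, SimpleGraph.dist_self, ← hdu] at h1
            exact hur (dist_eq_zero.1 h1.symm).symm
          rw [← hpar u (φ u) hur hur', φ1 v hvr]
          intro e
          have h2 := (hβ u (φ u)).injOn mv (mem_nb.2 (adj_par hur)) e
          have h3 := dist_par (S := S) hur
          rw [← h2] at h3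
          omega
      have hd' := dist_of_ne_par hadj' hne
      rw [(ih u hdu).1] at hd'
      refine ⟨hd', fun _ => (eq_par hadj'.symm ?_).symm⟩
      rw [(ih u hdu).1, hd']
      omega
  have cd : ∀ v, S.G.dist r' (φ v) = S.G.dist r v := fun v => (c1 _ v rfl).1
  have cp : ∀ v, v ≠ r → S.par r' (φ v) = φ (S.par r v) := fun v => (c1 _ v rfl).2
  have c2 : ∀ u v, S.G.Adj u v → φ v = β u (φ u) v := by
    intro u v huv
    by_cases hv : v = S.par r u
    · have hur : u ≠ r := by
        intro e
        rw [e, par_self] at hv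
        exact huv.ne (e.trans hv.symm)
      have hur' : φ u ≠ r' := by
        intro e
        have h1 := cd u
        rw [e, SimpleGraph.dist_self] at h1
        exact hur (dist_eq_zero.1 h1.symm).symm
      rw [hv, hpar u (φ u) hur hur', cp u hur]
    · have hd := dist_of_ne_par huv hv
      have hvr : v ≠ r := by
        rintro rfl
        simp at hd
      have e : u = S.par r v := eq_par huv.symm (by omega)
      rw [φ1 v hvr, ← e]
  have cb : ∀ u, Set.BijOn φ (S.nb u) (S.nb (φ u)) := fun u =>
    (hβ u (φ u)).congr fun v hv => (c2 u v (mem_nb.1 hv)).symm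
  have cinj : ∀ n v w, S.G.dist r v = n → φ v = φ w → v = w := by
    intro n
    induction n with
    | zero =>
      intro v w hv e
      have hw : S.G.dist r w = 0 := by rw [← cd, ← e, cd, hv]
      exact (dist_eq_zero.1 hv).symm.trans (dist_eq_zero.1 hw)
    | succ n ih =>
      intro v w hv e
      have hw : S.G.dist r w = n + 1 := by rw [← cd, ← e, cd, hv]
      have hvr : v ≠ r := by
        rintro rfl
        simp at hv
      have hwr : w ≠ r := by
        rintro rfl
        simp at hw
      have hd := dist_par (S := S) hvr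
      have e' : S.par r v = S.par r w := ih _ _ (by omega) (by rw [← cp v hvr, ← cp w hwr, e])
      exact (cb (S.par r v)).injOn (mem_nb.2 (adj_par hvr).symm)
        (mem_nb.2 (e' ▸ (adj_par hwr).symm)) e
  have csurj : ∀ n v', S.G.dist r' v' = n → ∃ v, φ v = v' := by
    intro n
    induction n with
    | zero => exact fun v' hv => ⟨r, φ0.trans (dist_eq_zero.1 hv)⟩
    | succ n ih =>
      intro v' hv
      have hvr : v' ≠ r' := by
        rintro rfl
        simp at hv
      have hd := dist_par (S := S) hvr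
      obtain ⟨u, hu⟩ := ih (S.par r' v') (by omega)
      obtain ⟨v, -, hv⟩ := (cb u).surjOn (show v' ∈ (S.nb (φ u) : Set V) from
        mem_nb.2 (hu ▸ (adj_par hvr).symm))
      exact ⟨v, hv⟩
  have hinj : Function.Injective φ := fun v w e => cinj _ v w rfl e
  have hsurj : Function.Surjective φ := fun v' => csurj _ v' rfl
  refine ⟨⟨Equiv.ofBijective φ ⟨hinj, hsurj⟩, fun {u v} => ?_⟩, fun i hi => ?_⟩
  · change S.G.Adj (φ u) (φ v) ↔ S.G.Adj u v
    constructor
    · intro h
      obtain ⟨w, hw, e⟩ := (cb u).surjOn (show φ v ∈ (S.nb (φ u) : Set V) from mem_nb.2 h)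
      rw [← hinj e]
      exact mem_nb.1 hw
    · intro h
      exact mem_nb.1 ((cb u).mapsTo (mem_nb.2 h))
  · change φ (p i) = q i
    induction i with
    | zero => exact φ0
    | succ i ih =>
      rw [c2 (p i) (p (i + 1)) (hp.1 i hi), ih (by omega)]
      exact hpath _ _ i hi rfl rfl

theorem exists_aut_dist {x v x' v' : V} (h : S.G.dist x v = S.G.dist x' v') :
    ∃ g : S.G ≃g S.G, g x = x' ∧ g v = v' := by
  have h1 := geod_isNB (S := S) x v
  have h2 := geod_isNB (S := S) x' v'
  rw [← h] at h2
  obtain ⟨g, hg⟩ := exists_aut h1 h2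
  refine ⟨g, hg 0 (Nat.zero_le _), ?_⟩
  have := hg _ le_rfl
  rwa [geod_dist, h, geod_dist] at this

theorem exists_aut_vertex (x y : V) : ∃ g : S.G ≃g S.G, g x = y := by
  obtain ⟨g, hg, -⟩ := exists_aut_dist (S := S) (x := x) (v := x) (x' := y) (v' := y) (by simp)
  exact ⟨g, hg⟩

theorem exists_aut_edge {x y x' y' : V} (h : S.G.Adj x y) (h' : S.G.Adj x' y') :
    ∃ g : S.G ≃g S.G, g x = x' ∧ g y = y' :=
  exists_aut_dist (by rw [dist_eq_one.2 h, dist_eq_one.2 h'])

end Setup

end Crest.Agent.R160
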