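import Crest.Agent.R160.Anova
import Crest.Agent.R160.Tree2
import Crest.Agent.R160.Tree3

/-!
# Row 160 (S0241): Decay
Spectral gap of the Bernoulli action: correlation decay for equivariant edge processes.
With `a` from `exists_anova`, `loc s` = finite set of vertices touched by the coordinates in `s`
(endpoints of `edge e`, `v` for `time v j`, `noise v j`; empty iff `s ⊆ {rho, root}`, and then `a = 0`),
`W s v = if v ∈ loc s then 1/|loc s| else 0`, put
`φ x v = √(∑' s, W s v * ∑_{y ∈ nb x} a (z x y) s)`.  It is invariant (`φ (g x) (g v) = φ x v`), hence a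
function `ψ (dist x v)` (`exists_aut_dist`), `∑_{v ∈ F} φ x v² ≤ d E`, so (`exists_sphere`)
`∑ (d-1)^m ψ m² ≤ d E`; and `|∫ z x y * z x' y'| ≤ sup_F ∑_{v ∈ F} φ x v φ x' v ≤ (l+1) (d-1)^{-l/2} d E`
by `radial_bound`.  Sum over `i, j < k` with `∑_{l ≥ 1} (l+1) 2^{-l/2} ≤ 11`.
-/

set_option autoImplicit false

open MeasureTheory Filter Topology
open scoped unitInterval

noncomputable section

namespace Crest.Agent.R160

universe u

namespace Decay

variable {V : Type u}

open Classical in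
/-- vertices touched by a coordinate -/
def loc : Idx V → Finset V
  | Idx.rho => ∅
  | Idx.root => ∅
  | Idx.edge e => e.toFinset
  | Idx.time v _ => {v}
  | Idx.noise v _ => {v}

open Classical in
/-- vertices touched by a finite set of coordinates -/
def locS (s : Finset (Idx V)) : Finset V := s.biUnion loc

open Classical in
/-- uniform weights on the touched vertices -/
def W (s : Finset (Idx V)) (v : V) : ℝ := if v ∈ locS s then ((locS s).card : ℝ)⁻¹ else 0

lemma W_nonneg (s : Finset (Idx V)) (v : V) : 0 ≤ W s v := by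
  unfold W
  split_ifs <;> positivity

lemma sum_W_eq (s : Finset (Idx V)) (F : Finset V) (hF : locS s ⊆ F) (hs : (locS s).Nonempty) :
    ∑ v ∈ F, W s v = 1 := by
  classical
  unfold W
  rw [Finset.sum_ite_mem, Finset.inter_eq_right.2 hF, Finset.sum_const, nsmul_eq_mul,
    mul_inv_cancel₀ (by exact_mod_cast hs.card_pos.ne')]

lemma sum_W_le (s : Finset (Idx V)) (F : Finset V) : ∑ v ∈ F, W s v ≤ 1 := by
  classical
  rcases (locS s).eq_empty_or_nonempty with h | h
  · simp [W, h]
  · rw [← sum_W_eq s (F ∪ locS s) Finset.subset_union_right h]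
    exact Finset.sum_le_sum_of_subset_of_nonneg Finset.subset_union_left
      fun _ _ _ => W_nonneg _ _

lemma subset_of_locS {s : Finset (Idx V)} (h : locS s = ∅) :
    (s : Set (Idx V)) ⊆ {Idx.rho, Idx.root} := by
  classical
  intro i hi
  have h1 : loc i = ∅ := by
    refine Finset.subset_empty.1 ?_
    rw [← h]
    exact Finset.subset_biUnion_of_mem loc hi
  rcases i with _ | _ | e | _ | _
  · simp
  · simp
  · induction e using Sym2.ind with
    | _ x y =>
      have : x ∈ loc (Idx.edge s(x, y)) := by simp [loc]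
      simp [h1] at this
  · simp [loc] at h1
  · simp [loc] at h1

/-- the action on coordinates as an equivalence -/
def idxEquiv (g : V ≃ V) : Idx V ≃ Idx V where
  toFun := Idx.map g
  invFun := Idx.map g.symm
  left_inv i := by
    rcases i with _ | _ | e | _ | _ <;> simp [Idx.map, Sym2.map_map]
  right_inv i := by
    rcases i with _ | _ | e | _ | _ <;> simp [Idx.map, Sym2.map_map]

lemma loc_map (g : V ≃ V) (i : Idx V) : loc (idxEquiv g i) = (loc i).map g.toEmbedding := by
  rcases i with _ | _ | e | _ | _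
  · rfl
  · rfl
  · ext v
    simp [idxEquiv, Idx.map, loc, Sym2.mem_map]
    constructor
    · rintro ⟨a, ha, rfl⟩
      simpa using ha
    · intro h
      exact ⟨_, h, by simp⟩
  · rfl
  · rfl

lemma locS_map (g : V ≃ V) (s : Finset (Idx V)) :
    locS (s.map (idxEquiv g).toEmbedding) = (locS s).map g.toEmbedding := by
  classical
  ext v
  simp only [locS, Finset.mem_biUnion, Finset.mem_map, Equiv.coe_toEmbedding]
  constructor
  · rintro ⟨_, ⟨i, hi, rfl⟩, hv⟩
    rw [loc_map, Finset.mem_map] at hv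
    obtain ⟨w, hw, rfl⟩ := hv
    exact ⟨w, ⟨i, hi, hw⟩, rfl⟩
  · rintro ⟨w, ⟨i, hi, hw⟩, rfl⟩
    refine ⟨_, ⟨i, hi, rfl⟩, ?_⟩
    rw [loc_map]
    exact Finset.mem_map_of_mem _ hw

lemma W_map (g : V ≃ V) (s : Finset (Idx V)) (v : V) :
    W (s.map (idxEquiv g).toEmbedding) (g v) = W s v := by
  unfold W
  rw [locS_map, Finset.card_map]
  have : g v ∈ (locS s).map g.toEmbedding ↔ v ∈ locS s := Finset.mem_map' g.toEmbedding
  by_cases h : v ∈ locS s
  · rw [if_pos h, if_pos (this.2 h)]
  · rw [if_neg h, if_neg fun h' => h (this.1 h')]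

lemma decay_sum_geom_le {q : ℝ} (hq0 : 0 ≤ q) (hq : q ^ 2 ≤ 1 / 2) (n : ℕ) :
    ∑ l ∈ Finset.range n, ((l : ℝ) + 1) * q ^ l ≤ 12 := by
  have h1 : (1 - q) ^ 2 * ∑ l ∈ Finset.range n, ((l : ℝ) + 1) * q ^ l =
      1 - q ^ n * (1 + n * (1 - q)) := by
    induction n with
    | zero => simp
    | succ n ih =>
      rw [Finset.sum_range_succ, mul_add, ih]
      push_cast
      ring
  have h2 : q ≤ 0.7072 := by nlinarith
  have h3 : 0 ≤ q ^ n * (1 + n * (1 - q)) := by
    have : 0 ≤ 1 - q := by linarith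
    positivity
  have h4 : 1 / 12 ≤ (1 - q) ^ 2 := by nlinarith
  have h5 : 0 ≤ ∑ l ∈ Finset.range n, ((l : ℝ) + 1) * q ^ l := by positivity
  nlinarith

end Decay

open Decay

namespace Setup

variable {V : Type u} (S : Setup V)

variable {S}

theorem corr_decay (z : V → V → Om V → ℝ) (E : ℝ)
    (hz : ∀ x y, S.G.Adj x y → BM (z x y))
    (hE : ∀ x y, S.G.Adj x y → ∫ ω, z x y ω ^ 2 ∂(mu V) ≤ E)
    (hinv : ∀ (g : S.G ≃g S.G) x y, S.G.Adj x y →
      z (g x) (g y) =ᵐ[mu V] fun ω => z x y (relab g ω))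
    (horth : ∀ x y, S.G.Adj x y → ∀ Ψ : Om V → ℝ, BM Ψ → DependsOn Ψ {Idx.rho, Idx.root} →
      ∫ ω, z x y ω * Ψ ω ∂(mu V) = 0)
    {x y x' y' : V} (h : S.G.Adj x y) (h' : S.G.Adj x' y') (hne : x ≠ x') :
    |∫ ω, z x y ω * z x' y' ω ∂(mu V)| ≤
      ((S.G.dist x x' : ℝ) + 1) * (Real.sqrt ((S.d : ℝ) - 1))⁻¹ ^ S.G.dist x x' * (S.d * E) := by
  classical
  have := S.countable_Idx
  obtain ⟨a, ha0, ha1, ha2, ha3, ha4⟩ := exists_anova (ι := Idx V) nu
  let A : V → Finset (Idx V) → ℝ := fun x s => ∑ y ∈ S.nb x, a (z x y) s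
  have hA0 : ∀ x s, 0 ≤ A x s := fun x s => Finset.sum_nonneg fun _ _ => ha0 _ _
  have hA1 : ∀ x (Λ : Finset (Finset (Idx V))), ∑ s ∈ Λ, A x s ≤ S.d * E := by
    intro x Λ
    rw [Finset.sum_comm, ← card_nb x, ← nsmul_eq_mul]
    refine Finset.sum_le_card_nsmul _ _ _ fun y hy => ?_
    have hxy := mem_nb.1 hy
    exact (ha1 _ (hz x y hxy) Λ).trans (hE x y hxy)
  have hA2 : ∀ (g : S.G ≃g S.G) x s,
      A (g x) (s.map (idxEquiv g.toEquiv).toEmbedding) = A x s := by
    intro g x s
    simp only [A, ← ch_self]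
    rw [sum_ch_map]
    refine Finset.sum_congr rfl fun y hy => ?_
    have hxy := (mem_ch.1 hy).1
    exact ha2 _ _ (hz x y hxy) (hz _ _ (g.map_adj_iff.2 hxy)) (idxEquiv g.toEquiv)
      (hinv g x y hxy) s
  have hW1 : ∀ (s : Finset (Idx V)) v, W s v ≤ 1 := fun s v => by simpa using sum_W_le s {v}
  have hsum : ∀ x v, Summable fun s => W s v * A x s := fun x v =>
    summable_of_sum_le (c := S.d * E) (fun s => mul_nonneg (W_nonneg _ _) (hA0 _ _)) fun Λ =>
      (Finset.sum_le_sum fun s _ => mul_le_of_le_one_left (hA0 _ _) (hW1 s v)).trans (hA1 x Λ)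
  let φ : V → V → ℝ := fun x v => ∑' s, W s v * A x s
  have hφ0 : ∀ x v, 0 ≤ φ x v := fun x v =>
    tsum_nonneg fun s => mul_nonneg (W_nonneg _ _) (hA0 _ _)
  have hφ1 : ∀ (g : S.G ≃g S.G) x v, φ (g x) (g v) = φ x v := by
    intro g x v
    simp only [φ]
    rw [← (idxEquiv g.toEquiv).finsetCongr.tsum_eq]
    refine tsum_congr fun s => ?_
    rw [Equiv.finsetCongr_apply, hA2]
    exact congrArg (· * A x s) (W_map g.toEquiv s v)
  have hφ2 : ∀ x (F : Finset V), ∑ v ∈ F, φ x v ≤ S.d * E := by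
    intro x F
    simp only [φ]
    rw [← Summable.tsum_finsetSum fun v _ => hsum x v]
    refine (summable_sum fun v _ => hsum x v).tsum_le_of_sum_le fun Λ => le_trans ?_ (hA1 x Λ)
    refine Finset.sum_le_sum fun s _ => ?_
    rw [← Finset.sum_mul]
    exact mul_le_of_le_one_left (hA0 _ _) (sum_W_le s F)
  choose F hF hF' using exists_sphere (S := S) S.o
  have hd := S.two_le_d_sub_one
  have hne' : ∀ m, (F m).Nonempty := fun m => by
    have h1 : (0 : ℝ) < (F m).card := lt_of_lt_of_le (by positivity) (hF' m)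
    exact Finset.card_pos.1 (by exact_mod_cast h1)
  choose v hv using hne'
  let ψ : ℕ → ℝ := fun m => Real.sqrt (φ S.o (v m))
  have hψ : ∀ x w, Real.sqrt (φ x w) = ψ (S.G.dist x w) := by
    intro x w
    obtain ⟨g, hg1, hg2⟩ := exists_aut_dist (S := S) (hF _ _ (hv (S.G.dist x w)))
    simp only [ψ]
    rw [← hφ1 g S.o, hg1, hg2]
  have hψE : ∀ M, ∑ m ∈ Finset.range M, ((S.d : ℝ) - 1) ^ m * ψ m ^ 2 ≤ S.d * E := by
    intro M
    refine le_trans ?_ (hφ2 S.o ((Finset.range M).biUnion F))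
    rw [Finset.sum_biUnion fun i _ j _ hij => Finset.disjoint_left.2 fun w hi hj =>
      hij ((hF i w hi).symm.trans (hF j w hj))]
    refine Finset.sum_le_sum fun m _ => ?_
    rw [Finset.sum_congr rfl (g := fun _ => ψ m ^ 2) fun w hw => by
      rw [← hF m w hw, ← hψ, Real.sq_sqrt (hφ0 _ _)], Finset.sum_const, nsmul_eq_mul]
    exact mul_le_mul_of_nonneg_right (hF' m) (sq_nonneg _)
  refine ha4 _ _ (hz x y h) (hz x' y' h') _ fun Λ => ?_
  refine le_trans ?_ (radial_bound ψ (fun _ => Real.sqrt_nonneg _) _ hψE hne (Λ.biUnion locS))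
  calc ∑ s ∈ Λ, Real.sqrt (a (z x y) s) * Real.sqrt (a (z x' y') s)
      ≤ ∑ s ∈ Λ, ∑ w ∈ Λ.biUnion locS,
          Real.sqrt (W s w * A x s) * Real.sqrt (W s w * A x' s) := by
        refine Finset.sum_le_sum fun s hs => ?_
        rcases (locS s).eq_empty_or_nonempty with h0 | h0
        · rw [ha3 _ (hz x y h) _ (horth x y h) s (subset_of_locS h0), Real.sqrt_zero, zero_mul]
          exact Finset.sum_nonneg fun _ _ => by positivity
        · have h1 : ∀ w, Real.sqrt (W s w * A x s) * Real.sqrt (W s w * A x' s) =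
              W s w * (Real.sqrt (A x s) * Real.sqrt (A x' s)) := by
            intro w
            rw [Real.sqrt_mul (W_nonneg _ _), Real.sqrt_mul (W_nonneg _ _), mul_mul_mul_comm,
              Real.mul_self_sqrt (W_nonneg _ _)]
          simp only [h1]
          rw [← Finset.sum_mul, sum_W_eq s _ (Finset.subset_biUnion_of_mem locS hs) h0, one_mul]
          have h2 : a (z x y) s ≤ A x s :=
            Finset.single_le_sum (f := fun y => a (z x y) s) (fun _ _ => ha0 _ _) (mem_nb.2 h)
          have h3 : a (z x' y') s ≤ A x' s :=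
            Finset.single_le_sum (f := fun y => a (z x' y) s) (fun _ _ => ha0 _ _) (mem_nb.2 h')
          gcongr
    _ ≤ _ := by
        rw [Finset.sum_comm]
        refine Finset.sum_le_sum fun w _ => ?_
        rw [← hψ, ← hψ]
        have h1 : ∀ x s, 0 ≤ W s w * A x s := fun x s => mul_nonneg (W_nonneg _ _) (hA0 _ _)
        refine (Real.sum_sqrt_mul_sqrt_le Λ (h1 x) (h1 x')).trans ?_
        gcongr
        · exact (hsum x w).sum_le_tsum Λ fun s _ => h1 x s
        · exact (hsum x' w).sum_le_tsum Λ fun s _ => h1 x' s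

theorem integral_sq_sum_path_le (z : V → V → Om V → ℝ) (E : ℝ)
    (hz : ∀ x y, S.G.Adj x y → BM (z x y))
    (hE : ∀ x y, S.G.Adj x y → ∫ ω, z x y ω ^ 2 ∂(mu V) ≤ E)
    (hinv : ∀ (g : S.G ≃g S.G) x y, S.G.Adj x y →
      z (g x) (g y) =ᵐ[mu V] fun ω => z x y (relab g ω))
    (horth : ∀ x y, S.G.Adj x y → ∀ Ψ : Om V → ℝ, BM Ψ → DependsOn Ψ {Idx.rho, Idx.root} →
      ∫ ω, z x y ω * Ψ ω ∂(mu V) = 0)
    {p : ℕ → V} {k : ℕ} (hp : S.IsNB p k) :
    ∫ ω, (∑ i ∈ Finset.range k, z (p i) (p (i + 1)) ω) ^ 2 ∂(mu V) ≤ 25 * S.d * k * E := by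
  induction k with
  | zero => simp
  | succ k ih =>
    have hadj : ∀ i, i < k + 1 → S.G.Adj (p i) (p (i + 1)) := hp.1
    have hk := hadj k (by omega)
    have hzk := hz _ _ hk
    have hE0 : 0 ≤ E := le_trans (integral_nonneg fun _ => sq_nonneg _) (hE _ _ hk)
    have hd := S.two_le_d_sub_one
    have hS : BM fun ω => ∑ i ∈ Finset.range k, z (p i) (p (i + 1)) ω :=
      BM.sum _ fun i hi => hz _ _ (hadj i (by have := Finset.mem_range.1 hi; omega))
    set q := (Real.sqrt ((S.d : ℝ) - 1))⁻¹ with hq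
    have hq0 : 0 ≤ q := by positivity
    have hq1 : q ^ 2 ≤ 1 / 2 := by
      rw [hq, inv_pow, Real.sq_sqrt (by linarith), one_div]
      exact inv_anti₀ (by norm_num) hd
    have h1 : ∫ ω, (∑ i ∈ Finset.range k, z (p i) (p (i + 1)) ω) * z (p k) (p (k + 1)) ω ∂(mu V)
        ≤ 12 * (S.d * E) := by
      simp only [Finset.sum_mul]
      rw [integral_finsetSum _ fun i hi =>
        ((hz _ _ (hadj i (by have := Finset.mem_range.1 hi; omega))).mul hzk).integrable _]
      have h2 := decay_sum_geom_le hq0 hq1 (k + 1)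
      rw [← Finset.sum_range_reflect, Finset.sum_range_succ] at h2
      refine le_trans ?_ (mul_le_mul_of_nonneg_right (le_trans (le_add_of_nonneg_right ?_) h2)
        (by positivity))
      · rw [Finset.sum_mul]
        refine Finset.sum_le_sum fun i hi => ?_
        have hi' := Finset.mem_range.1 hi
        have h3 : S.G.dist (p i) (p k) = k - i := hp.dist hi'.le (by omega)
        have h4 : p i ≠ p k := fun h => by
          rw [dist_eq_zero.2 h] at h3
          omega
        have h5 := corr_decay z E hz hE hinv horth (hadj i (by omega)) hk h4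
        rw [h3] at h5
        exact (le_abs_self _).trans h5
      · positivity
    have h2 := ih (hp.mono (Nat.le_succ k))
    have h3 := hE _ _ hk
    simp only [Finset.sum_range_succ, add_sq, mul_assoc]
    rw [integral_add (((hS.pow 2).add ((BM.const 2).mul (hS.mul hzk))).integrable _)
      ((hzk.pow 2).integrable _), integral_add ((hS.pow 2).integrable _)
      (((BM.const 2).mul (hS.mul hzk)).integrable _), integral_const_mul]
    push_cast
    nlinarith

end Setup

end Crest.Agent.R160
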