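import Crest.Agent.R160.Model2

/-!
# Row 160 (S0241): Model3
Which coordinates the random variables depend on; non-anticipation.
`XX_dependsOn`: if `ω, ω'` agree on `idx (D y x)` then `spin v * spin y` agrees for `v ∈ D y x`
(induction on `dist v y`, `par_mem_D`, `spin_adj`), so `Y ω' = c * Y ω` on `D y x` with
`c = spin y ω * spin y ω'`; use `cav_congr`, `cav_sgn_mul`.
-/

set_option autoImplicit false

open MeasureTheory Filter Topology
open scoped unitInterval

noncomputable section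

namespace Crest.Agent.R160

universe u

namespace Setup

variable {V : Type u} (S : Setup V)

variable {S}

lemma m3_edge_mem_idx {D : Set V} {x y : V} : Idx.edge s(x, y) ∈ idx D ↔ x ∈ D ∧ y ∈ D := by
  constructor
  · rintro (⟨a, ha, b, hb, e⟩ | ⟨v, -, j, e | e⟩)
    · have e' : s(x, y) = s(a, b) := Idx.edge.inj e
      rcases Sym2.eq_iff.1 e' with ⟨rfl, rfl⟩ | ⟨rfl, rfl⟩
      · exact ⟨ha, hb⟩
      · exact ⟨hb, ha⟩
    · cases e
    · cases e
  · rintro ⟨hx, hy⟩
    exact Or.inl ⟨x, hx, y, hy, rfl⟩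
lemma m3_time_mem_idx {D : Set V} {v : V} {j : ℕ} : Idx.time v j ∈ idx D ↔ v ∈ D := by
  constructor
  · rintro (⟨a, -, b, -, e⟩ | ⟨u, hu, k, e | e⟩)
    · cases e
    · cases e; exact hu
    · cases e
  · intro hv
    exact Or.inr ⟨v, hv, j, Or.inl rfl⟩
lemma m3_noise_mem_idx {D : Set V} {v : V} {j : ℕ} : Idx.noise v j ∈ idx D ↔ v ∈ D := by
  constructor
  · rintro (⟨a, -, b, -, e⟩ | ⟨u, hu, k, e | e⟩)
    · cases e
    · cases e
    · cases e; exact hu
  · intro hv
    exact Or.inr ⟨v, hv, j, Or.inr rfl⟩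

lemma idx_mono {D D' : Set V} (h : D ⊆ D') : idx D ⊆ idx D' := by
  rintro i (⟨a, ha, b, hb, e⟩ | ⟨v, hv, j, e⟩)
  · exact Or.inl ⟨a, h ha, b, h hb, e⟩
  · exact Or.inr ⟨v, h hv, j, e⟩
lemma idx_disjoint {D D' : Set V} (h : Disjoint D D') : Disjoint (idx D) (idx D') := by
  rw [Set.disjoint_left] at h ⊢
  rintro i (⟨a, ha, b, -, rfl⟩ | ⟨v, hv, j, rfl | rfl⟩) h'
  · exact h ha (m3_edge_mem_idx.1 h').1
  · exact h hv (m3_time_mem_idx.1 h')
  · exact h hv (m3_noise_mem_idx.1 h')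
lemma rho_not_mem_idx (D : Set V) : Idx.rho ∉ idx D := by
  rintro (⟨a, -, b, -, e⟩ | ⟨v, -, j, e | e⟩) <;> cases e
lemma root_not_mem_idx (D : Set V) : Idx.root ∉ idx D := by
  rintro (⟨a, -, b, -, e⟩ | ⟨v, -, j, e | e⟩) <;> cases e
lemma edge_not_mem_idx {D : Set V} {x y : V} (hx : x ∉ D) : Idx.edge s(x, y) ∉ idx D :=
  fun h => hx (m3_edge_mem_idx.1 h).1
lemma slot_not_mem_idx {D : Set V} {v : V} (hv : v ∉ D) (j : ℕ) :
    Idx.time v j ∉ idx D ∧ Idx.noise v j ∉ idx D :=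
  ⟨fun h => hv (m3_time_mem_idx.1 h), fun h => hv (m3_noise_mem_idx.1 h)⟩

/-- the coordinates of the branch at `y` through `z` -/
def branch (z y : V) : Set (Idx V) := insert (Idx.edge s(y, z)) (idx (S.D z y))

/-- the coordinates of one slot -/
def slotIdx (a : V × ℕ) : Set (Idx V) := {Idx.time a.1 a.2, Idx.noise a.1 a.2}

lemma branch_disjoint {y z z' : V} (hz : S.G.Adj y z) (hz' : S.G.Adj y z') (hne : z ≠ z') :
    Disjoint (S.branch z y) (S.branch z' y) := by
  rw [Set.disjoint_left]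
  rintro i (rfl | hi) (h' | h')
  · have e' : s(y, z) = s(y, z') := Idx.edge.inj h'
    exact hne (Sym2.congr_right.1 e')
  · exact not_mem_D hz'.symm (m3_edge_mem_idx.1 h').1
  · subst h'
    exact not_mem_D hz.symm (m3_edge_mem_idx.1 hi).1
  · exact Set.disjoint_left.1 (idx_disjoint (D_disjoint hz hz' hne)) hi h'
lemma branch_disjoint_slot {y z : V} (hz : S.G.Adj y z) (j : ℕ) :
    Disjoint (S.branch z y) (slotIdx (y, j)) := by
  rw [Set.disjoint_right]
  rintro i (rfl | rfl) (h | h)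
  · cases h
  · exact not_mem_D hz.symm (m3_time_mem_idx.1 h)
  · cases h
  · exact not_mem_D hz.symm (m3_noise_mem_idx.1 h)
lemma branch_subset {y x z : V} (h : S.DE y x) (hz : z ∈ S.ch y x) :
    S.branch z y ⊆ idx (S.D y x) := by
  rintro i (rfl | hi)
  · exact m3_edge_mem_idx.2 ⟨self_mem_D h,
      D_subset h hz (self_mem_D (Or.inr (mem_ch.1 hz).1.symm))⟩
  · exact idx_mono (D_subset h hz) hi
lemma slotIdx_disjoint {a b : V × ℕ} (h : a ≠ b) : Disjoint (slotIdx a) (slotIdx b) := by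
  rw [Set.disjoint_left]
  rintro i (rfl | rfl) (e | e)
  · exact h (Prod.ext (Idx.time.inj e).1 (Idx.time.inj e).2)
  · cases e
  · cases e
  · exact h (Prod.ext (Idx.noise.inj e).1 (Idx.noise.inj e).2)

/-! ### congruence lemmas -/

lemma m3_T_congr {a : V × ℕ} {ω ω' : Om V}
    (h : (ω (Idx.time a.1 a.2)).1 = (ω' (Idx.time a.1 a.2)).1) : T a ω = T a ω' := by
  unfold T sv; rw [h]
lemma m3_eps_congr {a : V × ℕ} {ω ω' : Om V}
    (h : (ω (Idx.time a.1 a.2)).1 = (ω' (Idx.time a.1 a.2)).1) : eps a ω = eps a ω' := by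
  unfold eps sv; rw [h]
lemma m3_wt_congr {a : V × ℕ} {ω ω' : Om V}
    (h : (ω (Idx.time a.1 a.2)).1 = (ω' (Idx.time a.1 a.2)).1)
    (h' : (ω (Idx.noise a.1 a.2)).1 = (ω' (Idx.noise a.1 a.2)).1) : wt a ω = wt a ω' := by
  unfold wt; rw [m3_eps_congr h, h']
lemma m3_spin_congr {ω ω' : Om V} (h : (ω Idx.root).2 = (ω' Idx.root).2)
    (h' : ∀ e, ω (Idx.edge e) = ω' (Idx.edge e)) (v : V) : S.spin v ω = S.spin v ω' := by
  unfold spin eta
  simp only [h, h']
lemma m3_w_congr {a : V × ℕ} {ω ω' : Om V} (hs : S.spin a.1 ω = S.spin a.1 ω')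
    (h : (ω (Idx.time a.1 a.2)).1 = (ω' (Idx.time a.1 a.2)).1)
    (h' : (ω (Idx.noise a.1 a.2)).1 = (ω' (Idx.noise a.1 a.2)).1) : S.w a ω = S.w a ω' := by
  unfold w; rw [hs, m3_wt_congr h h']

open Classical in
lemma m3_Y_apply (D : Set V) (r : ℝ) (ω : Om V) (v : V) :
    S.Y D r ω v = ∑' j : ℕ, Real.artanh (eps (v, j) ω *
      if T (v, j) ω < r ∧ v ∈ D then S.w (v, j) ω else 0) := rfl

lemma m3_Y_congr (D : Set V) (r : ℝ) {ω ω' : Om V} (v : V) (hs : S.spin v ω = S.spin v ω')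
    (h : ∀ j, (ω (Idx.time v j) = ω' (Idx.time v j) ∧ ω (Idx.noise v j) = ω' (Idx.noise v j)) ∨
      (r ≤ T (v, j) ω ∧ r ≤ T (v, j) ω')) : S.Y D r ω v = S.Y D r ω' v := by
  rw [m3_Y_apply, m3_Y_apply]
  refine tsum_congr fun j => ?_
  rcases h j with ⟨h1, h2⟩ | ⟨h1, h2⟩
  · have e1 : (ω (Idx.time (v, j).1 (v, j).2)).1 = (ω' (Idx.time (v, j).1 (v, j).2)).1 := by
      rw [h1]
    have e2 : (ω (Idx.noise (v, j).1 (v, j).2)).1 = (ω' (Idx.noise (v, j).1 (v, j).2)).1 := by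
      rw [h2]
    rw [m3_T_congr e1, m3_eps_congr e1, m3_w_congr (S := S) (a := (v, j)) hs e1 e2]
  · rw [if_neg fun hh => absurd hh.1 (not_lt.2 h1), if_neg fun hh => absurd hh.1 (not_lt.2 h2),
      mul_zero, mul_zero]

lemma m3_Y_congr' (D : Set V) (r : ℝ) {ω ω' : Om V} (h0 : (ω Idx.root).2 = (ω' Idx.root).2)
    (h : ∀ i, i ≠ Idx.rho → i ≠ Idx.root → ω i = ω' i) : S.Y D r ω = S.Y D r ω' := by
  funext v
  refine m3_Y_congr D r v (m3_spin_congr h0 (fun e => h _ ?_ ?_) v) fun j =>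
    Or.inl ⟨h _ ?_ ?_, h _ ?_ ?_⟩ <;> exact fun e => by cases e

lemma m3_L_congr' {ω ω' : Om V} (h0 : (ω Idx.root).2 = (ω' Idx.root).2)
    (h : ∀ i, i ≠ Idx.rho → i ≠ Idx.root → ω i = ω' i) : S.L ω = S.L ω' := by
  funext v j
  have e1 : (ω (Idx.time (v, j).1 (v, j).2)).1 = (ω' (Idx.time (v, j).1 (v, j).2)).1 := by
    rw [h _ (fun e => by cases e) (fun e => by cases e)]
  have e2 : (ω (Idx.noise (v, j).1 (v, j).2)).1 = (ω' (Idx.noise (v, j).1 (v, j).2)).1 := by
    rw [h _ (fun e => by cases e) (fun e => by cases e)]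
  have hs : S.spin v ω = S.spin v ω' :=
    m3_spin_congr h0 (fun e => h _ (fun e => by cases e) (fun e => by cases e)) v
  refine Prod.ext e1 ?_
  show S.U (v, j) ω = S.U (v, j) ω'
  unfold U mR
  rw [m3_T_congr e1, m3_eps_congr e1, m3_w_congr (S := S) (a := (v, j)) hs e1 e2,
    m3_Y_congr' Set.univ _ h0 h]

lemma eta_dependsOn (x y : V) : DependsOn (S.eta x y) {Idx.edge s(x, y)} := by
  intro ω ω' h
  unfold eta
  rw [h _ rfl]
lemma zeta_dependsOn (a : V × ℕ) (r : ℝ) : DependsOn (zeta a r) (slotIdx a) := by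
  intro ω ω' h
  have e1 : (ω (Idx.time a.1 a.2)).1 = (ω' (Idx.time a.1 a.2)).1 := by
    rw [h _ (Or.inl rfl)]
  have e2 : (ω (Idx.noise a.1 a.2)).1 = (ω' (Idx.noise a.1 a.2)).1 := by
    rw [h _ (Or.inr rfl)]
  unfold zeta
  rw [m3_T_congr e1, m3_eps_congr e1, m3_wt_congr e1 e2]
lemma spin_dependsOn (v : V) :
    DependsOn (S.spin v) {i | i = Idx.root ∨ ∃ e, i = Idx.edge e} := by
  intro ω ω' h
  exact m3_spin_congr (by rw [h _ (Or.inl rfl)]) (fun e => h _ (Or.inr ⟨e, rfl⟩)) v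

lemma m3_spin_mul_congr {y x : V} (h : S.DE y x) {ω ω' : Om V}
    (hω : ∀ i ∈ idx (S.D y x), ω i = ω' i) (n : ℕ) :
    ∀ v ∈ S.D y x, S.G.dist y v = n →
      S.spin v ω * S.spin y ω = S.spin v ω' * S.spin y ω' := by
  induction n with
  | zero =>
    intro v _ hv
    rw [← dist_eq_zero.1 hv, spin_mul_self, spin_mul_self]
  | succ n ih =>
    intro v hvD hv
    have hne : v ≠ y := by
      rintro rfl
      rw [SimpleGraph.dist_self] at hv
      omega
    have hp := par_mem_D h hvD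
    have hd := dist_par (S := S) hne
    have hadj := (adj_par (S := S) hne).symm
    have h1 := ih _ hp (by omega)
    have h2 : S.eta (S.par y v) v ω = S.eta (S.par y v) v ω' :=
      eta_dependsOn _ _ fun i hi => hω i (by rw [hi]; exact m3_edge_mem_idx.2 ⟨hp, hvD⟩)
    rw [spin_adj hadj ω, spin_adj hadj ω', h2, mul_right_comm, h1, mul_right_comm]

theorem XX_dependsOn (r : ℝ) {y x : V} (h : S.DE y x) : DependsOn (S.XX r y x) (idx (S.D y x)) := by
  intro ω ω' hω
  have hc : S.spin y ω * S.spin y ω' = 1 ∨ S.spin y ω * S.spin y ω' = -1 := by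
    rcases spin_eq (S := S) y ω with h1 | h1 <;> rcases spin_eq (S := S) y ω' with h2 | h2 <;>
      simp [h1, h2]
  have key : ∀ v ∈ S.D y x, S.Y Set.univ r ω' v =
      (S.spin y ω * S.spin y ω') * S.Y Set.univ r ω v := by
    intro v hv
    have hr : r ≤ (⌈r⌉₊ : ℕ) := Nat.le_ceil r
    rw [Y_eq_spin_mul hr ω (Set.mem_univ v), Y_eq_spin_mul hr ω' (Set.mem_univ v)]
    have e1 : ∑ j ∈ Finset.range ⌈r⌉₊, zeta (v, j) r ω =
        ∑ j ∈ Finset.range ⌈r⌉₊, zeta (v, j) r ω' := by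
      refine Finset.sum_congr rfl fun j _ => zeta_dependsOn _ _ ?_
      rintro i (rfl | rfl)
      · exact hω _ (m3_time_mem_idx.2 hv)
      · exact hω _ (m3_noise_mem_idx.2 hv)
    have e2 := m3_spin_mul_congr h hω _ v hv rfl
    have e3 : S.spin v ω' = (S.spin y ω * S.spin y ω') * S.spin v ω := by
      have e4 := spin_mul_self (S := S) y ω'
      calc S.spin v ω' = S.spin v ω' * (S.spin y ω' * S.spin y ω') := by rw [e4, mul_one]
        _ = (S.spin v ω' * S.spin y ω') * S.spin y ω' := by ring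
        _ = (S.spin v ω * S.spin y ω) * S.spin y ω' := by rw [e2]
        _ = _ := by ring
    rw [e1, e3, mul_assoc]
  unfold XX
  rw [cav_congr h key, cav_sgn_mul hc]
  have e4 := spin_mul_self (S := S) y ω'
  calc S.spin y ω * S.cav (S.Y Set.univ r ω) y x
      = (S.spin y ω' * S.spin y ω') * (S.spin y ω * S.cav (S.Y Set.univ r ω) y x) := by
        rw [e4, one_mul]
    _ = _ := by ring
lemma xi_dependsOn (r : ℝ) {y z : V} (h : S.G.Adj y z) :
    DependsOn (fun ω => S.eta y z ω * fm S.θ (S.XX r z y ω)) (S.branch z y) := by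
  intro ω ω' hω
  have e1 : S.eta y z ω = S.eta y z ω' :=
    eta_dependsOn y z fun i hi => hω i (Or.inl hi)
  have e2 : S.XX r z y ω = S.XX r z y ω' :=
    XX_dependsOn r (Or.inr h.symm) fun i hi => hω i (Or.inr hi)
  show S.eta y z ω * fm S.θ (S.XX r z y ω) = S.eta y z ω' * fm S.θ (S.XX r z y ω')
  rw [e1, e2]
lemma Y_dependsOn_rho (D : Set V) (r : ℝ) : DependsOn (S.Y D r) {Idx.rho}ᶜ := by
  intro ω ω' h
  exact m3_Y_congr' D r (by rw [h Idx.root (fun e => by cases e)]) fun i hi _ => h i hi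
lemma L_dependsOn_rho : DependsOn S.L {Idx.rho}ᶜ := by
  intro ω ω' h
  exact m3_L_congr' (by rw [h Idx.root (fun e => by cases e)]) fun i hi _ => h i hi
/-- the field at `v` only sees the spins and the slots of `v` -/
lemma Y_apply_dependsOn (D : Set V) (r : ℝ) (v : V) :
    DependsOn (fun ω => S.Y D r ω v)
      {i | i = Idx.root ∨ (∃ e, i = Idx.edge e) ∨ ∃ j, i = Idx.time v j ∨ i = Idx.noise v j} := by
  intro ω ω' h
  exact m3_Y_congr D r v
    (m3_spin_congr (by rw [h _ (Or.inl rfl)]) (fun e => h _ (Or.inr (Or.inl ⟨e, rfl⟩))) v)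
    fun j => Or.inl ⟨h _ (Or.inr (Or.inr ⟨j, Or.inl rfl⟩)), h _ (Or.inr (Or.inr ⟨j, Or.inr rfl⟩))⟩
/-- the uniform part of the root coordinate is never used -/
lemma Y_update_root [DecidableEq (Idx V)] (D : Set V) (r : ℝ) (ω : Om V) (u : I) :
    S.Y D r (Function.update ω Idx.root (u, (ω Idx.root).2)) = S.Y D r ω :=
  m3_Y_congr' D r (by rw [Function.update_self]) fun _ _ hi => Function.update_of_ne hi _ _
lemma L_update_root [DecidableEq (Idx V)] (ω : Om V) (u : I) :
    S.L (Function.update ω Idx.root (u, (ω Idx.root).2)) = S.L ω :=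
  m3_L_congr' (by rw [Function.update_self]) fun _ _ hi => Function.update_of_ne hi _ _

lemma m3_spin_of_slot {a : V × ℕ} {ω ω' : Om V} (h : ∀ i, i ∉ slotIdx a → ω i = ω' i) (v : V) :
    S.spin v ω = S.spin v ω' := by
  refine m3_spin_congr ?_ (fun e => h _ ?_) v
  · rw [h]
    rintro (e | e) <;> cases e
  · rintro (e | e) <;> cases e

lemma m3_slot_of_ne {a b : V × ℕ} (hab : b ≠ a) {ω ω' : Om V}
    (h : ∀ i, i ∉ slotIdx a → ω i = ω' i) :
    ω (Idx.time b.1 b.2) = ω' (Idx.time b.1 b.2) ∧ ω (Idx.noise b.1 b.2) = ω' (Idx.noise b.1 b.2) :=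
  ⟨h _ (Set.disjoint_left.1 (slotIdx_disjoint hab) (Or.inl rfl)),
    h _ (Set.disjoint_left.1 (slotIdx_disjoint hab) (Or.inr rfl))⟩

/-- non-anticipation: a slot that is not yet revealed has no influence -/
lemma Y_congr_of_le_T (D : Set V) {a : V × ℕ} {r : ℝ} {ω ω' : Om V}
    (h : ∀ i, i ∉ slotIdx a → ω i = ω' i) (h1 : r ≤ T a ω) (h2 : r ≤ T a ω') :
    S.Y D r ω = S.Y D r ω' := by
  funext v
  refine m3_Y_congr D r v (m3_spin_of_slot h v) fun j => ?_
  by_cases hab : (v, j) = a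
  · subst hab
    exact Or.inr ⟨h1, h2⟩
  · exact Or.inl (m3_slot_of_ne hab h)
lemma cut_L_congr_of_le_T {a : V × ℕ} {r : ℝ} {ω ω' : Om V}
    (h : ∀ i, i ∉ slotIdx a → ω i = ω' i) (h1 : r ≤ T a ω) (h2 : r ≤ T a ω') :
    cut r (S.L ω) = cut r (S.L ω') := by
  funext v j
  have c1 : cut r (S.L ω) v j = if T (v, j) ω < r then S.L ω v j else (1, 0) := rfl
  have c2 : cut r (S.L ω') v j = if T (v, j) ω' < r then S.L ω' v j else (1, 0) := rfl
  rw [c1, c2]
  by_cases hab : (v, j) = a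
  · subst hab
    rw [if_neg (not_lt.2 h1), if_neg (not_lt.2 h2)]
  · obtain ⟨g1, g2⟩ := m3_slot_of_ne hab h
    have e1 : (ω (Idx.time (v, j).1 (v, j).2)).1 = (ω' (Idx.time (v, j).1 (v, j).2)).1 := by
      rw [g1]
    have e2 : (ω (Idx.noise (v, j).1 (v, j).2)).1 = (ω' (Idx.noise (v, j).1 (v, j).2)).1 := by
      rw [g2]
    rw [← m3_T_congr e1]
    split_ifs with hlt
    · refine Prod.ext e1 ?_
      show S.U (v, j) ω = S.U (v, j) ω'
      unfold U mR
      rw [← m3_T_congr e1, m3_eps_congr e1,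
        m3_w_congr (S := S) (a := (v, j)) (m3_spin_of_slot h v) e1 e2,
        Y_congr_of_le_T Set.univ h (hlt.le.trans h1) (hlt.le.trans h2)]
    · rfl
lemma obs_T_dependsOn (D : Set V) (a : V × ℕ) :
    DependsOn (S.obs D (T a)) {Idx.noise a.1 a.2}ᶜ := by
  classical
  intro ω ω' h
  have ht : ∀ b : V × ℕ, ω (Idx.time b.1 b.2) = ω' (Idx.time b.1 b.2) := fun b =>
    h _ fun e => by cases e
  have hT : ∀ b : V × ℕ, T b ω = T b ω' := fun b => m3_T_congr (by rw [ht])
  have hs : ∀ v, S.spin v ω = S.spin v ω' := fun v =>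
    m3_spin_congr (by rw [h Idx.root fun e => by cases e]) (fun e => h _ fun e => by cases e) v
  refine Prod.ext (h _ fun e => by cases e) ?_
  show S.seen D (T a ω) ω = S.seen D (T a ω') ω'
  funext b
  unfold seen
  refine Prod.ext (ht b) ?_
  show (if T b ω < T a ω ∧ b.1 ∈ D then S.w b ω else 0) =
    if T b ω' < T a ω' ∧ b.1 ∈ D then S.w b ω' else 0
  rw [← hT, ← hT]
  split_ifs with hlt
  · have hab : b ≠ a := by
      rintro rfl
      exact lt_irrefl _ hlt.1
    refine m3_w_congr (hs _) (by rw [ht]) ?_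
    rw [h]
    intro e
    exact hab (Prod.ext (Idx.noise.inj e).1 (Idx.noise.inj e).2)
  · rfl

/-- a function that ignores the uniform part of the root coordinate and is a.e. flip invariant is
a.e. equal to a function that ignores the root coordinate -/
lemma exists_dependsOn_root [DecidableEq (Idx V)] {Z : Om V → ℝ} (hZ : BM Z)
    (hu : ∀ ω (u : I), Z (Function.update ω Idx.root (u, (ω Idx.root).2)) = Z ω)
    (hf : (fun ω => Z (flip ω)) =ᵐ[mu V] Z) :
    ∃ Z' : Om V → ℝ, BM Z' ∧ DependsOn Z' {Idx.root}ᶜ ∧ Z' =ᵐ[mu V] Z := by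
  refine ⟨fun ω => Z (Function.update ω Idx.root (0, true)), hZ.comp measurable_update_left,
    fun ω ω' h => ?_, ?_⟩
  · show Z _ = Z _
    congr 1
    funext i
    by_cases hi : i = Idx.root
    · subst hi
      rw [Function.update_self, Function.update_self]
    · rw [Function.update_of_ne hi, Function.update_of_ne hi, h i hi]
  · filter_upwards [hf] with ω hω
    cases hb : (ω Idx.root).2 with
    | true => rw [← hb]; exact hu ω 0
    | false =>
      have e1 : (flip ω Idx.root).2 = true := by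
        show (!(ω Idx.root).2) = true
        rw [hb]; rfl
      have e2 : Function.update ω Idx.root ((0 : I), true) =
          Function.update (flip ω) Idx.root ((0 : I), (flip ω Idx.root).2) := by
        rw [e1]
        funext i
        by_cases hi : i = Idx.root
        · subst hi
          rw [Function.update_self, Function.update_self]
        · rw [Function.update_of_ne hi, Function.update_of_ne hi, flip_apply hi]
      rw [e2, hu, hω]

end Setup

end Crest.Agent.R160
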