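import Crest.Agent.R160.LD
import Crest.Agent.R160.Model3
import Crest.Agent.R160.Tree3

/-!
# Row 160 (S0241): Decouple
Anti-concentration, large deviations of the cost along a path, and decoupling.
* `anticonc`: for `φ ≥ 0` continuous, `∫ φ(ζ) = ∫ φ_even(ζ) + tanh ζ φ_odd(ζ) ≥ (1/4) ∫ φ_even(ζ)`; take
  `φ x = min (Λ (c+x)²) 1`, whose even part is `≥ min (Λ x²) 1 / 2`; `exp_neg_alpha_le`.
* `ld_path`: peel off the top factor (`integral_peel_add`): with `z ∈ ch (q (a+1)) (q a)`,
  `z ≠ q (a+2)` (`exists_ch_ne`), `XX r (q (a+1)) (q a) = R + ξ` a.e. (`XX_rec`), `ξ = eta * fm (XX r z _)`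
  depends on `branch z (q (a+1))`; `R` and the deeper factors do not.
* `decouple`: take the `M ≥ 2^n` paths `q y` of `exists_desc`; by `exists_aut` and invariance,
  `∫ Z β(q) = ∫ Z β(q y)`.  With `A = M⁻¹ ∑ β(q y)`, `p = exp (-Λ y n/64)`, `η = (3/4)^n`, pointwise
  `Z A ≤ Z (2p + η) + C exp (M A - (2p+η) M)`, and (`integral_param` at `rho`, then
  `integral_prod_of_dependsOn`, `e^β ≤ 1 + 2β`, `ld_path`) `∫ exp (M A) ≤ exp (2 p M)`.
-/

set_option autoImplicit false

open MeasureTheory Filter Topology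
open scoped unitInterval

noncomputable section

namespace Crest.Agent.R160

universe u

namespace Setup

variable {V : Type u} (S : Setup V)

variable {S}

lemma beta_nonneg (R : Om V → ℝ) (Λ y : ℝ) (q : ℕ → V) (n : ℕ) (ω : Om V) :
    0 ≤ S.beta R Λ y q n ω := le_min zero_le_one (Real.exp_pos _).le

lemma beta_le_one (R : Om V → ℝ) (Λ y : ℝ) (q : ℕ → V) (n : ℕ) (ω : Om V) :
    S.beta R Λ y q n ω ≤ 1 := min_le_left _ _

lemma BM_beta {R : Om V → ℝ} (hR : Measurable R) (Λ y : ℝ) (q : ℕ → V) (n : ℕ) :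
    BM (S.beta R Λ y q n) := by
  refine ⟨?_, 1, fun ω => abs_le.2 ⟨by linarith [beta_nonneg (S := S) R Λ y q n ω],
    beta_le_one _ _ _ _ _ _⟩⟩
  refine measurable_const.min (Measurable.exp (measurable_const.mul (measurable_const.sub ?_)))
  exact Finset.measurable_sum _ fun l _ =>
    (continuous_alpha S.hθ0 S.theta_sq_le).measurable.comp
      ((measurable_cav _ _).comp (measurable_YR Set.univ hR))

lemma beta_const_eq (r Λ y : ℝ) (q : ℕ → V) (n : ℕ) (ω : Om V) :
    S.beta (fun _ => r) Λ y q n ω = min 1 (Real.exp (Λ * (y * n / 64)) *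
      Real.exp (-(Λ * ∑ l ∈ Finset.range n,
        alpha S.θ (S.XX r (q (n + 1 + l + 1)) (q (n + 1 + l)) ω)))) := by
  unfold beta
  rw [← Real.exp_add, mul_sub, sub_eq_add_neg]
  congr 5
  refine Finset.sum_congr rfl fun l _ => ?_
  rw [alpha_XX, show n + 1 + l + 1 = n + l + 2 by ring, show n + 1 + l = n + l + 1 by ring]

lemma beta_const_dependsOn (r Λ y : ℝ) {q : ℕ → V} {n : ℕ} (hq : S.IsNB q (2 * n + 1)) :
    DependsOn (S.beta (fun _ => r) Λ y q n) (idx (S.D (q (n + 1)) (q n))) := by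
  intro ω ω' h
  rw [beta_const_eq, beta_const_eq]
  congr 5
  refine Finset.sum_congr rfl fun l hl => ?_
  have hl' := Finset.mem_range.1 hl
  congr 1
  refine XX_dependsOn r (Or.inr (hq.1 _ (by omega)).symm) fun i hi => h i ?_
  exact idx_mono (hq.D_subset (by omega) (by omega)) hi

lemma integral_beta_const_le {r Λ y : ℝ} (hΛ : 1 ≤ Λ) (hy : 0 ≤ y) (h1 : S.H1 r Λ y)
    {q : ℕ → V} {n : ℕ} (hq : S.IsNB q (2 * n + 1)) :
    ∫ ω, S.beta (fun _ => r) Λ y q n ω ∂(mu V) ≤ Real.exp (-(Λ * y * n / 64)) := by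
  have h2 := ld_path hΛ hy h1 (q := q) (n + 1) n (hq.mono (by omega))
  have hb : BM fun ω => Real.exp (-(Λ * ∑ l ∈ Finset.range n,
      alpha S.θ (S.XX r (q (n + 1 + l + 1)) (q (n + 1 + l)) ω))) :=
    ((BM.const Λ).mul (BM.sum _ fun l _ => (BM_XX r _ _).comp_continuous
      (continuous_alpha S.hθ0 S.theta_sq_le))).neg.comp_continuous Real.continuous_exp
  calc _ ≤ ∫ ω, Real.exp (Λ * (y * n / 64)) * Real.exp (-(Λ * ∑ l ∈ Finset.range n,
        alpha S.θ (S.XX r (q (n + 1 + l + 1)) (q (n + 1 + l)) ω))) ∂(mu V) := by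
        refine integral_mono ((BM_beta measurable_const _ _ _ _).integrable _)
          (((BM.const _).mul hb).integrable _) fun ω => ?_
        simp only [beta_const_eq]
        exact min_le_right _ _
    _ ≤ Real.exp (Λ * (y * n / 64)) * Real.exp (-(Λ * y * n / 32)) := by
        rw [integral_const_mul]
        exact mul_le_mul_of_nonneg_left h2 (Real.exp_pos _).le
    _ = _ := by
        rw [← Real.exp_add]
        congr 1
        ring

lemma integral_exp_sum_beta_le {r : X → ℝ} (hr : Measurable r) {Λ y : ℝ} (hΛ : 1 ≤ Λ) (hy : 0 ≤ y)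
    (h1 : ∀ ξ, S.H1 (r ξ) Λ y) {n : ℕ} (J : Finset V) (q : V → ℕ → V)
    (hq : ∀ v ∈ J, S.IsNB (q v) (2 * n + 1))
    (hd : (J : Set V).PairwiseDisjoint fun v => S.D (q v (n + 1)) (q v n)) :
    ∫ ω, Real.exp (∑ v ∈ J, S.beta (fun ω => r (ω Idx.rho)) Λ y (q v) n ω) ∂(mu V) ≤
      Real.exp (J.card * (2 * Real.exp (-(Λ * y * n / 64)))) := by
  classical
  have hRm : Measurable fun ω : Om V => r (ω Idx.rho) := hr.comp (measurable_pi_apply _)
  let Φ : Om V → ℝ := fun ω =>
    Real.exp (∑ v ∈ J, S.beta (fun ω => r (ω Idx.rho)) Λ y (q v) n ω)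
  have hΦ : BM Φ := (BM.sum _ fun v _ => BM_beta hRm _ _ _ _).comp_continuous Real.continuous_exp
  have hF : BM fun p : X × Om V => Φ (Function.update p.2 Idx.rho p.1) :=
    hΦ.comp (measurable_update'.comp measurable_swap)
  have h2 := integral_param nu Idx.rho hF fun ξ ω ω' h => by
    simp only
    congr 1
    funext i
    by_cases hi : i = Idx.rho
    · subst hi
      simp
    · rw [Function.update_of_ne hi, Function.update_of_ne hi, h i hi]
  simp only [Function.update_eq_self] at h2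
  have h3 : ∀ ξ, ∫ ω, Φ (Function.update ω Idx.rho ξ) ∂(PP (Idx V) nu) ≤
      Real.exp (J.card * (2 * Real.exp (-(Λ * y * n / 64)))) := by
    intro ξ
    have h4 : ∀ ω, Φ (Function.update ω Idx.rho ξ) =
        ∏ v ∈ J, Real.exp (S.beta (fun _ => r ξ) Λ y (q v) n ω) := by
      intro ω
      simp only [Φ, Real.exp_sum, beta, Function.update_self]
      rw [Y_dependsOn_rho Set.univ (r ξ) (y := ω) fun i hi => Function.update_of_ne hi _ _]
    simp only [h4]
    have hb : ∀ v, BM fun ω => Real.exp (S.beta (fun _ => r ξ) Λ y (q v) n ω) := fun v =>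
      (BM_beta measurable_const _ _ _ _).comp_continuous Real.continuous_exp
    rw [integral_prod_of_dependsOn nu J (fun v _ => hb v)
      (K := fun v => idx (S.D (q v (n + 1)) (q v n)))
      (fun v hv ω ω' h => congrArg Real.exp (beta_const_dependsOn _ _ _ (hq v hv) h))
      (fun v hv w hw hvw => idx_disjoint (hd hv hw hvw)), Real.exp_nat_mul, ← Finset.prod_const]
    refine Finset.prod_le_prod (fun v _ => integral_nonneg fun ω => (Real.exp_pos _).le)
      fun v hv => ?_
    have hβ : BM (S.beta (fun _ => r ξ) Λ y (q v) n) := BM_beta measurable_const _ _ _ _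
    calc _ ≤ ∫ ω, 1 + 2 * S.beta (fun _ => r ξ) Λ y (q v) n ω ∂(mu V) := by
          refine integral_mono ((hb v).integrable _)
            (((BM.const 1).add ((BM.const 2).mul hβ)).integrable _) fun ω => ?_
          have h5 := beta_nonneg (S := S) (fun _ => r ξ) Λ y (q v) n ω
          have h6 := Real.abs_exp_sub_one_le (x := S.beta (fun _ => r ξ) Λ y (q v) n ω)
            (by rw [abs_of_nonneg h5]; exact beta_le_one _ _ _ _ _ _)
          rw [abs_of_nonneg h5] at h6
          have := le_abs_self (Real.exp (S.beta (fun _ => r ξ) Λ y (q v) n ω) - 1)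
          simp only
          linarith
      _ ≤ 2 * Real.exp (-(Λ * y * n / 64)) + 1 := by
          rw [integral_add (integrable_const _) (((BM.const 2).mul hβ).integrable _),
            integral_const_mul]
          have := integral_beta_const_le hΛ hy (h1 ξ) (hq v hv)
          simp only [integral_const, probReal_univ, smul_eq_mul]
          linarith
      _ ≤ _ := Real.add_one_le_exp _
  refine le_trans (le_of_eq h2) ?_
  refine le_trans (integral_mono ((BM.integral_prod_right hF _).integrable _)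
    (integrable_const _) h3) ?_
  simp

theorem decouple {r : X → ℝ} (hr : Measurable r) {Λ y : ℝ} (hΛ : 1 ≤ Λ) (hy : 0 ≤ y)
    (h1 : ∀ ξ, S.H1 (r ξ) Λ y) {q : ℕ → V} {n : ℕ} (hq : S.IsNB q (2 * n + 1))
    {Z : Om V → ℝ} (hZ : Measurable Z) {C : ℝ} (hZ0 : ∀ᵐ ω ∂(mu V), 0 ≤ Z ω)
    (hZC : ∀ᵐ ω ∂(mu V), Z ω ≤ C)
    (hinv : ∀ g : S.G ≃g S.G, g (q 0) = q 0 → g (q 1) = q 1 →
      (fun ω => Z (S.act g ω)) =ᵐ[mu V] Z) :
    ∫ ω, Z ω * S.beta (fun ω => r (ω Idx.rho)) Λ y q n ω ∂(mu V) ≤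
      (2 * Real.exp (-(Λ * y * n / 64)) + (3 / 4 : ℝ) ^ n) * ∫ ω, Z ω ∂(mu V) +
        C * Real.exp (-((3 / 2 : ℝ) ^ n)) := by
  have hRm : Measurable fun ω : Om V => r (ω Idx.rho) := hr.comp (measurable_pi_apply _)
  obtain ⟨J, q', hJ, hq', hd⟩ := exists_desc (hq.1 0 (by omega)) n (2 * n + 1)
  have hC : 0 ≤ C := by
    obtain ⟨ω, a, b⟩ := (hZ0.and hZC).exists
    exact a.trans b
  have hZi : ∀ W : Om V → ℝ, BM W → Integrable (fun ω => Z ω * W ω) (mu V) := by
    intro W hW
    refine (hW.integrable _).bdd_mul hZ.aestronglyMeasurable (c := C) ?_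
    filter_upwards [hZ0, hZC] with ω a b
    rwa [Real.norm_eq_abs, abs_of_nonneg a]
  have h2 : ∀ v ∈ J, ∫ ω, Z ω * S.beta (fun ω => r (ω Idx.rho)) Λ y (q' v) n ω ∂(mu V) =
      ∫ ω, Z ω * S.beta (fun ω => r (ω Idx.rho)) Λ y q n ω ∂(mu V) := by
    intro v hv
    obtain ⟨ha, -, hb, hc⟩ := hq' v hv
    obtain ⟨g, hg⟩ := exists_aut hq ha
    have hm := measurePreserving_act (S := S) g
    have hmeas : Measurable fun ω => Z ω * S.beta (fun ω => r (ω Idx.rho)) Λ y q n ω :=
      hZ.mul (BM_beta hRm _ _ _ _).meas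
    conv_rhs => rw [← hm.map_eq, integral_map hm.measurable.aemeasurable
      hmeas.aestronglyMeasurable]
    refine integral_congr_ae ?_
    filter_upwards [hinv g ((hg 0 (by omega)).trans hb) ((hg 1 (by omega)).trans hc)] with ω hω
    rw [hω]
    unfold beta
    congr 5
    refine Finset.sum_congr rfl fun l hl => ?_
    have hl' := Finset.mem_range.1 hl
    beta_reduce
    rw [act_rho, cav_act, hg _ (by omega), hg _ (by omega)]
  have h3 := integral_exp_sum_beta_le hr hΛ hy h1 J q' (fun v hv => (hq' v hv).1) hd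
  set p := Real.exp (-(Λ * y * n / 64)) with hp
  set M : ℝ := (J.card : ℝ) with hM
  have hM1 : (2 : ℝ) ^ n ≤ M := by rw [hM]; exact_mod_cast hJ
  have hM0 : 0 < M := lt_of_lt_of_le (by positivity) hM1
  set t : ℝ := 2 * p + (3 / 4 : ℝ) ^ n with ht
  have ht0 : 0 ≤ t := by positivity
  have hB : BM fun ω => ∑ v ∈ J, S.beta (fun ω => r (ω Idx.rho)) Λ y (q' v) n ω :=
    BM.sum _ fun v _ => BM_beta hRm _ _ _ _
  have hE := hB.comp_continuous Real.continuous_exp
  have h4 : M * ∫ ω, Z ω * S.beta (fun ω => r (ω Idx.rho)) Λ y q n ω ∂(mu V) =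
      ∫ ω, Z ω * ∑ v ∈ J, S.beta (fun ω => r (ω Idx.rho)) Λ y (q' v) n ω ∂(mu V) := by
    simp only [Finset.mul_sum]
    rw [integral_finsetSum _ fun v _ => hZi _ (BM_beta hRm _ _ _ _), Finset.sum_congr rfl h2,
      Finset.sum_const, nsmul_eq_mul]
  have h5 : ∫ ω, Z ω * ∑ v ∈ J, S.beta (fun ω => r (ω Idx.rho)) Λ y (q' v) n ω ∂(mu V) ≤
      ∫ ω, Z ω * (M * t) + M * C * Real.exp (-(M * t)) *
        Real.exp (∑ v ∈ J, S.beta (fun ω => r (ω Idx.rho)) Λ y (q' v) n ω) ∂(mu V) := by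
    refine integral_mono_ae (hZi _ hB)
      ((hZi _ (BM.const _)).add (((BM.const _).mul hE).integrable _)) ?_
    filter_upwards [hZ0, hZC] with ω a b
    set B := ∑ v ∈ J, S.beta (fun ω => r (ω Idx.rho)) Λ y (q' v) n ω with hBdef
    have hB0 : 0 ≤ B := Finset.sum_nonneg fun v _ => beta_nonneg _ _ _ _ _ _
    have hB1 : B ≤ M := by
      have := Finset.sum_le_card_nsmul J _ 1 fun v _ =>
        beta_le_one (S := S) (fun ω => r (ω Idx.rho)) Λ y (q' v) n ω
      simpa using this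
    rcases le_total B (M * t) with h | h
    · have : 0 ≤ M * C * Real.exp (-(M * t)) * Real.exp B := by positivity
      have := mul_le_mul_of_nonneg_left h a
      linarith
    · have h6 : 1 ≤ Real.exp (-(M * t)) * Real.exp B := by
        rw [← Real.exp_add]
        exact Real.one_le_exp (by linarith)
      have h7 : Z ω * B ≤ C * M := mul_le_mul b hB1 hB0 hC
      have h8 : 0 ≤ Z ω * (M * t) := by positivity
      have h9 := mul_le_mul_of_nonneg_left h6 (mul_nonneg hM0.le hC)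
      nlinarith
  rw [integral_add (hZi _ (BM.const _)) (((BM.const _).mul hE).integrable _), integral_mul_const,
    integral_const_mul, ← h4] at h5
  have h6 : Real.exp (-(M * t)) * Real.exp (M * (2 * p)) ≤ Real.exp (-((3 / 2 : ℝ) ^ n)) := by
    rw [← Real.exp_add]
    refine Real.exp_le_exp.2 ?_
    have h7 : (3 / 2 : ℝ) ^ n = 2 ^ n * (3 / 4) ^ n := by rw [← mul_pow]; norm_num
    have h8 := mul_le_mul_of_nonneg_right hM1 (by positivity : (0 : ℝ) ≤ (3 / 4) ^ n)
    rw [ht]
    linarith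
  have h7 := mul_le_mul_of_nonneg_left h3
    (by positivity : 0 ≤ M * C * Real.exp (-(M * t)))
  have h8 := mul_le_mul_of_nonneg_left h6 (mul_nonneg hM0.le hC)
  refine le_of_mul_le_mul_left ?_ hM0
  nlinarith

end Setup

end Crest.Agent.R160
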