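import Mathlib
import Crest.Prelude.Def_TreeIsing

/-!
# Row 160 (S0241): definitions.  FROZEN: do not edit (owner helper46).

See `Crest/Agent/R160/Blueprint.lean` for the proof plan.
-/

set_option autoImplicit false

open MeasureTheory Filter Topology
open scoped unitInterval

noncomputable section

namespace Crest.Agent.R160

universe u

/-- All the data: a `d`-regular tree, the edge parameter `θ`, and a base vertex `o`. -/
structure Setup (V : Type u) where
  G : SimpleGraph V
  lf : G.LocallyFinite
  d : ℕ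
  hd : 3 ≤ d
  tree : G.IsTree
  reg : @SimpleGraph.IsRegularOfDegree V G lf d
  θ : ℝ
  hθ0 : 0 ≤ θ
  hθ : ((d : ℝ) - 1) * θ ^ 2 ≤ 1
  o : V

attribute [instance] Setup.lf

/-! ## One-variable functions -/

/-- The tree message `f h = artanh (θ tanh h)`. -/
def fm (θ h : ℝ) : ℝ := Real.artanh (θ * Real.tanh h)

/-- `α h = log (1 + (1 - θ²) sinh² h) ≥ 0`; `exp (-α h) = (1 - tanh² h)/(1 - θ² tanh² h)`. -/
def alpha (θ h : ℝ) : ℝ := Real.log (1 + (1 - θ ^ 2) * Real.sinh h ^ 2)

/-- regression coefficient along an edge, `θ (1 - tanh² h)/(1 - θ² tanh² h) = θ exp (-α h)`. -/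
def bco (θ h : ℝ) : ℝ := θ * (1 - Real.tanh h ^ 2) / (1 - θ ^ 2 * Real.tanh h ^ 2)

/-- `log cosh`. -/
def lc (h : ℝ) : ℝ := Real.log (Real.cosh h)

/-- Quantile function of the density `(1 + a w)/2` on `[-1,1]`. -/
def Qf (a u : ℝ) : ℝ := (4 * u - 2 + a) / (1 + Real.sqrt (1 + a * (4 * u - 2 + a)))

/-- Distribution function of the density `(1 + a w)/2` on `[-1,1]`. -/
def Ff (a w : ℝ) : ℝ := (w + 1) / 2 + a * (w ^ 2 - 1) / 4

/-- normalised jump as a function of amplitude `e`, magnetisation `m` and innovation `u`. -/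
def gj (e m u : ℝ) : ℝ := e * Qf (e * m) u / (1 + m * (e * Qf (e * m) u))

/-- clamp to `[-l, l]`. -/
def clamp (l x : ℝ) : ℝ := max (-l) (min l x)

open Classical in
/-- The limit of a real sequence if it converges, else `0`. -/
def Lim (a : ℕ → ℝ) : ℝ := if ∃ l, Tendsto a atTop (𝓝 l) then limUnder atTop a else 0

/-- time of a slot with round number `j` and time label `s ∈ [0,1]`. -/
def tm (j : ℕ) (s : ℝ) : ℝ := j + 2 * s

/-- amplitude of a slot with round number `j` and time label `s`. -/
def amp (j : ℕ) (s : ℝ) : ℝ := if s < 1 / 2 then min (tm j s) 1 / 2 else 0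

/-- spin value of a bit -/
def sgn (b : Bool) : ℝ := if b then 1 else -1

/-! ## Conditional residuals -/

/-- residual `X - E[X | m]`. -/
def res {Ω : Type*} (m : MeasurableSpace Ω) {m0 : MeasurableSpace Ω} (μ : Measure Ω)
    (X : Ω → ℝ) : Ω → ℝ := fun ω => X ω - (μ[X | m]) ω

/-- expected conditional variance `E (X - E[X | m])²`. -/
def cvar {Ω : Type*} (m : MeasurableSpace Ω) {m0 : MeasurableSpace Ω} (μ : Measure Ω)
    (X : Ω → ℝ) : ℝ := ∫ ω, (res m μ X ω) ^ 2 ∂μ

/-- bounded and measurable real function -/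
structure BM {Ω : Type*} [MeasurableSpace Ω] (X : Ω → ℝ) : Prop where
  meas : Measurable X
  bdd : ∃ C, ∀ ω, |X ω| ≤ C

/-! ## The probability space -/

/-- Coordinates of the probability space. -/
inductive Idx (V : Type u) : Type u
  | rho : Idx V
  | root : Idx V
  | edge (e : Sym2 V) : Idx V
  | time (v : V) (j : ℕ) : Idx V
  | noise (v : V) (j : ℕ) : Idx V

/-- value of one coordinate: a uniform real in `[0,1]` and a fair bit -/
abbrev X : Type := I × Bool

/-- fair coin -/
def coin : Measure Bool := (2 : ENNReal)⁻¹ • (Measure.dirac true + Measure.dirac false)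

instance : IsProbabilityMeasure coin := ⟨by
  simp only [coin, Measure.smul_apply, Measure.add_apply, measure_univ, smul_eq_mul]
  rw [one_add_one_eq_two]
  exact ENNReal.inv_mul_cancel (by norm_num) (by norm_num)⟩

/-- law of one coordinate -/
def nu : Measure X := (volume : Measure I).prod coin

instance : IsProbabilityMeasure nu := by unfold nu; infer_instance

/-- the sample space -/
abbrev Om (V : Type u) : Type u := Idx V → X

/-- the probability measure -/
def mu (V : Type u) : Measure (Om V) := Measure.infinitePi fun _ : Idx V => nu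

instance (V : Type u) : IsProbabilityMeasure (mu V) := by unfold mu; infer_instance

/-- labels of one vertex: for each round, (time label, innovation) -/
abbrev Lab : Type := ℕ → I × I

/-- law of the labels of one vertex -/
def lam : Measure Lab :=
  Measure.infinitePi fun _ : ℕ => (volume : Measure I).prod (volume : Measure I)

instance : IsProbabilityMeasure lam := by unfold lam; infer_instance

/-- what has been seen: for each slot its time coordinate and (if revealed) its observation -/
abbrev Seen (V : Type u) : Type u := V × ℕ → X × ℝ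

/-- the coordinates carrying times -/
def timeIdx (V : Type u) : Set (Idx V) := {i | i = Idx.rho ∨ ∃ v j, i = Idx.time v j}

/-- the coordinates attached to a vertex set `D` (edges inside `D`, slots of vertices of `D`) -/
def idx {V : Type u} (D : Set V) : Set (Idx V) :=
  {i | (∃ x ∈ D, ∃ y ∈ D, i = Idx.edge s(x, y)) ∨
    (∃ v ∈ D, ∃ j, i = Idx.time v j ∨ i = Idx.noise v j)}

/-- A random time: measurable, a function of the time coordinates only, bounded by `J`. -/
structure IsTime {V : Type u} (R : Om V → ℝ) (J : ℕ) : Prop where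
  meas : Measurable R
  dep : DependsOn R (timeIdx V)
  le : ∀ ω, R ω ≤ J

/-- uniform random time in `[s,t]` -/
def rhoT {V : Type u} (s t : ℝ) (ω : Om V) : ℝ := s + (t - s) * ((ω Idx.rho).1 : ℝ)

/-- time label of a slot -/
def sv {V : Type u} (a : V × ℕ) (ω : Om V) : ℝ := ((ω (Idx.time a.1 a.2)).1 : ℝ)

/-- time of a slot -/
def T {V : Type u} (a : V × ℕ) (ω : Om V) : ℝ := tm a.2 (sv a ω)

/-- amplitude of a slot -/
def eps {V : Type u} (a : V × ℕ) (ω : Om V) : ℝ := amp a.2 (sv a ω)

/-- gauge-fixed observation of a slot (density `(1 + eps w)/2`) -/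
def wt {V : Type u} (a : V × ℕ) (ω : Om V) : ℝ := Qf (eps a ω) ((ω (Idx.noise a.1 a.2)).1 : ℝ)

/-- gauge-fixed field increment of slot `a` if revealed before time `r` -/
def zeta {V : Type u} (a : V × ℕ) (r : ℝ) (ω : Om V) : ℝ :=
  if T a ω < r then Real.artanh (eps a ω * wt a ω) else 0

/-- external field computed from what has been seen -/
def fld {V : Type u} (O : Seen V) (v : V) : ℝ :=
  ∑' j : ℕ, Real.artanh (amp j ((O (v, j)).1.1 : ℝ) * (O (v, j)).2)

/-- forget the labels of slots at time `≥ r` -/
def cut {V : Type u} (r : ℝ) (l : V → Lab) : V → Lab :=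
  fun v j => if tm j ((l v j).1 : ℝ) < r then l v j else (1, 0)

/-- flip the root bit -/
def flip {V : Type u} (ω : Om V) : Om V := fun i =>
  match i with
  | Idx.root => ((ω Idx.root).1, !(ω Idx.root).2)
  | i => ω i

/-- action of a vertex map on coordinates -/
def Idx.map {V : Type u} (g : V → V) : Idx V → Idx V
  | Idx.rho => Idx.rho
  | Idx.root => Idx.root
  | Idx.edge e => Idx.edge (e.map g)
  | Idx.time v j => Idx.time (g v) j
  | Idx.noise v j => Idx.noise (g v) j

/-- pure relabelling of coordinates -/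
def relab {V : Type u} (g : V → V) (ω : Om V) : Om V := fun i => ω (i.map g)

namespace Setup

variable {V : Type u} (S : Setup V)

/-! ## Tree geometry -/

/-- neighbours -/
def nb (y : V) : Finset V := S.G.neighborFinset y

open Classical in
/-- neighbours of `y` other than `x` -/
def ch (y x : V) : Finset V := (S.nb y).erase x

/-- `(y, x)` is a directed edge `y → x`, or `y = x` -/
def DE (y x : V) : Prop := y = x ∨ S.G.Adj y x

/-- The part of the tree behind `y` seen from `x` (everything if `y = x`). -/
def D (y x : V) : Set V := {v | y = x ∨ S.G.dist v y < S.G.dist v x}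

open Classical in
/-- depth-`n` truncation of `D y x`; `DN n y y` is the ball of radius `< n`. -/
def DN : ℕ → V → V → Finset V
  | 0, _, _ => ∅
  | n + 1, y, x => insert y ((S.ch y x).biUnion fun z => DN n z y)

/-- the vertices at distance `< n` from `v` -/
def ball (n : ℕ) (v : V) : Finset V := S.DN n v v

/-- `p 0, …, p k` is a non-backtracking path -/
def IsNB (p : ℕ → V) (k : ℕ) : Prop :=
  (∀ i, i < k → S.G.Adj (p i) (p (i + 1))) ∧ ∀ i, i + 2 ≤ k → p (i + 2) ≠ p i

open Classical in
/-- the neighbour of `x` towards `u` (and `x` itself if `x = u`) -/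
def par (u x : V) : V :=
  if h : ∃ z, S.G.Adj x z ∧ S.G.dist u z < S.G.dist u x then h.choose else x

/-- the geodesic from `x` to `u`: `geod x u 0 = x`, `geod x u (dist x u) = u`. -/
def geod (x u : V) (i : ℕ) : V := (S.par u)^[i] x

/-- `γ = (d-1) θ²` -/
def gam : ℝ := ((S.d : ℝ) - 1) * S.θ ^ 2

/-! ## Deterministic cavity fields -/

/-- depth-`n` cavity field at `y` in the absence of `x` -/
def cavN : ℕ → (V → ℝ) → V → V → ℝ
  | 0, _, _, _ => 0
  | n + 1, Y, y, x => Y y + ∑ z ∈ S.ch y x, fm S.θ (cavN n Y z y)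

/-- cavity field -/
def cav (Y : V → ℝ) (y x : V) : ℝ := Lim fun n => S.cavN n Y y x

/-- magnetisation -/
def mag (Y : V → ℝ) (v : V) : ℝ := Real.tanh (S.cav Y v v)

/-- all cavity recursions converge -/
def Good (Y : V → ℝ) : Prop :=
  ∀ y x, S.DE y x → ∃ l, Tendsto (fun n => S.cavN n Y y x) atTop (𝓝 l)

/-- covariance of the spins at the two ends of the path `p 0, …, p k` -/
def cov (Y : V → ℝ) (p : ℕ → V) (k : ℕ) : ℝ :=
  (1 - S.mag Y (p k) ^ 2) * ∏ i ∈ Finset.range k, bco S.θ (S.cav Y (p i) (p (i + 1)))

/-- symmetric edge cost -/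
def ecost (Y : V → ℝ) (x y : V) : ℝ := (alpha S.θ (S.cav Y x y) + alpha S.θ (S.cav Y y x)) / 2

/-- total cost of a path: `cov = θ^k exp (-cost)` -/
def cost (Y : V → ℝ) (p : ℕ → V) (k : ℕ) : ℝ :=
  ∑ i ∈ Finset.range k, S.ecost Y (p i) (p (i + 1)) +
    lc (S.cav Y (p 0) (p 0)) + lc (S.cav Y (p k) (p k))

/-! ## The model -/

/-- edge variable: `+1` with probability `(1+θ)/2` -/
def eta (x y : V) (ω : Om V) : ℝ :=
  if ((ω (Idx.edge s(x, y))).1 : ℝ) < (1 + S.θ) / 2 then 1 else -1

/-- the Ising spins -/
def spin (v : V) (ω : Om V) : ℝ :=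
  sgn (ω Idx.root).2 *
    ∏ i ∈ Finset.range (S.G.dist v S.o), S.eta (S.geod v S.o i) (S.geod v S.o (i + 1)) ω

/-- observation of a slot -/
def w (a : V × ℕ) (ω : Om V) : ℝ := S.spin a.1 ω * wt a ω

/-- `tanh` of the field increment of a slot -/
def tau (a : V × ℕ) (ω : Om V) : ℝ := eps a ω * S.w a ω

open Classical in
/-- what has been seen inside `D` strictly before time `r` -/
def seen (D : Set V) (r : ℝ) (ω : Om V) : Seen V :=
  fun b => (ω (Idx.time b.1 b.2), if T b ω < r ∧ b.1 ∈ D then S.w b ω else 0)

/-- the external field from observations inside `D` strictly before time `r` -/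
def Y (D : Set V) (r : ℝ) (ω : Om V) : V → ℝ := fld (S.seen D r ω)

/-- information at the random time `R` -/
def obs (D : Set V) (R : Om V → ℝ) (ω : Om V) : X × Seen V := (ω Idx.rho, S.seen D (R ω) ω)

/-- the σ-algebra of observations inside `D` before the random time `R` (and of all times) -/
@[reducible] def FF (D : Set V) (R : Om V → ℝ) : MeasurableSpace (Om V) :=
  MeasurableSpace.comap (S.obs D R) inferInstance

/-- gauge-fixed cavity field at time `r` -/
def XX (r : ℝ) (y x : V) (ω : Om V) : ℝ := S.spin y ω * S.cav (S.Y Set.univ r ω) y x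

/-- magnetisation at vertex `v` at the random time `R` (whole tree) -/
def mR (R : Om V → ℝ) (v : V) (ω : Om V) : ℝ := S.mag (S.Y Set.univ (R ω) ω) v

/-- innovation of a slot -/
def U (a : V × ℕ) (ω : Om V) : I :=
  Set.projIcc 0 1 zero_le_one (Ff (eps a ω * S.mR (T a) a.1 ω) (S.w a ω))

/-- the labels -/
def L (ω : Om V) : V → Lab := fun v j => ((ω (Idx.time v j)).1, S.U (v, j) ω)

/-- labels revealed before the random time `R` -/
def Gam (R : Om V → ℝ) (ω : Om V) : X × (V → Lab) := (ω Idx.rho, cut (R ω) (S.L ω))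

/-- the σ-algebra of innovations before the random time `R` -/
@[reducible] def GG (R : Om V → ℝ) : MeasurableSpace (Om V) :=
  MeasurableSpace.comap (S.Gam R) inferInstance

/-- expected conditional variance of the root magnetisation given the innovations -/
def NN (R : Om V → ℝ) : ℝ := cvar (S.GG R) (mu V) (S.mR R S.o)

/-- jump of the magnetisation at `o` when slot `a` is revealed, observations restricted to `D` -/
def jump (D : Set V) (a : V × ℕ) (ω : Om V) : ℝ :=
  S.cov (S.Y D (T a ω) ω) (S.geod S.o a.1) (S.G.dist S.o a.1) *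
    (S.tau a ω / (1 + S.mag (S.Y D (T a ω) ω) a.1 * S.tau a ω))

open Classical in
/-- action of an automorphism on the sample space: `spin v (act g ω) = spin (g v) ω`. -/
def act (g : S.G ≃g S.G) (ω : Om V) : Om V :=
  if S.spin (g S.o) ω = S.spin S.o ω then relab g ω else flip (relab g ω)

/-- second moment of the cavity magnetisation at time `r` (any directed edge gives the same) -/
def xm (r : ℝ) (y x : V) : ℝ := ∫ ω, Real.tanh (S.XX r y x ω) ^ 2 ∂(mu V)

/-- the quantity controlling the growth of `NN` on `[s,t]`, contribution of vertex `u` -/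
def term (R : Om V → ℝ) (u : V) : ℝ :=
  cvar (S.GG R) (mu V)
      (fun ω => S.cov (S.Y Set.univ (R ω) ω) (S.geod S.o u) (S.G.dist S.o u)) +
    ∫ ω, S.cov (S.Y Set.univ (R ω) ω) (S.geod S.o u) (S.G.dist S.o u) ^ 2 *
      res (S.GG R) (mu V) (S.mR R u) ω ^ 2 ∂(mu V)

end Setup

end Crest.Agent.R160
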