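import Crest.Agent.R160.Levy

/-!
# Row 160 (S0241): Innov
Innovations: the conditional law of an observation given the past.
`innov`: resample `noise a` (`obs_T_dependsOn`): the left side is
`∫ ∫ Φ(obs, 2u-1) (1 + spin * eps * (2u-1)) du` by `integral_sgn_Qf`; this is affine in `spin a.1` with
`FF D (T a)`-measurable coefficients, so `pf` replaces `spin` by the magnetisation; go back by
`integral_Qf`.
-/

set_option autoImplicit false

open MeasureTheory Filter Topology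
open scoped unitInterval

noncomputable section

namespace Crest.Agent.R160

universe u

namespace Setup

variable {V : Type u} (S : Setup V)

variable {S}

private lemma abs_two_mul_sub_one_le (u : I) : |2 * (u : ℝ) - 1| ≤ 1 := by
  have h0 := u.2.1
  have h1 := u.2.2
  rw [abs_le]; constructor <;> linarith

private lemma integral_affine {φ : I → ℝ} (hφ : Measurable φ) {C : ℝ} (hC : ∀ u, |φ u| ≤ C)
    (c : ℝ) :
    ∫ u : I, φ u * (1 + c * (2 * (u : ℝ) - 1)) =
      (∫ u : I, φ u) + c * ∫ u : I, φ u * (2 * (u : ℝ) - 1) := by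
  have h1 : BM φ := ⟨hφ, C, hC⟩
  have h2 : BM fun u : I => 2 * (u : ℝ) - 1 := ⟨by fun_prop, 1, abs_two_mul_sub_one_le⟩
  rw [← integral_const_mul, ← integral_add (h1.integrable _)
    (((h1.mul h2).integrable _).const_mul c)]
  congr 1
  funext u
  ring

lemma measurable_FF_eps (D : Set V) (R : Om V → ℝ) (a : V × ℕ) :
    Measurable[S.FF D R] (eps a) := by
  refine measurable_FF_timeDep D R (measurable_eps a) ?_
  intro ω ω' h
  have := h (Idx.time a.1 a.2) (Or.inr ⟨a.1, a.2, rfl⟩)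
  simp only [eps, sv, this]

lemma abs_eps_mul_le (a : V × ℕ) (ω : Om V) {m : ℝ} (hm : |m| ≤ 1) : |eps a ω * m| ≤ 1 / 2 := by
  rw [abs_mul, abs_of_nonneg (eps_nonneg a ω)]
  have := eps_le_half a ω
  have := eps_nonneg a ω
  nlinarith [abs_nonneg m]

theorem innov (D : Set V) (a : V × ℕ) {Φ : (X × Seen V) × ℝ → ℝ} (hΦ : Measurable Φ)
    (hb : ∃ C, ∀ O w, |w| ≤ 1 → |Φ (O, w)| ≤ C) :
    ∫ ω, Φ (S.obs D (T a) ω, S.w a ω) ∂(mu V) =
      ∫ ω, (∫ u : I, Φ (S.obs D (T a) ω, Qf (eps a ω * S.mag (S.Y D (T a ω) ω) a.1) u)) ∂(mu V) := by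
  classical
  obtain ⟨C, hC⟩ := hb
  have hO : Measurable (S.obs D (T a)) := measurable_obs D (measurable_T a)
  have hF : BM fun p : (X × Seen V) × I => Φ (p.1, 2 * (p.2 : ℝ) - 1) :=
    ⟨hΦ.comp (by fun_prop), C, fun p => hC _ _ (abs_two_mul_sub_one_le _)⟩
  have hG : BM fun p : (X × Seen V) × I => 2 * (p.2 : ℝ) - 1 :=
    ⟨by fun_prop, 1, fun p => abs_two_mul_sub_one_le _⟩
  have hA : BM fun O : X × Seen V => ∫ u : I, Φ (O, 2 * (u : ℝ) - 1) :=
    hF.integral_prod_right volume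
  have hB : BM fun O : X × Seen V => ∫ u : I, Φ (O, 2 * (u : ℝ) - 1) * (2 * (u : ℝ) - 1) :=
    (hF.mul hG).integral_prod_right volume
  set A : X × Seen V → ℝ := fun O => ∫ u : I, Φ (O, 2 * (u : ℝ) - 1) with hAdef
  set B : X × Seen V → ℝ :=
    fun O => ∫ u : I, Φ (O, 2 * (u : ℝ) - 1) * (2 * (u : ℝ) - 1) with hBdef
  have hΦO : ∀ O : X × Seen V, Measurable fun w : ℝ => Φ (O, w) := fun O =>
    hΦ.comp (by fun_prop)
  have haff : ∀ (O : X × Seen V) (c : ℝ),
      ∫ u : I, Φ (O, 2 * (u : ℝ) - 1) * (1 + c * (2 * (u : ℝ) - 1)) = A O + c * B O :=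
    fun O c => integral_affine (φ := fun u : I => Φ (O, 2 * (u : ℝ) - 1))
      ((hΦO O).comp (by fun_prop)) (fun u => hC _ _ (abs_two_mul_sub_one_le _)) c
  have he : BM (eps a : Om V → ℝ) := ⟨measurable_eps a, 1 / 2, fun ω => by
    rw [abs_of_nonneg (eps_nonneg a ω)]; exact eps_le_half a ω⟩
  have hm : BM fun ω => S.mag (S.Y D (T a ω) ω) a.1 :=
    ⟨(measurable_mag _).comp (measurable_YR D (measurable_T a)), 1, fun ω => abs_mag_le _ _⟩
  -- step 1
  have hL : BM fun ω => Φ (S.obs D (T a) ω, S.w a ω) :=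
    ⟨hΦ.comp (hO.prodMk (measurable_w a)), C, fun ω => hC _ _ (abs_w_le a ω)⟩
  have h1 : ∫ ω, Φ (S.obs D (T a) ω, S.w a ω) ∂(mu V) =
      ∫ ω, (A (S.obs D (T a) ω) + S.spin a.1 ω * (eps a ω * B (S.obs D (T a) ω))) ∂(mu V) := by
    have h := integral_update nu (Idx.noise a.1 a.2) (hL.integrable (mu V))
    refine h.trans ?_
    refine integral_congr_ae (Eventually.of_forall fun ω => ?_)
    have hobs : ∀ ξ : X, S.obs D (T a) (Function.update ω (Idx.noise a.1 a.2) ξ) =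
        S.obs D (T a) ω := by
      intro ξ
      refine obs_T_dependsOn D a fun i hi => ?_
      exact Function.update_of_ne hi _ _
    have hspin : ∀ ξ : X, S.spin a.1 (Function.update ω (Idx.noise a.1 a.2) ξ) =
        S.spin a.1 ω := by
      intro ξ
      refine spin_dependsOn a.1 fun i hi => ?_
      refine Function.update_of_ne ?_ _ _
      rcases hi with rfl | ⟨e, rfl⟩ <;> simp
    have hw : ∀ ξ : X, S.w a (Function.update ω (Idx.noise a.1 a.2) ξ) =
        S.spin a.1 ω * Qf (eps a ω) (ξ.1 : ℝ) := by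
      intro ξ
      simp only [w, wt, hspin, eps, sv, Function.update_self]
      rw [Function.update_of_ne (by simp)]
    simp only [hobs, hw]
    have hmeas : Measurable fun u : I =>
        Φ (S.obs D (T a) ω, S.spin a.1 ω * Qf (eps a ω) (u : ℝ)) := by
      refine (hΦO _).comp (Measurable.const_mul ?_ _)
      exact measurable_Qf.comp (f := fun u : I => (eps a ω, (u : ℝ))) (by fun_prop)
    rw [integral_nu_fst hmeas]
    have hea : |eps a ω| ≤ 1 / 2 := by
      rw [abs_of_nonneg (eps_nonneg a ω)]; exact eps_le_half a ω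
    rw [integral_sgn_Qf hea (spin_eq a.1 ω) (hΦO _) ⟨C, hC _⟩, haff]
    ring
  -- step 3
  have h3 : ∫ ω, (∫ u : I, Φ (S.obs D (T a) ω,
        Qf (eps a ω * S.mag (S.Y D (T a ω) ω) a.1) u)) ∂(mu V) =
      ∫ ω, (A (S.obs D (T a) ω) +
        S.mag (S.Y D (T a ω) ω) a.1 * (eps a ω * B (S.obs D (T a) ω))) ∂(mu V) := by
    refine integral_congr_ae (Eventually.of_forall fun ω => ?_)
    simp only
    rw [integral_Qf (abs_eps_mul_le a ω (abs_mag_le _ _)) (hΦO _) ⟨C, hC _⟩, haff]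
    ring
  -- step 2
  have hΨ : BM fun ω => eps a ω * B (S.obs D (T a) ω) := he.mul (hB.comp hO)
  have h2 := pf (S := S) D (isTime_T a) a.1 (Ψ := fun ω => eps a ω * B (S.obs D (T a) ω))
    ((measurable_FF_eps D (T a) a).mul (hB.meas.comp (comap_measurable _))) hΨ.bdd
  rw [h1, h3, integral_add ((hA.comp hO).integrable _) (((BM_spin _).mul hΨ).integrable _),
    integral_add ((hA.comp hO).integrable _) ((hm.mul hΨ).integrable _), h2]

/-- `innov` for an arbitrary function of the past -/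
theorem innov_gen (D : Set V) (a : V × ℕ) {E : Type} [MeasurableSpace E] [StandardBorelSpace E]
    [Nonempty E] {Z : Om V → E} (hZ : Measurable[S.FF D (T a)] Z) {Φ : E × ℝ → ℝ}
    (hΦ : Measurable Φ) (hb : ∃ C, ∀ ω w, |w| ≤ 1 → |Φ (Z ω, w)| ≤ C) :
    ∫ ω, Φ (Z ω, S.w a ω) ∂(mu V) =
      ∫ ω, (∫ u : I, Φ (Z ω, Qf (eps a ω * S.mag (S.Y D (T a ω) ω) a.1) u)) ∂(mu V) := by
  obtain ⟨C, hC⟩ := hb
  obtain ⟨ζ, hζ, rfl⟩ := hZ.exists_eq_measurable_comp
  have hC0 : ∀ ω : Om V, 0 ≤ C := fun ω => (abs_nonneg _).trans (hC ω 0 (by simp))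
  have h := innov (S := S) D a (Φ := fun p => clamp |C| (Φ (ζ p.1, p.2)))
    ((continuous_clamp _).measurable.comp (hΦ.comp (by fun_prop)))
    ⟨|C|, fun O w _ => abs_clamp_le (abs_nonneg C) _⟩
  have hcl : ∀ ω w, |w| ≤ 1 →
      clamp |C| (Φ (ζ (S.obs D (T a) ω), w)) = Φ (ζ (S.obs D (T a) ω), w) := fun ω w hw =>
    clamp_eq ((hC ω w hw).trans (le_abs_self C))
  simp only [Function.comp]
  have e1 : ∀ ω, clamp |C| (Φ (ζ (S.obs D (T a) ω), S.w a ω)) =
      Φ (ζ (S.obs D (T a) ω), S.w a ω) := fun ω => hcl ω _ (abs_w_le a ω)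
  have e2 : ∀ ω (u : I), clamp |C| (Φ (ζ (S.obs D (T a) ω),
      Qf (eps a ω * S.mag (S.Y D (T a ω) ω) a.1) u)) = Φ (ζ (S.obs D (T a) ω),
      Qf (eps a ω * S.mag (S.Y D (T a ω) ω) a.1) u) := fun ω u =>
    hcl ω _ (abs_Qf_le (abs_eps_mul_le a ω (abs_mag_le _ _)) u.2.1 u.2.2)
  simpa only [e1, e2] using h

/-- jumps are martingale differences -/
theorem integral_mul_jump (D : Set V) (a : V × ℕ) {Ψ : Om V → ℝ} (hΨ : Measurable[S.FF D (T a)] Ψ)
    (hb : ∃ C, ∀ ω, |Ψ ω| ≤ C) : ∫ ω, Ψ ω * S.jump D a ω ∂(mu V) = 0 := by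
  obtain ⟨C, hC⟩ := hb
  have hY := measurable_FF_Y (S := S) D (T a)
  have hZ : Measurable[S.FF D (T a)] fun ω =>
      (Ψ ω * S.cov (S.Y D (T a ω) ω) (S.geod S.o a.1) (S.G.dist S.o a.1),
        eps a ω, S.mag (S.Y D (T a ω) ω) a.1) :=
    (hΨ.mul ((measurable_cov _ _).comp hY)).prodMk
      ((measurable_FF_eps D (T a) a).prodMk ((measurable_mag _).comp hY))
  have h := innov_gen D a hZ
    (Φ := fun p : (ℝ × ℝ × ℝ) × ℝ => p.1.1 * (p.1.2.1 * p.2 / (1 + p.1.2.2 * (p.1.2.1 * p.2))))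
    (by fun_prop) ⟨C, fun ω w hw => ?_⟩
  · have e1 : ∀ ω, Ψ ω * S.jump D a ω =
        Ψ ω * S.cov (S.Y D (T a ω) ω) (S.geod S.o a.1) (S.G.dist S.o a.1) *
          (eps a ω * S.w a ω / (1 + S.mag (S.Y D (T a ω) ω) a.1 * (eps a ω * S.w a ω))) := by
      intro ω
      simp only [jump, tau, mul_assoc]
    simp only [e1]
    refine h.trans ?_
    refine (integral_congr_ae (Eventually.of_forall fun ω => ?_)).trans (integral_zero _ _)
    simp only
    rw [integral_const_mul]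
    have := integral_gj (eps_nonneg a ω) (eps_le_half a ω)
      (abs_mag_le (S := S) (S.Y D (T a ω) ω) a.1)
    simp only [gj] at this
    rw [this, mul_zero]
  · simp only
    have h1 : |eps a ω * w| ≤ 1 / 2 := abs_eps_mul_le a ω hw
    have h2 := abs_mag_le (S := S) (S.Y D (T a ω) ω) a.1
    have h3 : |S.mag (S.Y D (T a ω) ω) a.1 * (eps a ω * w)| ≤ 1 / 2 := by
      rw [abs_mul]
      nlinarith [abs_nonneg (S.mag (S.Y D (T a ω) ω) a.1), abs_nonneg (eps a ω * w)]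
    have h4 : 1 / 2 ≤ 1 + S.mag (S.Y D (T a ω) ω) a.1 * (eps a ω * w) := by
      have := (abs_le.1 h3).1
      linarith
    have h5 : |eps a ω * w / (1 + S.mag (S.Y D (T a ω) ω) a.1 * (eps a ω * w))| ≤ 1 := by
      rw [abs_div, abs_of_pos (a := 1 + _) (by linarith), div_le_one (by linarith)]
      linarith
    have h6 : |S.cov (S.Y D (T a ω) ω) (S.geod S.o a.1) (S.G.dist S.o a.1)| ≤ 1 := by
      rw [abs_of_nonneg (cov_nonneg _ _ _)]
      exact cov_le_one _ _ _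
    rw [abs_mul, abs_mul]
    calc _ ≤ C * 1 * 1 := by
          have h7 := hC ω
          have h8 : 0 ≤ C := (abs_nonneg (Ψ ω)).trans h7
          gcongr
      _ = C := by ring

/-- `innov_U` with a bound only on the relevant range -/
theorem innov_U' (a : V × ℕ) {E : Type} [MeasurableSpace E] [StandardBorelSpace E] [Nonempty E]
    {Z : Om V → E} (hZ : Measurable[S.FF Set.univ (T a)] Z) {Φ : E × I → ℝ} (hΦ : Measurable Φ)
    (hb : ∃ C, ∀ ω u, |Φ (Z ω, u)| ≤ C) :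
    ∫ ω, Φ (Z ω, S.U a ω) ∂(mu V) = ∫ ω, (∫ u : I, Φ (Z ω, u)) ∂(mu V) := by
  obtain ⟨C, hC⟩ := hb
  have hY := measurable_FF_Y (S := S) Set.univ (T a)
  have hZ' : Measurable[S.FF Set.univ (T a)] fun ω =>
      (Z ω, eps a ω * S.mag (S.Y Set.univ (T a ω) ω) a.1) :=
    hZ.prodMk ((measurable_FF_eps _ (T a) a).mul ((measurable_mag _).comp hY))
  have hproj : Measurable (Set.projIcc (0 : ℝ) 1 zero_le_one) :=
    continuous_projIcc.measurable
  have h := innov_gen Set.univ a hZ'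
    (Φ := fun p : (E × ℝ) × ℝ => Φ (p.1.1, Set.projIcc 0 1 zero_le_one (Ff p.1.2 p.2)))
    (hΦ.comp ((measurable_fst.comp measurable_fst).prodMk (hproj.comp
      (measurable_Ff.comp (f := fun p : (E × ℝ) × ℝ => (p.1.2, p.2)) (by fun_prop)))))
    ⟨C, fun ω w _ => hC ω _⟩
  refine h.trans ?_
  refine integral_congr_ae (Eventually.of_forall fun ω => ?_)
  simp only
  refine integral_congr_ae (Eventually.of_forall fun u => ?_)
  simp only
  rw [Ff_Qf (abs_eps_mul_le a ω (abs_mag_le _ _)) u.2.1 u.2.2, Set.projIcc_val]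

/-- the innovation is uniform and independent of the past -/
theorem innov_U (a : V × ℕ) {E : Type} [MeasurableSpace E] [StandardBorelSpace E] [Nonempty E]
    {Z : Om V → E} (hZ : Measurable[S.FF Set.univ (T a)] Z) {Φ : E × I → ℝ} (hΦ : BM Φ) :
    ∫ ω, Φ (Z ω, S.U a ω) ∂(mu V) = ∫ ω, (∫ u : I, Φ (Z ω, u)) ∂(mu V) := by
  obtain ⟨C, hC⟩ := hΦ.bdd
  exact innov_U' a hZ hΦ.meas ⟨C, fun ω u => hC _⟩

theorem integral_mul_gj (a : V × ℕ) {Ψ M : Om V → ℝ} (hΨ : Measurable[S.FF Set.univ (T a)] Ψ)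
    (hb : ∃ C, ∀ ω, |Ψ ω| ≤ C) (hM : Measurable[S.FF Set.univ (T a)] M) (hM1 : ∀ ω, |M ω| ≤ 1) :
    ∫ ω, Ψ ω * gj (eps a ω) (M ω) (S.U a ω) ∂(mu V) = 0 := by
  obtain ⟨C, hC⟩ := hb
  have hZ : Measurable[S.FF Set.univ (T a)] fun ω => (Ψ ω, eps a ω, M ω) :=
    hΨ.prodMk ((measurable_FF_eps _ (T a) a).prodMk hM)
  have h := innov_U' a hZ
    (Φ := fun p : (ℝ × ℝ × ℝ) × I => p.1.1 * gj p.1.2.1 p.1.2.2 (p.2 : ℝ))
    ((measurable_fst.comp measurable_fst).mul (measurable_gj.comp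
      (f := fun p : (ℝ × ℝ × ℝ) × I => (p.1.2.1, p.1.2.2, (p.2 : ℝ))) (by fun_prop)))
    ⟨C, fun ω u => ?_⟩
  · refine h.trans ?_
    refine (integral_congr_ae (Eventually.of_forall fun ω => ?_)).trans (integral_zero _ _)
    simp only
    rw [integral_const_mul, integral_gj (eps_nonneg a ω) (eps_le_half a ω) (hM1 ω), mul_zero]
  · simp only
    have h1 := abs_gj_le (eps_nonneg a ω) (eps_le_half a ω) (hM1 ω) u.2.1 u.2.2
    have h2 := eps_le_half a ω
    rw [abs_mul]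
    calc _ ≤ C * 1 := by
          have := abs_nonneg (Ψ ω)
          have := hC ω
          gcongr
          · linarith
          · linarith
      _ = C := by ring

end Setup

end Crest.Agent.R160
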