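import Crest.Agent.R160.LD

/-!
# Row 160 (S0241): Tail
Finite-volume bound on the jumps, uniform in the volume.
`jump² ≤ cov² ≤ θ^(2k) ∏_{i<k} exp (-α (cav (Y Λ (T a)) (p i) (p (i+1))))` with `p = geod o a.1`.  Peel the
factors from `i = k-1` down to `0` with `integral_peel` and `K = slotIdx (p i, 0)`: since `Y Λ ..` is good,
`spin (p i) * cav (p i) (p (i+1)) = zeta (p i, 0) (T a) + (terms not depending on K)`, `T a` does not
depend on `K` (`p i ≠ a.1`), the factors `i' < i` do not depend on `K` (`p i ∉ D (p i') (p (i'+1))`,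
`Y_apply_dependsOn`, `cav_congr`).  `anticonc` with `Λ = 1`, `isLR_zeta`, `zeta_zero_lower`.
-/

set_option autoImplicit false

open MeasureTheory Filter Topology
open scoped unitInterval

noncomputable section

namespace Crest.Agent.R160

universe u

namespace Setup

variable {V : Type u} (S : Setup V)

variable {S}

/-- one factor of the covariance bound -/
def tailF (Λ : Finset V) (a : V × ℕ) (y x : V) (ω : Om V) : ℝ :=
  Real.exp (-alpha S.θ (S.cav (S.Y Λ (T a ω) ω) y x))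

lemma tail_BM_F (Λ : Finset V) (a : V × ℕ) (y x : V) : BM (tailF (S := S) Λ a y x) :=
  (BM_cav (S := S) Λ (isTime_T a) y x).comp_continuous (φ := fun h => Real.exp (-alpha S.θ h))
    (Real.continuous_exp.comp (continuous_alpha S.hθ0 S.theta_sq_le).neg)

lemma tail_T_congr {a : V × ℕ} {v : V} (hv : v ≠ a.1) {ω ω' : Om V}
    (h : ∀ i, i ∉ slotIdx (v, 0) → ω i = ω' i) : T a ω = T a ω' := by
  unfold T sv
  rw [h]
  simp only [slotIdx, Set.mem_insert_iff, Set.mem_singleton_iff, not_or]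
  exact ⟨fun h1 => hv (Idx.time.inj h1).1.symm, fun h1 => Idx.noConfusion rfl (heq_of_eq h1)⟩

lemma tail_Y_congr (D : Set V) (r : ℝ) {v z : V} (hz : z ≠ v) {ω ω' : Om V}
    (h : ∀ i, i ∉ slotIdx (v, 0) → ω i = ω' i) : S.Y D r ω z = S.Y D r ω' z := by
  refine Y_apply_dependsOn D r z fun i hi => h i ?_
  simp only [slotIdx, Set.mem_insert_iff, Set.mem_singleton_iff, not_or]
  rcases hi with rfl | ⟨e, rfl⟩ | ⟨j, rfl | rfl⟩
  · exact ⟨fun h1 => (by cases h1), fun h1 => (by cases h1)⟩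
  · exact ⟨fun h1 => (by cases h1), fun h1 => (by cases h1)⟩
  · exact ⟨fun h1 => hz (Idx.time.inj h1).1, fun h1 => (by cases h1)⟩
  · exact ⟨fun h1 => (by cases h1), fun h1 => hz (Idx.noise.inj h1).1⟩

lemma tail_cav_congr (D : Set V) (r : ℝ) {v y x : V} (hyx : S.DE y x) (hv : v ∉ S.D y x)
    {ω ω' : Om V} (h : ∀ i, i ∉ slotIdx (v, 0) → ω i = ω' i) :
    S.cav (S.Y D r ω) y x = S.cav (S.Y D r ω') y x :=
  cav_congr hyx fun _ hz => tail_Y_congr D r (ne_of_mem_of_not_mem hz hv) h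

lemma tail_spin_congr (z v : V) {ω ω' : Om V} (h : ∀ i, i ∉ slotIdx (v, 0) → ω i = ω' i) :
    S.spin z ω = S.spin z ω' := by
  refine spin_dependsOn z fun i hi => h i ?_
  simp only [slotIdx, Set.mem_insert_iff, Set.mem_singleton_iff, not_or]
  rcases hi with rfl | ⟨e, rfl⟩
  · exact ⟨fun h1 => (by cases h1), fun h1 => (by cases h1)⟩
  · exact ⟨fun h1 => (by cases h1), fun h1 => (by cases h1)⟩

lemma tail_alpha_sgn {c : ℝ} (hc : c = 1 ∨ c = -1) (h : ℝ) :
    alpha S.θ (c * h) = alpha S.θ h := by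
  rcases hc with rfl | rfl
  · rw [one_mul]
  · rw [neg_one_mul, alpha_neg S.hθ0 S.theta_sq_le]

lemma tail_tanh_sq_le (x : ℝ) : Real.tanh x ^ 2 ≤ min (1 * x ^ 2) 1 := by
  refine le_min ?_ ?_
  · have h := tanh_lipschitz x 0
    rw [Real.tanh_zero, sub_zero, sub_zero] at h
    rw [one_mul]
    exact sq_le_sq.2 h
  · have h := abs_tanh_le_one x
    exact (sq_le_one_iff_abs_le_one _).2 h

open Classical in
/-- resampling the first slot of `y` -/
lemma tail_resample {s : ℝ} (hs : 0 < s) (Λ : Finset V) {a : V × ℕ} {y x : V} (hyx : S.G.Adj y x)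
    (hy : y ∈ Λ) (hya : y ≠ a.1) {ω : Om V} (hω : s ≤ T a ω) :
    ∫ ω', tailF (S := S) Λ a y x ((slotIdx (y, 0)).piecewise ω' ω) ∂(mu V) ≤
      1 - min s 1 ^ 3 / 6144 := by
  obtain ⟨r, hr⟩ : ∃ r, r = T a ω := ⟨_, rfl⟩
  rw [← hr] at hω
  have hrJ : r ≤ ((a.2 + 1 + 1 : ℕ) : ℝ) := by
    have := T_le a ω
    rw [← hr] at this
    push_cast
    linarith
  obtain ⟨c, hc⟩ : ∃ c : ℝ, c = ∑ j ∈ Finset.range (a.2 + 1), zeta (y, j + 1) r ω +
    S.spin y ω * ∑ z ∈ S.ch y x, fm S.θ (S.cav (S.Y Λ r ω) z y) := ⟨_, rfl⟩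
  have key : ∀ ω', tailF (S := S) Λ a y x ((slotIdx (y, 0)).piecewise ω' ω) =
      Real.exp (-(1 * alpha S.θ (c + zeta (y, 0) r ω'))) := by
    intro ω'
    have h1 : ∀ i, i ∉ slotIdx (y, 0) → (slotIdx (y, 0)).piecewise ω' ω i = ω i := fun i hi =>
      Set.piecewise_eq_of_notMem _ _ _ hi
    have h2 : ∀ i, i ∈ slotIdx (y, 0) → (slotIdx (y, 0)).piecewise ω' ω i = ω' i := fun i hi =>
      Set.piecewise_eq_of_mem _ _ _ hi
    generalize (slotIdx (y, 0)).piecewise ω' ω = ω'' at h1 h2 ⊢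
    have hT : T a ω'' = r := (tail_T_congr hya h1).trans hr.symm
    have hsp : S.spin y ω'' = S.spin y ω := tail_spin_congr y y h1
    have hz0 : zeta (y, 0) r ω'' = zeta (y, 0) r ω' := zeta_dependsOn (y, 0) r h2
    have hz : ∀ j, zeta (y, j + 1) r ω'' = zeta (y, j + 1) r ω := by
      intro j
      have hd : Disjoint (slotIdx (y, j + 1)) (slotIdx (y, 0)) := slotIdx_disjoint (by simp)
      exact zeta_dependsOn (y, j + 1) r (x := ω'') (y := ω) fun i hi => h1 i fun hi' =>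
        Set.disjoint_left.1 hd hi hi'
    have hcav : ∀ z ∈ S.ch y x, S.cav (S.Y Λ r ω'') z y = S.cav (S.Y Λ r ω) z y := by
      intro z hz
      have hzy : S.G.Adj z y := (mem_ch.1 hz).1.symm
      exact tail_cav_congr (S := S) (Λ : Set V) r (v := y) (y := z) (x := y) (Or.inr hzy)
        (not_mem_D hzy) h1
    have hmain : S.cav (S.Y Λ r ω'') y x = S.spin y ω * (c + zeta (y, 0) r ω') := by
      have e1 : ∑ j ∈ Finset.range (a.2 + 1), zeta (y, j + 1) r ω'' =
          ∑ j ∈ Finset.range (a.2 + 1), zeta (y, j + 1) r ω := Finset.sum_congr rfl fun j _ => hz j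
      have e2 : ∑ z ∈ S.ch y x, fm S.θ (S.cav (S.Y Λ r ω'') z y) =
          ∑ z ∈ S.ch y x, fm S.θ (S.cav (S.Y Λ r ω) z y) :=
        Finset.sum_congr rfl fun z hz => by rw [hcav z hz]
      rw [(good_Y_finset Λ r ω'').cav_rec (Or.inr hyx),
        Y_eq_spin_mul hrJ ω'' (show y ∈ (Λ : Set V) from hy), Finset.sum_range_succ', hsp, hz0,
        e1, e2, hc]
      have := spin_mul_self (S := S) y ω
      linear_combination (-∑ z ∈ S.ch y x, fm S.θ (S.cav (S.Y Λ r ω) z y)) * this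
    unfold tailF
    rw [hT, hmain, tail_alpha_sgn (spin_eq y ω), one_mul]
  simp only [key]
  have h3 := anticonc (S := S) (isLR_zeta (y, 0) r)
    (fun ω' => (abs_tanh_zeta_le (y, 0) r ω').trans (by norm_num)) le_rfl c
  have h4 := zeta_zero_lower y (hs.trans_le hω)
  have hb := BM_zeta (y, 0) r
  have h5 : ∫ ω', Real.tanh (zeta (y, 0) r ω') ^ 2 ∂(mu V) ≤
      ∫ ω', min (1 * zeta (y, 0) r ω' ^ 2) 1 ∂(mu V) := by
    refine integral_mono ?_ ?_ fun ω' => tail_tanh_sq_le _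
    · exact (hb.comp_continuous (φ := fun h => Real.tanh h ^ 2) (continuous_tanh'.pow 2)).integrable _
    · exact (hb.comp_continuous (φ := fun h => min (1 * h ^ 2) 1) (by fun_prop)).integrable _
  have h6 : min s 1 ^ 3 ≤ min r 1 ^ 3 :=
    pow_le_pow_left₀ (le_min hs.le zero_le_one) (min_le_min_right _ hω) 3
  linarith

open Classical in
/-- the peeled product -/
def tailG (s : ℝ) (Λ : Finset V) (a : V × ℕ) (m : ℕ) (ω : Om V) : ℝ :=
  (if s ≤ T a ω then 1 else 0) *
    ∏ i ∈ Finset.range m, tailF (S := S) Λ a (S.geod S.o a.1 i) (S.geod S.o a.1 (i + 1)) ω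

lemma tail_BM_G (s : ℝ) (Λ : Finset V) (a : V × ℕ) (m : ℕ) : BM (tailG (S := S) s Λ a m) := by
  classical
  exact (BM.ite (measurableSet_le measurable_const (measurable_T a)) (BM.const 1) (BM.const 0)).mul
    (BM.prod _ fun i _ => tail_BM_F Λ a _ _)

lemma tail_G_nonneg (s : ℝ) (Λ : Finset V) (a : V × ℕ) (m : ℕ) (ω : Om V) :
    0 ≤ tailG (S := S) s Λ a m ω := by
  unfold tailG
  refine mul_nonneg ?_ (Finset.prod_nonneg fun i _ => (Real.exp_pos _).le)
  split_ifs <;> norm_num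

lemma tail_integral_G {s : ℝ} (hs : 0 < s) (Λ : Finset V) (a : V × ℕ)
    (hΛ : ∀ i, i ≤ S.G.dist S.o a.1 → S.geod S.o a.1 i ∈ Λ) (m : ℕ) (hm : m ≤ S.G.dist S.o a.1) :
    ∫ ω, tailG (S := S) s Λ a m ω ∂(mu V) ≤ (1 - min s 1 ^ 3 / 6144) ^ m := by
  classical
  have hq : 0 ≤ 1 - min s 1 ^ 3 / 6144 := by
    have : min s 1 ^ 3 ≤ 1 := pow_le_one₀ (le_min hs.le zero_le_one) (min_le_right _ _)
    linarith
  have hp := geod_isNB (S := S) S.o a.1
  induction m with
  | zero =>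
    calc ∫ ω, tailG (S := S) s Λ a 0 ω ∂(mu V) ≤ ∫ _ω, (1 : ℝ) ∂(mu V) := by
          refine integral_mono ((tail_BM_G s Λ a 0).integrable _) (integrable_const _) fun ω => ?_
          simp only [tailG, Finset.range_zero, Finset.prod_empty, mul_one]
          split_ifs <;> norm_num
      _ = _ := by simp
  | succ m ih =>
    have hm' : m < S.G.dist S.o a.1 := hm
    have hne : S.geod S.o a.1 m ≠ a.1 := fun h => by
      have := dist_geod (S := S) S.o a.1 hm'.le
      rw [h] at this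
      omega
    have hdep : DependsOn (tailG (S := S) s Λ a m) (slotIdx (S.geod S.o a.1 m, 0))ᶜ := by
      intro ω ω' h
      have hT : T a ω = T a ω' := tail_T_congr hne h
      unfold tailG tailF
      rw [hT]
      congr 1
      refine Finset.prod_congr rfl fun i hi => ?_
      have hi' := Finset.mem_range.1 hi
      rw [tail_cav_congr Λ _ (Or.inr (hp.1 i (hi'.trans hm'))) (hp.not_mem_D hi' hm'.le) h]
    have h1 := integral_peel nu (slotIdx (S.geod S.o a.1 m, 0)) (tail_BM_G (S := S) s Λ a m)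
      (tail_BM_F (S := S) Λ a (S.geod S.o a.1 m) (S.geod S.o a.1 (m + 1))) (tail_G_nonneg s Λ a m)
      hdep (q := 1 - min s 1 ^ 3 / 6144) fun ω hω => by
        have hω' : s ≤ T a ω := by
          by_contra h
          exact hω (by simp [tailG, h])
        exact tail_resample hs Λ (hp.1 m hm') (hΛ m hm'.le) hne hω'
    have h2 : ∀ ω, tailG (S := S) s Λ a (m + 1) ω = tailG (S := S) s Λ a m ω *
        tailF (S := S) Λ a (S.geod S.o a.1 m) (S.geod S.o a.1 (m + 1)) ω := fun ω => by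
      unfold tailG
      rw [Finset.prod_range_succ, mul_assoc]
    simp only [h2]
    refine h1.trans ?_
    rw [pow_succ' (1 - min s 1 ^ 3 / 6144) m]
    exact mul_le_mul_of_nonneg_left (ih hm'.le) hq

open Classical in
theorem integral_jump_sq_le {s : ℝ} (hs : 0 < s) (Λ : Finset V) (a : V × ℕ)
    (hΛ : ∀ i, i ≤ S.G.dist S.o a.1 → S.geod S.o a.1 i ∈ Λ) :
    ∫ ω, (if s ≤ T a ω then S.jump Λ a ω ^ 2 else 0) ∂(mu V) ≤
      (S.θ ^ 2 * (1 - min s 1 ^ 3 / 6144)) ^ S.G.dist S.o a.1 := by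
  have h1 := tail_integral_G hs Λ a hΛ _ le_rfl
  rw [mul_pow]
  refine le_trans ?_ (mul_le_mul_of_nonneg_left h1 (by positivity))
  rw [← integral_const_mul]
  refine integral_mono ?_ (((tail_BM_G s Λ a _).integrable _).const_mul _) fun ω => ?_
  · exact (BM.ite (measurableSet_le measurable_const (measurable_T a)) ((BM_jump _ a).pow 2)
      (BM.const 0)).integrable _
  · simp only [tailG]
    split_ifs
    · rw [one_mul]
      exact (jump_sq_le_cov _ a ω).trans (cov_sq_le _ _ _)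
    · simp

end Setup

end Crest.Agent.R160
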