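import Crest.Agent.R160.Telescope
import Crest.Agent.R160.Tail
import Crest.Agent.R160.Innov
import Crest.Agent.R160.Past

/-!
# Row 160 (S0241): Expand
The martingale `mR · o` is the `L²` sum of its jumps.
`telescope`: deterministic; induction on the finite set of slots ordered by time
(`Finset.induction_on_max_value`), each step is `mag_update` along `geod o a.1` (`Y_eq_sum`,
`good_Y_finset`).  `expansion`: for `N ≥ n` the finite-volume remainder (volume `ball N o`) is the sum of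
the jumps with `a.1 ∈ ball N o \ ball n o`; these are orthogonal (`integral_mul_jump`,
`measurable_FF_jump`, `measurable_FF_time`, `ae_distinct`), so its second moment is at most
`J ∑_{k ≥ n} 2 (d-1)^k (θ² q)^k ≤ 2 J q^n/(1-q)` (`integral_jump_sq_le`, `sum_annulus_le`).  Let
`N → ∞` with `ae_tendsto_ball` (at the times `R`, `s`, `T a`), `tendsto_cov` and dominated convergence.
-/

set_option autoImplicit false

open MeasureTheory Filter Topology
open scoped unitInterval

noncomputable section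

namespace Crest.Agent.R160

universe u

namespace Setup

variable {V : Type u} (S : Setup V)

variable {S}

open Classical in
/-- the jump of slot `a` if it happens in `[s, R)` -/
def kj (S : Setup V) (D : Set V) (s : ℝ) (R : Om V → ℝ) (a : V × ℕ) (ω : Om V) : ℝ :=
  if s ≤ T a ω ∧ T a ω < R ω then S.jump D a ω else 0

lemma measurableSet_kj {R : Om V → ℝ} (hR : Measurable R) (s : ℝ) (a : V × ℕ) :
    MeasurableSet {ω | s ≤ T a ω ∧ T a ω < R ω} :=
  (measurableSet_le measurable_const (measurable_T a)).inter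
    (measurableSet_lt (measurable_T a) hR)

lemma BM_kj (D : Set V) (s : ℝ) {R : Om V → ℝ} (hR : Measurable R) (a : V × ℕ) :
    BM (S.kj D s R a) := by
  classical
  exact BM.ite (measurableSet_kj hR s a) (BM_jump D a) (BM.const 0)

lemma abs_kj_le (D : Set V) (s : ℝ) (R : Om V → ℝ) (a : V × ℕ) (ω : Om V) :
    |S.kj D s R a ω| ≤ 1 := by
  unfold kj
  split_ifs
  · exact abs_jump_le D a ω
  · simp

open Classical in
lemma kj_orth_half {D : Set V} (s : ℝ) {R : Om V → ℝ} {J : ℕ} (hR : IsTime R J) (a b : V × ℕ)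
    (hb : b.1 ∈ D) :
    ∫ ω, (if T b ω < T a ω then S.kj D s R a ω * S.kj D s R b ω else 0) ∂(mu V) = 0 := by
  let c : Om V → ℝ := fun ω =>
    if (s ≤ T a ω ∧ T a ω < R ω) ∧ (s ≤ T b ω ∧ T b ω < R ω) then 1 else 0
  have hc : Measurable c :=
    Measurable.ite ((measurableSet_kj hR.meas s a).inter (measurableSet_kj hR.meas s b))
      measurable_const measurable_const
  have hcd : DependsOn c (timeIdx V) := by
    intro ω ω' h
    have h1 : T a ω = T a ω' := (isTime_T a).dep h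
    have h2 : T b ω = T b ω' := (isTime_T b).dep h
    have h3 : R ω = R ω' := hR.dep h
    simp only [c, h1, h2, h3]
  have h := integral_mul_jump (S := S) D a
    (Ψ := fun ω => c ω * (if T b ω < T a ω then S.jump D b ω else 0))
    ((measurable_FF_timeDep D (T a) hc hcd).mul (measurable_FF_jump (isTime_T a) hb))
    ⟨1, fun ω => by
      have := abs_jump_le (S := S) D b ω
      simp only [c]
      split_ifs <;> simp [this]⟩
  refine Eq.trans (integral_congr_ae (Eventually.of_forall fun ω => ?_)) h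
  simp only [c, kj]
  by_cases h1 : T b ω < T a ω <;> by_cases h2 : s ≤ T a ω ∧ T a ω < R ω <;>
    by_cases h3 : s ≤ T b ω ∧ T b ω < R ω <;> simp [h1, h2, h3, mul_comm]

lemma kj_orth {D : Set V} (s : ℝ) {R : Om V → ℝ} {J : ℕ} (hR : IsTime R J) {a b : V × ℕ}
    (ha : a.1 ∈ D) (hb : b.1 ∈ D) (hab : a ≠ b) :
    ∫ ω, S.kj D s R a ω * S.kj D s R b ω ∂(mu V) = 0 := by
  classical
  have h1 := kj_orth_half (S := S) s hR a b hb
  have h2 := kj_orth_half (S := S) s hR b a ha
  have hi : ∀ a b : V × ℕ, Integrable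
      (fun ω => if T b ω < T a ω then S.kj D s R a ω * S.kj D s R b ω else 0) (mu V) :=
    fun a b => (BM.ite (measurableSet_lt (measurable_T b) (measurable_T a))
      ((BM_kj D s hR.meas a).mul (BM_kj D s hR.meas b)) (BM.const 0)).integrable _
  have h3 := integral_add (hi a b) (hi b a)
  rw [h1, h2, add_zero] at h3
  refine Eq.trans (integral_congr_ae ?_) h3
  filter_upwards [ae_distinct (S := S)] with ω hω
  rcases lt_trichotomy (T a ω) (T b ω) with h | h | h
  · simp [h, h.not_gt, mul_comm]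
  · exact absurd (hω a b h) hab
  · simp [h, h.not_gt]

lemma integral_kj_sq_le {s : ℝ} (hs : 0 < s) {R : Om V → ℝ} (hR : Measurable R) (N : ℕ)
    {a : V × ℕ} (ha : a.1 ∈ S.ball N S.o) :
    ∫ ω, S.kj (S.ball N S.o) s R a ω ^ 2 ∂(mu V) ≤
      (S.θ ^ 2 * (1 - min s 1 ^ 3 / 6144)) ^ S.G.dist S.o a.1 := by
  classical
  refine le_trans ?_ (integral_jump_sq_le hs (S.ball N S.o) a fun i hi => ?_)
  · refine integral_mono (((BM_kj _ s hR a).pow 2).integrable _)
      ((BM.ite (measurableSet_le measurable_const (measurable_T a)) ((BM_jump _ a).pow 2)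
        (BM.const 0)).integrable _) fun ω => ?_
    simp only [kj]
    by_cases h1 : s ≤ T a ω
    · by_cases h2 : T a ω < R ω
      · simp [h1, h2]
      · simp [h1, h2, sq_nonneg]
    · simp [h1]
  · have := mem_ball.1 ha
    rw [mem_ball, SimpleGraph.dist_comm, dist_geod _ _ hi]
    rw [SimpleGraph.dist_comm] at this
    omega

/-- the finite-volume estimate -/
lemma expansion_fin {R : Om V → ℝ} {J : ℕ} (hR : IsTime R J) {s : ℝ} (hs : 0 < s)
    (hsR : ∀ ω, s ≤ R ω) {n N : ℕ} (hnN : n ≤ N) :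
    ∫ ω, (S.mag (S.Y (S.ball N S.o) (R ω) ω) S.o - S.mag (S.Y (S.ball N S.o) s ω) S.o -
        ∑ a ∈ S.ball n S.o ×ˢ Finset.range J, S.kj (S.ball N S.o) s R a ω) ^ 2 ∂(mu V) ≤
      J * (2 * ((1 - min s 1 ^ 3 / 6144) ^ n / (1 - (1 - min s 1 ^ 3 / 6144)))) := by
  classical
  set q : ℝ := 1 - min s 1 ^ 3 / 6144 with hq
  have hm0 : 0 < min s 1 := lt_min hs one_pos
  have hm1 : min s 1 ^ 3 ≤ 1 := pow_le_one₀ hm0.le (min_le_right _ _)
  have hq0 : 0 ≤ q := by rw [hq]; linarith
  have hq1 : q < 1 := by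
    have := pow_pos hm0 3
    rw [hq]; linarith
  have hsub : S.ball n S.o ⊆ S.ball N S.o := fun v hv =>
    mem_ball.2 ((mem_ball.1 hv).trans_le hnN)
  have h1 : ∫ ω, (S.mag (S.Y (S.ball N S.o) (R ω) ω) S.o - S.mag (S.Y (S.ball N S.o) s ω) S.o -
        ∑ a ∈ S.ball n S.o ×ˢ Finset.range J, S.kj (S.ball N S.o) s R a ω) ^ 2 ∂(mu V) =
      ∫ ω, (∑ a ∈ (S.ball N S.o \ S.ball n S.o) ×ˢ Finset.range J,
        S.kj (S.ball N S.o) s R a ω) ^ 2 ∂(mu V) := by
    refine integral_congr_ae ?_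
    filter_upwards [ae_distinct (S := S)] with ω hω
    have h := telescope (S := S) (S.ball N S.o) (hsR ω) (hR.le ω) hω
    rw [h]
    congr 1
    change ∑ a ∈ S.ball N S.o ×ˢ Finset.range J, S.kj (S.ball N S.o) s R a ω - _ = _
    rw [Finset.sum_product, Finset.sum_product, Finset.sum_product, ← Finset.sum_sdiff hsub]
    ring
  rw [h1, integral_sq_sum_orth _ _ (fun a _ => BM_kj _ s hR.meas a)
    (fun a ha b hb hab => kj_orth s hR
      (Finset.mem_sdiff.1 (Finset.mem_product.1 ha).1).1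
      (Finset.mem_sdiff.1 (Finset.mem_product.1 hb).1).1 hab), Finset.sum_product]
  have hθ : 0 ≤ S.θ ^ 2 * q := by positivity
  refine (sum_annulus_le S.o n N (fun k => J * (S.θ ^ 2 * q) ^ k) (fun k => by positivity) _
    fun v hv => ?_).trans ?_
  · refine (Finset.sum_le_sum fun j _ => integral_kj_sq_le hs hR.meas N (a := (v, j)) hv).trans ?_
    simp [hq]
  · have hd : (0 : ℝ) ≤ (S.d : ℝ) - 1 := by
      have : (3 : ℝ) ≤ S.d := by exact_mod_cast S.hd
      linarith
    have h2 : ∀ k ∈ Finset.Ico n N, 2 * ((S.d : ℝ) - 1) ^ k * (J * (S.θ ^ 2 * q) ^ k) ≤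
        J * (2 * q ^ k) := by
      intro k _
      have h3 : (((S.d : ℝ) - 1) * S.θ ^ 2) ^ k ≤ 1 := pow_le_one₀ (by positivity) S.hθ
      have h4 : 2 * ((S.d : ℝ) - 1) ^ k * (J * (S.θ ^ 2 * q) ^ k) =
          (J * (2 * q ^ k)) * (((S.d : ℝ) - 1) * S.θ ^ 2) ^ k := by
        simp only [mul_pow]; ring
      rw [h4]
      exact mul_le_of_le_one_right (by positivity) h3
    refine (Finset.sum_le_sum h2).trans ?_
    rw [← Finset.mul_sum, ← Finset.mul_sum]
    gcongr
    exact geom_sum_Ico_le_of_lt_one hq0 hq1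

lemma tendsto_mag_of {Yn : ℕ → V → ℝ} {Y : V → ℝ}
    (h : ∀ y x, S.DE y x → Tendsto (fun n => S.cav (Yn n) y x) atTop (𝓝 (S.cav Y y x))) (v : V) :
    Tendsto (fun n => S.mag (Yn n) v) atTop (𝓝 (S.mag Y v)) := by
  have hc : Continuous Real.tanh := by
    have : Real.tanh = fun x => Real.sinh x / Real.cosh x := funext Real.tanh_eq_sinh_div_cosh
    rw [this]
    exact Real.continuous_sinh.div Real.continuous_cosh fun x => (Real.cosh_pos x).ne'
  exact (hc.tendsto _).comp (h v v (Or.inl rfl))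

lemma ae_tendsto_jump (a : V × ℕ) : ∀ᵐ ω ∂(mu V),
    Tendsto (fun N => S.jump (S.ball N S.o) a ω) atTop (𝓝 (S.jump Set.univ a ω)) := by
  filter_upwards [ae_tendsto_ball (S := S) (isTime_T a)] with ω hω
  unfold jump
  refine (tendsto_cov hω (geod_isNB S.o a.1)).mul (tendsto_const_nhds.div
    (tendsto_const_nhds.add ((tendsto_mag_of hω a.1).mul tendsto_const_nhds)) ?_)
  have h1 := abs_mag_le (S := S) (S.Y Set.univ (T a ω) ω) a.1
  have h2 := abs_tau_le_half (S := S) a ω
  have h3 : |S.mag (S.Y Set.univ (T a ω) ω) a.1 * S.tau a ω| ≤ 1 * (1 / 2) := by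
    rw [abs_mul]
    exact mul_le_mul h1 h2 (abs_nonneg _) zero_le_one
  have := (abs_le.1 h3).1
  linarith

lemma expansion_le {R : Om V → ℝ} {J : ℕ} (hR : IsTime R J) {s : ℝ} (hs : 0 < s)
    (hsR : ∀ ω, s ≤ R ω) (n : ℕ) :
    ∫ ω, (S.mR R S.o ω - S.mR (fun _ => s) S.o ω -
        ∑ a ∈ S.ball n S.o ×ˢ Finset.range J, S.kj Set.univ s R a ω) ^ 2 ∂(mu V) ≤
      J * (2 * ((1 - min s 1 ^ 3 / 6144) ^ n / (1 - (1 - min s 1 ^ 3 / 6144)))) := by
  classical
  have hsJ : s ≤ J := (hsR fun _ => (0, true)).trans (hR.le _)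
  set A := S.ball n S.o ×ˢ Finset.range J with hA
  refine le_of_tendsto (f := fun N => ∫ ω, (S.mag (S.Y (S.ball N S.o) (R ω) ω) S.o -
      S.mag (S.Y (S.ball N S.o) s ω) S.o - ∑ a ∈ A, S.kj (S.ball N S.o) s R a ω) ^ 2 ∂(mu V))
    (x := atTop) ?_ ((eventually_ge_atTop n).mono fun N hN => expansion_fin hR hs hsR hN)
  refine tendsto_integral_of_dominated_convergence (fun _ => (1 + 1 + (A.card : ℝ)) ^ 2)
    (fun N => ?_) (integrable_const _) (fun N => Eventually.of_forall fun ω => ?_) ?_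
  · refine (Measurable.pow_const (Measurable.sub (Measurable.sub ?_ ?_) ?_) 2).aestronglyMeasurable
    · exact (measurable_mag _).comp (measurable_YR _ hR.meas)
    · exact (measurable_mag _).comp (measurable_YR (R := fun _ => s) _ measurable_const)
    · exact Finset.measurable_sum _ fun a _ => (BM_kj _ s hR.meas a).meas
  · rw [Real.norm_eq_abs, abs_pow]
    refine pow_le_pow_left₀ (abs_nonneg _) ?_ 2
    refine (abs_sub _ _).trans (add_le_add ((abs_sub _ _).trans
      (add_le_add (abs_mag_le _ _) (abs_mag_le _ _))) ?_)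
    refine (Finset.abs_sum_le_sum_abs _ _).trans ?_
    refine (Finset.sum_le_sum fun a _ => abs_kj_le _ s R a ω).trans ?_
    simp
  · have h3 : ∀ᵐ ω ∂(mu V), ∀ a ∈ A,
        Tendsto (fun N => S.jump (S.ball N S.o) a ω) atTop (𝓝 (S.jump Set.univ a ω)) :=
      (Finset.eventually_all A).2 fun a _ => ae_tendsto_jump a
    filter_upwards [ae_tendsto_ball (S := S) hR, ae_tendsto_ball (S := S) (isTime_const hsJ), h3]
      with ω h1 h2 h3
    refine (((tendsto_mag_of h1 S.o).sub (tendsto_mag_of h2 S.o)).sub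
      (tendsto_finsetSum _ fun a ha => ?_)).pow 2
    unfold kj
    split_ifs
    · exact h3 a ha
    · exact tendsto_const_nhds

open Classical in
theorem expansion {R : Om V → ℝ} {J : ℕ} (hR : IsTime R J) {s : ℝ} (hs : 0 < s)
    (hsR : ∀ ω, s ≤ R ω) {δ : ℝ} (hδ : 0 < δ) :
    ∃ n₀ : ℕ, ∀ n, n₀ ≤ n →
      ∫ ω, (S.mR R S.o ω - S.mR (fun _ => s) S.o ω -
        ∑ a ∈ S.ball n S.o ×ˢ Finset.range J,
          if s ≤ T a ω ∧ T a ω < R ω then S.jump Set.univ a ω else 0) ^ 2 ∂(mu V) ≤ δ := by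
  have hm0 : 0 < min s 1 := lt_min hs one_pos
  have hm1 : min s 1 ^ 3 ≤ 1 := pow_le_one₀ hm0.le (min_le_right _ _)
  have hq0 : 0 ≤ 1 - min s 1 ^ 3 / 6144 := by linarith
  have hq1 : 1 - min s 1 ^ 3 / 6144 < 1 := by
    have := pow_pos hm0 3
    linarith
  have ht : Tendsto (fun n : ℕ => (J : ℝ) *
      (2 * ((1 - min s 1 ^ 3 / 6144) ^ n / (1 - (1 - min s 1 ^ 3 / 6144))))) atTop (𝓝 0) := by
    simpa only [zero_div, mul_zero] using (((tendsto_pow_atTop_nhds_zero_of_lt_one hq0 hq1).div_const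
      (1 - (1 - min s 1 ^ 3 / 6144))).const_mul 2).const_mul (J : ℝ)
  obtain ⟨n₀, hn₀⟩ := eventually_atTop.1 (ht.eventually (ge_mem_nhds hδ))
  exact ⟨n₀, fun n hn => (expansion_le hR hs hsR n).trans (hn₀ n hn)⟩

end Setup

end Crest.Agent.R160
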