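import Crest.Agent.R160.Res
import Crest.Agent.R160.Tree2
import Crest.Agent.R160.Tree3

/-!
# Row 160 (S0241): Factor
From an almost surely invariant function at the root to an everywhere equivariant map.
Let `χ n` be a version of `E[ψ | coordinates in ball n o]` of the form `h n ∘ restrict`.  Put
`Φ ℓ v = true` iff eventually in `n` there is `g` with `g o = v` and `0 < χ n (ℓ ∘ g)`.  The union over
`g` is a countable union over the restrictions of `g` to the ball (`V` is countable).  For `g o = g' o`,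
`χ n (ℓ ∘ g) = χ n (ℓ ∘ g')` a.e. (`condExp_comp`; the stabiliser of `o` preserves the ball), and
`χ n → ψ` a.e. by Lévy's upward theorem.
-/

set_option autoImplicit false

open MeasureTheory Filter Topology
open scoped unitInterval

noncomputable section

namespace Crest.Agent.R160

universe u

lemma fac_measurePreserving {V : Type u} {E : Type} [MeasurableSpace E] (ν : Measure E)
    [IsProbabilityMeasure ν] (e : V ≃ V) :
    MeasurePreserving (fun l : V → E => l ∘ e) (Measure.infinitePi fun _ : V => ν)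
      (Measure.infinitePi fun _ : V => ν) := by
  have hm : Measurable fun l : V → E => l ∘ e :=
    measurable_pi_lambda _ fun v => measurable_pi_apply (e v)
  refine ⟨hm, ?_⟩
  have h := Measure.infinitePi_map_piCongrLeft (fun _ : V => ν) e.symm
  convert h using 2
  ext l v
  have := MeasurableEquiv.piCongrLeft_apply_apply (β := fun _ : V => E) e.symm l (e v)
  simpa using this.symm

lemma fac_dependsOn {V : Type u} {E : Type} [MeasurableSpace E] {B : Set V} {χ : (V → E) → ℝ}
    (hχ : Measurable[cylinderEvents (X := fun _ : V => E) B] χ) {l l' : V → E}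
    (h : ∀ v ∈ B, l v = l' v) : χ l = χ l' := by
  have hle : cylinderEvents (X := fun _ : V => E) B ≤
      MeasurableSpace.comap (fun (l : V → E) (v : B) => l v) inferInstance := by
    refine iSup₂_le fun v hv => ?_
    have : Measurable[MeasurableSpace.comap (fun (l : V → E) (v : B) => l v) inferInstance]
        fun l : V → E => l v :=
      (measurable_pi_apply (⟨v, hv⟩ : B)).comp (comap_measurable fun (l : V → E) (v : B) => l v)
    exact this.comap_le
  exact (hχ.mono hle le_rfl).factorsThrough (funext fun v => h v v.2)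

lemma fac_comap {V : Type u} {E : Type} [MeasurableSpace E] {B : Set V} (e : V ≃ V)
    (he : ∀ v, e v ∈ B ↔ v ∈ B) :
    (cylinderEvents (X := fun _ : V => E) B).comap (fun l : V → E => l ∘ e) =
      cylinderEvents (X := fun _ : V => E) B := by
  simp only [cylinderEvents, MeasurableSpace.comap_iSup, MeasurableSpace.comap_comp]
  refine le_antisymm (iSup₂_le fun v hv => le_iSup₂_of_le (e v) ((he v).2 hv) le_rfl)
    (iSup₂_le fun v hv => le_iSup₂_of_le (e.symm v) ((he _).1 (by simpa using hv)) (le_of_eq ?_))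
  congr 1
  ext l
  simp

namespace Setup

variable {V : Type u} (S : Setup V)

variable {S}

theorem exists_equivariant {E : Type} [MeasurableSpace E] (ν : Measure E) [IsProbabilityMeasure ν]
    (ψ : (V → E) → ℝ) (hψ : BM ψ)
    (hpm : ∀ᵐ l ∂(Measure.infinitePi fun _ : V => ν), ψ l = 1 ∨ ψ l = -1)
    (hinv : ∀ g : S.G ≃g S.G, g S.o = S.o →
      ∀ᵐ l ∂(Measure.infinitePi fun _ : V => ν), ψ (l ∘ g) = ψ l) :
    ∃ Φ : (V → E) → V → Bool, Measurable Φ ∧
      (∀ (g : S.G ≃g S.G) (l : V → E), Φ (l ∘ g) = Φ l ∘ g) ∧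
      ∀ g : S.G ≃g S.G, ∀ᵐ l ∂(Measure.infinitePi fun _ : V => ν),
        (Φ l (g S.o) = true ↔ ψ (l ∘ g) = 1) := by
  classical
  have := S.countable_V
  set μ : Measure (V → E) := Measure.infinitePi fun _ : V => ν with hμ
  let ℱ : Filtration ℕ (inferInstance : MeasurableSpace (V → E)) :=
    { seq := fun n => cylinderEvents (X := fun _ : V => E) (S.ball n S.o : Set V)
      mono' := fun n m h => cylinderEvents_mono fun v hv => by
        simp only [Finset.mem_coe, mem_ball] at hv ⊢
        omega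
      le' := fun n => cylinderEvents_le_pi }
  let χ : ℕ → (V → E) → ℝ := fun n => μ[ψ | ℱ n]
  have hχ : ∀ n, Measurable[ℱ n] (χ n) := fun n => stronglyMeasurable_condExp.measurable
  have hχ' : ∀ n, Measurable (χ n) := fun n => (hχ n).mono (ℱ.le n) le_rfl
  have hmp : ∀ g : S.G ≃g S.G, MeasurePreserving (fun l : V → E => l ∘ g) μ μ :=
    fun g => fac_measurePreserving ν g.toEquiv
  have hlim : ∀ᵐ l ∂μ, Tendsto (fun n => χ n l) atTop (𝓝 (ψ l)) := by
    refine (hψ.integrable μ).tendsto_ae_condExp (hψ.meas.mono ?_ le_rfl).stronglyMeasurable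
    refine iSup_le fun v => le_iSup_of_le (S.G.dist v S.o + 1) ?_
    exact (measurable_cylinderEvent_apply (X := fun _ : V => E)
      (Δ := (S.ball (S.G.dist v S.o + 1) S.o : Set V))
      (by simp only [Finset.mem_coe, mem_ball]; omega)).comap_le
  have hstab : ∀ n (g : S.G ≃g S.G), g S.o = S.o → ∀ᵐ l ∂μ, χ n (l ∘ g) = χ n l := by
    intro n g hg
    have h1 := condExp_comp (μ := μ) (ℱ.le n) (hmp g) (fac_comap g.toEquiv fun v => by
      have := dist_map g v S.o
      rw [hg] at this
      simp only [Finset.mem_coe, mem_ball]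
      exact this ▸ Iff.rfl) (hψ.integrable μ)
    have h2 := condExp_congr_ae (m := ℱ n) (μ := μ) (f := fun l => ψ (l ∘ g)) (g := ψ) (hinv g hg)
    filter_upwards [h1, h2] with l a b
    exact a.symm.trans b
  have hT : ∀ n v, ∃ T : Set (S.G ≃g S.G), T.Countable ∧ (∀ g ∈ T, g S.o = v) ∧
      ∀ l : V → E, (∃ g : S.G ≃g S.G, g S.o = v ∧ 0 < χ n (l ∘ g)) ↔ ∃ g ∈ T, 0 < χ n (l ∘ g) := by
    intro n v
    let ρ : {g : S.G ≃g S.G // g S.o = v} → (S.ball n S.o → V) := fun g w => g.1 w
    refine ⟨Set.range fun r : Set.range ρ => (Set.rangeSplitting ρ r).1, Set.countable_range _,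
      ?_, fun l => ⟨?_, ?_⟩⟩
    · rintro _ ⟨r, rfl⟩; exact (Set.rangeSplitting ρ r).2
    · rintro ⟨g, hg, h⟩
      refine ⟨_, ⟨⟨ρ ⟨g, hg⟩, Set.mem_range_self _⟩, rfl⟩, ?_⟩
      have e := Set.apply_rangeSplitting ρ ⟨ρ ⟨g, hg⟩, Set.mem_range_self _⟩
      exact h.trans_eq (fac_dependsOn (hχ n) fun w hw => congrArg l (congrFun e ⟨w, hw⟩).symm)
    · rintro ⟨_, ⟨r, rfl⟩, h⟩
      exact ⟨_, (Set.rangeSplitting ρ r).2, h⟩
  choose T hT1 hT2 hT3 using hT
  refine ⟨fun l v => decide (∀ᶠ n in atTop, ∃ g : S.G ≃g S.G, g S.o = v ∧ 0 < χ n (l ∘ g)),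
    ?_, ?_, ?_⟩
  · refine measurable_pi_lambda _ fun v => measurable_to_bool ?_
    have : (fun l : V → E => decide (∀ᶠ n in atTop, ∃ g : S.G ≃g S.G,
        g S.o = v ∧ 0 < χ n (l ∘ g))) ⁻¹' {true} =
        ⋃ N : ℕ, ⋂ n : ℕ, ⋂ _ : N ≤ n, ⋃ g ∈ T n v, {l | 0 < χ n (l ∘ g)} := by
      ext l
      simp [eventually_atTop, hT3]
    rw [this]
    exact MeasurableSet.iUnion fun N => MeasurableSet.iInter fun n => MeasurableSet.iInter fun _ =>
      MeasurableSet.biUnion (hT1 n v) fun g _ =>
        measurableSet_lt measurable_const ((hχ' n).comp (hmp g).measurable)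
  · intro h l
    ext v
    simp only [Function.comp_apply, decide_eq_decide]
    refine eventually_congr (Eventually.of_forall fun n => ⟨?_, ?_⟩)
    · rintro ⟨g, hg, e⟩
      exact ⟨g.trans h, by simp [hg], e⟩
    · rintro ⟨g, hg, e⟩
      refine ⟨g.trans h.symm, by simp [hg], ?_⟩
      convert e using 2
      ext w; simp
  · intro g0
    have h1 : ∀ᵐ l ∂μ, ∀ n, ∀ g ∈ T n (g0 S.o), χ n (l ∘ g) = χ n (l ∘ g0) := by
      refine ae_all_iff.2 fun n => (ae_ball_iff (hT1 n _)).2 fun g hg => ?_
      have := (hmp g0).quasiMeasurePreserving.ae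
        (hstab n (g.trans g0.symm) (by simp [hT2 n _ g hg]))
      filter_upwards [this] with l hl
      rw [← hl]
      congr 1
      ext w; simp
    filter_upwards [h1, (hmp g0).quasiMeasurePreserving.ae hlim,
      (hmp g0).quasiMeasurePreserving.ae hpm] with l a b c
    have key : ∀ n, (∃ g : S.G ≃g S.G, g S.o = g0 S.o ∧ 0 < χ n (l ∘ g)) ↔ 0 < χ n (l ∘ g0) := by
      intro n
      refine ⟨fun h => ?_, fun h => ⟨g0, rfl, h⟩⟩
      obtain ⟨g, hg, e⟩ := (hT3 n _ l).1 h
      rwa [a n g hg] at e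
    simp only [key, decide_eq_true_eq]
    constructor
    · intro h
      have := ge_of_tendsto b (h.mono fun _ h => h.le)
      rcases c with c | c
      · exact c
      · linarith
    · intro h
      exact b.eventually (lt_mem_nhds (by rw [h]; norm_num))

end Setup

end Crest.Agent.R160
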