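import Crest.Agent.R160.Model3

/-!
# Row 160 (S0241): Ising
The spins have the free Ising law.
On a connected `F ∋ v₀` the event `{spin = η on F}` is `{spin v₀ = η v₀} ∩ {eta e = η x η y` for all
edges `e = s(x,y)` of `G` inside `F}` (induction along walks of the induced graph, `spin_adj`).  Then
`integral_spin_split` and `integral_prod_of_dependsOn`, `integral_eta`.
-/

set_option autoImplicit false

open MeasureTheory Filter Topology
open scoped unitInterval

noncomputable section

namespace Crest.Agent.R160

universe u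

namespace Setup

variable {V : Type u} (S : Setup V)

variable {S}

/-- the edge variable as a function of the unordered edge -/
private def etaE (S : Setup V) (e : Sym2 V) (ω : Om V) : ℝ :=
  if ((ω (Idx.edge e)).1 : ℝ) < (1 + S.θ) / 2 then 1 else -1

private lemma etaE_mk (x y : V) : etaE S s(x, y) = S.eta x y := rfl

open Classical in
/-- prescribed value of the edge variable -/
private def sigE (η : V → Bool) (e : Sym2 V) : ℝ := if (Sym2.map η e).IsDiag then 1 else -1

private lemma sigE_mk (η : V → Bool) (x y : V) : sigE η s(x, y) = sgn (η x) * sgn (η y) := by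
  unfold sigE
  rw [Sym2.map_mk]
  simp only [Sym2.mk_isDiag_iff]
  cases η x <;> cases η y <;> simp [sgn]

private lemma sgn_mul_self (b : Bool) : sgn b * sgn b = 1 := by cases b <;> simp [sgn]

open Classical in
private lemma decide_iff (v : V) (ω : Om V) (b : Bool) :
    decide (S.spin v ω = 1) = b ↔ S.spin v ω = sgn b := by
  rcases spin_eq (S := S) v ω with h | h <;> cases b <;> simp [h, sgn] <;> norm_num

open Classical in
private lemma event_iff (F : Finset V) (η : V → Bool) (hF : (S.G.induce (F : Set V)).Connected)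
    {v₀ : V} (hv₀ : v₀ ∈ F) (ω : Om V) :
    (∀ v ∈ F, S.spin v ω = sgn (η v)) ↔ S.spin v₀ ω = sgn (η v₀) ∧
      ∀ e ∈ F.sym2.filter (· ∈ S.G.edgeSet), etaE S e ω = sigE η e := by
  constructor
  · intro h
    refine ⟨h v₀ hv₀, fun e he => ?_⟩
    induction e using Sym2.ind with
    | h x y =>
      rw [Finset.mem_filter, Finset.mk_mem_sym2_iff, SimpleGraph.mem_edgeSet] at he
      have h1 := spin_adj he.2 ω
      rw [h x he.1.1, h y he.1.2] at h1
      rw [etaE_mk, sigE_mk, h1, ← mul_assoc, sgn_mul_self, one_mul]
  · rintro ⟨h0, h⟩ v hv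
    obtain ⟨p⟩ := hF.preconnected ⟨v₀, hv₀⟩ ⟨v, hv⟩
    have key : ∀ (a b : (F : Set V)) (_ : (S.G.induce (F : Set V)).Walk a b),
        S.spin a ω = sgn (η a) → S.spin b ω = sgn (η b) := by
      intro a b p
      induction p with
      | nil => exact id
      | @cons a c b hac _ ih =>
        intro ha
        apply ih
        have hadj : S.G.Adj a c := hac
        have h1 := h s((a : V), (c : V)) (by
          rw [Finset.mem_filter, Finset.mk_mem_sym2_iff, SimpleGraph.mem_edgeSet]
          exact ⟨⟨a.2, c.2⟩, hadj⟩)
        rw [etaE_mk, sigE_mk] at h1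
        rw [spin_adj hadj ω, ha, h1, ← mul_assoc, sgn_mul_self, one_mul]
    exact key _ _ p h0

open Classical in
private lemma BM_edge (η : V → Bool) (e : Sym2 V) :
    BM fun ω : Om V => if etaE S e ω = sigE η e then (1 : ℝ) else 0 := by
  induction e using Sym2.ind with
  | h x y =>
    exact BM.ite (measurableSet_eq_fun (measurable_eta x y) measurable_const) (BM.const 1)
      (BM.const 0)

open Classical in
private lemma integral_edge (η : V → Bool) (e : Sym2 V) :
    ∫ ω, (if etaE S e ω = sigE η e then (1 : ℝ) else 0) ∂(mu V) =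
      if (Sym2.map η e).IsDiag then (1 + S.θ) / 2 else (1 - S.θ) / 2 := by
  induction e using Sym2.ind with
  | h x y =>
    have h := integral_eta (S := S) x y fun t => if t = sigE η s(x, y) then (1 : ℝ) else 0
    rw [etaE_mk, h]
    unfold sigE
    by_cases hd : (Sym2.map η s(x, y)).IsDiag
    · simp only [if_pos hd]
      norm_num
    · simp only [if_neg hd]
      norm_num

open Classical in
theorem ising_law (F : Finset V) (η : V → Bool) (hF : (S.G.induce (F : Set V)).Connected) :
    mu V {ω | ∀ v ∈ F, decide (S.spin v ω = 1) = η v} =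
      ENNReal.ofReal (Crest.ProbabilityR.TreeIsing.isingWeight S.G S.θ F η) := by
  obtain ⟨⟨v₀, hv₀⟩⟩ := hF.nonempty
  have hv₀' : v₀ ∈ F := hv₀
  set E := F.sym2.filter (· ∈ S.G.edgeSet) with hE
  set P : Om V → ℝ := fun ω => ∏ e ∈ E, if etaE S e ω = sigE η e then (1 : ℝ) else 0 with hP
  have hPBM : BM P := BM.prod E fun e _ => BM_edge η e
  set Φ : ℝ → Om V → ℝ := fun s ω => (if s = sgn (η v₀) then (1 : ℝ) else 0) * P ω with hΦ
  set A := {ω : Om V | ∀ v ∈ F, decide (S.spin v ω = 1) = η v} with hA
  have hAm : MeasurableSet A := by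
    have : A = ⋂ v ∈ F, {ω | S.spin v ω = sgn (η v)} := by
      ext ω
      simp only [hA, Set.mem_ofPred_eq, Set.mem_iInter, decide_iff]
    rw [this]
    exact Finset.measurableSet_biInter F fun v _ =>
      measurableSet_eq_fun (measurable_spin v) measurable_const
  have hind : A.indicator (fun _ => (1 : ℝ)) = fun ω => Φ (S.spin v₀ ω) ω := by
    funext ω
    have h1 : ω ∈ A ↔ S.spin v₀ ω = sgn (η v₀) ∧ ∀ e ∈ E, etaE S e ω = sigE η e := by
      rw [← event_iff F η hF hv₀' ω]
      simp only [hA, Set.mem_ofPred_eq, decide_iff]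
    simp only [hΦ, hP, Finset.prod_ite_zero, Finset.prod_const_one]
    by_cases hω : ω ∈ A
    · rw [Set.indicator_of_mem hω, if_pos (h1.1 hω).1, if_pos (h1.1 hω).2, one_mul]
    · rw [Set.indicator_of_notMem hω]
      rw [h1, not_and_or] at hω
      rcases hω with h | h
      · rw [if_neg h, zero_mul]
      · rw [if_neg h, mul_zero]
  have hint : ∫ ω, P ω ∂(mu V) =
      ∏ e ∈ E, if (Sym2.map η e).IsDiag then (1 + S.θ) / 2 else (1 - S.θ) / 2 := by
    have := integral_prod_of_dependsOn nu E
      (F := fun e (ω : Om V) => if etaE S e ω = sigE η e then (1 : ℝ) else 0)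
      (fun e _ => BM_edge η e) (K := fun e => {Idx.edge e})
      (fun e _ ω ω' h => by
        have : etaE S e ω = etaE S e ω' := by
          unfold etaE
          rw [h _ (Set.mem_singleton _)]
        simp only [this])
      (fun e _ e' _ hne => by
        simp only [Function.onFun, Set.disjoint_singleton]
        intro h
        exact hne (Idx.edge.inj h))
    exact this.trans (Finset.prod_congr rfl fun e _ => integral_edge η e)
  have hsplit := integral_spin_split (S := S) v₀ (Φ := Φ) ((BM.const _).mul hPBM)
    ((BM.const _).mul hPBM) (fun s ω => rfl)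
  have hreal : (mu V).real A = Crest.ProbabilityR.TreeIsing.isingWeight S.G S.θ F η := by
    rw [← integral_indicator_one hAm]
    change ∫ ω, A.indicator (fun _ => (1 : ℝ)) ω ∂(mu V) = _
    rw [hind, hsplit]
    simp only [hΦ, integral_const_mul, hint]
    unfold Crest.ProbabilityR.TreeIsing.isingWeight
    have : ((if (1 : ℝ) = sgn (η v₀) then (1 : ℝ) else 0) +
        if (-1 : ℝ) = sgn (η v₀) then (1 : ℝ) else 0) = 1 := by
      cases η v₀ <;> simp [sgn] <;> norm_num
    rw [← add_mul, this, one_mul, mul_comm, mul_one_div]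
  rw [← hreal, ofReal_measureReal]

end Setup

end Crest.Agent.R160
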