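import Crest.Agent.R160.Innov
import Crest.Agent.R160.Past

/-!
# Row 160 (S0241): Labels
The labels are i.i.d.
`integral_prod_labels`: induction on `A.card` (for all `ψ` at once): a.s. exactly one `a ∈ A` is last
(`ae_distinct`); on that event the other factors are `FF univ (T a)`-measurable (`measurable_FF_U`), so
`innov_U` integrates out `U a`, and the induction hypothesis applies to `A.erase a` with `ψ` multiplied
by the indicator and by `∫ φ a (s_a, u) du`.  Then `Measure.eq_infinitePi`, `infinitePi_map_curry`.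
-/

set_option autoImplicit false

open MeasureTheory Filter Topology
open scoped unitInterval

noncomputable section

namespace Crest.Agent.R160

universe u

namespace Setup

variable {V : Type u} (S : Setup V)

variable {S}

open Classical in
/-- indicator of the event that `a` is strictly the last slot of `A` -/
private def lastI (A : Finset (V × ℕ)) (a : V × ℕ) (ω : Om V) : ℝ :=
  if ∀ b ∈ A.erase a, T b ω < T a ω then 1 else 0

private lemma time_mem (a : V × ℕ) : Idx.time a.1 a.2 ∈ timeIdx V := Or.inr ⟨a.1, a.2, rfl⟩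

private lemma T_dep (a : V × ℕ) : DependsOn (T a : Om V → ℝ) (timeIdx V) := (isTime_T a).dep

private lemma BM_lastI (A : Finset (V × ℕ)) (a : V × ℕ) : BM (lastI A a) := by
  classical
  refine BM.ite ?_ (BM.const 1) (BM.const 0)
  have : {ω : Om V | ∀ b ∈ A.erase a, T b ω < T a ω} =
      ⋂ b ∈ A.erase a, {ω : Om V | T b ω < T a ω} := by
    ext ω; simp
  rw [this]
  exact Finset.measurableSet_biInter _ fun b _ =>
    measurableSet_lt (measurable_T b) (measurable_T a)

private lemma lastI_dep (A : Finset (V × ℕ)) (a : V × ℕ) : DependsOn (lastI A a) (timeIdx V) := by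
  intro ω ω' h
  have : ∀ b : V × ℕ, T b ω = T b ω' := fun b => T_dep b h
  simp only [lastI, this]

private lemma sum_lastI {A : Finset (V × ℕ)} (hA : A.Nonempty) {ω : Om V}
    (hω : ∀ a b : V × ℕ, T a ω = T b ω → a = b) : ∑ a ∈ A, lastI A a ω = 1 := by
  classical
  obtain ⟨a, ha, hmax⟩ := A.exists_max_image (fun b => T b ω) hA
  rw [Finset.sum_eq_single_of_mem a ha]
  · unfold lastI
    rw [if_pos]
    intro b hb
    rw [Finset.mem_erase] at hb
    exact lt_of_le_of_ne (hmax b hb.2) fun h => hb.1 (hω _ _ h)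
  · intro b hb hba
    unfold lastI
    rw [if_neg]
    intro h
    have := h a (Finset.mem_erase.2 ⟨hba.symm, ha⟩)
    exact absurd (hmax b hb) (not_le.2 this)

private lemma measurable_timeI (a : V × ℕ) :
    Measurable fun ω : Om V => (ω (Idx.time a.1 a.2)).1 :=
  measurable_fst.comp (measurable_pi_apply _)

private lemma BM_label {φ : I × I → ℝ} (hφ : BM φ) (a : V × ℕ) :
    BM fun ω => φ (S.L ω a.1 a.2) :=
  hφ.comp (f := fun ω => S.L ω a.1 a.2) ((measurable_timeI a).prodMk (measurable_U a))

private lemma BM_avg {φ : I × I → ℝ} (hφ : BM φ) (a : V × ℕ) :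
    BM fun ω : Om V => ∫ u : I, φ ((ω (Idx.time a.1 a.2)).1, u) :=
  (hφ.integral_prod_right volume).comp (measurable_timeI a)

/-- decomposition according to the last slot -/
private lemma integral_eq_sum_lastI {A : Finset (V × ℕ)} (hA : A.Nonempty) (S : Setup V)
    {F : Om V → ℝ} (hF : BM F) :
    ∫ ω, F ω ∂(mu V) = ∑ a ∈ A, ∫ ω, lastI A a ω * F ω ∂(mu V) := by
  rw [← integral_finsetSum _ fun a _ => ((BM_lastI A a).mul hF).integrable _]
  refine integral_congr_ae ?_
  filter_upwards [ae_distinct (S := S)] with ω hω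
  rw [← Finset.sum_mul, sum_lastI hA hω, one_mul]

theorem integral_prod_labels (A : Finset (V × ℕ)) {φ : V × ℕ → I × I → ℝ} (hφ : ∀ a, BM (φ a))
    {ψ : Om V → ℝ} (hψ : BM ψ) (hdep : DependsOn ψ (timeIdx V)) :
    ∫ ω, ψ ω * ∏ a ∈ A, φ a (S.L ω a.1 a.2) ∂(mu V) =
      ∫ ω, ψ ω * ∏ a ∈ A, (∫ u : I, φ a ((ω (Idx.time a.1 a.2)).1, u)) ∂(mu V) := by
  classical
  induction A using Finset.strongInduction generalizing ψ with
  | H A ih =>
  rcases A.eq_empty_or_nonempty with rfl | hA
  · simp
  rw [integral_eq_sum_lastI hA S (hψ.mul (BM.prod A fun a _ => BM_label (hφ a) a)),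
    integral_eq_sum_lastI hA S (hψ.mul (BM.prod A fun a _ => BM_avg (hφ a) a))]
  refine Finset.sum_congr rfl fun a ha => ?_
  -- the part that is known before `T a`
  set Z : Om V → ℝ := fun ω => lastI A a ω * ψ ω * ∏ b ∈ A.erase a,
    φ b ((ω (Idx.time b.1 b.2)).1, if T b ω < T a ω then S.U b ω else 0) with hZ
  have hZeq : ∀ ω, Z ω = lastI A a ω * ψ ω * ∏ b ∈ A.erase a, φ b (S.L ω b.1 b.2) := by
    intro ω
    by_cases h : ∀ b ∈ A.erase a, T b ω < T a ω
    · simp only [hZ]
      congr 1
      refine Finset.prod_congr rfl fun b hb => ?_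
      rw [if_pos (h b hb)]
      rfl
    · have : lastI A a ω = 0 := by
        unfold lastI
        rw [if_neg h]
      simp only [hZ, this, zero_mul]
  have htime : ∀ b : V × ℕ,
      Measurable[S.FF Set.univ (T a)] fun ω : Om V => (ω (Idx.time b.1 b.2)).1 := fun b =>
    measurable_FF_timeDep _ _ (measurable_timeI b) fun ω ω' h => by
      simp only [h _ (time_mem b)]
  have hZm : Measurable[S.FF Set.univ (T a)] Z := by
    refine Measurable.mul (Measurable.mul ?_ ?_) ?_
    · exact measurable_FF_timeDep _ _ (BM_lastI A a).meas (lastI_dep A a)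
    · exact measurable_FF_timeDep _ _ hψ.meas hdep
    · refine Finset.measurable_prod _ fun b _ => (hφ b).meas.comp ((htime b).prodMk ?_)
      convert measurable_FF_U (S := S) (isTime_T a) b
  have hZb : BM Z := by
    rw [show Z = _ from funext hZeq]
    exact ((BM_lastI A a).mul hψ).mul (BM.prod _ fun b _ => BM_label (hφ b) b)
  obtain ⟨C, hC⟩ := hZb.bdd
  obtain ⟨C', hC'⟩ := (hφ a).bdd
  have h1 := innov_U' (S := S) a (hZm.prodMk (htime a))
    (Φ := fun p : (ℝ × I) × I => p.1.1 * φ a (p.1.2, p.2))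
    ((measurable_fst.comp measurable_fst).mul ((hφ a).meas.comp (by fun_prop)))
    ⟨C * C', fun ω u => by
      simp only [abs_mul]
      exact mul_le_mul (hC ω) (hC' _) (abs_nonneg _) ((abs_nonneg _).trans (hC ω))⟩
  simp only [integral_const_mul] at h1
  have h2 := ih (A.erase a) (Finset.erase_ssubset ha)
    (ψ := fun ω => lastI A a ω * ψ ω * ∫ u : I, φ a ((ω (Idx.time a.1 a.2)).1, u))
    (((BM_lastI A a).mul hψ).mul (BM_avg (hφ a) a)) (fun ω ω' h => by
      simp only [lastI_dep A a h, hdep h, h _ (time_mem a)])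
  calc ∫ ω, lastI A a ω * (ψ ω * ∏ b ∈ A, φ b (S.L ω b.1 b.2)) ∂(mu V)
      = ∫ ω, Z ω * φ a ((ω (Idx.time a.1 a.2)).1, S.U a ω) ∂(mu V) := by
        congr 1
        funext ω
        rw [hZeq, ← Finset.mul_prod_erase A _ ha]
        have : S.L ω a.1 a.2 = ((ω (Idx.time a.1 a.2)).1, S.U a ω) := rfl
        rw [this]
        ring
    _ = ∫ ω, Z ω * (∫ u : I, φ a ((ω (Idx.time a.1 a.2)).1, u)) ∂(mu V) := h1
    _ = ∫ ω, (lastI A a ω * ψ ω * ∫ u : I, φ a ((ω (Idx.time a.1 a.2)).1, u)) *
          ∏ b ∈ A.erase a, φ b (S.L ω b.1 b.2) ∂(mu V) := by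
        congr 1
        funext ω
        rw [hZeq]
        ring
    _ = _ := by
        rw [h2]
        congr 1
        funext ω
        rw [← Finset.mul_prod_erase A _ ha]
        ring

private lemma map_L_uncurry :
    (mu V).map (fun ω (a : V × ℕ) => S.L ω a.1 a.2) =
      Measure.infinitePi fun _ : V × ℕ => (volume : Measure I).prod (volume : Measure I) := by
  classical
  have hm : Measurable fun (ω : Om V) (a : V × ℕ) => S.L ω a.1 a.2 :=
    measurable_pi_iff.2 fun a => (measurable_timeI a).prodMk (measurable_U a)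
  refine Measure.eq_infinitePi _ fun A t ht => ?_
  have hpi : MeasurableSet (Set.pi (A : Set (V × ℕ)) t) :=
    MeasurableSet.pi A.countable_toSet fun a _ => ht a
  rw [Measure.map_apply hm hpi]
  have hφ : ∀ a, BM ((t a).indicator (1 : I × I → ℝ)) := fun a =>
    ⟨measurable_one.indicator (ht a), 1, fun p => by by_cases hp : p ∈ t a <;> simp [hp]⟩
  have h := integral_prod_labels (S := S) A hφ (BM.const 1) (fun _ _ _ => rfl)
  simp only [one_mul] at h
  have hl : ∫ ω, ∏ a ∈ A, (t a).indicator (1 : I × I → ℝ) (S.L ω a.1 a.2) ∂(mu V) =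
      (mu V).real ((fun ω (a : V × ℕ) => S.L ω a.1 a.2) ⁻¹' Set.pi (A : Set (V × ℕ)) t) := by
    rw [← integral_indicator_one (hm hpi)]
    congr 1
    funext ω
    by_cases hω : ω ∈ (fun ω (a : V × ℕ) => S.L ω a.1 a.2) ⁻¹' Set.pi (A : Set (V × ℕ)) t
    · rw [Set.indicator_of_mem hω]
      refine Finset.prod_eq_one fun a ha => ?_
      exact Set.indicator_of_mem (hω a ha) _
    · rw [Set.indicator_of_notMem hω]
      simp only [Set.mem_preimage, Set.mem_pi, Finset.mem_coe, not_forall] at hω
      obtain ⟨a, ha, hn⟩ := hω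
      exact Finset.prod_eq_zero ha (Set.indicator_of_notMem hn _)
  have hr : ∫ ω, ∏ a ∈ A, (∫ u : I, (t a).indicator (1 : I × I → ℝ)
      ((ω (Idx.time a.1 a.2)).1, u)) ∂(mu V) =
      ∏ a ∈ A, ((volume : Measure I).prod (volume : Measure I)).real (t a) := by
    have h1 := integral_prod_of_dependsOn nu A
      (F := fun (a : V × ℕ) (ω : Om V) => ∫ u : I, (t a).indicator (1 : I × I → ℝ)
        ((ω (Idx.time a.1 a.2)).1, u)) (fun a _ => BM_avg (hφ a) a)
      (K := fun a => {Idx.time a.1 a.2}) (fun a _ ω ω' hh => by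
        simp only [hh _ (Set.mem_singleton _)]) (fun a _ b _ hab => by
        simp only [Function.onFun, Set.disjoint_singleton, ne_eq, Idx.time.injEq]
        exact fun hh => hab (Prod.ext hh.1 hh.2))
    refine h1.trans (Finset.prod_congr rfl fun a _ => ?_)
    have hg := (hφ a).integral_prod_right (volume : Measure I)
    have h2 := integral_eval nu (Idx.time a.1 a.2)
      (φ := fun ξ : X => ∫ u : I, (t a).indicator (1 : I × I → ℝ) (ξ.1, u))
      (hg.meas.comp measurable_fst)
    refine h2.trans ((integral_nu_fst hg.meas).trans ?_)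
    rw [← integral_prod _ ((hφ a).integrable _), integral_indicator_one (ht a)]
  rw [hl, hr] at h
  rw [← ENNReal.toReal_eq_toReal_iff' (measure_ne_top _ _)
    (ENNReal.prod_ne_top fun a _ => measure_ne_top _ _), ENNReal.toReal_prod]
  exact h

theorem map_L : (mu V).map S.L = Measure.infinitePi fun _ : V => lam := by
  have hm : Measurable fun (ω : Om V) (a : V × ℕ) => S.L ω a.1 a.2 :=
    measurable_pi_iff.2 fun a => (measurable_timeI a).prodMk (measurable_U a)
  have h := Measure.infinitePi_map_curry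
    (fun (_ : V) (_ : ℕ) => (volume : Measure I).prod (volume : Measure I))
  rw [← map_L_uncurry (S := S), Measure.map_map (MeasurableEquiv.measurable _) hm] at h
  exact h

end Setup

end Crest.Agent.R160
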