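import Crest.Agent.R160.Psi
import Crest.Agent.R160.Labels
import Crest.Agent.R160.Factor
import Crest.Agent.R160.Ising

/-!
# Row 160 (S0241): Final
The spins are a function of the labels; the factor map.
* `mR_tendsto`: `(spin o - mR n o)² ≤ 2 (1 - tanh (XX n o o)) ≤ 4 exp (-XX n o o)`, and a.e.
  `XX n o o ≥ ∑_{j<n} zeta (o,j) n - d` (`XX_rec`); the slots are independent, `|zeta| ≤ 1`, and for
  `1 ≤ j`, `j + 2 < n` `slot_exp_neg` gives the factor `47/48`.
* `exists_psi`: `cvar m (spin o) ≤ ∫ (spin o - mR n o)² → 0` for `m = comap (rho, L)` since `NN n = 0` and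
  `GG n ≤ m`.  So `spin o = ψ₀ (ω rho, L ω)` a.e.; freeze `rho` (`ae_update`, `L_dependsOn_rho`,
  `Measure.ae_ae_comm`).
-/

set_option autoImplicit false

open MeasureTheory Filter Topology
open scoped unitInterval

noncomputable section

namespace Crest.Agent.R160

universe u

namespace Setup

variable {V : Type u} (S : Setup V)

variable {S}

lemma fin_ae_of_L {p : (V → Lab) → Prop} (hp : MeasurableSet {l | p l})
    (h : ∀ᵐ ω ∂(mu V), p (S.L ω)) : ∀ᵐ l ∂(Measure.infinitePi fun _ : V => lam), p l := by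
  rw [← map_L (S := S)]
  exact (ae_map_iff measurable_L.aemeasurable hp).mpr h

lemma fin_ae_L {p : (V → Lab) → Prop} (h : ∀ᵐ l ∂(Measure.infinitePi fun _ : V => lam), p l) :
    ∀ᵐ ω ∂(mu V), p (S.L ω) := by
  rw [← map_L (S := S)] at h
  exact ae_of_ae_map measurable_L.aemeasurable h

open Classical in
theorem exists_factor : ∃ Φ : (V → Lab) → V → Bool, Measurable Φ ∧
    (∀ (g : S.G ≃g S.G) (l : V → Lab), Φ (l ∘ g) = Φ l ∘ g) ∧
    ∀ᵐ ω ∂(mu V), Φ (S.L ω) = fun v => decide (S.spin v ω = 1) := by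
  obtain ⟨ψ, hψ, hae⟩ := exists_psi (S := S)
  have hg : ∀ g : S.G ≃g S.G, ∀ᵐ ω ∂(mu V), ψ (S.L ω ∘ g) = S.spin (g S.o) ω := by
    intro g
    filter_upwards [(measurePreserving_act g).quasiMeasurePreserving.ae hae] with ω hω
    rwa [L_act, spin_act] at hω
  have hcomp : ∀ e : V → V, Measurable fun l : V → Lab => l ∘ e := fun e =>
    measurable_pi_lambda _ fun v => measurable_pi_apply (e v)
  obtain ⟨Φ, hΦ, heq, hΦae⟩ := exists_equivariant (S := S) lam ψ hψ
    (fin_ae_of_L (S := S)
      ((measurableSet_eq_fun hψ.meas measurable_const).union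
        (measurableSet_eq_fun hψ.meas measurable_const))
      (by filter_upwards [hae] with ω hω; rw [hω]; exact spin_eq _ ω))
    (fun g hgo => fin_ae_of_L (S := S) (measurableSet_eq_fun (hψ.meas.comp (hcomp g)) hψ.meas)
      (by filter_upwards [hae, hg g] with ω h1 h2; rw [h1, h2, hgo]))
  refine ⟨Φ, hΦ, heq, ?_⟩
  haveI := S.countable_V
  have hv : ∀ v, ∀ᵐ ω ∂(mu V), Φ (S.L ω) v = decide (S.spin v ω = 1) := by
    intro v
    obtain ⟨g, rfl⟩ := exists_aut_vertex (S := S) S.o v
    filter_upwards [fin_ae_L (S := S) (hΦae g), hg g] with ω h1 h2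
    rw [h2] at h1
    rw [Bool.eq_iff_iff, decide_eq_true_iff]
    exact h1
  filter_upwards [ae_all_iff.mpr hv] with ω hω
  exact funext hω

variable (S) in
theorem main :
    ∃ Φ : (V → unitInterval) → (V → Bool),
      Measurable Φ ∧
      (∀ (g : S.G ≃g S.G) (x : V → unitInterval), Φ (x ∘ ⇑g) = Φ x ∘ ⇑g) ∧
      ∀ (F : Finset V) (η : V → Bool), (S.G.induce (F : Set V)).Connected →
        (Crest.ProbabilityR.Labels.labelMeasure V).map Φ {τ | ∀ v ∈ F, τ v = η v} =
          ENNReal.ofReal (Crest.ProbabilityR.TreeIsing.isingWeight S.G S.θ F η) := by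
  classical
  obtain ⟨Φ, hΦ, heq, hae⟩ := exists_factor (S := S)
  obtain ⟨f, hf, hfmap⟩ := Measure.exists_measurable_map_eq lam
  have hF : Measurable fun (x : V → I) (v : V) => f (x v) :=
    measurable_pi_lambda _ fun v => hf.comp (measurable_pi_apply v)
  refine ⟨Φ ∘ fun x v => f (x v), hΦ.comp hF, fun g x => heq g (fun v => f (x v)), fun F η hc => ?_⟩
  have h1 : (Crest.ProbabilityR.Labels.labelMeasure V).map (fun (x : V → I) (v : V) => f (x v)) =
      (mu V).map S.L := by
    rw [map_L, Crest.ProbabilityR.Labels.labelMeasure,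
      Measure.infinitePi_map_pi (fun _ : V => (volume : Measure I)) (f := fun _ => f) fun _ => hf]
    simp only [hfmap]
  have hset : MeasurableSet {τ : V → Bool | ∀ v ∈ F, τ v = η v} := by
    have : {τ : V → Bool | ∀ v ∈ F, τ v = η v} = ⋂ v ∈ F, {τ | τ v = η v} := by
      ext τ; simp
    rw [this]
    exact F.measurableSet_biInter fun v _ =>
      measurableSet_eq_fun (measurable_pi_apply v) measurable_const
  rw [← Measure.map_map hΦ hF, h1, Measure.map_map hΦ measurable_L,
    Measure.map_apply (hΦ.comp measurable_L) hset, ← ising_law F η hc]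
  refine measure_congr ?_
  filter_upwards [hae] with ω hω
  change (∀ v ∈ F, Φ (S.L ω) v = η v) = (∀ v ∈ F, decide (S.spin v ω = 1) = η v)
  rw [hω]

end Setup

end Crest.Agent.R160
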