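import Crest.Agent.R160.Model3

/-!
# Row 160 (S0241): Gibbs
The tree recursion computes the magnetisation in a finitely supported field.
Define `Wt 0 y x s ω = 1`, `Wt (n+1) y x s ω = exp (s * Y y) * ∏_{z ∈ ch y x} Wt n z y (s * eta y z ω) ω`.
It depends only on `idx (D y x)`; `∫ Wt n y x s = K * exp (s * cavN n Y y x)` with `K > 0` independent
of `s = ±1` (`integral_prod_of_dependsOn` over the branches, `edge_average`); and
`Wt n y x (spin y ω) ω = exp (∑_{v ∈ DN n y x} spin v ω * Y v)` (`sum_DN_succ`, `spin_adj`).  Finish with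
`integral_spin_split` and `cavN_eq_cav_of_support`.
-/

set_option autoImplicit false

open MeasureTheory Filter Topology
open scoped unitInterval

noncomputable section

namespace Crest.Agent.R160

universe u

namespace Setup

variable {V : Type u} (S : Setup V)

/-- Boltzmann weight of the depth-`n` part of the branch behind `y`, given the spin `s` at `y`. -/
def Wt (Y : V → ℝ) : ℕ → V → V → ℝ → Om V → ℝ
  | 0, _, _, _, _ => 1
  | n + 1, y, x, s, ω => Real.exp (s * Y y) * ∏ z ∈ S.ch y x, Wt Y n z y (s * S.eta y z ω) ω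

/-- The normalising constant of `Wt`. -/
def Kt (Y : V → ℝ) : ℕ → V → V → ℝ
  | 0, _, _ => 1
  | n + 1, y, x => ∏ z ∈ S.ch y x,
      Kt Y n z y * (Real.cosh (S.cavN n Y z y) / Real.cosh (fm S.θ (S.cavN n Y z y)))

variable {S}

lemma Wt_edge (Y : V → ℝ) (n : ℕ) (y z : V) (s : ℝ) (ω : Om V) :
    S.Wt Y n z y (s * S.eta y z ω) ω =
      (1 + S.eta y z ω) / 2 * S.Wt Y n z y s ω + (1 - S.eta y z ω) / 2 * S.Wt Y n z y (-s) ω := by
  rcases eta_eq (S := S) y z ω with h | h <;> rw [h] <;> simp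

lemma BM_Wt (Y : V → ℝ) (n : ℕ) : ∀ (y x : V) (s : ℝ), BM (S.Wt Y n y x s) := by
  induction n with
  | zero => intro y x s; exact BM.const 1
  | succ n ih =>
    intro y x s
    have e : S.Wt Y (n + 1) y x s = fun ω => Real.exp (s * Y y) * ∏ z ∈ S.ch y x,
        ((1 + S.eta y z ω) / 2 * S.Wt Y n z y s ω +
          (1 - S.eta y z ω) / 2 * S.Wt Y n z y (-s) ω) := by
      funext ω
      simp only [Wt, Wt_edge]
    rw [e]
    refine (BM.const _).mul (BM.prod _ fun z _ => ?_)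
    exact ((((BM.const 1).add (BM_eta y z)).div_const 2).mul (ih z y s)).add
      ((((BM.const 1).sub (BM_eta y z)).div_const 2).mul (ih z y (-s)))

lemma BM_Wt_edge (Y : V → ℝ) (n : ℕ) (y z : V) (s : ℝ) :
    BM fun ω => S.Wt Y n z y (s * S.eta y z ω) ω := by
  simp only [Wt_edge]
  exact ((((BM.const 1).add (BM_eta y z)).div_const 2).mul (BM_Wt Y n z y s)).add
    ((((BM.const 1).sub (BM_eta y z)).div_const 2).mul (BM_Wt Y n z y (-s)))

lemma Wt_edge_dependsOn {Y : V → ℝ} {n : ℕ} {y z : V}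
    (ih : ∀ s, DependsOn (S.Wt Y n z y s) (idx (S.D z y))) (s : ℝ) :
    DependsOn (fun ω => S.Wt Y n z y (s * S.eta y z ω) ω) (S.branch z y) := by
  intro ω ω' h
  have h1 : S.eta y z ω = S.eta y z ω' := eta_dependsOn y z fun i hi => h i (by
    rw [Set.mem_singleton_iff.1 hi]; exact Set.mem_insert _ _)
  simp only [h1]
  exact ih _ fun i hi => h i (Set.mem_insert_of_mem _ hi)

lemma Wt_dependsOn (Y : V → ℝ) (n : ℕ) :
    ∀ (y x : V), S.DE y x → ∀ s : ℝ, DependsOn (S.Wt Y n y x s) (idx (S.D y x)) := by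
  induction n with
  | zero => intro y x _ s ω ω' _; rfl
  | succ n ih =>
    intro y x h s ω ω' hω
    simp only [Wt]
    congr 1
    refine Finset.prod_congr rfl fun z hz => ?_
    exact Wt_edge_dependsOn (ih z y (DE_of_mem_ch hz)) s fun i hi => hω i (branch_subset h hz hi)

lemma integral_Wt (Y : V → ℝ) (n : ℕ) : ∀ (y x : V), S.DE y x → ∀ s : ℝ, (s = 1 ∨ s = -1) →
    ∫ ω, S.Wt Y n y x s ω ∂(mu V) = S.Kt Y n y x * Real.exp (s * S.cavN n Y y x) := by
  induction n with
  | zero => intro y x _ s _; simp [Wt, Kt, cavN]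
  | succ n ih =>
    intro y x _ s hs
    have hs' : -s = 1 ∨ -s = -1 := by rcases hs with rfl | rfl <;> simp
    have hprod : ∫ ω, ∏ z ∈ S.ch y x, S.Wt Y n z y (s * S.eta y z ω) ω ∂(mu V) =
        ∏ z ∈ S.ch y x, ∫ ω, S.Wt Y n z y (s * S.eta y z ω) ω ∂(mu V) :=
      integral_prod_of_dependsOn nu (S.ch y x)
        (F := fun z ω => S.Wt Y n z y (s * S.eta y z ω) ω) (fun z _ => BM_Wt_edge Y n y z s)
        (K := fun z => S.branch z y)
        (fun z hz => Wt_edge_dependsOn (Wt_dependsOn Y n z y (DE_of_mem_ch hz)) s)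
        (fun z hz z' hz' hne => branch_disjoint (mem_ch.1 hz).1 (mem_ch.1 hz').1 hne)
    have hz : ∀ z ∈ S.ch y x, ∫ ω, S.Wt Y n z y (s * S.eta y z ω) ω ∂(mu V) =
        S.Kt Y n z y * (Real.cosh (S.cavN n Y z y) / Real.cosh (fm S.θ (S.cavN n Y z y))) *
          Real.exp (s * fm S.θ (S.cavN n Y z y)) := by
      intro z hz
      have hadj : S.G.Adj z y := (mem_ch.1 hz).1.symm
      have hdis : Disjoint ({Idx.edge s(y, z)} : Set (Idx V)) (idx (S.D z y)) :=
        Set.disjoint_singleton_left.2 (edge_not_mem_idx (not_mem_D hadj))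
      have b1 : BM fun ω => (1 + S.eta y z ω) / 2 := ((BM.const 1).add (BM_eta y z)).div_const 2
      have b2 : BM fun ω => (1 - S.eta y z ω) / 2 := ((BM.const 1).sub (BM_eta y z)).div_const 2
      have d1 : DependsOn (fun ω => (1 + S.eta y z ω) / 2) {Idx.edge s(y, z)} :=
        fun ω ω' h => by simp only [eta_dependsOn (S := S) y z h]
      have d2 : DependsOn (fun ω => (1 - S.eta y z ω) / 2) {Idx.edge s(y, z)} :=
        fun ω ω' h => by simp only [eta_dependsOn (S := S) y z h]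
      have i1 : ∫ ω, (1 + S.eta y z ω) / 2 * S.Wt Y n z y s ω ∂(mu V) =
          (∫ ω, (1 + S.eta y z ω) / 2 ∂(mu V)) * ∫ ω, S.Wt Y n z y s ω ∂(mu V) :=
        integral_mul_of_dependsOn nu b1 (BM_Wt Y n z y s) d1
          (Wt_dependsOn Y n z y (Or.inr hadj) s) hdis
      have i2 : ∫ ω, (1 - S.eta y z ω) / 2 * S.Wt Y n z y (-s) ω ∂(mu V) =
          (∫ ω, (1 - S.eta y z ω) / 2 ∂(mu V)) * ∫ ω, S.Wt Y n z y (-s) ω ∂(mu V) :=
        integral_mul_of_dependsOn nu b2 (BM_Wt Y n z y (-s)) d2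
          (Wt_dependsOn Y n z y (Or.inr hadj) (-s)) hdis
      have e1 := integral_eta (S := S) y z fun t => (1 + t) / 2
      have e2 := integral_eta (S := S) y z fun t => (1 - t) / 2
      simp only [Wt_edge]
      rw [integral_add ((b1.mul (BM_Wt Y n z y s)).integrable _)
        ((b2.mul (BM_Wt Y n z y (-s))).integrable _), i1, i2, e1, e2,
        ih z y (Or.inr hadj) s hs, ih z y (Or.inr hadj) (-s) hs', mul_assoc (S.Kt Y n z y),
        ← edge_average S.hθ0 S.theta_sq_le _ hs]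
      ring
    simp only [Wt, Kt, cavN]
    rw [integral_const_mul, hprod, Finset.prod_congr rfl hz, Finset.prod_mul_distrib,
      ← Real.exp_sum, mul_add, Real.exp_add, Finset.mul_sum]
    ring

lemma Wt_spin (Y : V → ℝ) (ω : Om V) (n : ℕ) : ∀ (y x : V), S.DE y x →
    S.Wt Y n y x (S.spin y ω) ω = Real.exp (∑ v ∈ S.DN n y x, S.spin v ω * Y v) := by
  induction n with
  | zero => intro y x _; simp [Wt, DN]
  | succ n ih =>
    intro y x h
    rw [sum_DN_succ h, Real.exp_add, Real.exp_sum]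
    simp only [Wt]
    congr 1
    refine Finset.prod_congr rfl fun z hz => ?_
    rw [← spin_adj (mem_ch.1 hz).1 ω]
    exact ih z y (DE_of_mem_ch hz)

lemma Wt_flip (Y : V → ℝ) (n : ℕ) (v : V) (s : ℝ) (ω : Om V) :
    S.Wt Y n v v s (flip ω) = S.Wt Y n v v s ω :=
  Wt_dependsOn Y n v v (DE_self v) s fun _ hi =>
    flip_apply (fun e => root_not_mem_idx _ (e ▸ hi)) ω

theorem gibbs {Y : V → ℝ} {F : Finset V} (hF : ∀ v, v ∉ F → Y v = 0) (v : V) :
    ∫ ω, S.spin v ω * Real.exp (∑ x ∈ F, S.spin x ω * Y x) ∂(mu V) =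
      S.mag Y v * ∫ ω, Real.exp (∑ x ∈ F, S.spin x ω * Y x) ∂(mu V) := by
  set n := F.sup (fun u => S.G.dist u v) + 1 with hn
  have hlt : ∀ u ∈ F, S.G.dist u v < n := fun u hu =>
    Nat.lt_succ_of_le (Finset.le_sup (f := fun u => S.G.dist u v) hu)
  have hW : ∀ ω, Real.exp (∑ x ∈ F, S.spin x ω * Y x) = S.Wt Y n v v (S.spin v ω) ω := by
    intro ω
    rw [Wt_spin Y ω n v v (DE_self v)]
    congr 1
    refine Finset.sum_subset (fun u hu => mem_ball.2 (hlt u hu)) fun u _ hu => ?_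
    rw [hF u hu, mul_zero]
  simp only [hW]
  have h1 := integral_spin_split (S := S) v (Φ := fun s ω => s * S.Wt Y n v v s ω)
    ((BM.const 1).mul (BM_Wt Y n v v 1)) ((BM.const (-1)).mul (BM_Wt Y n v v (-1)))
    (fun s ω => by simp only [Wt_flip])
  have h2 := integral_spin_split (S := S) v (Φ := fun s ω => S.Wt Y n v v s ω)
    (BM_Wt Y n v v 1) (BM_Wt Y n v v (-1)) (fun s ω => Wt_flip Y n v s ω)
  rw [h1, h2, integral_const_mul, integral_const_mul,
    integral_Wt Y n v v (DE_self v) 1 (Or.inl rfl),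
    integral_Wt Y n v v (DE_self v) (-1) (Or.inr rfl),
    cavN_eq_cav_of_support hF (DE_self v) hlt, mag, Real.tanh_eq, one_mul, one_mul, neg_one_mul,
    neg_one_mul]
  have p1 := Real.exp_pos (S.cav Y v v)
  have p2 := Real.exp_pos (-S.cav Y v v)
  field_simp
  ring

end Setup

end Crest.Agent.R160
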