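import Crest.Agent.R160.Static
import Crest.Agent.R160.Tree2

/-!
# Row 160 (S0241): LD
Anti-concentration, large deviations of the cost along a path, and decoupling.
* `anticonc`: for `φ ≥ 0` continuous, `∫ φ(ζ) = ∫ φ_even(ζ) + tanh ζ φ_odd(ζ) ≥ (1/4) ∫ φ_even(ζ)`; take
  `φ x = min (Λ (c+x)²) 1`, whose even part is `≥ min (Λ x²) 1 / 2`; `exp_neg_alpha_le`.
* `ld_path`: peel off the top factor (`integral_peel_add`): with `z ∈ ch (q (a+1)) (q a)`,
  `z ≠ q (a+2)` (`exists_ch_ne`), `XX r (q (a+1)) (q a) = R + ξ` a.e. (`XX_rec`), `ξ = eta * fm (XX r z _)`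
  depends on `branch z (q (a+1))`; `R` and the deeper factors do not.
* `decouple`: take the `M ≥ 2^n` paths `q y` of `exists_desc`; by `exists_aut` and invariance,
  `∫ Z β(q) = ∫ Z β(q y)`.  With `A = M⁻¹ ∑ β(q y)`, `p = exp (-Λ y n/64)`, `η = (3/4)^n`, pointwise
  `Z A ≤ Z (2p + η) + C exp (M A - (2p+η) M)`, and (`integral_param` at `rho`, then
  `integral_prod_of_dependsOn`, `e^β ≤ 1 + 2β`, `ld_path`) `∫ exp (M A) ≤ exp (2 p M)`.
-/

set_option autoImplicit false

open MeasureTheory Filter Topology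
open scoped unitInterval

noncomputable section

namespace Crest.Agent.R160

universe u

namespace Setup

variable {V : Type u} (S : Setup V)

/-- (H1): quantitative non-degeneracy of the messages at time `r` -/
def H1 (r Λ y : ℝ) : Prop :=
  ∀ z v, S.G.Adj z v → Λ * y ≤ ∫ ω, min (Λ * fm S.θ (S.XX r z v ω) ^ 2) 1 ∂(mu V)

/-- smooth indicator that the outward cost of the portion `n+1, …, 2n+1` of the path `q` is small -/
def beta (R : Om V → ℝ) (Λ y : ℝ) (q : ℕ → V) (n : ℕ) (ω : Om V) : ℝ :=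
  min 1 (Real.exp (Λ * (y * n / 64 - ∑ l ∈ Finset.range n,
    alpha S.θ (S.cav (S.Y Set.univ (R ω) ω) (q (n + l + 2)) (q (n + l + 1))))))

variable {S}

theorem anticonc {ζ : Om V → ℝ} (hζ : IsLR ζ) (hb : ∀ ω, |Real.tanh (ζ ω)| ≤ 3 / 4) {Λ : ℝ}
    (hΛ : 1 ≤ Λ) (c : ℝ) :
    ∫ ω, Real.exp (-(Λ * alpha S.θ (c + ζ ω))) ∂(mu V) ≤
      1 - (∫ ω, min (Λ * ζ ω ^ 2) 1 ∂(mu V)) / 32 := by
  have hΛ0 : 0 ≤ Λ := by linarith
  let φ : ℝ → ℝ := fun x => min (Λ * (c + x) ^ 2) 1
  have hφc : Continuous φ := by fun_prop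
  have hφ0 : ∀ x, 0 ≤ φ x := fun x => le_min (by positivity) zero_le_one
  let ψ : ℝ → ℝ := fun x => (φ x - φ (-x)) / 2
  have hψc : Continuous ψ := by fun_prop
  have hodd := hζ.odd ψ hψc (fun x => by simp only [ψ, neg_neg]; ring)
  have hmin : ∀ x, min (Λ * x ^ 2) 1 ≤ φ x + φ (-x) := by
    intro x
    rcases le_total 0 (c * x) with h | h
    · have : min (Λ * x ^ 2) 1 ≤ φ x :=
        min_le_min (mul_le_mul_of_nonneg_left (by nlinarith [sq_nonneg c]) hΛ0) le_rfl
      linarith [hφ0 (-x)]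
    · have : min (Λ * x ^ 2) 1 ≤ φ (-x) :=
        min_le_min (mul_le_mul_of_nonneg_left (by nlinarith [sq_nonneg c]) hΛ0) le_rfl
      linarith [hφ0 x]
  have iψ : Integrable (fun ω => ψ (ζ ω)) (mu V) := (hζ.bm.comp_continuous hψc).integrable _
  have iψt : Integrable (fun ω => ψ (ζ ω) * Real.tanh (ζ ω)) (mu V) :=
    ((hζ.bm.comp_continuous hψc).mul (hζ.bm.comp_continuous continuous_tanh')).integrable _
  have im : Integrable (fun ω => min (Λ * ζ ω ^ 2) 1) (mu V) :=
    (hζ.bm.comp_continuous (φ := fun x => min (Λ * x ^ 2) 1) (by fun_prop)).integrable _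
  have hα := continuous_alpha S.hθ0 S.theta_sq_le
  have ie : Integrable (fun ω => Real.exp (-(Λ * alpha S.θ (c + ζ ω)))) (mu V) :=
    (hζ.bm.comp_continuous (φ := fun x => Real.exp (-(Λ * alpha S.θ (c + x))))
      (by fun_prop)).integrable _
  have key : ∀ ω, Real.exp (-(Λ * alpha S.θ (c + ζ ω))) ≤
      1 - min (Λ * ζ ω ^ 2) 1 / 32 - (ψ (ζ ω) - ψ (ζ ω) * Real.tanh (ζ ω)) / 4 := by
    intro ω
    have h1 : Real.exp (-(Λ * alpha S.θ (c + ζ ω))) ≤ 1 - φ (ζ ω) / 4 :=
      exp_neg_alpha_le S.hθ0 S.theta_sq_le hΛ _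
    have h2 := hmin (ζ ω)
    have h3 := abs_le.1 (hb ω)
    have h4 := hφ0 (ζ ω)
    have h5 := hφ0 (-ζ ω)
    simp only [ψ]
    nlinarith [mul_nonneg h4 (by linarith [h3.1] : 0 ≤ 3 / 4 + Real.tanh (ζ ω)),
      mul_nonneg h5 (by linarith [h3.2] : 0 ≤ 3 / 4 - Real.tanh (ζ ω))]
  refine (integral_mono ie (((integrable_const (1 : ℝ)).sub (im.div_const 32)).sub
    ((iψ.sub iψt).div_const 4)) key).trans (le_of_eq ?_)
  have e1 := integral_sub ((integrable_const (1 : ℝ)).sub (im.div_const 32))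
    ((iψ.sub iψt).div_const 4)
  have e2 := integral_sub (integrable_const (1 : ℝ)) (im.div_const 32) (μ := mu V)
  have e3 := integral_sub iψ iψt
  simp only [Pi.sub_apply] at e1 e2 e3 ⊢
  rw [e1, e2, integral_div, integral_div, e3, ← hodd]
  simp

/-- one step of `ld_path` -/
lemma ld_step {r Λ y : ℝ} (hΛ : 1 ≤ Λ) (h1 : S.H1 r Λ y) {u x z : V} (hux : S.G.Adj u x)
    (hz : z ∈ S.ch u x) {G : Om V → ℝ} (hG : BM G) (hG0 : ∀ ω, 0 ≤ G ω)
    (hGK : DependsOn G (S.branch z u)ᶜ) :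
    ∫ ω, G ω * Real.exp (-(Λ * alpha S.θ (S.XX r u x ω))) ∂(mu V) ≤
      Real.exp (-(Λ * y / 32)) * ∫ ω, G ω ∂(mu V) := by
  classical
  obtain ⟨J, hJ⟩ := exists_nat_ge r
  have huz : S.G.Adj u z := (mem_ch.1 hz).1
  let ξ : V → Om V → ℝ := fun z ω => S.eta u z ω * fm S.θ (S.XX r z u ω)
  let R : Om V → ℝ := fun ω => ∑ j ∈ Finset.range J, zeta (u, j) r ω +
    ∑ z' ∈ (S.ch u x).erase z, ξ z' ω
  have hξ : ∀ z' ∈ S.ch u x, IsLR (ξ z') := fun z' h => isLR_xi r (mem_ch.1 h).1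
  have hR : BM R := (BM.sum _ fun j _ => BM_zeta _ r).add
    (BM.sum _ fun z' h => (hξ z' (Finset.mem_of_mem_erase h)).bm)
  have hRK : DependsOn R (S.branch z u)ᶜ := by
    intro ω ω' h
    simp only [R]
    congr 1
    · refine Finset.sum_congr rfl fun j _ => ?_
      exact ((zeta_dependsOn (u, j) r).mono
        (branch_disjoint_slot huz j).subset_compl_left) h
    · refine Finset.sum_congr rfl fun z' hz' => ?_
      obtain ⟨hne, hz'⟩ := Finset.mem_erase.1 hz'
      exact ((xi_dependsOn r (mem_ch.1 hz').1).mono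
        (branch_disjoint (mem_ch.1 hz').1 huz hne).subset_compl_right) h
  have hα := continuous_alpha S.hθ0 S.theta_sq_le
  have hb : ∀ ω, |Real.tanh (ξ z ω)| ≤ 3 / 4 := by
    intro ω
    have h := abs_theta_tanh_le S.hθ0 S.theta_sq_le (S.XX r z u ω)
    rw [← tanh_fm S.hθ0 S.theta_sq_le] at h
    simp only [ξ]
    rcases eta_eq (S := S) u z ω with e | e <;> rw [e]
    · rwa [one_mul]
    · rwa [neg_one_mul, Real.tanh_neg, abs_neg]
  have hq : ∀ c, ∫ ω, Real.exp (-(Λ * alpha S.θ (c + ξ z ω))) ∂(mu V) ≤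
      Real.exp (-(Λ * y / 32)) := by
    intro c
    refine (anticonc (S := S) (hξ z hz) hb hΛ c).trans ?_
    have e : ∀ ω, ξ z ω ^ 2 = fm S.θ (S.XX r z u ω) ^ 2 := by
      intro ω
      simp only [ξ]
      rcases eta_eq (S := S) u z ω with e | e <;> rw [e] <;> ring
    simp only [e]
    have := h1 z u huz.symm
    linarith [Real.add_one_le_exp (-(Λ * y / 32))]
  have := integral_peel_add nu hG hR (hξ z hz).bm hG0 hGK hRK (xi_dependsOn r huz)
    (φ := fun t => Real.exp (-(Λ * alpha S.θ t))) (by fun_prop) hq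
  refine le_trans (le_of_eq ?_) this
  refine integral_congr_ae ?_
  filter_upwards [XX_rec (S := S) hJ (Or.inr hux)] with ω hω
  rw [hω, ← Finset.add_sum_erase _ _ hz]
  simp only [R, ξ]
  rw [add_assoc, add_comm (∑ z' ∈ (S.ch u x).erase z, _)]

theorem ld_path {r Λ y : ℝ} (hΛ : 1 ≤ Λ) (hy : 0 ≤ y) (h1 : S.H1 r Λ y) {q : ℕ → V} (a n : ℕ)
    (hq : S.IsNB q (a + n)) :
    ∫ ω, Real.exp (-(Λ * ∑ l ∈ Finset.range n, alpha S.θ (S.XX r (q (a + l + 1)) (q (a + l)) ω)))
      ∂(mu V) ≤ Real.exp (-(Λ * y * n / 32)) := by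
  induction n generalizing a with
  | zero => simp
  | succ n ih =>
    have hα := continuous_alpha S.hθ0 S.theta_sq_le
    have ih' := ih (a + 1) (hq.mono (by omega))
    obtain ⟨z, hz, hne⟩ := exists_ch_ne (S := S) (q (a + 1)) (q a) (q (a + 2))
    have hux : S.G.Adj (q (a + 1)) (q a) := (hq.1 a (by omega)).symm
    let G : Om V → ℝ := fun ω => Real.exp (-(Λ * ∑ l ∈ Finset.range n,
      alpha S.θ (S.XX r (q (a + 1 + l + 1)) (q (a + 1 + l)) ω)))
    have hG : BM G := (BM.sum _ fun l _ => (BM_XX r _ _).comp_continuous hα).comp_continuous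
      (φ := fun t => Real.exp (-(Λ * t))) (by fun_prop)
    have hGK : DependsOn G (S.branch z (q (a + 1)))ᶜ := by
      intro ω ω' h
      simp only [G]
      congr 3
      refine Finset.sum_congr rfl fun l hl => ?_
      have hl := Finset.mem_range.1 hl
      have hadj : S.G.Adj (q (a + 1)) (q (a + 2)) := hq.1 (a + 1) (by omega)
      have hsub : idx (S.D (q (a + 1 + l + 1)) (q (a + 1 + l))) ⊆ (S.branch z (q (a + 1)))ᶜ :=
        ((idx_mono (hq.D_subset (i := a + 1) (by omega) (by omega))).trans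
          (Set.subset_insert _ _)).trans
          (branch_disjoint hadj (mem_ch.1 hz).1 hne.symm).subset_compl_right
      rw [((XX_dependsOn r (Or.inr (hq.1 (a + 1 + l) (by omega)).symm)).mono hsub) h]
    have hstep := ld_step hΛ h1 hux hz hG (fun _ => (Real.exp_pos _).le) hGK
    calc _ = ∫ ω, G ω * Real.exp (-(Λ * alpha S.θ (S.XX r (q (a + 1)) (q a) ω))) ∂(mu V) := by
          refine integral_congr_ae (ae_of_all _ fun ω => ?_)
          simp only [G]
          rw [← Real.exp_add, Finset.sum_range_succ']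
          congr 1
          have e : ∑ l ∈ Finset.range n,
              alpha S.θ (S.XX r (q (a + (l + 1) + 1)) (q (a + (l + 1))) ω) =
              ∑ l ∈ Finset.range n, alpha S.θ (S.XX r (q (a + 1 + l + 1)) (q (a + 1 + l)) ω) :=
            Finset.sum_congr rfl fun l _ => by rw [show a + (l + 1) = a + 1 + l by omega]
          rw [e, add_zero]
          ring
      _ ≤ Real.exp (-(Λ * y / 32)) * Real.exp (-(Λ * y * n / 32)) :=
          hstep.trans (mul_le_mul_of_nonneg_left ih' (Real.exp_pos _).le)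
      _ = _ := by
          rw [← Real.exp_add]
          congr 1
          push_cast
          ring

end Setup

end Crest.Agent.R160
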