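import Crest.Agent.R160.Gibbs

/-!
# Row 160 (S0241): PF
Posterior formula in finite volume.
Step 1 (density).  `B = Λ ×ˢ range J`.  Replace the observations `w b`, `b ∈ B`, one at a time by
`w⁰ b = 2 * noise b - 1`, paying the density `1 + eps b * spin b.1 * w⁰ b` when `T b < R` (resample the
coordinate `noise b` with `integral_update`, `integral_nu_fst`, `integral_sgn_Qf`).
Step 2.  Freeze all coordinates except `root` and the edges (`integral_freeze`); the product of the
densities is a spin-independent constant times `exp (∑ spin x * Y⁰ x)` (`exp_mul_artanh`), with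
`Y⁰ = fld (seen⁰)` supported in `Λ`; apply `gibbs`.  Undo step 1 with `Ψ` replaced by `mag (fld ·) v * Ψ`.
-/

set_option autoImplicit false

open MeasureTheory Filter Topology
open scoped unitInterval

noncomputable section

namespace Crest.Agent.R160

universe u

namespace Setup

variable {V : Type u} (S : Setup V)

variable {S}

/-- the reference observation (uniform on `[-1,1]`) -/
def pfW0 (b : V × ℕ) (ω : Om V) : ℝ := 2 * ((ω (Idx.noise b.1 b.2)).1 : ℝ) - 1

open Classical in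
/-- the information with prescribed observations `W` -/
def pfObs (Λ : Finset V) (R : Om V → ℝ) (W : V × ℕ → ℝ) (ω : Om V) : X × Seen V :=
  (ω Idx.rho, fun c => (ω (Idx.time c.1 c.2), if T c ω < R ω ∧ c.1 ∈ Λ then W c else 0))

open Classical in
/-- observations with the slots of `B` replaced by reference observations -/
def pfWB (S : Setup V) (B : Finset (V × ℕ)) (ω : Om V) (c : V × ℕ) : ℝ :=
  if c ∈ B then pfW0 c ω else S.w c ω

open Classical in
/-- the density of one slot -/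
def pfDens (S : Setup V) (Λ : Finset V) (R : Om V → ℝ) (c : V × ℕ) (ω : Om V) : ℝ :=
  if T c ω < R ω ∧ c.1 ∈ Λ then 1 + S.spin c.1 ω * eps c ω * pfW0 c ω else 1

/-- the coordinates carrying the spins -/
def pfK (V : Type u) : Set (Idx V) := {i | i = Idx.root ∨ ∃ e, i = Idx.edge e}

lemma pf_obs_eq (Λ : Finset V) (R : Om V → ℝ) (ω : Om V) :
    S.obs Λ R ω = pfObs Λ R (pfWB S ∅ ω) ω := by
  simp only [obs, pfObs, Prod.mk.injEq, true_and]
  funext c
  simp only [seen, pfWB, Finset.mem_coe, Finset.notMem_empty, if_false]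
  congr

lemma pf_abs_w0_le (b : V × ℕ) (ω : Om V) : |pfW0 b ω| ≤ 1 := by
  have h0 := (ω (Idx.noise b.1 b.2)).1.2.1
  have h1 := (ω (Idx.noise b.1 b.2)).1.2.2
  rw [pfW0, abs_le]
  constructor <;> linarith

lemma pf_measurable_w0 (b : V × ℕ) : Measurable (pfW0 b) := by
  unfold pfW0
  fun_prop

lemma pf_BM_w0 (b : V × ℕ) : BM (pfW0 b) := ⟨pf_measurable_w0 b, 1, pf_abs_w0_le b⟩

lemma pf_BM_eps (b : V × ℕ) : BM (eps b) :=
  ⟨measurable_eps b, 1 / 2, fun ω => by
    rw [abs_of_nonneg (eps_nonneg b ω)]; exact eps_le_half b ω⟩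

lemma pf_measurableSet_rev (Λ : Finset V) {R : Om V → ℝ} (hR : Measurable R) (c : V × ℕ) :
    MeasurableSet {ω : Om V | T c ω < R ω ∧ c.1 ∈ Λ} :=
  (measurableSet_lt (measurable_T c) hR).inter (MeasurableSet.const _)

lemma pf_BM_dens (Λ : Finset V) {R : Om V → ℝ} (hR : Measurable R) (c : V × ℕ) :
    BM (pfDens S Λ R c) := by
  classical
  unfold pfDens
  convert BM.ite (pf_measurableSet_rev Λ hR c)
    ((BM.const 1).add (((BM_spin (S := S) c.1).mul (pf_BM_eps c)).mul (pf_BM_w0 c))) (BM.const 1)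

lemma pf_measurable_obs {Ω : Type*} [MeasurableSpace Ω] (Λ : Finset V) {R : Om V → ℝ}
    (hR : Measurable R) {W : Ω → V × ℕ → ℝ} (hW : ∀ c, Measurable fun z => W z c)
    {f : Ω → Om V} (hf : Measurable f) : Measurable fun z => pfObs Λ R (W z) (f z) := by
  classical
  unfold pfObs
  refine ((measurable_pi_apply _).comp hf).prodMk (measurable_pi_iff.2 fun c => ?_)
  refine ((measurable_pi_apply _).comp hf).prodMk ?_
  exact Measurable.ite (hf (pf_measurableSet_rev Λ hR c)) (hW c) measurable_const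

lemma pf_measurable_WB (B : Finset (V × ℕ)) (c : V × ℕ) :
    Measurable fun ω => pfWB S B ω c := by
  classical
  unfold pfWB
  split_ifs
  · exact pf_measurable_w0 c
  · exact measurable_w c

/-- the integrand after replacing the slots of `B` -/
def pfF (S : Setup V) (Λ : Finset V) (R : Om V → ℝ) (g : Om V → ℝ) (Ψ : X × Seen V → ℝ)
    (B : Finset (V × ℕ)) (ω : Om V) : ℝ :=
  g ω * Ψ (pfObs Λ R (pfWB S B ω) ω) * ∏ c ∈ B, pfDens S Λ R c ω

lemma pf_BM_F (Λ : Finset V) {R : Om V → ℝ} (hR : Measurable R) {g : Om V → ℝ} (hg : BM g)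
    {Ψ : X × Seen V → ℝ} (hΨ : BM Ψ) (B : Finset (V × ℕ)) : BM (pfF S Λ R g Ψ B) := by
  unfold pfF
  exact (hg.mul (hΨ.comp (pf_measurable_obs Λ hR (pf_measurable_WB B) measurable_id))).mul
    (BM.prod B fun c _ => pf_BM_dens Λ hR c)

lemma pf_obs_congr (Λ : Finset V) {R : Om V → ℝ} {J : ℕ} (hR : IsTime R J) (W : V × ℕ → ℝ)
    {ω ω' : Om V} (h : ∀ i ∈ timeIdx V, ω i = ω' i) : pfObs Λ R W ω = pfObs Λ R W ω' := by
  have h1 : R ω = R ω' := hR.dep h
  have h2 : ∀ v j, ω (Idx.time v j) = ω' (Idx.time v j) := fun v j => h _ (Or.inr ⟨v, j, rfl⟩)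
  have h3 : ω Idx.rho = ω' Idx.rho := h _ (Or.inl rfl)
  have h4 : ∀ c, T c ω = T c ω' := fun c => by simp only [T, sv, h2]
  unfold pfObs
  rw [h1, h3]
  congr 1
  funext c
  rw [h4 c, h2]

lemma pf_step (Λ : Finset V) {R : Om V → ℝ} {J : ℕ} (hR : IsTime R J) {g : Om V → ℝ} (hg : BM g)
    (hgd : DependsOn g (pfK V)) {Ψ : X × Seen V → ℝ} (hΨ : BM Ψ) [DecidableEq (V × ℕ)]
    (B : Finset (V × ℕ)) {b : V × ℕ} (hb : b ∉ B) :
    ∫ ω, pfF S Λ R g Ψ B ω ∂(mu V) = ∫ ω, pfF S Λ R g Ψ (insert b B) ω ∂(mu V) := by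
  classical
  have e1 := integral_update nu (Idx.noise b.1 b.2)
    ((pf_BM_F (S := S) Λ hR.meas hg hΨ B).integrable (PP (Idx V) nu))
  have e2 := integral_update nu (Idx.noise b.1 b.2)
    ((pf_BM_F (S := S) Λ hR.meas hg hΨ (insert b B)).integrable (PP (Idx V) nu))
  refine e1.trans (Eq.trans ?_ e2.symm)
  refine integral_congr_ae (Filter.Eventually.of_forall fun ω => ?_)
  -- facts about the updated configuration
  set i : Idx V := Idx.noise b.1 b.2 with hi
  have htime : ∀ ξ, ∀ k ∈ timeIdx V, Function.update ω i ξ k = ω k := by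
    intro ξ k hk
    refine Function.update_of_ne ?_ _ _
    rcases hk with rfl | ⟨v, j, rfl⟩ <;> simp [hi]
  have hK : ∀ ξ, ∀ k ∈ pfK V, Function.update ω i ξ k = ω k := by
    intro ξ k hk
    refine Function.update_of_ne ?_ _ _
    rcases hk with rfl | ⟨e, rfl⟩ <;> simp [hi]
  have hRξ : ∀ ξ, R (Function.update ω i ξ) = R ω := fun ξ => hR.dep (htime ξ)
  have hgξ : ∀ ξ, g (Function.update ω i ξ) = g ω := fun ξ => hgd (hK ξ)
  have hspin : ∀ ξ x, S.spin x (Function.update ω i ξ) = S.spin x ω := fun ξ x =>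
    spin_dependsOn x (hK ξ)
  have hsv : ∀ ξ c, sv c (Function.update ω i ξ) = sv c ω := by
    intro ξ c
    simp only [sv, htime ξ _ (Or.inr ⟨c.1, c.2, rfl⟩)]
  have hT : ∀ ξ c, T c (Function.update ω i ξ) = T c ω := by
    intro ξ c; simp only [T, hsv]
  have heps : ∀ ξ c, eps c (Function.update ω i ξ) = eps c ω := by
    intro ξ c; simp only [eps, hsv]
  have hnoise : ∀ ξ c, c ≠ b → Function.update ω i ξ (Idx.noise c.1 c.2) = ω (Idx.noise c.1 c.2) := by
    intro ξ c hc
    refine Function.update_of_ne ?_ _ _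
    intro h
    apply hc
    rw [hi] at h
    injection h with h1 h2
    exact Prod.ext h1 h2
  have hw0 : ∀ ξ c, c ≠ b → pfW0 c (Function.update ω i ξ) = pfW0 c ω := by
    intro ξ c hc; simp only [pfW0, hnoise ξ c hc]
  have hw : ∀ ξ c, c ≠ b → S.w c (Function.update ω i ξ) = S.w c ω := by
    intro ξ c hc; simp only [w, wt, hnoise ξ c hc, heps, hspin]
  have hw0b : ∀ ξ : X, pfW0 b (Function.update ω i ξ) = 2 * (ξ.1 : ℝ) - 1 := by
    intro ξ; simp only [pfW0, ← hi, Function.update_self]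
  have hwb : ∀ ξ : X, S.w b (Function.update ω i ξ) = S.spin b.1 ω * Qf (eps b ω) (ξ.1 : ℝ) := by
    intro ξ; simp only [w, wt, ← hi, Function.update_self, heps, hspin]
  have hdens : ∀ ξ, ∏ c ∈ B, pfDens S Λ R c (Function.update ω i ξ) =
      ∏ c ∈ B, pfDens S Λ R c ω := by
    intro ξ
    refine Finset.prod_congr rfl fun c hc => ?_
    have hcb : c ≠ b := fun h => hb (h ▸ hc)
    simp only [pfDens, hT, hRξ, hspin, heps, hw0 ξ c hcb]
  set φ : ℝ → ℝ := fun t => Ψ (pfObs Λ R (Function.update (pfWB S B ω) b t) ω) with hφ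
  have hφm : Measurable φ := by
    refine hΨ.meas.comp (pf_measurable_obs Λ hR.meas (fun c => ?_) measurable_const)
    by_cases hc : c = b
    · subst hc
      simp only [Function.update_self]
      exact measurable_id
    · simp only [Function.update_of_ne hc]
      exact measurable_const
  obtain ⟨C, hC⟩ := hΨ.bdd
  have hW1 : ∀ ξ : X, pfWB S B (Function.update ω i ξ) =
      Function.update (pfWB S B ω) b (S.spin b.1 ω * Qf (eps b ω) (ξ.1 : ℝ)) := by
    intro ξ
    funext c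
    by_cases hc : c = b
    · subst hc
      simp only [pfWB, hb, if_false, Function.update_self, hwb]
    · rw [Function.update_of_ne hc]
      by_cases hcB : c ∈ B <;> simp only [pfWB, hw0 ξ c hc, hw ξ c hc, hcB, if_true, if_false]
  have hW2 : ∀ ξ : X, pfWB S (insert b B) (Function.update ω i ξ) =
      Function.update (pfWB S B ω) b (2 * (ξ.1 : ℝ) - 1) := by
    intro ξ
    funext c
    by_cases hc : c = b
    · subst hc
      simp only [pfWB, Finset.mem_insert_self, if_true, Function.update_self, hw0b]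
    · rw [Function.update_of_ne hc]
      by_cases hcB : c ∈ B <;> simp only [pfWB, hw0 ξ c hc, hw ξ c hc, Finset.mem_insert, hc,
        false_or, hcB, if_true, if_false]
  have hL : ∀ ξ : X, pfF S Λ R g Ψ B (Function.update ω i ξ) =
      (g ω * ∏ c ∈ B, pfDens S Λ R c ω) * φ (S.spin b.1 ω * Qf (eps b ω) (ξ.1 : ℝ)) := by
    intro ξ
    simp only [pfF, hgξ, hdens, hW1, pf_obs_congr Λ hR _ (htime ξ), hφ]
    ring
  have hR' : ∀ ξ : X, pfF S Λ R g Ψ (insert b B) (Function.update ω i ξ) =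
      (g ω * ∏ c ∈ B, pfDens S Λ R c ω) * (φ (2 * (ξ.1 : ℝ) - 1) *
        if T b ω < R ω ∧ b.1 ∈ Λ then 1 + S.spin b.1 ω * eps b ω * (2 * (ξ.1 : ℝ) - 1) else 1) := by
    intro ξ
    simp only [pfF, hgξ, Finset.prod_insert hb, hdens, hW2, pf_obs_congr Λ hR _ (htime ξ), hφ]
    simp only [pfDens, hT, hRξ, hspin, heps, hw0b]
    ring
  simp only [hL, hR', integral_const_mul]
  congr 1
  by_cases hrev : T b ω < R ω ∧ b.1 ∈ Λ
  · simp only [hrev, and_self, if_true]
    have ha : |eps b ω| ≤ 1 / 2 := by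
      rw [abs_of_nonneg (eps_nonneg b ω)]; exact eps_le_half b ω
    have hQ : Measurable fun u : I => Qf (eps b ω) (u : ℝ) :=
      measurable_Qf.comp (f := fun u : I => (eps b ω, (u : ℝ))) (by fun_prop)
    rw [integral_nu_fst (φ := fun u : I => φ (S.spin b.1 ω * Qf (eps b ω) (u : ℝ)))
        (hφm.comp (hQ.const_mul _)),
      integral_nu_fst (φ := fun u : I => φ (2 * (u : ℝ) - 1) *
        (1 + S.spin b.1 ω * eps b ω * (2 * (u : ℝ) - 1)))
        ((hφm.comp (f := fun u : I => 2 * (u : ℝ) - 1) (by fun_prop)).mul (by fun_prop))]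
    exact integral_sgn_Qf ha (spin_eq b.1 ω) hφm ⟨C, fun w _ => hC _⟩
  · simp only [hrev, if_false, mul_one]
    have hconst : ∀ t t', φ t = φ t' := by
      intro t t'
      simp only [hφ]
      congr 1
      simp only [pfObs, Prod.mk.injEq, true_and]
      funext c
      by_cases hc : c = b
      · subst hc
        simp only [hrev, if_false]
      · simp only [Function.update_of_ne hc]
    exact integral_congr_ae (Filter.Eventually.of_forall fun ξ => hconst _ _)

lemma pf_replace (Λ : Finset V) {R : Om V → ℝ} {J : ℕ} (hR : IsTime R J) {g : Om V → ℝ}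
    (hg : BM g) (hgd : DependsOn g (pfK V)) {Ψ : X × Seen V → ℝ} (hΨ : BM Ψ)
    (B : Finset (V × ℕ)) :
    ∫ ω, g ω * Ψ (S.obs Λ R ω) ∂(mu V) = ∫ ω, pfF S Λ R g Ψ B ω ∂(mu V) := by
  classical
  induction B using Finset.induction_on with
  | empty =>
    refine integral_congr_ae (Filter.Eventually.of_forall fun ω => ?_)
    simp only [pfF, Finset.prod_empty, mul_one, pf_obs_eq]
  | insert b B hb ih => rw [ih, pf_step Λ hR hg hgd hΨ B hb]

/-- with all relevant slots replaced the information no longer sees the spins -/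
lemma pf_obs_full (Λ : Finset V) {R : Om V → ℝ} {J : ℕ} (hR : IsTime R J) (ω : Om V) :
    pfObs Λ R (pfWB S (Λ ×ˢ Finset.range J) ω) ω = pfObs Λ R (fun c => pfW0 c ω) ω := by
  simp only [pfObs, Prod.mk.injEq, true_and]
  funext c
  by_cases hrev : T c ω < R ω ∧ c.1 ∈ Λ
  · have hc : c ∈ Λ ×ˢ Finset.range J := by
      rw [Finset.mem_product, Finset.mem_range]
      refine ⟨hrev.2, ?_⟩
      have h1 := le_T c ω
      have h2 := hR.le ω
      have : (c.2 : ℝ) < J := by linarith [hrev.1]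
      exact_mod_cast this
    simp only [pfWB, hc, if_true]
  · simp only [hrev, if_false]

open Classical in
lemma pf_fld (Λ : Finset V) {R : Om V → ℝ} {J : ℕ} (hR : IsTime R J) (ω : Om V) (x : V) :
    fld (pfObs Λ R (fun c => pfW0 c ω) ω).2 x = ∑ j ∈ Finset.range J,
      if T (x, j) ω < R ω ∧ x ∈ Λ then Real.artanh (eps (x, j) ω * pfW0 (x, j) ω) else 0 := by
  have h : ∀ j : ℕ, Real.artanh (amp j (((pfObs Λ R (fun c => pfW0 c ω) ω).2 (x, j)).1.1 : ℝ) *
      ((pfObs Λ R (fun c => pfW0 c ω) ω).2 (x, j)).2) =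
      if T (x, j) ω < R ω ∧ x ∈ Λ then Real.artanh (eps (x, j) ω * pfW0 (x, j) ω) else 0 := by
    intro j
    simp only [pfObs]
    split_ifs
    · rfl
    · simp
  unfold fld
  simp only [h]
  refine tsum_eq_sum fun j hj => ?_
  rw [if_neg]
  rintro ⟨h1, -⟩
  rw [Finset.mem_range, not_lt] at hj
  have h2 := le_T (x, j) ω
  have h3 := hR.le ω
  have : (J : ℝ) ≤ j := by exact_mod_cast hj
  simp only at h2
  linarith

theorem pf_fin (Λ : Finset V) {R : Om V → ℝ} {J : ℕ} (hR : IsTime R J) (v : V)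
    {Ψ : X × Seen V → ℝ} (hΨ : BM Ψ) :
    ∫ ω, S.spin v ω * Ψ (S.obs Λ R ω) ∂(mu V) =
      ∫ ω, S.mag (S.Y Λ (R ω) ω) v * Ψ (S.obs Λ R ω) ∂(mu V) := by
  classical
  set Ψ' : X × Seen V → ℝ := fun o => S.mag (fld o.2) v * Ψ o with hΨ'def
  have hΨ' : BM Ψ' :=
    BM.mul ⟨((measurable_mag v).comp measurable_fld).comp measurable_snd, 1,
      fun o => abs_mag_le _ _⟩ hΨ
  set B : Finset (V × ℕ) := Λ ×ˢ Finset.range J with hB
  have e1 := pf_replace (S := S) Λ hR (BM_spin (S := S) v) (spin_dependsOn v) hΨ B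
  have e2 := pf_replace (S := S) Λ hR (g := fun _ => 1) (BM.const 1) (fun _ _ _ => rfl) hΨ' B
  have e3 : ∫ ω, S.mag (S.Y Λ (R ω) ω) v * Ψ (S.obs Λ R ω) ∂(mu V) =
      ∫ ω, (fun _ => (1 : ℝ)) ω * Ψ' (S.obs Λ R ω) ∂(mu V) := by
    refine integral_congr_ae (Filter.Eventually.of_forall fun ω => ?_)
    simp only [one_mul, hΨ'def]
    rfl
  rw [e1, e3, e2]
  have f1 := integral_freeze nu (pfK V)
    ((pf_BM_F (S := S) Λ hR.meas (BM_spin (S := S) v) hΨ B).integrable (PP (Idx V) nu))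
  have f2 := integral_freeze nu (pfK V)
    ((pf_BM_F (S := S) Λ hR.meas (g := fun _ => 1) (BM.const 1) hΨ' B).integrable (PP (Idx V) nu))
  refine f1.trans (Eq.trans ?_ f2.symm)
  refine integral_congr_ae (Filter.Eventually.of_forall fun ω => ?_)
  set O : X × Seen V := pfObs Λ R (fun c => pfW0 c ω) ω with hO
  have htime : ∀ ω' : Om V, ∀ k ∈ timeIdx V, (pfK V).piecewise ω' ω k = ω k := by
    intro ω' k hk
    refine Set.piecewise_eq_of_notMem _ _ _ ?_
    rcases hk with rfl | ⟨x, j, rfl⟩ <;> simp [pfK]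
  have hnoise : ∀ (ω' : Om V) (c : V × ℕ),
      (pfK V).piecewise ω' ω (Idx.noise c.1 c.2) = ω (Idx.noise c.1 c.2) := by
    intro ω' c
    exact Set.piecewise_eq_of_notMem _ _ _ (by simp [pfK])
  have hspin : ∀ (ω' : Om V) x, S.spin x ((pfK V).piecewise ω' ω) = S.spin x ω' := fun ω' x =>
    spin_dependsOn x fun k hk => Set.piecewise_eq_of_mem _ _ _ hk
  have hRω : ∀ ω' : Om V, R ((pfK V).piecewise ω' ω) = R ω := fun ω' => hR.dep (htime ω')
  have hsv : ∀ (ω' : Om V) c, sv c ((pfK V).piecewise ω' ω) = sv c ω := by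
    intro ω' c
    simp only [sv, htime ω' _ (Or.inr ⟨c.1, c.2, rfl⟩)]
  have hT : ∀ (ω' : Om V) c, T c ((pfK V).piecewise ω' ω) = T c ω := by
    intro ω' c; simp only [T, hsv]
  have heps : ∀ (ω' : Om V) c, eps c ((pfK V).piecewise ω' ω) = eps c ω := by
    intro ω' c; simp only [eps, hsv]
  have hw0 : ∀ (ω' : Om V) c, pfW0 c ((pfK V).piecewise ω' ω) = pfW0 c ω := by
    intro ω' c; simp only [pfW0, hnoise]
  have hobs : ∀ ω' : Om V, pfObs Λ R (pfWB S B ((pfK V).piecewise ω' ω))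
      ((pfK V).piecewise ω' ω) = O := by
    intro ω'
    rw [hB, pf_obs_full Λ hR, pf_obs_congr Λ hR _ (htime ω')]
    simp only [hw0, hO]
  set C : ℝ := ∏ c ∈ B, if T c ω < R ω ∧ c.1 ∈ Λ then
    Real.sqrt (1 - (eps c ω * pfW0 c ω) ^ 2) else 1 with hC
  have hprod : ∀ ω' : Om V, ∏ c ∈ B, pfDens S Λ R c ((pfK V).piecewise ω' ω) =
      C * Real.exp (∑ x ∈ Λ, S.spin x ω' * fld O.2 x) := by
    intro ω'
    have hsum : ∑ x ∈ Λ, S.spin x ω' * fld O.2 x = ∑ c ∈ B, S.spin c.1 ω' *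
        if T c ω < R ω ∧ c.1 ∈ Λ then Real.artanh (eps c ω * pfW0 c ω) else 0 := by
      rw [hB, Finset.sum_product]
      refine Finset.sum_congr rfl fun x _ => ?_
      rw [hO, pf_fld Λ hR, Finset.mul_sum]
    rw [hsum, Real.exp_sum, hC, ← Finset.prod_mul_distrib]
    refine Finset.prod_congr rfl fun c _ => ?_
    simp only [pfDens, hT, hRω, hspin, heps, hw0]
    split_ifs
    · have hτ : |eps c ω * pfW0 c ω| < 1 := by
        rw [abs_mul, abs_of_nonneg (eps_nonneg c ω)]
        have h1 := eps_le_half c ω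
        have h2 := pf_abs_w0_le c ω
        have h3 := eps_nonneg c ω
        have h4 := abs_nonneg (pfW0 c ω)
        nlinarith
      have hpos : 0 < Real.sqrt (1 - (eps c ω * pfW0 c ω) ^ 2) := by
        refine Real.sqrt_pos.2 ?_
        have := (sq_lt_one_iff_abs_lt_one _).2 hτ
        linarith
      rw [exp_mul_artanh hτ (spin_eq c.1 ω'), mul_div_cancel₀ _ hpos.ne', mul_assoc]
    · simp
  have hsupp : ∀ x, x ∉ Λ → fld O.2 x = 0 := by
    intro x hx
    rw [hO, pf_fld Λ hR]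
    simp [hx]
  have hL : ∀ ω' : Om V, pfF S Λ R (S.spin v) Ψ B ((pfK V).piecewise ω' ω) =
      (Ψ O * C) * (S.spin v ω' * Real.exp (∑ x ∈ Λ, S.spin x ω' * fld O.2 x)) := by
    intro ω'
    simp only [pfF, hobs, hprod, hspin]
    ring
  have hR' : ∀ ω' : Om V, pfF S Λ R (fun _ => 1) Ψ' B ((pfK V).piecewise ω' ω) =
      (Ψ O * C) * (S.mag (fld O.2) v * Real.exp (∑ x ∈ Λ, S.spin x ω' * fld O.2 x)) := by
    intro ω'
    simp only [pfF, hobs, hprod, hΨ'def]
    ring
  simp only [hL, hR', integral_const_mul]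
  congr 1
  exact gibbs hsupp v

end Setup

end Crest.Agent.R160
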