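import Crest.Agent.R160.Sigma
import Crest.Agent.R160.PF
import Crest.Agent.R160.Tree2

/-!
# Row 160 (S0241): Levy
σ-algebras of observations, the posterior formula in infinite volume, a.s. convergence of the
cavity recursions.  For increasing finite sets `Λ n` with union `D`, `⨆ n, FF (Λ n) R = FF D R`, so by
`pf_fin` and Lévy's upward theorem `MeasureTheory.tendsto_ae_condExp`,
`mag (Y (Λ n) ..) v → E[spin v | FF D R]` a.s.; the fields are bounded, so `tendsto_of_tanh` gives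
convergence of `cav (Y (Λ n) ..) v v`.  Use `cavN_eq_indicator`, `cav_eq_indicator`, `Y_inter` with
`Λ n = D ∩ DN n y x`, resp. `ball n o ∩ D y x`.
-/

set_option autoImplicit false

open MeasureTheory Filter Topology
open scoped unitInterval

noncomputable section

namespace Crest.Agent.R160

universe u

namespace Setup

variable {V : Type u} (S : Setup V)

variable {S}

/-- posterior formula in finite volume, as a conditional expectation -/
lemma condExp_spin_fin (Λ : Finset V) {R : Om V → ℝ} {J : ℕ} (hR : IsTime R J) (v : V) :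
    (fun ω => S.mag (S.Y Λ (R ω) ω) v) =ᵐ[mu V] (mu V)[S.spin v | S.FF Λ R] := by
  refine ae_eq_condExp_of_integral_mul (FF_le _ hR.meas) (BM_spin v)
    ((measurable_mag v).comp (measurable_FF_Y _ R)) ⟨1, fun ω => abs_mag_le _ _⟩ ?_
  rintro A ⟨B, hB, rfl⟩
  have hΨ : BM (B.indicator (1 : X × Seen V → ℝ)) := by
    refine ⟨measurable_one.indicator hB, 1, fun p => ?_⟩
    by_cases hp : p ∈ B <;> simp [hp]
  have h := pf_fin (S := S) Λ hR v hΨ
  have he : ∀ ω, (S.obs Λ R ⁻¹' B).indicator (1 : Om V → ℝ) ω =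
      B.indicator (1 : X × Seen V → ℝ) (S.obs Λ R ω) := by
    intro ω
    by_cases hp : S.obs Λ R ω ∈ B
    · have : ω ∈ S.obs Λ R ⁻¹' B := hp
      simp [hp, this]
    · have : ω ∉ S.obs Λ R ⁻¹' B := hp
      simp [hp, this]
  simp only [he]
  exact h

/-- the information in `D` is generated by the information in an exhausting sequence -/
lemma iSup_FF {D : Set V} {Λ : ℕ → Set V} (hsub : ∀ n, Λ n ⊆ D)
    (hex : ∀ v ∈ D, ∃ n, v ∈ Λ n) (R : Om V → ℝ) : ⨆ n, S.FF (Λ n) R = S.FF D R := by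
  refine le_antisymm (iSup_le fun n => FF_mono (hsub n) R) ?_
  have hobs : ∀ n, Measurable[⨆ n, S.FF (Λ n) R] (S.obs (Λ n) R) := fun n =>
    (comap_measurable (S.obs (Λ n) R)).mono (le_iSup (fun n => S.FF (Λ n) R) n) le_rfl
  refine Measurable.comap_le ?_
  let _ : MeasurableSpace (Om V) := ⨆ n, S.FF (Λ n) R
  refine Measurable.prodMk (measurable_fst.comp (hobs 0)) (measurable_pi_iff.2 fun b => ?_)
  by_cases hb : b.1 ∈ D
  · obtain ⟨n, hn⟩ := hex _ hb
    have h := (measurable_pi_apply b).comp (measurable_snd.comp (hobs n))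
    convert h using 1
    funext ω
    simp [obs, seen, hb, hn]
  · have hn : b.1 ∉ Λ 0 := fun h => hb (hsub 0 h)
    have h := (measurable_pi_apply b).comp (measurable_snd.comp (hobs 0))
    convert h using 1
    funext ω
    simp [obs, seen, hb, hn]

/-- Lévy's upward theorem for the magnetisations -/
lemma ae_tendsto_mag {D : Set V} {Λ : ℕ → Finset V} (hmono : Monotone Λ)
    (hsub : ∀ n, (Λ n : Set V) ⊆ D) (hex : ∀ v ∈ D, ∃ n, v ∈ Λ n)
    {R : Om V → ℝ} {J : ℕ} (hR : IsTime R J) (v : V) :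
    ∀ᵐ ω ∂(mu V), Tendsto (fun n => S.mag (S.Y (Λ n) (R ω) ω) v) atTop
      (𝓝 (((mu V)[S.spin v | S.FF D R]) ω)) := by
  let ℱ : Filtration ℕ (inferInstance : MeasurableSpace (Om V)) :=
    { seq := fun n => S.FF (Λ n) R
      mono' := fun n m h => FF_mono (Finset.coe_subset.2 (hmono h)) R
      le' := fun n => FF_le _ hR.meas }
  have h1 := tendsto_ae_condExp (μ := mu V) (ℱ := ℱ) (S.spin v)
  have h2 : ⨆ n, ℱ n = S.FF D R :=
    iSup_FF (Λ := fun n => (Λ n : Set V)) hsub (fun v hv => hex v hv) R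
  rw [h2] at h1
  have h3 : ∀ᵐ ω ∂(mu V), ∀ n,
      S.mag (S.Y (Λ n) (R ω) ω) v = ((mu V)[S.spin v | S.FF (Λ n) R]) ω :=
    ae_all_iff.2 fun n => condExp_spin_fin (Λ n) hR v
  filter_upwards [h1, h3] with ω h1 h3
  simp only [h3]
  exact h1

/-- a.s. convergence of one cavity recursion, and identification of the limit -/
lemma ae_tendsto_cavN (D : Set V) {R : Om V → ℝ} {J : ℕ} (hR : IsTime R J) {y x : V}
    (h : S.DE y x) :
    ∀ᵐ ω ∂(mu V), ∃ l, Tendsto (fun n => S.cavN n (S.Y D (R ω) ω) y x) atTop (𝓝 l) ∧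
      Real.tanh l = ((mu V)[S.spin y | S.FF (D ∩ S.D y x) R]) ω := by
  classical
  have hmono : Monotone fun n => (S.DN n y x).filter (· ∈ D) := by
    intro n m hnm v hv
    simp only [Finset.mem_filter, mem_DN h] at hv ⊢
    exact ⟨⟨hv.1.1, lt_of_lt_of_le hv.1.2 hnm⟩, hv.2⟩
  have hsub : ∀ n, (((S.DN n y x).filter (· ∈ D) : Finset V) : Set V) ⊆ D ∩ S.D y x := by
    intro n v hv
    simp only [Finset.coe_filter, Set.mem_ofPred_eq, mem_DN h] at hv
    exact ⟨hv.2, hv.1.1⟩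
  have hex : ∀ v ∈ D ∩ S.D y x, ∃ n, v ∈ (S.DN n y x).filter (· ∈ D) := by
    intro v hv
    refine ⟨S.G.dist v y + 1, ?_⟩
    simp only [Finset.mem_filter, mem_DN h]
    exact ⟨⟨hv.2, Nat.lt_succ_self _⟩, hv.1⟩
  have hset : ∀ n, (((S.DN n y x).filter (· ∈ D) : Finset V) : Set V) = D ∩ S.DN n y x := by
    intro n
    ext v
    simp [and_comm]
  filter_upwards [ae_tendsto_mag (S := S) hmono hsub hex hR y] with ω hω
  refine tendsto_of_tanh (B := J + S.d)
    (fun n => abs_cavN_le (abs_Y_le D (hR.le ω) ω y) n x) ?_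
  refine hω.congr fun n => ?_
  rw [hset, Y_inter, cavN_eq_indicator _ h, mag]

theorem condExp_spin (D : Set V) {R : Om V → ℝ} {J : ℕ} (hR : IsTime R J) (v : V) :
    (fun ω => S.mag (S.Y D (R ω) ω) v) =ᵐ[mu V] (mu V)[S.spin v | S.FF D R] := by
  have h := ae_tendsto_cavN (S := S) D hR (y := v) (x := v) (Or.inl rfl)
  rw [D_self, Set.inter_univ] at h
  filter_upwards [h] with ω ⟨l, hl, hl'⟩
  rw [← hl', mag, cav, Lim_eq hl]

theorem pf (D : Set V) {R : Om V → ℝ} {J : ℕ} (hR : IsTime R J) (v : V) {Ψ : Om V → ℝ}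
    (hΨ : Measurable[S.FF D R] Ψ) (hb : ∃ C, ∀ ω, |Ψ ω| ≤ C) :
    ∫ ω, S.spin v ω * Ψ ω ∂(mu V) = ∫ ω, S.mag (S.Y D (R ω) ω) v * Ψ ω ∂(mu V) :=
  integral_mul_eq_of_condExp (FF_le _ hR.meas) (BM_spin v) (condExp_spin D hR v) hΨ hb

theorem ae_good (D : Set V) {R : Om V → ℝ} {J : ℕ} (hR : IsTime R J) :
    ∀ᵐ ω ∂(mu V), S.Good (S.Y D (R ω) ω) := by
  have := S.countable_V
  refine ae_all_iff.2 fun y => ae_all_iff.2 fun x => ?_
  by_cases h : S.DE y x
  · filter_upwards [ae_tendsto_cavN (S := S) D hR h] with ω ⟨l, hl, _⟩ _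
    exact ⟨l, hl⟩
  · exact Eventually.of_forall fun ω h' => absurd h' h

theorem ae_tendsto_ball {R : Om V → ℝ} {J : ℕ} (hR : IsTime R J) :
    ∀ᵐ ω ∂(mu V), ∀ y x, S.DE y x →
      Tendsto (fun n => S.cav (S.Y (S.ball n S.o) (R ω) ω) y x) atTop
        (𝓝 (S.cav (S.Y Set.univ (R ω) ω) y x)) := by
  classical
  have := S.countable_V
  refine ae_all_iff.2 fun y => ae_all_iff.2 fun x => ?_
  by_cases h : S.DE y x
  swap
  · exact Eventually.of_forall fun ω h' => absurd h' h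
  have hmono : Monotone fun n => (S.ball n S.o).filter (· ∈ S.D y x) := by
    intro n m hnm v hv
    simp only [Finset.mem_filter, mem_ball] at hv ⊢
    exact ⟨lt_of_lt_of_le hv.1 hnm, hv.2⟩
  have hsub : ∀ n, (((S.ball n S.o).filter (· ∈ S.D y x) : Finset V) : Set V) ⊆ S.D y x := by
    intro n v hv
    simp only [Finset.coe_filter, Set.mem_ofPred_eq] at hv
    exact hv.2
  have hex : ∀ v ∈ S.D y x, ∃ n, v ∈ (S.ball n S.o).filter (· ∈ S.D y x) := by
    intro v hv
    refine ⟨S.G.dist v S.o + 1, ?_⟩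
    simp only [Finset.mem_filter, mem_ball]
    exact ⟨Nat.lt_succ_self _, hv⟩
  have hset : ∀ n, (((S.ball n S.o).filter (· ∈ S.D y x) : Finset V) : Set V) =
      (S.ball n S.o : Set V) ∩ S.D y x := by
    intro n
    ext v
    simp
  filter_upwards [ae_tendsto_mag (S := S) hmono hsub hex hR y,
    condExp_spin (S := S) (S.D y x) hR y] with ω hω hω' _
  rw [← hω'] at hω
  have h1 : S.mag (S.Y (S.D y x) (R ω) ω) y =
      Real.tanh (S.cav (S.Y Set.univ (R ω) ω) y x) := by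
    rw [cav_eq_indicator _ h, ← Y_inter, Set.univ_inter, mag]
  rw [h1] at hω
  have h2 : Tendsto (fun n => Real.tanh (S.cav (S.Y (S.ball n S.o) (R ω) ω) y x)) atTop
      (𝓝 (Real.tanh (S.cav (S.Y Set.univ (R ω) ω) y x))) := by
    refine hω.congr fun n => ?_
    rw [hset, Y_inter, cav_eq_indicator _ h, mag]
  obtain ⟨l, hl, hl'⟩ := tendsto_of_tanh (B := J + S.d)
    (fun n => abs_cav_Y_le _ (hR.le ω) ω y x) h2
  rwa [Real.tanh_injective hl'] at hl

end Setup

end Crest.Agent.R160
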