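import Crest.Agent.R160.Compet
import Crest.Agent.R160.Expand

/-!
# Row 160 (S0241): StepIneq
Growth of the conditional variance over a time interval.
Let `ρ = rhoT s t`.  For each `u` choose (Doob–Dynkin, `exists_condExp_version`,
`Measurable.exists_eq_measurable_comp`) `ψc u, ψm u : X × (V → Lab) → ℝ` with values in `[0,1]`, `[-1,1]` and
`ψc u ∘ Gam ρ = E[cov | GG ρ]`, `ψm u ∘ Gam ρ = E[mR ρ u | GG ρ]` a.e.  For a slot `a = (u, j')` put
`ξ r = (projIcc ((r-s)/(t-s)), true)`, `Jbar a = ψc u (ξ (T a), cut (T a) L) * gj (eps a) (ψm u (…)) (U a)`.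
`jump_sub_le`: only `j' = j` contributes (`amp_eq_zero`, `le_T`), `(jump - Jbar)² ≤ 8 ε² (c - ψc)² +
32 ε² c² (m - ψm)²` with `ε ≤ min t 1 / 2`, then `subst_time` (non-anticipation: `Y_congr_of_le_T`,
`cut_L_congr_of_le_T`), `integral_param` at `rho` and `integral_nu` (factor 2).
`NN_le`: competitor `E[mR s o | GG s] + ∑_{a ∈ ball n × range (j+1)} 1{s ≤ T a < R} Jbar a` is
`GG R`-measurable (`cut_cut`); the differences `1 (jump a - Jbar a)` and `res (GG s) (mR s o)` are pairwise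
orthogonal (`jump_univ_eq`, `integral_mul_gj`); `expansion` controls the remainder
(`(x + y)² ≤ (1+η) x² + (1+1/η) y²`).
-/

set_option autoImplicit false

open MeasureTheory Filter Topology
open scoped unitInterval

noncomputable section

namespace Crest.Agent.R160

universe u

namespace Setup

variable {V : Type u} (S : Setup V)

variable {S}

/-- the label-measurable competitor of the jump of slot `a` -/
def Jbar (S : Setup V) (c m : ℝ × (V → Lab) → ℝ) (a : V × ℕ) (ω : Om V) : ℝ :=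
  c (T a ω, cut (T a ω) (S.L ω)) * gj (eps a ω) (m (T a ω, cut (T a ω) (S.L ω))) (S.U a ω)

lemma measurable_gj_comp {Ω : Type*} {mΩ : MeasurableSpace Ω} {e m u : Ω → ℝ} (he : Measurable e)
    (hm : Measurable m) (hu : Measurable u) : Measurable fun ω => gj (e ω) (m ω) (u ω) :=
  measurable_gj.comp (he.prodMk (hm.prodMk hu))

lemma measurable_ite' {Ω : Type*} {mΩ : MeasurableSpace Ω} {p : Ω → Prop} [DecidablePred p]
    (hp : MeasurableSet {ω | p ω}) {f : Ω → ℝ} (hf : Measurable f) :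
    Measurable fun ω => if p ω then f ω else 0 :=
  Measurable.ite hp hf measurable_const

lemma measurableSet_window (s : ℝ) {R : Om V → ℝ} (hR : Measurable R) (a : V × ℕ) :
    MeasurableSet {ω | s ≤ T a ω ∧ T a ω < R ω} :=
  (measurableSet_le measurable_const (measurable_T a)).inter (measurableSet_lt (measurable_T a) hR)

lemma eps_dependsOn_time (a : V × ℕ) : DependsOn (eps a : Om V → ℝ) (timeIdx V) := by
  intro ω ω' h
  simp only [eps, sv, h (Idx.time a.1 a.2) (Or.inr ⟨_, _, rfl⟩)]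

lemma measurable_FF_TL (a : V × ℕ) :
    Measurable[S.FF Set.univ (T a)] fun ω => (T a ω, cut (T a ω) (S.L ω)) :=
  Measurable.prodMk (measurable_FF_time _ _ (isTime_T a)) (measurable_FF_cut (isTime_T a))

lemma abs_gj_U_le (a : V × ℕ) (ω : Om V) {x : ℝ} (hx : |x| ≤ 1) :
    |gj (eps a ω) x (S.U a ω)| ≤ 1 := by
  have h1 := abs_gj_le (eps_nonneg a ω) (eps_le_half a ω) hx (S.U a ω).2.1 (S.U a ω).2.2
  have h2 := eps_le_half a ω
  linarith

lemma BM_Jbar {c m : ℝ × (V → Lab) → ℝ} (hc : Measurable c) (hm : Measurable m)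
    (hc1 : ∀ p, |c p| ≤ 1) (hm1 : ∀ p, |m p| ≤ 1) (a : V × ℕ) : BM (S.Jbar c m a) := by
  have h := (measurable_FF_TL (S := S) a).mono (FF_le _ (measurable_T a)) le_rfl
  refine ⟨(hc.comp h).mul (measurable_gj_comp (measurable_eps a) (hm.comp h)
    (measurable_subtype_coe.comp (measurable_U a))), 1, fun ω => ?_⟩
  rw [Jbar, abs_mul]
  exact mul_le_one₀ (hc1 _) (abs_nonneg _) (abs_gj_U_le a ω (hm1 _))

/-- `jump - Jbar` is a martingale difference -/
lemma integral_mul_jump_sub {c m : ℝ × (V → Lab) → ℝ} (hc : Measurable c) (hm : Measurable m)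
    (hc1 : ∀ p, |c p| ≤ 1) (hm1 : ∀ p, |m p| ≤ 1) (a : V × ℕ) {Ψ : Om V → ℝ}
    (hΨ : Measurable[S.FF Set.univ (T a)] Ψ) (hb : ∃ C, ∀ ω, |Ψ ω| ≤ C) :
    ∫ ω, Ψ ω * (S.jump Set.univ a ω - S.Jbar c m a ω) ∂(mu V) = 0 := by
  have hΨ' : BM Ψ := ⟨hΨ.mono (FF_le _ (measurable_T a)) le_rfl, hb⟩
  have h1 := integral_mul_jump Set.univ a hΨ hb
  have h2 := integral_mul_gj a (Ψ := fun ω => Ψ ω * c (T a ω, cut (T a ω) (S.L ω)))
    (M := fun ω => m (T a ω, cut (T a ω) (S.L ω))) (hΨ.mul (hc.comp (measurable_FF_TL a)))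
    (by
      obtain ⟨C, hC⟩ := hb
      refine ⟨C, fun ω => ?_⟩
      rw [abs_mul]
      exact (mul_le_of_le_one_right (abs_nonneg _) (hc1 _)).trans (hC ω))
    (hm.comp (measurable_FF_TL a)) (fun ω => hm1 _)
  simp only [mul_sub]
  rw [integral_sub ((hΨ'.mul (BM_jump _ a)).integrable _)
    ((hΨ'.mul (BM_Jbar hc hm hc1 hm1 a)).integrable _), h1, zero_sub, neg_eq_zero, ← h2]
  simp only [Jbar, mul_assoc]

lemma measurable_FF_Jbar {c m : ℝ × (V → Lab) → ℝ} (hc : Measurable c) (hm : Measurable m)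
    (a b : V × ℕ) :
    Measurable[S.FF Set.univ (T a)] fun ω => if T b ω < T a ω then S.Jbar c m b ω else 0 := by
  have h1 := measurable_FF_past Set.univ (isTime_T a) (isTime_T b) (hc.comp (measurable_FF_TL (S := S) b))
  have h2 := measurable_FF_past Set.univ (isTime_T a) (isTime_T b) (hm.comp (measurable_FF_TL (S := S) b))
  have h3 := measurable_FF_U (S := S) (isTime_T a) b
  have h4 := measurable_FF_timeDep (S := S) Set.univ (T a) (measurable_eps b) (eps_dependsOn_time b)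
  have h5 := measurable_FF_time (S := S) Set.univ (T a) (isTime_T a)
  have h6 := measurable_FF_time (S := S) Set.univ (T a) (isTime_T b)
  have h7 := measurable_ite' (p := fun ω => T b ω < T a ω) (measurableSet_lt h6 h5)
    (h1.mul (measurable_gj_comp h4 h2 (measurable_subtype_coe.comp h3)))
  convert h7 using 2 with ω
  split_ifs with h
  · simp only [Jbar, Function.comp, if_pos h, if_pos h.le, Pi.mul_apply]
  · rfl

/-- the windowed difference between the jump and its competitor -/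
def dif (S : Setup V) (c m : ℝ × (V → Lab) → ℝ) (s : ℝ) (R : Om V → ℝ) (a : V × ℕ) (ω : Om V) : ℝ :=
  if s ≤ T a ω ∧ T a ω < R ω then S.jump Set.univ a ω - S.Jbar c m a ω else 0

lemma measurableSet_FF_window (s : ℝ) {R : Om V → ℝ} {J : ℕ} (hR : IsTime R J) (a : V × ℕ)
    (R' : Om V → ℝ) : MeasurableSet[S.FF Set.univ R'] {ω | s ≤ T a ω ∧ T a ω < R ω} := by
  have h1 := measurable_FF_time (S := S) Set.univ R' (isTime_T a)
  have h2 := measurable_FF_time (S := S) Set.univ R' hR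
  exact (measurableSet_le measurable_const h1).inter (measurableSet_lt h1 h2)

lemma BM_dif {c m : ℝ × (V → Lab) → ℝ} (hc : Measurable c) (hm : Measurable m)
    (hc1 : ∀ p, |c p| ≤ 1) (hm1 : ∀ p, |m p| ≤ 1) (s : ℝ) {R : Om V → ℝ} (hR : Measurable R)
    (a : V × ℕ) : BM (S.dif c m s R a) :=
  BM.ite (measurableSet_window s hR a) ((BM_jump _ a).sub (BM_Jbar hc hm hc1 hm1 a)) (BM.const 0)

lemma integral_mul_dif {c m : ℝ × (V → Lab) → ℝ} (hc : Measurable c) (hm : Measurable m)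
    (hc1 : ∀ p, |c p| ≤ 1) (hm1 : ∀ p, |m p| ≤ 1) (s : ℝ) {R : Om V → ℝ} {J : ℕ} (hR : IsTime R J)
    (a : V × ℕ) {Ψ : Om V → ℝ} (hΨ : Measurable[S.FF Set.univ (T a)] Ψ) (hb : ∃ C, ∀ ω, |Ψ ω| ≤ C) :
    ∫ ω, Ψ ω * S.dif c m s R a ω ∂(mu V) = 0 := by
  have h := integral_mul_jump_sub hc hm hc1 hm1 a
    (Ψ := fun ω => if s ≤ T a ω ∧ T a ω < R ω then Ψ ω else 0)
    (Measurable.ite (measurableSet_FF_window s hR a _) hΨ measurable_const) (by
      obtain ⟨C, hC⟩ := hb
      refine ⟨C, fun ω => ?_⟩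
      split_ifs
      · exact hC ω
      · rw [abs_zero]; exact (abs_nonneg _).trans (hC ω))
  rw [← h]
  congr 1
  funext ω
  unfold dif
  split_ifs <;> simp

lemma measurable_FF_dif {c m : ℝ × (V → Lab) → ℝ} (hc : Measurable c) (hm : Measurable m)
    (s : ℝ) {R : Om V → ℝ} {J : ℕ} (hR : IsTime R J) (a b : V × ℕ) :
    Measurable[S.FF Set.univ (T a)] fun ω => if T b ω < T a ω then S.dif c m s R b ω else 0 := by
  have h1 := measurable_FF_jump (S := S) (D := Set.univ) (isTime_T a) (b := b) (Set.mem_univ _)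
  have h2 := measurable_FF_Jbar (S := S) hc hm a b
  have h3 := measurable_ite' (measurableSet_FF_window (S := S) s hR b (T a)) (h1.sub h2)
  convert h3 using 2 with ω
  simp only [dif, Pi.sub_apply]
  split_ifs <;> simp

lemma integral_dif_mul_dif {c m c' m' : ℝ × (V → Lab) → ℝ} (hc : Measurable c) (hm : Measurable m)
    (hc1 : ∀ p, |c p| ≤ 1) (hm1 : ∀ p, |m p| ≤ 1) (hc' : Measurable c') (hm' : Measurable m')
    (hc1' : ∀ p, |c' p| ≤ 1) (hm1' : ∀ p, |m' p| ≤ 1) (s : ℝ) {R : Om V → ℝ} {J : ℕ}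
    (hR : IsTime R J) {a b : V × ℕ} (hab : a ≠ b) :
    ∫ ω, S.dif c m s R a ω * S.dif c' m' s R b ω ∂(mu V) = 0 := by
  have ba := BM_dif (S := S) hc hm hc1 hm1 s hR.meas a
  have bb := BM_dif (S := S) hc' hm' hc1' hm1' s hR.meas b
  have ba' : BM fun ω => if T a ω < T b ω then S.dif c m s R a ω else 0 :=
    BM.ite (measurableSet_lt (measurable_T a) (measurable_T b)) ba (BM.const 0)
  have bb' : BM fun ω => if T b ω < T a ω then S.dif c' m' s R b ω else 0 :=
    BM.ite (measurableSet_lt (measurable_T b) (measurable_T a)) bb (BM.const 0)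
  have h1 := integral_mul_dif hc hm hc1 hm1 s hR a (measurable_FF_dif (S := S) hc' hm' s hR a b) bb'.bdd
  have h2 := integral_mul_dif hc' hm' hc1' hm1' s hR b (measurable_FF_dif (S := S) hc hm s hR b a)
    ba'.bdd
  have h3 := integral_add ((bb'.mul ba).integrable (mu V)) ((ba'.mul bb).integrable (mu V))
  rw [h1, h2, add_zero] at h3
  rw [← h3]
  refine integral_congr_ae ?_
  filter_upwards [ae_distinct (S := S)] with ω hω
  rcases lt_trichotomy (T a ω) (T b ω) with h | h | h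
  · simp only [if_pos h, if_neg h.not_gt, zero_mul, zero_add]
  · exact absurd (hω a b h) hab
  · simp only [if_pos h, if_neg h.not_gt, zero_mul, add_zero, mul_comm]

lemma GG_const_le {s : ℝ} {r : X → ℝ} (hsr : ∀ ξ, s ≤ r ξ) :
    S.GG (fun _ => s) ≤ S.GG fun ω => r (ω Idx.rho) := by
  have h : S.Gam (fun _ => s) = (fun p : X × (V → Lab) => (p.1, cut s p.2)) ∘
      S.Gam fun ω => r (ω Idx.rho) := by
    funext ω
    simp only [Gam, Function.comp, cut_cut (hsr _)]
  have hm : Measurable fun p : X × (V → Lab) => (p.1, cut s p.2) :=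
    measurable_fst.prodMk (measurable_cut.comp (measurable_const.prodMk measurable_snd))
  unfold GG
  rw [h, ← MeasurableSpace.comap_comp]
  exact MeasurableSpace.comap_mono hm.comap_le

lemma measurable_GG_Jbar {c m : ℝ × (V → Lab) → ℝ} (hc : Measurable c) (hm : Measurable m)
    (s : ℝ) {r : X → ℝ} (hr : Measurable r) (a : V × ℕ) :
    Measurable[S.GG fun ω => r (ω Idx.rho)] fun ω =>
      if s ≤ T a ω ∧ T a ω < r (ω Idx.rho) then S.Jbar c m a ω else 0 := by
  have h0 : Measurable fun p : X × (V → Lab) => p.2 a.1 a.2 :=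
    (measurable_pi_apply a.2).comp ((measurable_pi_apply a.1).comp measurable_snd)
  have h1 : Measurable fun p : X × (V → Lab) => ((p.2 a.1 a.2).1 : ℝ) :=
    measurable_subtype_coe.comp (measurable_fst.comp h0)
  have h2 : Measurable fun p : X × (V → Lab) => ((p.2 a.1 a.2).2 : ℝ) :=
    measurable_subtype_coe.comp (measurable_snd.comp h0)
  have h3 : Measurable fun p : X × (V → Lab) => tm a.2 ((p.2 a.1 a.2).1 : ℝ) :=
    (measurable_tm a.2).comp h1
  have h4 : Measurable fun p : X × (V → Lab) =>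
      (tm a.2 ((p.2 a.1 a.2).1 : ℝ), cut (tm a.2 ((p.2 a.1 a.2).1 : ℝ)) p.2) :=
    h3.prodMk (measurable_cut.comp (h3.prodMk measurable_snd))
  have h5 := measurable_ite' (p := fun p : X × (V → Lab) =>
      s ≤ tm a.2 ((p.2 a.1 a.2).1 : ℝ) ∧ tm a.2 ((p.2 a.1 a.2).1 : ℝ) < r p.1)
    ((measurableSet_le (measurable_const (a := s)) h3).inter
    (measurableSet_lt h3 (hr.comp measurable_fst)))
    ((hc.comp h4).mul (measurable_gj_comp ((measurable_amp a.2).comp h1) (hm.comp h4) h2))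
  have h6 := h5.comp (comap_measurable (S.Gam fun ω => r (ω Idx.rho)))
  convert h6 using 2 with ω
  have hT : T a ω = tm a.2 ((S.L ω a.1 a.2).1 : ℝ) := rfl
  by_cases h : T a ω < r (ω Idx.rho)
  · have e : cut (r (ω Idx.rho)) (S.L ω) a.1 a.2 = S.L ω a.1 a.2 := if_pos h
    simp only [Function.comp, Gam, Pi.mul_apply, e, ← hT, cut_cut h.le]
    rfl
  · have e : ¬ tm a.2 ((cut (r (ω Idx.rho)) (S.L ω) a.1 a.2).1 : ℝ) < r (ω Idx.rho) := by
      rw [tm_cut_lt_iff le_rfl]; exact h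
    rw [if_neg fun h' => h h'.2]
    simp only [Function.comp, Gam]
    exact (if_neg fun h' => e h'.2).symm

theorem NN_le {j : ℕ} {s t : ℝ} (hs : 0 < s) (hst : s < t) (hj : (j : ℝ) ≤ s) (ht : t ≤ j + 1)
    {r : X → ℝ} (hr : Measurable r) (hsr : ∀ ξ, s ≤ r ξ) (hrt : ∀ ξ, r ξ ≤ t) {A : ℝ}
    (hA : ∀ n, ∑ u ∈ S.ball n S.o, S.term (rhoT s t) u ≤ A) :
    S.NN (fun ω => r (ω Idx.rho)) ≤ S.NN (fun _ => s) + 32 * (t - s) * min t 1 ^ 2 * A := by
  choose c m hc hm hc1 hm1 hcm using fun u => exists_competitor (S := S) hs hst hj ht u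
  set R : Om V → ℝ := fun ω => r (ω Idx.rho) with hRdef
  have hR : IsTime R (j + 1) := isTime_rho hr fun ξ => by push_cast; exact (hrt ξ).trans ht
  have hs' : IsTime (fun _ : Om V => s) (j + 1) := isTime_const (by push_cast; linarith)
  have hGs := GG_le (S := S) (R := fun _ => s) measurable_const
  have bs := BM_mR (S := S) (R := fun _ => s) measurable_const S.o
  have bR := BM_mR (S := S) hR.meas S.o
  obtain ⟨Z, hZm, hZb, hZ⟩ := exists_condExp_version (μ := mu V) hGs bs.meas (a := -1) (b := 1)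
    fun ω => abs_le.1 (abs_mag_le _ _)
  have hZ1 : ∀ ω, |Z ω| ≤ 1 := fun ω => abs_le.2 (hZb ω)
  have bZ : BM Z := ⟨hZm.mono hGs le_rfl, 1, hZ1⟩
  set B := S.NN (fun _ => s) + 32 * (t - s) * min t 1 ^ 2 * A with hB
  -- the orthogonal part
  have hW : ∀ n, ∫ ω, ((S.mR (fun _ => s) S.o ω - Z ω) +
      ∑ a ∈ S.ball n S.o ×ˢ Finset.range (j + 1), S.dif (c a.1) (m a.1) s R a ω) ^ 2 ∂(mu V) ≤ B := by
    intro n
    set F := S.ball n S.o ×ˢ Finset.range (j + 1) with hF
    have bd : ∀ a, BM (S.dif (c a.1) (m a.1) s R a) := fun a =>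
      BM_dif (hc _) (hm _) (hc1 _) (hm1 _) s hR.meas a
    have b0 := bs.sub bZ
    have bS := BM.sum F fun a _ => bd a
    have h1 : ∫ ω, (∑ a ∈ F, S.dif (c a.1) (m a.1) s R a ω) ^ 2 ∂(mu V) =
        ∑ a ∈ F, ∫ ω, S.dif (c a.1) (m a.1) s R a ω ^ 2 ∂(mu V) :=
      integral_sq_sum_orth (mu V) F (fun a _ => bd a) fun a _ b _ hab =>
        integral_dif_mul_dif (hc _) (hm _) (hc1 _) (hm1 _) (hc _) (hm _) (hc1 _) (hm1 _) s hR hab
    have h2 : ∀ a, ∫ ω, (S.mR (fun _ => s) S.o ω - Z ω) * S.dif (c a.1) (m a.1) s R a ω ∂(mu V) = 0 := by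
      intro a
      have e1 : Measurable[S.FF Set.univ fun _ => s] fun ω => S.mR (fun _ => s) S.o ω - Z ω :=
        ((measurable_mag S.o).comp (measurable_FF_Y Set.univ fun _ => s)).sub
          (hZm.mono (GG_le_FF hs') le_rfl)
      have e2 := measurable_FF_past Set.univ (isTime_T a) hs' e1
      have e3 : BM fun ω => if s ≤ T a ω then S.mR (fun _ => s) S.o ω - Z ω else 0 :=
        BM.ite (measurableSet_le measurable_const (measurable_T a)) b0 (BM.const 0)
      rw [← integral_mul_dif (hc a.1) (hm a.1) (hc1 a.1) (hm1 a.1) s hR a e2 e3.bdd]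
      congr 1
      funext ω
      split_ifs with h
      · rfl
      · rw [dif, if_neg fun h' => h h'.1, mul_zero, mul_zero]
    have h3 : ∫ ω, (S.mR (fun _ => s) S.o ω - Z ω) *
        (∑ a ∈ F, S.dif (c a.1) (m a.1) s R a ω) ∂(mu V) = 0 := by
      simp only [Finset.mul_sum]
      rw [integral_finsetSum _ fun a _ => (b0.mul (bd a)).integrable _]
      exact Finset.sum_eq_zero fun a _ => h2 a
    have h4 : ∫ ω, (S.mR (fun _ => s) S.o ω - Z ω) ^ 2 ∂(mu V) = S.NN fun _ => s := by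
      refine integral_congr_ae ?_
      filter_upwards [hZ] with ω hω
      rw [res, hω]
    have h5 : ∑ a ∈ F, ∫ ω, S.dif (c a.1) (m a.1) s R a ω ^ 2 ∂(mu V) ≤
        32 * (t - s) * min t 1 ^ 2 * A := by
      refine le_trans ?_ (mul_le_mul_of_nonneg_left (hA n) (by have := sub_pos.2 hst; positivity))
      rw [hF, Finset.sum_product, Finset.mul_sum]
      refine Finset.sum_le_sum fun u _ => le_trans (Finset.sum_le_sum fun j' _ => ?_) (hcm u)
      refine integral_mono (((bd (u, j')).pow 2).integrable _) ?_ fun ω => ?_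
      · exact (BM.ite (measurableSet_window s (measurable_const (a := t)) (u, j'))
          (((BM_jump _ (u, j')).sub (BM_Jbar (hc u) (hm u) (hc1 u) (hm1 u) (u, j'))).pow 2)
          (BM.const 0)).integrable _
      · simp only [dif]
        split_ifs with e1 e2 e2
        · exact le_rfl
        · exact absurd ⟨e1.1, e1.2.trans_le (hrt _)⟩ e2
        · rw [zero_pow two_ne_zero]; positivity
        · rw [zero_pow two_ne_zero]
    have h6 : ∀ ω, ((S.mR (fun _ => s) S.o ω - Z ω) + ∑ a ∈ F, S.dif (c a.1) (m a.1) s R a ω) ^ 2 =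
        (S.mR (fun _ => s) S.o ω - Z ω) ^ 2 + 2 * ((S.mR (fun _ => s) S.o ω - Z ω) *
          (∑ a ∈ F, S.dif (c a.1) (m a.1) s R a ω)) +
          (∑ a ∈ F, S.dif (c a.1) (m a.1) s R a ω) ^ 2 := fun ω => by ring
    simp only [h6]
    rw [integral_add (((b0.pow 2).add ((BM.const 2).mul (b0.mul bS))).integrable _)
      ((bS.pow 2).integrable _), integral_add ((b0.pow 2).integrable _)
      (((BM.const 2).mul (b0.mul bS)).integrable _), integral_const_mul, h3, h4, h1]
    linarith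
  have hB0 : 0 ≤ B := (integral_nonneg fun ω => sq_nonneg _).trans (hW 0)
  refine le_of_forall_pos_le_add fun ε hε => ?_
  set η := ε / (2 * (B + 1)) with hη
  have hη0 : 0 < η := by positivity
  obtain ⟨n, hn⟩ := expansion (S := S) hR hs (fun ω => hsr _) (δ := ε / (2 * (1 + η⁻¹)))
    (by positivity)
  have hE := hn n le_rfl
  have hWn := hW n
  set F := S.ball n S.o ×ˢ Finset.range (j + 1) with hF
  have bd : ∀ a, BM (S.dif (c a.1) (m a.1) s R a) := fun a =>
    BM_dif (hc _) (hm _) (hc1 _) (hm1 _) s hR.meas a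
  have hwin : ∀ a : V × ℕ, MeasurableSet {ω | s ≤ T a ω ∧ T a ω < R ω} := fun a =>
    measurableSet_window s hR.meas a
  have bK := bZ.add (BM.sum F fun a _ =>
    BM.ite (hwin a) (BM_Jbar (S := S) (hc a.1) (hm a.1) (hc1 a.1) (hm1 a.1) a) (BM.const 0))
  have bE := (bR.sub bs).sub (BM.sum F fun a _ =>
    BM.ite (hwin a) (BM_jump (S := S) Set.univ a) (BM.const 0))
  have bW := (bs.sub bZ).add (BM.sum F fun a _ => bd a)
  have h1 := cvar_le_sq (μ := mu V) (GG_le (S := S) hR.meas) bR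
    (Z := fun ω => Z ω + ∑ a ∈ F,
      if s ≤ T a ω ∧ T a ω < R ω then S.Jbar (c a.1) (m a.1) a ω else 0)
    ((hZm.mono (GG_const_le hsr) le_rfl).add
      (Finset.measurable_fun_sum F fun a _ => measurable_GG_Jbar (hc a.1) (hm a.1) s hr a)) bK.bdd
  have h2 : ∫ ω, (S.mR R S.o ω - (Z ω + ∑ a ∈ F,
      if s ≤ T a ω ∧ T a ω < R ω then S.Jbar (c a.1) (m a.1) a ω else 0)) ^ 2 ∂(mu V) ≤
      ∫ ω, ((1 + η⁻¹) * (S.mR R S.o ω - S.mR (fun _ => s) S.o ω -
        ∑ a ∈ F, if s ≤ T a ω ∧ T a ω < R ω then S.jump Set.univ a ω else 0) ^ 2 +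
        (1 + η) * ((S.mR (fun _ => s) S.o ω - Z ω) +
          ∑ a ∈ F, S.dif (c a.1) (m a.1) s R a ω) ^ 2) ∂(mu V) := by
    refine integral_mono (((bR.sub bK).pow 2).integrable _)
      ((((BM.const _).mul (bE.pow 2)).add ((BM.const _).mul (bW.pow 2))).integrable _) fun ω => ?_
    have e1 : ∑ a ∈ F, S.dif (c a.1) (m a.1) s R a ω =
        (∑ a ∈ F, if s ≤ T a ω ∧ T a ω < R ω then S.jump Set.univ a ω else 0) -
          ∑ a ∈ F, if s ≤ T a ω ∧ T a ω < R ω then S.Jbar (c a.1) (m a.1) a ω else 0 := by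
      rw [← Finset.sum_sub_distrib]
      refine Finset.sum_congr rfl fun a _ => ?_
      unfold dif
      split_ifs <;> simp
    simp only [e1]
    generalize (∑ a ∈ F, if s ≤ T a ω ∧ T a ω < R ω then S.jump Set.univ a ω else 0) = x
    generalize (∑ a ∈ F, if s ≤ T a ω ∧ T a ω < R ω then S.Jbar (c a.1) (m a.1) a ω else 0) = y
    have e2 : S.mR R S.o ω - (Z ω + y) = (S.mR R S.o ω - S.mR (fun _ => s) S.o ω - x) +
        (S.mR (fun _ => s) S.o ω - Z ω + (x - y)) := by ring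
    rw [e2]
    generalize S.mR R S.o ω - S.mR (fun _ => s) S.o ω - x = p
    generalize S.mR (fun _ => s) S.o ω - Z ω + (x - y) = q
    have e3 : (1 + η⁻¹) * p ^ 2 + (1 + η) * q ^ 2 - (p + q) ^ 2 = η⁻¹ * (p - η * q) ^ 2 := by
      field_simp; ring
    have e4 : 0 ≤ η⁻¹ * (p - η * q) ^ 2 := by positivity
    linarith
  rw [integral_add (((BM.const _).mul (bE.pow 2)).integrable _)
    (((BM.const _).mul (bW.pow 2)).integrable _), integral_const_mul, integral_const_mul] at h2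
  have h3 := mul_le_mul_of_nonneg_left hE (show 0 ≤ 1 + η⁻¹ by positivity)
  have h4 := mul_le_mul_of_nonneg_left hWn (show 0 ≤ 1 + η by positivity)
  have h5 : (1 + η⁻¹) * (ε / (2 * (1 + η⁻¹))) = ε / 2 := by field_simp
  have h6 : η * (B + 1) = ε / 2 := by rw [hη]; field_simp
  have h7 : S.NN R ≤ _ := h1.trans h2
  nlinarith

end Setup

end Crest.Agent.R160
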