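import Crest.Agent.R160.Term
import Crest.Agent.R160.StepIneq
import Crest.Agent.R160.Calc3

/-!
# Row 160 (S0241): MainEst
Summation over the tree, the two regimes, and the conclusion `NN = 0`.
* `main_estimate`: `sum_ball_le`, `(d-1)^k θ^(2k) = γ^k ≤ exp (-(1-γ) n(k))`, `sum_exp_le`, `sum_geom_le`,
  `sum_min_le` (`Λ y ≤ 1` follows from `H1`).
* `step_of_sum_term`: `NN_le` for `r = const t` and for `r ξ = s + (t-s) ξ.1`.
* `regimeA`: `Λ' = 1`; `y = 0` if `γ < 1`, and `y = θ² √(min s₀ 1 ^ 3/384)` if `γ = 1`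
  (`sq_tanh_le_fm_sq`, `abs_fm_le_one`, `xm_lower`); `NA` from `cvar_ecost_crude`.
* `regimeB`: `ρ = (d-1)⁻¹`, `q = ρ^n`.  If `γ < 1` use the crude bound.  If `γ = 1`: `l = q²`,
  `Λ' = q⁻⁴`, `π = C exp (-1/q)` (`XX_tail`), `y = c q⁹` (`xm ≥ c' q⁹`, `π ≤ θ² xm/2` for large `n`),
  `NA = C (q⁴ N + min N (exp (-1/q)))` (`cvar_ecost_fine`, `cvar_ecost_crude`), `min_exp_le`; with
  `min t 1 ^ 2 ≤ q¹²` every term is `≲ q⁻⁵ (Λ N + exp (-Λ))`.
-/

set_option autoImplicit false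

open MeasureTheory Filter Topology
open scoped unitInterval

noncomputable section

namespace Crest.Agent.R160

universe u

namespace Setup

variable {V : Type u} (S : Setup V)

variable {S}

lemma NN_nonneg (R : Om V → ℝ) : 0 ≤ S.NN R :=
  integral_nonneg fun _ => sq_nonneg _

lemma H1.mul_le_one {r Λ y : ℝ} (hΛ : 0 ≤ Λ) (h : S.H1 r Λ y) : Λ * y ≤ 1 := by
  obtain ⟨z, hz, -⟩ := exists_ch_ne (S := S) S.o S.o S.o
  have hadj := (mem_ch.1 hz).1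
  refine (h S.o z hadj).trans ?_
  have h1 : ∫ ω, min (Λ * fm S.θ (S.XX r S.o z ω) ^ 2) 1 ∂(mu V) ≤ ∫ _ω, (1 : ℝ) ∂(mu V) := by
    refine integral_mono_of_nonneg (Eventually.of_forall fun ω => ?_) (integrable_const _)
      (Eventually.of_forall fun ω => min_le_right _ _)
    exact le_min (mul_nonneg hΛ (sq_nonneg _)) zero_le_one
  simpa using h1

lemma gam_pow_le (k : ℕ) : S.gam ^ k ≤ Real.exp (-((1 - S.gam) * (((k - 1) / 4 : ℕ) : ℝ))) := by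
  have h0 := S.gam_nonneg
  have h1 := S.gam_le_one
  have h2 : S.gam ≤ Real.exp (-(1 - S.gam)) := by
    have := Real.add_one_le_exp (-(1 - S.gam))
    linarith
  have h3 : (((k - 1) / 4 : ℕ) : ℝ) ≤ k := by
    have : (k - 1) / 4 ≤ k := by omega
    exact_mod_cast this
  calc S.gam ^ k ≤ Real.exp (-(1 - S.gam)) ^ k := pow_le_pow_left₀ h0 h2 k
    _ = Real.exp (k * (-(1 - S.gam))) := (Real.exp_nat_mul _ _).symm
    _ ≤ _ := by
      apply Real.exp_le_exp.2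
      nlinarith

/-- one term of the radial sum -/
lemma radial_term_le {γ g y Λ' NA N m a b c K : ℝ} (_hγ0 : 0 ≤ γ) (hγ1 : γ ≤ 1) (hg : 0 ≤ g)
    (hγ : γ ≤ Real.exp (-(g * m))) (hm : 0 ≤ m) (hNA : 0 ≤ NA) (hN : 0 ≤ N) (hK : 0 ≤ K)
    (hb : 0 ≤ b) (hc : 0 ≤ c) (ha : a = K ^ 2) :
    γ * (Real.exp (-(y * m / 128)) * (K * NA + N) +
        a * ((Real.exp (-(Λ' * y * m / 64)) + b) * N + c)) ≤
      NA * (K * Real.exp (-((g + y) / 128 * m))) + N * Real.exp (-((g + y) / 128 * m)) +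
        N * (a * Real.exp (-((g + Λ' * y) / 64 * m))) + N * (a * b) + a * c := by
  have ha0 : 0 ≤ a := by rw [ha]; positivity
  have e1 : γ * Real.exp (-(y * m / 128)) ≤ Real.exp (-((g + y) / 128 * m)) := by
    calc γ * Real.exp (-(y * m / 128)) ≤ Real.exp (-(g * m)) * Real.exp (-(y * m / 128)) :=
          mul_le_mul_of_nonneg_right hγ (Real.exp_pos _).le
      _ = Real.exp (-(g * m) + -(y * m / 128)) := (Real.exp_add _ _).symm
      _ ≤ _ := by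
        apply Real.exp_le_exp.2
        nlinarith [mul_nonneg hg hm]
  have e2 : γ * Real.exp (-(Λ' * y * m / 64)) ≤ Real.exp (-((g + Λ' * y) / 64 * m)) := by
    calc γ * Real.exp (-(Λ' * y * m / 64)) ≤ Real.exp (-(g * m)) * Real.exp (-(Λ' * y * m / 64)) :=
          mul_le_mul_of_nonneg_right hγ (Real.exp_pos _).le
      _ = Real.exp (-(g * m) + -(Λ' * y * m / 64)) := (Real.exp_add _ _).symm
      _ ≤ _ := by
        apply Real.exp_le_exp.2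
        nlinarith [mul_nonneg hg hm]
  have f1 : γ * Real.exp (-(y * m / 128)) * (K * NA + N) ≤
      Real.exp (-((g + y) / 128 * m)) * (K * NA + N) :=
    mul_le_mul_of_nonneg_right e1 (by positivity)
  have f2 : γ * Real.exp (-(Λ' * y * m / 64)) * (a * N) ≤
      Real.exp (-((g + Λ' * y) / 64 * m)) * (a * N) :=
    mul_le_mul_of_nonneg_right e2 (by positivity)
  have f3 : γ * (a * b * N + a * c) ≤ 1 * (a * b * N + a * c) :=
    mul_le_mul_of_nonneg_right hγ1 (by positivity)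
  nlinarith

theorem main_estimate (J : ℕ) : ∃ C : ℝ, 0 < C ∧ ∀ (r : X → ℝ) (Λ' y NA : ℝ), Measurable r →
    (∀ ξ, r ξ ≤ J) → 1 ≤ Λ' → 0 ≤ y → (∀ ξ, S.H1 (r ξ) Λ' y) → 0 ≤ NA →
    (∀ y' x, S.G.Adj y' x → cvar (S.GG fun ω => r (ω Idx.rho)) (mu V)
      (fun ω => S.ecost (S.Y Set.univ (r (ω Idx.rho)) ω) y' x) ≤ NA) →
    0 < 1 - S.gam + y → ∀ Λ : ℝ, 1 ≤ Λ → ∀ n : ℕ,
      ∑ u ∈ S.ball n S.o, S.term (fun ω => r (ω Idx.rho)) u ≤
        C * (NA / (1 - S.gam + y) ^ 2 + (S.NN fun ω => r (ω Idx.rho)) / (1 - S.gam + y) +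
          (S.NN fun ω => r (ω Idx.rho)) / (1 - S.gam + Λ' * y) ^ 3 +
          (Λ * (S.NN fun ω => r (ω Idx.rho)) + Real.exp (-Λ))) := by
  obtain ⟨C₀, hC₀, hterm⟩ := term_le (S := S) J
  obtain ⟨C₁, hC₁, hexp⟩ := sum_exp_le
  obtain ⟨C₂, hC₂, hgeom⟩ := sum_geom_le
  obtain ⟨C₃, hC₃, hmin⟩ := sum_min_le
  refine ⟨2 * C₀ * (C₁ * 64 ^ 3 + C₂ + C₃), by positivity, ?_⟩
  intro r Λ' y NA hr hJ hΛ' hy hH hNA hcost hpos Λ hΛ n
  set N : ℝ := S.NN fun ω => r (ω Idx.rho) with hNdef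
  have hN : 0 ≤ N := NN_nonneg _
  set g : ℝ := 1 - S.gam with hgdef
  have hg0 : 0 ≤ g := by linarith [S.gam_le_one]
  have hg1 : g ≤ 1 := by linarith [S.gam_nonneg]
  have hΛy : Λ' * y ≤ 1 := (hH (0, true)).mul_le_one (by linarith)
  have hyΛ : y ≤ Λ' * y := by nlinarith
  have hpos2 : 0 < g + Λ' * y := by linarith
  -- the radial profile
  set φ : ℕ → ℝ := fun k => C₀ * (S.θ ^ 2) ^ k *
    (Real.exp (-(y * (((k - 1) / 4 : ℕ) : ℝ) / 128)) * (((k : ℝ) + 2) * NA + N) +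
      ((k : ℝ) + 2) ^ 2 *
        ((Real.exp (-(Λ' * y * (((k - 1) / 4 : ℕ) : ℝ) / 64)) + (3 / 4 : ℝ) ^ ((k - 1) / 4)) * N +
          min N (Real.exp (-((3 / 2 : ℝ) ^ ((k - 1) / 4)))))) with hφ
  have hφ0 : ∀ k, 0 ≤ φ k := by
    intro k
    have : 0 ≤ min N (Real.exp (-((3 / 2 : ℝ) ^ ((k - 1) / 4)))) := le_min hN (Real.exp_pos _).le
    simp only [hφ]
    positivity
  have h1 := sum_ball_le (S := S) S.o n φ hφ0 (S.term fun ω => r (ω Idx.rho))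
    (fun u => hterm r Λ' y NA u hr hJ hΛ' hy hH hNA hcost)
  refine h1.trans ?_
  have h2 : ∀ k ∈ Finset.range n, 2 * ((S.d : ℝ) - 1) ^ k * φ k ≤ 2 * C₀ *
      (NA * (((k : ℝ) + 2) * Real.exp (-((g + y) / 128 * (((k - 1) / 4 : ℕ) : ℝ)))) +
        N * Real.exp (-((g + y) / 128 * (((k - 1) / 4 : ℕ) : ℝ))) +
        N * (((k : ℝ) + 2) ^ 2 * Real.exp (-((g + Λ' * y) / 64 * (((k - 1) / 4 : ℕ) : ℝ)))) +
        N * (((k : ℝ) + 2) ^ 2 * (3 / 4 : ℝ) ^ ((k - 1) / 4)) +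
        ((k : ℝ) + 2) ^ 2 * min N (Real.exp (-((3 / 2 : ℝ) ^ ((k - 1) / 4))))) := by
    intro k _
    have hmin0 : 0 ≤ min N (Real.exp (-((3 / 2 : ℝ) ^ ((k - 1) / 4)))) :=
      le_min hN (Real.exp_pos _).le
    have h3 := radial_term_le (γ := S.gam ^ k) (g := g) (y := y) (Λ' := Λ') (NA := NA) (N := N)
      (m := (((k - 1) / 4 : ℕ) : ℝ)) (a := ((k : ℝ) + 2) ^ 2) (b := (3 / 4 : ℝ) ^ ((k - 1) / 4))
      (c := min N (Real.exp (-((3 / 2 : ℝ) ^ ((k - 1) / 4))))) (K := (k : ℝ) + 2)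
      (pow_nonneg S.gam_nonneg k) (pow_le_one₀ S.gam_nonneg S.gam_le_one) hg0 (gam_pow_le k)
      (Nat.cast_nonneg _) hNA hN (by positivity) (by positivity) hmin0 rfl
    have h4 : S.gam ^ k = ((S.d : ℝ) - 1) ^ k * (S.θ ^ 2) ^ k := by rw [gam, mul_pow]
    have h5 := mul_le_mul_of_nonneg_left h3 (by positivity : 0 ≤ 2 * C₀)
    refine le_trans (le_of_eq ?_) h5
    simp only [hφ]
    rw [h4]
    ring
  refine (Finset.sum_le_sum h2).trans ?_
  rw [← Finset.mul_sum]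
  simp only [Finset.sum_add_distrib, ← Finset.mul_sum]
  obtain ⟨a1, a2, -⟩ := hexp ((g + y) / 128) (by positivity) (by linarith) n
  obtain ⟨-, -, a3⟩ := hexp ((g + Λ' * y) / 64) (by positivity) (by linarith) n
  have a4 := hgeom n
  have a5 := hmin N Λ hN hΛ n
  have b1 := mul_le_mul_of_nonneg_left a1 hN
  have b2 := mul_le_mul_of_nonneg_left a2 hNA
  have b3 := mul_le_mul_of_nonneg_left a3 hN
  have b4 := mul_le_mul_of_nonneg_left a4 hN
  have e1 : N * (C₁ / ((g + y) / 128)) = C₁ * 128 * (N / (g + y)) := by field_simp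
  have e2 : NA * (C₁ / ((g + y) / 128) ^ 2) = C₁ * 128 ^ 2 * (NA / (g + y) ^ 2) := by field_simp
  have e3 : N * (C₁ / ((g + Λ' * y) / 64) ^ 3) = C₁ * 64 ^ 3 * (N / (g + Λ' * y) ^ 3) := by
    field_simp
  rw [e1] at b1
  rw [e2] at b2
  rw [e3] at b3
  rw [mul_assoc (2 * C₀)]
  refine mul_le_mul_of_nonneg_left ?_ (by positivity)
  have p1 : 0 ≤ N / (g + y) := by positivity
  have p2 : 0 ≤ NA / (g + y) ^ 2 := by positivity
  have p3 : 0 ≤ N / (g + Λ' * y) ^ 3 := by positivity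
  have p4 : N ≤ Λ * N + Real.exp (-Λ) := by nlinarith [Real.exp_pos (-Λ)]
  have p5 : 0 ≤ Λ * N + Real.exp (-Λ) := hN.trans p4
  have p6 : N * C₂ ≤ C₂ * (Λ * N + Real.exp (-Λ)) := by nlinarith
  generalize N / (g + y) = x1 at *
  generalize NA / (g + y) ^ 2 = x2 at *
  generalize N / (g + Λ' * y) ^ 3 = x3 at *
  generalize Λ * N + Real.exp (-Λ) = x4 at *
  have q1 := mul_nonneg hC₁.le p1
  have q2 := mul_nonneg hC₁.le p2
  have q3 := mul_nonneg hC₁.le p3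
  have q4 := mul_nonneg hC₁.le p5
  have q5 := mul_nonneg hC₂.le p1
  have q6 := mul_nonneg hC₂.le p2
  have q7 := mul_nonneg hC₂.le p3
  have q8 := mul_nonneg hC₃.le p1
  have q9 := mul_nonneg hC₃.le p2
  have q10 := mul_nonneg hC₃.le p3
  nlinarith

theorem step_of_sum_term {j : ℕ} {s t : ℝ} (hs : 0 < s) (hst : s < t) (hj : (j : ℝ) ≤ s)
    (ht : t ≤ j + 1) {A : ℝ} (hA0 : 0 ≤ A)
    (hA : ∀ Λ : ℝ, 1 ≤ Λ → ∀ n, ∑ u ∈ S.ball n S.o, S.term (rhoT s t) u ≤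
      A * (Λ * S.NN (rhoT s t) + Real.exp (-Λ))) :
    Step (fun t => S.NN fun _ => t) s t (32 * min t 1 ^ 2 * A) := by
  intro Λ hΛ hsmall
  have hts : 0 < t - s := by linarith
  have hm : 0 ≤ min t 1 ^ 2 := sq_nonneg _
  have h1 := NN_le (S := S) hs hst hj ht (r := fun _ => t) measurable_const (fun _ => hst.le)
    (fun _ => le_rfl) (hA Λ hΛ)
  have hmeas : Measurable fun ξ : X => s + (t - s) * (ξ.1 : ℝ) := by fun_prop
  have h2 := NN_le (S := S) hs hst hj ht (r := fun ξ : X => s + (t - s) * (ξ.1 : ℝ)) hmeas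
    (fun ξ => by nlinarith [ξ.1.2.1]) (fun ξ => by nlinarith [ξ.1.2.2]) (hA Λ hΛ)
  change S.NN (rhoT s t) ≤ _ at h2
  have hNρ : 0 ≤ S.NN (rhoT s t) := NN_nonneg _
  have hNs : 0 ≤ S.NN (fun _ => s) := NN_nonneg _
  have hE := Real.exp_pos (-Λ)
  show S.NN (fun _ => t) ≤ (1 + 2 * ((t - s) * (32 * min t 1 ^ 2 * A) * Λ)) * S.NN (fun _ => s) +
    2 * ((t - s) * (32 * min t 1 ^ 2 * A)) * Real.exp (-Λ)
  have hδ : 0 ≤ (t - s) * (32 * min t 1 ^ 2 * A) := by positivity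
  have e1 : 32 * (t - s) * min t 1 ^ 2 * (A * (Λ * S.NN (rhoT s t) + Real.exp (-Λ))) =
      (t - s) * (32 * min t 1 ^ 2 * A) * Λ * S.NN (rhoT s t) +
        (t - s) * (32 * min t 1 ^ 2 * A) * Real.exp (-Λ) := by ring
  rw [e1] at h1 h2
  generalize (t - s) * (32 * min t 1 ^ 2 * A) = δ at *
  generalize S.NN (rhoT s t) = Nρ at *
  generalize S.NN (fun _ => s) = Ns at *
  generalize S.NN (fun _ => t) = Nt at *
  generalize Real.exp (-Λ) = E at *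
  have hx : 0 ≤ δ * Λ := by positivity
  have hδE : 0 ≤ δ * E := by positivity
  generalize δ * Λ = x at *
  have e2 : 2 * δ * E = 2 * (δ * E) := by ring
  rw [e2]
  generalize δ * E = z at *
  -- `Nρ ≤ Ns + x Nρ + z`, `x ≤ 1/2`
  have h3 : Nρ ≤ 2 * (Ns + z) := by nlinarith
  have h4 : x * Nρ ≤ x * (2 * (Ns + z)) := mul_le_mul_of_nonneg_left h3 hx
  nlinarith

end Setup

end Crest.Agent.R160
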