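import Crest.Agent.R160.Static2

/-!
# Row 160 (S0241): Mgf
Stretched-exponential tail of the cavity field at small times.
`G c = ∫ exp (c XX)` (same for all directed edges, `integral_XX_eq`).  By `IsLR`,
`G c = ∫ cosh (c X) + tanh X sinh (c X)`, so `G (-c) ≤ G c` for `c ≥ 0`, and by `isLR_xi`, `fm_mgf_le`,
`∫ exp (c ξ) ≤ G (θ c)`.  With `XX_rec` (`J = 1`), `abs_zeta_le_small` and independence of the branches:
`G c ≤ exp (c r) G (θ c)^(d-1)`.  Iterate `6 n` times from `c = (d-1)^(3n) = q⁻³`; at the end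
`c' = θ^(6n) c ≤ 1` and `log G c' ≤ c' ∫X + c'² e^B ∫X²` (`exp_le_quad`), `∫X, ∫X² ≲ xm ≤ 2 r ≤ 2 q⁶`.
With `(d-1) θ ≤ √(d-1)`: `log G (q⁻³) ≤ C`.  Chernoff at level `q²`.
-/

set_option autoImplicit false

open MeasureTheory Filter Topology
open scoped unitInterval

noncomputable section

namespace Crest.Agent.R160

universe u

namespace Setup

variable {V : Type u} (S : Setup V)

variable {S}

lemma _root_.Crest.Agent.R160.IsLR.integral_exp {ζ : Om V → ℝ} (hζ : IsLR ζ) (c : ℝ) :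
    ∫ ω, Real.exp (c * ζ ω) ∂(mu V) =
      ∫ ω, (Real.cosh (c * ζ ω) + Real.tanh (ζ ω) * Real.sinh (c * ζ ω)) ∂(mu V) := by
  have hs : Continuous fun x : ℝ => Real.sinh (c * x) := by fun_prop
  have hc : Continuous fun x : ℝ => Real.cosh (c * x) := by fun_prop
  have h1 := hζ.odd (fun x => Real.sinh (c * x)) hs (fun x => by simp [mul_neg, Real.sinh_neg])
  have i1 := (hζ.bm.comp_continuous hs).integrable (mu V)
  have i2 := (hζ.bm.comp_continuous hc).integrable (mu V)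
  have i3 := ((hζ.bm.comp_continuous continuous_tanh').mul (hζ.bm.comp_continuous hs)).integrable
    (mu V)
  rw [integral_add i2 i3]
  have e : ∀ ω, Real.exp (c * ζ ω) = Real.cosh (c * ζ ω) + Real.sinh (c * ζ ω) := fun ω =>
    (Real.cosh_add_sinh _).symm
  simp only [e]
  rw [integral_add i2 i1, h1]
  congr 1
  exact integral_congr_ae (Eventually.of_forall fun ω => mul_comm _ _)

lemma tanh_mul_sinh_nonneg {c : ℝ} (hc : 0 ≤ c) (x : ℝ) : 0 ≤ Real.tanh x * Real.sinh (c * x) := by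
  rcases le_total 0 x with h | h
  · have h1 := tanh_mono' h
    rw [Real.tanh_zero] at h1
    exact mul_nonneg h1 (Real.sinh_nonneg_iff.2 (mul_nonneg hc h))
  · have h1 := tanh_mono' h
    rw [Real.tanh_zero] at h1
    exact mul_nonneg_of_nonpos_of_nonpos h1
      (Real.sinh_nonpos_iff.2 (mul_nonpos_of_nonneg_of_nonpos hc h))

lemma _root_.Crest.Agent.R160.IsLR.integral_exp_neg_le {ζ : Om V → ℝ} (hζ : IsLR ζ) {c : ℝ}
    (hc : 0 ≤ c) :
    ∫ ω, Real.exp (-c * ζ ω) ∂(mu V) ≤ ∫ ω, Real.exp (c * ζ ω) ∂(mu V) := by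
  rw [hζ.integral_exp, hζ.integral_exp]
  have hs : ∀ c : ℝ, Continuous fun x : ℝ =>
      Real.cosh (c * x) + Real.tanh x * Real.sinh (c * x) := fun c => by
    have := continuous_tanh'
    fun_prop
  refine integral_mono ((hζ.bm.comp_continuous (hs _)).integrable _)
    ((hζ.bm.comp_continuous (hs _)).integrable _) fun ω => ?_
  have h1 := tanh_mul_sinh_nonneg hc (ζ ω)
  simp only [neg_mul, Real.cosh_neg, Real.sinh_neg]
  linarith

lemma integral_exp_xi_le (r : ℝ) {y z : V} (h : S.G.Adj y z) {c : ℝ} (hc : 0 ≤ c) :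
    ∫ ω, Real.exp (c * (S.eta y z ω * fm S.θ (S.XX r z y ω))) ∂(mu V) ≤
      ∫ ω, Real.exp (S.θ * c * S.XX r z y ω) ∂(mu V) := by
  have hξ := isLR_xi r h
  have hX := isLR_XX r (S := S) (y := z) (x := y) (Or.inr h.symm)
  rw [hξ.integral_exp, hX.integral_exp]
  have hs : ∀ c : ℝ, Continuous fun x : ℝ =>
      Real.cosh (c * x) + Real.tanh x * Real.sinh (c * x) := fun c => by
    have := continuous_tanh'
    fun_prop
  refine integral_mono ((hξ.bm.comp_continuous (hs _)).integrable _)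
    ((hX.bm.comp_continuous (hs _)).integrable _) fun ω => ?_
  have h1 := fm_mgf_le S.hθ0 S.theta_sq_le hc (S.XX r z y ω)
  rcases eta_eq (S := S) y z ω with e | e
  · simp only [e, one_mul]
    exact h1
  · simp only [e, neg_mul, one_mul, mul_neg, Real.cosh_neg, Real.sinh_neg, Real.tanh_neg, neg_neg]
    exact h1

theorem mgf_step {r : ℝ} (hr0 : 0 ≤ r) (hr : r ≤ 1) {y x : V} (h : S.G.Adj y x) {c : ℝ}
    (hc : 0 ≤ c) :
    ∫ ω, Real.exp (c * S.XX r y x ω) ∂(mu V) ≤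
      Real.exp (c * r) * (∫ ω, Real.exp (S.θ * c * S.XX r y x ω) ∂(mu V)) ^ (S.d - 1) := by
  classical
  have hrec := XX_rec (S := S) (r := r) (J := 1) (by simpa using hr) (y := y) (x := x) (Or.inr h)
  have hexp : Continuous fun t : ℝ => Real.exp (c * t) := by fun_prop
  have hbm : ∀ z ∈ S.ch y x,
      BM fun ω => Real.exp (c * (S.eta y z ω * fm S.θ (S.XX r z y ω))) := fun z hz =>
    (isLR_xi r (mem_ch.1 hz).1).bm.comp_continuous hexp
  have h1 : ∫ ω, Real.exp (c * S.XX r y x ω) ∂(mu V) ≤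
      ∫ ω, Real.exp (c * r) *
        ∏ z ∈ S.ch y x, Real.exp (c * (S.eta y z ω * fm S.θ (S.XX r z y ω))) ∂(mu V) := by
    refine integral_mono_ae (((BM_XX r y x).comp_continuous hexp).integrable _)
      (((BM.const _).mul (BM.prod _ hbm)).integrable _) ?_
    filter_upwards [hrec] with ω hω
    rw [hω, ← Real.exp_sum, ← Real.exp_add, ← Finset.mul_sum, ← mul_add]
    refine Real.exp_le_exp.2 (mul_le_mul_of_nonneg_left ?_ hc)
    have := (abs_le.1 (abs_zeta_le_small (v := y) hr0 hr ω)).2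
    simpa using this
  refine h1.trans ?_
  rw [integral_const_mul]
  refine mul_le_mul_of_nonneg_left ?_ (Real.exp_pos _).le
  have h2 : ∫ ω, ∏ z ∈ S.ch y x, Real.exp (c * (S.eta y z ω * fm S.θ (S.XX r z y ω))) ∂(mu V) =
      ∏ z ∈ S.ch y x, ∫ ω, Real.exp (c * (S.eta y z ω * fm S.θ (S.XX r z y ω))) ∂(mu V) := by
    refine integral_prod_of_dependsOn (ν := nu) (S.ch y x) hbm (K := fun z => S.branch z y)
      (fun z hz => ?_) ?_
    · intro ω ω' hω
      have := xi_dependsOn r (mem_ch.1 hz).1 hω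
      simp only at this ⊢
      rw [this]
    · intro z hz z' hz' hne
      exact branch_disjoint (mem_ch.1 (Finset.mem_coe.1 hz)).1 (mem_ch.1 (Finset.mem_coe.1 hz')).1 hne
  rw [h2, ← card_ch_adj h, ← Finset.prod_const]
  refine Finset.prod_le_prod (fun z _ => integral_nonneg fun ω => (Real.exp_pos _).le) fun z hz => ?_
  have hz' := (mem_ch.1 hz).1
  refine (integral_exp_xi_le r hz' hc).trans (le_of_eq ?_)
  exact integral_XX_eq r hz'.symm h (φ := fun t => Real.exp (S.θ * c * t)) (by fun_prop)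

/-- iterating the one-step inequality -/
lemma mgf_iter {G : ℝ → ℝ} {θ r : ℝ} {D : ℕ} (hθ : 0 ≤ θ) (hG0 : ∀ c, 0 ≤ G c)
    (hG : ∀ c, 0 ≤ c → G c ≤ Real.exp (c * r) * G (θ * c) ^ D) (m : ℕ) {c : ℝ} (hc : 0 ≤ c) :
    G c ≤ Real.exp (c * r * ∑ i ∈ Finset.range m, ((D : ℝ) * θ) ^ i) * G (θ ^ m * c) ^ D ^ m := by
  induction m with
  | zero => simp
  | succ m ih =>
    refine ih.trans ?_
    have h1 := hG (θ ^ m * c) (by positivity)
    have h2 := pow_le_pow_left₀ (hG0 _) h1 (D ^ m)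
    refine (mul_le_mul_of_nonneg_left h2 (Real.exp_pos _).le).trans (le_of_eq ?_)
    rw [mul_pow, ← Real.exp_nat_mul, ← mul_assoc, ← Real.exp_add, ← pow_mul, Finset.sum_range_succ]
    congr 1
    · congr 1
      push_cast
      rw [mul_pow]
      ring
    · rw [pow_succ' D m, pow_succ' θ m, mul_assoc]

lemma geom_sqrt_le {a s : ℝ} (ha0 : 0 ≤ a) (has : a ≤ s) (hs : 4 / 3 ≤ s) (m : ℕ) :
    ∑ i ∈ Finset.range m, a ^ i ≤ 3 * s ^ m := by
  induction m with
  | zero => simp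
  | succ m ih =>
    rw [Finset.sum_range_succ, pow_succ]
    have h1 : a ^ m ≤ s ^ m := pow_le_pow_left₀ ha0 has m
    have h2 : 0 ≤ s ^ m := pow_nonneg (by linarith) m
    nlinarith

/-- the moment generating function at a small argument -/
lemma mgf_small {r : ℝ} (hr0 : 0 ≤ r) (hr : r ≤ 1) {y x : V} (h : S.G.Adj y x) {c : ℝ}
    (hc0 : 0 ≤ c) (hc1 : c ≤ 1) :
    ∫ ω, Real.exp (c * S.XX r y x ω) ∂(mu V) ≤
      Real.exp (2 * (Real.cosh (1 + S.d) ^ 2 + Real.exp (1 + S.d) * Real.cosh (1 + S.d) ^ 4) * r) := by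
  have hr' : r ≤ ((1 : ℕ) : ℝ) := by simpa using hr
  have hX := BM_XX (S := S) r y x
  have hexp : Continuous fun t : ℝ => Real.exp (c * t) := by fun_prop
  have i1 := hX.integrable (mu V)
  have i2 := (hX.pow 2).integrable (mu V)
  have h1 : ∫ ω, Real.exp (c * S.XX r y x ω) ∂(mu V) ≤
      ∫ ω, (1 + c * S.XX r y x ω + c ^ 2 * Real.exp (1 + S.d) * S.XX r y x ω ^ 2) ∂(mu V) := by
    refine integral_mono ((hX.comp_continuous hexp).integrable _)
      (((integrable_const _).add (i1.const_mul _)).add (i2.const_mul _)) fun ω => ?_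
    have hb : |c * S.XX r y x ω| ≤ 1 + S.d := by
      have := abs_XX_le (S := S) hr' y x ω
      rw [abs_mul, abs_of_nonneg hc0]
      push_cast at this
      nlinarith [abs_nonneg (S.XX r y x ω)]
    have := exp_le_quad hb
    simp only
    nlinarith
  have i3 : Integrable (fun ω => 1 + c * S.XX r y x ω) (mu V) :=
    (integrable_const _).add (i1.const_mul _)
  rw [integral_add i3 (i2.const_mul _),
    integral_add (integrable_const _) (i1.const_mul _), integral_const_mul, integral_const_mul] at h1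
  simp only [integral_const, probReal_univ, smul_eq_mul, mul_one] at h1
  have a1 := integral_XX_le (S := S) hr' (y := y) (x := x) (Or.inr h)
  have a2 := integral_XX_sq_le (S := S) hr' y x
  have a3 := xm_upper (S := S) hr0 hr h
  have a4 := xm_nonneg (S := S) r y x
  push_cast at a1 a2
  refine h1.trans (le_trans ?_ (Real.add_one_le_exp _))
  have p1 : 0 ≤ Real.cosh (1 + S.d) ^ 2 := by positivity
  have p2 : 0 ≤ Real.cosh (1 + S.d) ^ 4 := by positivity
  have p3 : 0 ≤ Real.exp (1 + S.d) := (Real.exp_pos _).le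
  generalize Real.cosh (1 + S.d) ^ 2 = A at *
  generalize Real.cosh (1 + S.d) ^ 4 = B at *
  generalize Real.exp (1 + S.d) = E at *
  generalize S.xm r y x = w at *
  have b1 : c * ∫ ω, S.XX r y x ω ∂(mu V) ≤ A * (2 * r) := by
    calc c * ∫ ω, S.XX r y x ω ∂(mu V) ≤ c * (A * w) := mul_le_mul_of_nonneg_left a1 hc0
      _ ≤ 1 * (A * w) := mul_le_mul_of_nonneg_right hc1 (by positivity)
      _ ≤ A * (2 * r) := by rw [one_mul]; exact mul_le_mul_of_nonneg_left a3 p1
  have b2 : c ^ 2 * E * ∫ ω, S.XX r y x ω ^ 2 ∂(mu V) ≤ E * (B * (2 * r)) := by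
    calc c ^ 2 * E * ∫ ω, S.XX r y x ω ^ 2 ∂(mu V) ≤ c ^ 2 * E * (B * w) :=
          mul_le_mul_of_nonneg_left a2 (by positivity)
      _ = c ^ 2 * (E * (B * w)) := by ring
      _ ≤ 1 * (E * (B * w)) :=
          mul_le_mul_of_nonneg_right (pow_le_one₀ hc0 hc1) (by positivity)
      _ ≤ E * (B * (2 * r)) := by
          rw [one_mul]
          exact mul_le_mul_of_nonneg_left (mul_le_mul_of_nonneg_left a3 p2) p3
  nlinarith

theorem XX_tail : ∃ C : ℝ, 0 < C ∧ ∀ (n : ℕ) (r : ℝ) (y x : V), 0 ≤ r →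
    r ≤ ((((S.d : ℝ) - 1)⁻¹) ^ n) ^ 6 → S.G.Adj y x →
      (mu V).real {ω | ((((S.d : ℝ) - 1)⁻¹) ^ n) ^ 2 < |S.XX r y x ω|} ≤
        C * Real.exp (-(1 / (((S.d : ℝ) - 1)⁻¹) ^ n)) := by
  set K : ℝ := 2 * (Real.cosh (1 + S.d) ^ 2 + Real.exp (1 + S.d) * Real.cosh (1 + S.d) ^ 4) with hK
  have hK0 : 0 ≤ K := by positivity
  refine ⟨2 * Real.exp (3 + K), by positivity, ?_⟩
  intro n r y x hr0 hrq h
  have hD2 := S.two_le_d_sub_one
  have hcast : ((S.d - 1 : ℕ) : ℝ) = (S.d : ℝ) - 1 := by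
    have := S.hd
    rw [Nat.cast_sub (by omega)]
    simp
  set D : ℝ := (S.d : ℝ) - 1 with hD
  have hD0 : 0 < D := by linarith
  -- `P = D ^ n = 1 / q`
  set P : ℝ := D ^ n with hP
  have hP1 : 1 ≤ P := one_le_pow₀ (by linarith)
  have hP0 : 0 < P := by linarith
  have hq : (D⁻¹) ^ n = P⁻¹ := by rw [hP, inv_pow]
  rw [hq] at hrq ⊢
  have hrP : r * P ^ 6 ≤ 1 := by
    have h1 := mul_le_mul_of_nonneg_right hrq (pow_pos hP0 6).le
    rwa [← mul_pow, inv_mul_cancel₀ hP0.ne', one_pow] at h1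
  have hr1 : r ≤ 1 := by
    have : 1 ≤ P ^ 6 := one_le_pow₀ hP1
    nlinarith
  set G : ℝ → ℝ := fun c => ∫ ω, Real.exp (c * S.XX r y x ω) ∂(mu V) with hG
  have hG0 : ∀ c, 0 ≤ G c := fun c => integral_nonneg fun ω => (Real.exp_pos _).le
  have hiter := mgf_iter (G := G) (θ := S.θ) (r := r) (D := S.d - 1) S.hθ0 hG0
    (fun c hc => mgf_step hr0 hr1 h hc) (6 * n) (c := P ^ 3) (by positivity)
  rw [hcast] at hiter
  -- the geometric sum
  have hs2 : Real.sqrt D ^ 2 = D := Real.sq_sqrt hD0.le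
  have hs0 := Real.sqrt_nonneg D
  have hs : 4 / 3 ≤ Real.sqrt D := by
    apply Real.le_sqrt_of_sq_le
    linarith
  have hθ0 := S.hθ0
  have hγ : D * S.θ ^ 2 ≤ 1 := S.hθ
  have has : D * S.θ ≤ Real.sqrt D := by
    apply Real.le_sqrt_of_sq_le
    nlinarith
  have hsum := geom_sqrt_le (by positivity) has hs (6 * n)
  have hpow : Real.sqrt D ^ (6 * n) = P ^ 3 := by
    rw [show 6 * n = 2 * (n * 3) by ring, pow_mul, hs2, pow_mul]
  rw [hpow] at hsum
  have e1 : P ^ 3 * r * ∑ i ∈ Finset.range (6 * n), (D * S.θ) ^ i ≤ 3 := by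
    calc P ^ 3 * r * ∑ i ∈ Finset.range (6 * n), (D * S.θ) ^ i ≤ P ^ 3 * r * (3 * P ^ 3) :=
          mul_le_mul_of_nonneg_left hsum (by positivity)
      _ = 3 * (r * P ^ 6) := by ring
      _ ≤ 3 := by linarith
  -- the end point
  have hc' : S.θ ^ (6 * n) * P ^ 3 ≤ 1 := by
    have : S.θ ^ (6 * n) * P ^ 3 = (D * S.θ ^ 2) ^ (3 * n) := by
      rw [hP, mul_pow, ← pow_mul, ← pow_mul]
      ring
    rw [this]
    exact pow_le_one₀ (by positivity) hγ
  have hsmall : G (S.θ ^ (6 * n) * P ^ 3) ≤ Real.exp (K * r) :=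
    mgf_small hr0 hr1 h (by positivity) hc'
  have e2 : G (S.θ ^ (6 * n) * P ^ 3) ^ (S.d - 1) ^ (6 * n) ≤ Real.exp K := by
    refine (pow_le_pow_left₀ (hG0 _) hsmall _).trans ?_
    rw [← Real.exp_nat_mul]
    refine Real.exp_le_exp.2 ?_
    push_cast
    rw [hcast, mul_comm 6 n, pow_mul, ← hP]
    nlinarith
  have hGP : G (P ^ 3) ≤ Real.exp (3 + K) := by
    refine hiter.trans ?_
    rw [Real.exp_add]
    exact mul_le_mul (Real.exp_le_exp.2 e1) e2 (pow_nonneg (hG0 _) _) (Real.exp_pos _).le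
  -- Chernoff
  have hX := BM_XX (S := S) r y x
  have hneg := (isLR_XX r (S := S) (y := y) (x := x) (Or.inr h)).integral_exp_neg_le
    (c := P ^ 3) (by positivity)
  have i1 := (hX.comp_continuous (φ := fun t => Real.exp (P ^ 3 * t)) (by fun_prop)).integrable (mu V)
  have i2 := (hX.comp_continuous (φ := fun t => Real.exp (-P ^ 3 * t)) (by fun_prop)).integrable
    (mu V)
  have hmark := mul_meas_ge_le_integral_of_nonneg (μ := mu V)
    (f := fun ω => Real.exp (P ^ 3 * S.XX r y x ω) + Real.exp (-P ^ 3 * S.XX r y x ω))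
    (Eventually.of_forall fun ω => by positivity) (i1.add i2) (Real.exp P)
  rw [integral_add i1 i2] at hmark
  have hsub : {ω | P⁻¹ ^ 2 < |S.XX r y x ω|} ⊆ {ω | Real.exp P ≤
      Real.exp (P ^ 3 * S.XX r y x ω) + Real.exp (-P ^ 3 * S.XX r y x ω)} := by
    intro ω hω
    simp only [Set.mem_ofPred_eq] at hω ⊢
    have h1 : P ≤ P ^ 3 * |S.XX r y x ω| := by
      have h2 := mul_le_mul_of_nonneg_left hω.le (pow_pos hP0 3).le
      have h3 : P ^ 3 * P⁻¹ ^ 2 = P := by field_simp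
      rwa [h3] at h2
    rcases abs_cases (S.XX r y x ω) with e | e
    · rw [e.1] at h1
      linarith [Real.exp_le_exp.2 h1, Real.exp_pos (-P ^ 3 * S.XX r y x ω)]
    · rw [e.1, mul_neg, ← neg_mul] at h1
      linarith [Real.exp_le_exp.2 h1, Real.exp_pos (P ^ 3 * S.XX r y x ω)]
  have hmono := measureReal_mono (μ := mu V) hsub
  have hE := Real.exp_pos P
  rw [one_div, inv_inv, Real.exp_neg, ← div_eq_mul_inv, le_div_iff₀ hE]
  have h5 : ∫ ω, Real.exp (P ^ 3 * S.XX r y x ω) ∂(mu V) ≤ Real.exp (3 + K) := hGP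
  nlinarith

end Setup

end Crest.Agent.R160
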