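import Crest.Agent.R160.Cav0
import Crest.Agent.R160.Calc2

/-!
# Row 160 (S0241): Model0
The model: measurability, bounds, the spins, explicit formulas for the field `Y`.
-/

set_option autoImplicit false

open MeasureTheory Filter Topology
open scoped unitInterval

noncomputable section

namespace Crest.Agent.R160

universe u

namespace Setup

variable {V : Type u} (S : Setup V)

variable {S}

/-! ### measurability -/
lemma measurable_coord_fst (i : Idx V) : Measurable fun ω : Om V => ((ω i).1 : ℝ) :=
  measurable_subtype_coe.comp (measurable_fst.comp (measurable_pi_apply i))

lemma measurable_sgn : Measurable sgn := measurable_of_finite _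

lemma measurable_sv (a : V × ℕ) : Measurable (sv a) := measurable_coord_fst _

lemma measurable_T (a : V × ℕ) : Measurable (T a) := (measurable_tm a.2).comp (measurable_sv a)

lemma measurable_eps (a : V × ℕ) : Measurable (eps a) :=
  (measurable_amp a.2).comp (measurable_sv a)

lemma measurable_wt (a : V × ℕ) : Measurable (wt a) :=
  measurable_Qf.comp ((measurable_eps a).prodMk (measurable_coord_fst (Idx.noise a.1 a.2)))

lemma measurable_zeta (a : V × ℕ) : Measurable fun p : ℝ × Om V => zeta a p.1 p.2 := by
  unfold zeta
  refine Measurable.ite (measurableSet_lt ((measurable_T a).comp measurable_snd) measurable_fst)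
    ?_ measurable_const
  exact measurable_artanh.comp
    (((measurable_eps a).comp measurable_snd).mul ((measurable_wt a).comp measurable_snd))

lemma measurable_fld : Measurable (fld : Seen V → V → ℝ) := by
  refine measurable_pi_lambda _ fun v => ?_
  unfold fld
  refine Measurable.tsum fun j => measurable_artanh.comp (Measurable.mul ?_ ?_)
  · exact (measurable_amp j).comp (measurable_subtype_coe.comp
      (measurable_fst.comp (measurable_fst.comp (measurable_pi_apply (v, j)))))
  · exact measurable_snd.comp (measurable_pi_apply (v, j))

lemma measurable_cut : Measurable fun p : ℝ × (V → Lab) => cut p.1 p.2 := by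
  refine measurable_pi_lambda _ fun v => measurable_pi_lambda _ fun j => ?_
  have h : Measurable fun p : ℝ × (V → Lab) => p.2 v j :=
    (measurable_pi_apply j).comp ((measurable_pi_apply v).comp measurable_snd)
  unfold cut
  exact Measurable.ite (measurableSet_lt ((measurable_tm j).comp
    (measurable_subtype_coe.comp (measurable_fst.comp h))) measurable_fst) h measurable_const

lemma measurable_flip : Measurable (flip : Om V → Om V) := by
  refine measurable_pi_lambda _ fun i => ?_
  cases i with
  | root =>
    exact (measurable_fst.comp (measurable_pi_apply Idx.root)).prodMk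
      ((measurable_of_finite (fun b : Bool => !b)).comp
        (measurable_snd.comp (measurable_pi_apply Idx.root)))
  | rho => exact measurable_pi_apply _
  | edge e => exact measurable_pi_apply _
  | time v j => exact measurable_pi_apply _
  | noise v j => exact measurable_pi_apply _

lemma measurable_relab (g : V → V) : Measurable (relab g) :=
  measurable_pi_lambda _ fun i => measurable_pi_apply (i.map g)

lemma measurable_rhoT (s t : ℝ) : Measurable (rhoT s t : Om V → ℝ) :=
  measurable_const.add (measurable_const.mul (measurable_coord_fst _))

lemma measurable_eta (x y : V) : Measurable (S.eta x y) := by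
  unfold eta
  exact Measurable.ite (measurableSet_lt (measurable_coord_fst _) measurable_const)
    measurable_const measurable_const

lemma measurable_spin (v : V) : Measurable (S.spin v) := by
  unfold spin
  exact (measurable_sgn.comp (measurable_snd.comp (measurable_pi_apply Idx.root))).mul
    (Finset.measurable_prod _ fun i _ => measurable_eta _ _)

lemma measurable_w (a : V × ℕ) : Measurable (S.w a) :=
  (measurable_spin a.1).mul (measurable_wt a)

lemma measurable_tau (a : V × ℕ) : Measurable (S.tau a) :=
  (measurable_eps a).mul (measurable_w a)

lemma measurable_seen (D : Set V) : Measurable fun p : ℝ × Om V => S.seen D p.1 p.2 := by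
  classical
  refine measurable_pi_lambda _ fun b => ?_
  unfold seen
  refine ((measurable_pi_apply _).comp measurable_snd).prodMk ?_
  refine Measurable.ite ?_ ((measurable_w b).comp measurable_snd) measurable_const
  exact (measurableSet_lt ((measurable_T b).comp measurable_snd) measurable_fst).inter
    (MeasurableSet.const _)

lemma measurable_Y (D : Set V) : Measurable fun p : ℝ × Om V => S.Y D p.1 p.2 :=
  measurable_fld.comp (measurable_seen D)

lemma measurable_YR (D : Set V) {R : Om V → ℝ} (hR : Measurable R) :
    Measurable fun ω => S.Y D (R ω) ω :=
  (measurable_Y D).comp (hR.prodMk measurable_id)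

lemma measurable_obs (D : Set V) {R : Om V → ℝ} (hR : Measurable R) : Measurable (S.obs D R) :=
  (measurable_pi_apply Idx.rho).prodMk ((measurable_seen D).comp (hR.prodMk measurable_id))

lemma FF_le (D : Set V) {R : Om V → ℝ} (hR : Measurable R) :
    S.FF D R ≤ (inferInstance : MeasurableSpace (Om V)) :=
  (measurable_obs D hR).comap_le

lemma measurable_XX (y x : V) : Measurable fun p : ℝ × Om V => S.XX p.1 y x p.2 :=
  ((measurable_spin y).comp measurable_snd).mul
    ((measurable_cav y x).comp (measurable_Y Set.univ))

lemma measurable_mR {R : Om V → ℝ} (hR : Measurable R) (v : V) : Measurable (S.mR R v) :=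
  (measurable_mag v).comp (measurable_YR Set.univ hR)

lemma measurable_U (a : V × ℕ) : Measurable (S.U a) := by
  unfold U
  refine continuous_projIcc.measurable.comp ?_
  exact measurable_Ff.comp
    (((measurable_eps a).mul (measurable_mR (measurable_T a) a.1)).prodMk (measurable_w a))

lemma measurable_L : Measurable S.L :=
  measurable_pi_lambda _ fun v => measurable_pi_lambda _ fun j =>
    (measurable_fst.comp (measurable_pi_apply (Idx.time v j))).prodMk (measurable_U (v, j))

lemma measurable_Gam {R : Om V → ℝ} (hR : Measurable R) : Measurable (S.Gam R) :=
  (measurable_pi_apply Idx.rho).prodMk (measurable_cut.comp (hR.prodMk measurable_L))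

lemma GG_le {R : Om V → ℝ} (hR : Measurable R) :
    S.GG R ≤ (inferInstance : MeasurableSpace (Om V)) :=
  (measurable_Gam hR).comap_le

lemma measurable_jump (D : Set V) (a : V × ℕ) : Measurable (S.jump D a) := by
  unfold jump
  have hY := measurable_YR (S := S) D (measurable_T a)
  exact ((measurable_cov _ _).comp hY).mul ((measurable_tau a).div
    (measurable_const.add (((measurable_mag a.1).comp hY).mul (measurable_tau a))))

lemma measurable_act (g : S.G ≃g S.G) : Measurable (S.act g) := by
  classical
  unfold act
  exact Measurable.ite (measurableSet_eq_fun (measurable_spin _) (measurable_spin _))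
    (measurable_relab g) (measurable_flip.comp (measurable_relab g))

end Setup

end Crest.Agent.R160
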