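import Crest.Agent.R160.Res0

/-!
# Row 160 (S0241): Prod
Toolkit for the product measure `infinitePi fun _ : ι => ν`: resampling a set of coordinates.
`measurePreserving_swap`: both sides agree on products of measurable boxes (`Measure.infinitePi_pi`,
`Measure.prod_prod`), which form a π-system generating the product σ-algebra; alternatively use
`iIndepFun` characterisations.  Everything else follows from it by Fubini.
-/

set_option autoImplicit false

open MeasureTheory Filter Topology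
open scoped unitInterval

noncomputable section

namespace Crest.Agent.R160

universe u

variable {ι E : Type*} [MeasurableSpace E] (ν : Measure E) [IsProbabilityMeasure ν]

/-- the product measure -/
abbrev PP (ι : Type*) {E : Type*} [MeasurableSpace E] (ν : Measure E) [IsProbabilityMeasure ν] :
    Measure (ι → E) := Measure.infinitePi fun _ : ι => ν

omit [IsProbabilityMeasure ν] in
lemma measurable_piecewise_pair (K : Set ι) [∀ i, Decidable (i ∈ K)] :
    Measurable fun p : (ι → E) × (ι → E) => K.piecewise p.1 p.2 := by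
  refine measurable_pi_lambda _ fun i => ?_
  by_cases h : i ∈ K
  · simp only [Set.piecewise_eq_of_mem _ _ _ h]
    fun_prop
  · simp only [Set.piecewise_eq_of_notMem _ _ _ h]
    fun_prop

/-- a pair of independent samples is one sample indexed by `ι ⊕ κ` -/
lemma measurePreserving_sumElim {κ : Type*} :
    MeasurePreserving (MeasurableEquiv.sumPiEquivProdPi fun _ : ι ⊕ κ => E).symm
      ((PP ι ν).prod (PP κ ν)) (PP (ι ⊕ κ) ν) := by
  refine ⟨MeasurableEquiv.measurable _, Measure.eq_infinitePi _ fun s t ht => ?_⟩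
  classical
  rw [Measure.map_apply (MeasurableEquiv.measurable _) (.pi s.countable_toSet fun _ _ => ht _)]
  have : (MeasurableEquiv.sumPiEquivProdPi fun _ : ι ⊕ κ => E).symm ⁻¹' ((s : Set (ι ⊕ κ)).pi t) =
      ((s.toLeft : Set ι).pi fun i => t (Sum.inl i)) ×ˢ
        ((s.toRight : Set κ).pi fun i => t (Sum.inr i)) := by
    ext p
    simp [MeasurableEquiv.sumPiEquivProdPi]
  rw [this, Measure.prod_prod, Measure.infinitePi_pi _ fun _ _ => ht _,
    Measure.infinitePi_pi _ fun _ _ => ht _, Finset.prod_sum_eq_prod_toLeft_mul_prod_toRight]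

lemma measurePreserving_relabel' {κ : Type*} {e : κ → ι} (he : Function.Injective e) :
    MeasurePreserving (fun ω : ι → E => fun i => ω (e i)) (PP ι ν) (PP κ ν) :=
  ⟨by fun_prop, Measure.map_infinitePi_infinitePi_of_inj (P := fun _ : ι => ν) he⟩

lemma measurePreserving_swap (K : Set ι) [∀ i, Decidable (i ∈ K)] :
    MeasurePreserving (fun p : (ι → E) × (ι → E) => (K.piecewise p.1 p.2, K.piecewise p.2 p.1))
      ((PP ι ν).prod (PP ι ν)) ((PP ι ν).prod (PP ι ν)) := by
  let f : ι ⊕ ι → ι ⊕ ι := Sum.elim (fun i => if i ∈ K then Sum.inl i else Sum.inr i)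
    (fun i => if i ∈ K then Sum.inr i else Sum.inl i)
  have hf : Function.Injective f := by
    have : Function.Involutive f := by
      rintro (i | i) <;> by_cases h : i ∈ K <;> simp [f, h]
    exact this.injective
  have h1 := measurePreserving_sumElim (ι := ι) (κ := ι) ν
  have h2 := (h1.symm _).comp ((measurePreserving_relabel' ν hf).comp h1)
  convert h2 using 1
  funext p
  ext i <;> by_cases h : i ∈ K <;> simp [f, h, MeasurableEquiv.sumPiEquivProdPi]

lemma measurePreserving_piecewise (K : Set ι) [∀ i, Decidable (i ∈ K)] :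
    MeasurePreserving (fun p : (ι → E) × (ι → E) => K.piecewise p.2 p.1)
      ((PP ι ν).prod (PP ι ν)) (PP ι ν) :=
  measurePreserving_snd.comp (measurePreserving_swap ν K)

lemma measurePreserving_update [DecidableEq ι] (i : ι) :
    MeasurePreserving (fun p : (ι → E) × E => Function.update p.1 i p.2)
      ((PP ι ν).prod ν) (PP ι ν) := by
  have hm : Measurable fun p : (ι → E) × E => Function.update p.1 i p.2 := measurable_update'
  have h1 : MeasurePreserving (Prod.map id (Function.eval i)) ((PP ι ν).prod (PP ι ν))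
      ((PP ι ν).prod ν) :=
    (MeasurePreserving.id _).prod (measurePreserving_eval_infinitePi (fun _ : ι => ν) i)
  refine ⟨hm, ?_⟩
  rw [← h1.map_eq, Measure.map_map hm h1.measurable]
  convert (measurePreserving_piecewise ν ({i} : Set ι)).map_eq using 2
  funext p
  simp [Set.piecewise_singleton]

lemma measurePreserving_relabel {e : ι → ι} (he : Function.Injective e) :
    MeasurePreserving (fun ω : ι → E => fun i => ω (e i)) (PP ι ν) (PP ι ν) :=
  measurePreserving_relabel' ν he

lemma integral_comp_mp {α β : Type*} [MeasurableSpace α] [MeasurableSpace β] {μ₁ : Measure α}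
    {μ₂ : Measure β} {f : α → β} (hf : MeasurePreserving f μ₁ μ₂) {Φ : β → ℝ}
    (hΦ : AEStronglyMeasurable Φ μ₂) : ∫ x, Φ (f x) ∂μ₁ = ∫ y, Φ y ∂μ₂ := by
  rw [← hf.map_eq] at hΦ ⊢
  exact (integral_map hf.measurable.aemeasurable hΦ).symm

/-- freezing: resample the coordinates in `K` -/
lemma integral_freeze (K : Set ι) [∀ i, Decidable (i ∈ K)] {Φ : (ι → E) → ℝ}
    (hΦ : Integrable Φ (PP ι ν)) :
    ∫ ω, Φ ω ∂(PP ι ν) = ∫ ω, ∫ ω', Φ (K.piecewise ω' ω) ∂(PP ι ν) ∂(PP ι ν) := by
  have h := measurePreserving_piecewise ν K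
  rw [← integral_comp_mp h hΦ.aestronglyMeasurable]
  exact integral_prod _ (h.integrable_comp_of_integrable hΦ)

lemma integral_update [DecidableEq ι] (i : ι) {Φ : (ι → E) → ℝ} (hΦ : Integrable Φ (PP ι ν)) :
    ∫ ω, Φ ω ∂(PP ι ν) = ∫ ω, ∫ ξ, Φ (Function.update ω i ξ) ∂ν ∂(PP ι ν) := by
  have h := measurePreserving_update ν i
  rw [← integral_comp_mp h hΦ.aestronglyMeasurable]
  exact integral_prod _ (h.integrable_comp_of_integrable hΦ)

lemma ae_freeze (K : Set ι) [∀ i, Decidable (i ∈ K)] {p : (ι → E) → Prop}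
    (h : ∀ᵐ ω ∂(PP ι ν), p ω) : ∀ᵐ ω ∂(PP ι ν), ∀ᵐ ω' ∂(PP ι ν), p (K.piecewise ω' ω) :=
  Measure.ae_ae_of_ae_prod ((measurePreserving_piecewise ν K).quasiMeasurePreserving.ae h)

lemma ae_update [DecidableEq ι] (i : ι) {p : (ι → E) → Prop} (h : ∀ᵐ ω ∂(PP ι ν), p ω) :
    ∀ᵐ ω ∂(PP ι ν), ∀ᵐ ξ ∂ν, p (Function.update ω i ξ) :=
  Measure.ae_ae_of_ae_prod ((measurePreserving_update ν i).quasiMeasurePreserving.ae h)

/-- a parameter read off the coordinate `i`, on which `F ξ` does not depend -/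
lemma integral_param (i : ι) {F : E × (ι → E) → ℝ} (hF : BM F)
    (hdep : ∀ ξ, DependsOn (fun ω => F (ξ, ω)) {i}ᶜ) :
    ∫ ω, F (ω i, ω) ∂(PP ι ν) = ∫ ξ, ∫ ω, F (ξ, ω) ∂(PP ι ν) ∂ν := by
  classical
  have h1 : BM fun ω : ι → E => F (ω i, ω) := hF.comp (by fun_prop)
  rw [integral_update ν i (h1.integrable _)]
  have h2 : ∀ (ω : ι → E) (ξ : E), F (Function.update ω i ξ i, Function.update ω i ξ) = F (ξ, ω) := by
    intro ω ξ
    rw [Function.update_self]
    exact hdep ξ fun j hj => Function.update_of_ne hj _ _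
  simp only [h2]
  exact integral_integral_swap (f := fun (ω : ι → E) (ξ : E) => F (ξ, ω))
    ((hF.comp (f := Prod.swap) measurable_swap).integrable _)

lemma integral_eval (i : ι) {φ : E → ℝ} (hφ : Measurable φ) :
    ∫ ω, φ (ω i) ∂(PP ι ν) = ∫ ξ, φ ξ ∂ν :=
  integral_comp_mp (measurePreserving_eval_infinitePi (fun _ : ι => ν) i) hφ.aestronglyMeasurable

lemma integral_eval_pair {i j : ι} (hij : i ≠ j) {φ : E × E → ℝ} (hφ : BM φ) :
    ∫ ω, φ (ω i, ω j) ∂(PP ι ν) = ∫ ξ, ∫ ξ', φ (ξ, ξ') ∂ν ∂ν := by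
  have h : MeasurePreserving (fun ω : ι → E => (ω i, ω j)) (PP ι ν) (ν.prod ν) :=
    ⟨by fun_prop, Measure.infinitePi_map_eval_prod (P := fun _ : ι => ν) hij⟩
  rw [integral_comp_mp h hφ.meas.aestronglyMeasurable]
  exact integral_prod _ (hφ.integrable _)

lemma integral_mul_of_dependsOn {F G : (ι → E) → ℝ} (hF : BM F) (hG : BM G) {K K' : Set ι}
    (hFK : DependsOn F K) (hGK : DependsOn G K') (hd : Disjoint K K') :
    ∫ ω, F ω * G ω ∂(PP ι ν) = (∫ ω, F ω ∂(PP ι ν)) * ∫ ω, G ω ∂(PP ι ν) := by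
  classical
  rw [integral_freeze ν K ((hF.mul hG).integrable _)]
  have h1 : ∀ ω ω' : ι → E, F (K.piecewise ω' ω) = F ω' := fun ω ω' =>
    hFK fun j hj => Set.piecewise_eq_of_mem _ _ _ hj
  have h2 : ∀ ω ω' : ι → E, G (K.piecewise ω' ω) = G ω := fun ω ω' =>
    hGK fun j hj => Set.piecewise_eq_of_notMem _ _ _ (Set.disjoint_right.1 hd hj)
  simp only [h1, h2, integral_mul_const, integral_const_mul]

lemma integral_prod_of_dependsOn {κ : Type*} (s : Finset κ) {F : κ → (ι → E) → ℝ}
    (hF : ∀ j ∈ s, BM (F j)) {K : κ → Set ι} (hK : ∀ j ∈ s, DependsOn (F j) (K j))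
    (hd : (s : Set κ).PairwiseDisjoint K) :
    ∫ ω, ∏ j ∈ s, F j ω ∂(PP ι ν) = ∏ j ∈ s, ∫ ω, F j ω ∂(PP ι ν) := by
  classical
  induction s using Finset.induction_on with
  | empty => simp
  | insert a s ha ih =>
    simp only [Finset.prod_insert ha]
    have hs : ∀ j ∈ s, j ∈ insert a s := fun j hj => Finset.mem_insert_of_mem hj
    rw [← ih (fun j hj => hF j (hs j hj)) (fun j hj => hK j (hs j hj))
      (hd.subset (by simp))]
    refine integral_mul_of_dependsOn ν (hF a (Finset.mem_insert_self _ _))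
      (BM.prod s fun j hj => hF j (hs j hj)) (K' := ⋃ j ∈ s, K j)
      (hK a (Finset.mem_insert_self _ _)) ?_ ?_
    · intro x y hxy
      exact Finset.prod_congr rfl fun j hj =>
        hK j (hs j hj) fun i hi => hxy i (Set.mem_biUnion hj hi)
    · simp only [Set.disjoint_iUnion_right]
      intro j hj
      exact hd (by simp) (by simp [hj]) (fun h => ha (h ▸ hj))

/-- one peeling step -/
lemma integral_peel (K : Set ι) [∀ i, Decidable (i ∈ K)] {G F : (ι → E) → ℝ} (hG : BM G) (hF : BM F)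
    (hG0 : ∀ ω, 0 ≤ G ω) (hGK : DependsOn G Kᶜ) {q : ℝ}
    (hq : ∀ ω, G ω ≠ 0 → ∫ ω', F (K.piecewise ω' ω) ∂(PP ι ν) ≤ q) :
    ∫ ω, G ω * F ω ∂(PP ι ν) ≤ q * ∫ ω, G ω ∂(PP ι ν) := by
  rw [integral_freeze ν K ((hG.mul hF).integrable _)]
  have h2 : ∀ ω ω' : ι → E, G (K.piecewise ω' ω) = G ω := fun ω ω' =>
    hGK fun j hj => Set.piecewise_eq_of_notMem _ _ _ hj
  simp only [h2, integral_const_mul]
  rw [← integral_const_mul]
  have h3 : BM fun ω => ∫ ω', F (K.piecewise ω' ω) ∂(PP ι ν) :=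
    BM.integral_prod_right (F := fun p : (ι → E) × (ι → E) => F (K.piecewise p.2 p.1))
      (hF.comp (measurePreserving_piecewise ν K).measurable) _
  refine integral_mono ((hG.mul h3).integrable _) (((BM.const q).mul hG).integrable _) fun ω => ?_
  by_cases h : G ω = 0
  · simp [h]
  · dsimp only
    rw [mul_comm q]
    exact mul_le_mul_of_nonneg_left (hq ω h) (hG0 ω)

/-- peeling step for a function of a sum of two independent parts -/
lemma integral_peel_add {K : Set ι} {G R ζ : (ι → E) → ℝ} (hG : BM G) (hR : BM R) (hζ : BM ζ)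
    (hG0 : ∀ ω, 0 ≤ G ω) (hGK : DependsOn G Kᶜ) (hRK : DependsOn R Kᶜ) (hζK : DependsOn ζ K)
    {φ : ℝ → ℝ} (hφ : Continuous φ) {q : ℝ} (hq : ∀ c, ∫ ω, φ (c + ζ ω) ∂(PP ι ν) ≤ q) :
    ∫ ω, G ω * φ (R ω + ζ ω) ∂(PP ι ν) ≤ q * ∫ ω, G ω ∂(PP ι ν) := by
  classical
  refine integral_peel ν K hG ((hR.add hζ).comp_continuous hφ) hG0 hGK fun ω _ => ?_
  have h1 : ∀ ω' : ι → E, ζ (K.piecewise ω' ω) = ζ ω' := fun ω' =>
    hζK fun j hj => Set.piecewise_eq_of_mem _ _ _ hj
  have h2 : ∀ ω' : ι → E, R (K.piecewise ω' ω) = R ω := fun ω' =>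
    hRK fun j hj => Set.piecewise_eq_of_notMem _ _ _ hj
  simp only [h1, h2]
  exact hq _

omit [IsProbabilityMeasure ν] in
/-- a measurable function depending only on `K` factors measurably through the coordinates in `K` -/
lemma measurable_comap_of_dependsOn [Nonempty E] {β : Type*} [MeasurableSpace β]
    {F : (ι → E) → β} (hF : Measurable F) {K : Set ι} (hK : DependsOn F K) :
    Measurable[MeasurableSpace.comap (fun (ω : ι → E) (i : K) => ω i) inferInstance] F := by
  classical
  let ext : (K → E) → (ι → E) := fun x i => if h : i ∈ K then x ⟨i, h⟩ else Classical.arbitrary E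
  have hext : Measurable ext := by
    refine measurable_pi_lambda _ fun i => ?_
    by_cases h : i ∈ K
    · simp only [ext, dif_pos h]
      fun_prop
    · simp only [ext, dif_neg h]
      fun_prop
  have : F = (F ∘ ext) ∘ fun (ω : ι → E) (i : K) => ω i := by
    funext ω
    exact hK fun i hi => by simp [ext, hi]
  rw [this]
  exact (hF.comp hext).comp (comap_measurable _)

end Crest.Agent.R160
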