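import Crest.Agent.R160.Res0

/-!
# Row 160 (S0241): Res
Toolkit for bounded measurable functions (`BM`), residuals `res` and expected conditional
variances `cvar` on an arbitrary probability space.
-/

set_option autoImplicit false

open MeasureTheory Filter Topology
open scoped unitInterval

noncomputable section

namespace Crest.Agent.R160

universe u

section res
variable {Ω : Type*} {m : MeasurableSpace Ω} [m0 : MeasurableSpace Ω] {μ : Measure Ω}
  [IsProbabilityMeasure μ]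

/-- a version of the conditional expectation with values in `[a,b]` -/
lemma exists_condExp_version (hm : m ≤ m0) {X : Ω → ℝ} (hX : Measurable X) {a b : ℝ}
    (hab : ∀ ω, X ω ∈ Set.Icc a b) :
    ∃ Z : Ω → ℝ, Measurable[m] Z ∧ (∀ ω, Z ω ∈ Set.Icc a b) ∧ Z =ᵐ[μ] μ[X | m] := by
  obtain ⟨ω₀⟩ : Nonempty Ω := nonempty_of_isProbabilityMeasure μ
  have hab' : a ≤ b := (hab ω₀).1.trans (hab ω₀).2
  have hXi : Integrable X μ :=
    (BM.mk hX ⟨max |a| |b|, fun ω => abs_le_max_abs_abs (hab ω).1 (hab ω).2⟩).integrable μ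
  have hmeas : Measurable[m] (μ[X | m]) := stronglyMeasurable_condExp.measurable
  refine ⟨fun ω => max a (min b ((μ[X | m]) ω)), ?_, fun ω => ?_, ?_⟩
  · exact Measurable.max (mδ := m) measurable_const (Measurable.min (mδ := m) measurable_const hmeas)
  · exact ⟨le_max_left _ _, max_le hab' (min_le_left _ _)⟩
  · have h1 := condExp_mono (m := m) (integrable_const a) hXi
      (Eventually.of_forall fun ω => (hab ω).1)
    have h2 := condExp_mono (m := m) hXi (integrable_const b)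
      (Eventually.of_forall fun ω => (hab ω).2)
    rw [condExp_const hm] at h1 h2
    filter_upwards [h1, h2] with ω h1 h2
    rw [min_eq_right h2, max_eq_right h1]
/-- a bounded measurable version of the residual -/
lemma exists_res_version (hm : m ≤ m0) {X : Ω → ℝ} (hX : Measurable X) {C : ℝ}
    (hC : ∀ ω, |X ω| ≤ C) :
    ∃ Z : Ω → ℝ, Measurable Z ∧ (∀ ω, |Z ω| ≤ 2 * C) ∧ Z =ᵐ[μ] res m μ X := by
  obtain ⟨Z, hZm, hZ, hZe⟩ := exists_condExp_version (μ := μ) hm hX (a := -C) (b := C)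
    fun ω => abs_le.1 (hC ω)
  refine ⟨fun ω => X ω - Z ω, hX.sub (hZm.mono hm le_rfl), fun ω => ?_, ?_⟩
  · have h1 := abs_le.1 (hC ω)
    have h2 := hZ ω
    rw [abs_le]
    constructor <;> linarith [h1.1, h1.2, h2.1, h2.2]
  · filter_upwards [hZe] with ω hω
    simp only [res, hω]
lemma measurable_res (hm : m ≤ m0) {X : Ω → ℝ} (hX : Measurable X) : Measurable (res m μ X) :=
  hX.sub ((stronglyMeasurable_condExp (m := m) (μ := μ) (f := X)).measurable.mono hm le_rfl)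
lemma ae_abs_res_le (hm : m ≤ m0) {X : Ω → ℝ} (hX : Measurable X) {C : ℝ} (hC : ∀ ω, |X ω| ≤ C) :
    ∀ᵐ ω ∂μ, |res m μ X ω| ≤ 2 * C := by
  obtain ⟨Z, -, hZ, hZe⟩ := exists_res_version (μ := μ) hm hX hC
  filter_upwards [hZe] with ω hω
  rw [← hω]
  exact hZ ω
/-- a `BM` version of the residual -/
lemma exists_res_BM (hm : m ≤ m0) {X : Ω → ℝ} (hX : BM X) :
    ∃ Z : Ω → ℝ, BM Z ∧ Z =ᵐ[μ] res m μ X := by
  obtain ⟨C, hC⟩ := hX.bdd
  obtain ⟨Z, hZm, hZ, hZe⟩ := exists_res_version (μ := μ) hm hX.meas hC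
  exact ⟨Z, ⟨hZm, _, hZ⟩, hZe⟩
/-- an `m`-measurable `BM` version of the conditional expectation -/
lemma exists_condExp_BM (hm : m ≤ m0) {X : Ω → ℝ} (hX : BM X) :
    ∃ Z : Ω → ℝ, Measurable[m] Z ∧ BM Z ∧ Z =ᵐ[μ] μ[X | m] := by
  obtain ⟨C, hC⟩ := hX.bdd
  obtain ⟨Z, hZm, hZ, hZe⟩ := exists_condExp_version (μ := μ) hm hX.meas (a := -C) (b := C)
    fun ω => abs_le.1 (hC ω)
  exact ⟨Z, hZm, ⟨hZm.mono hm le_rfl, C, fun ω => abs_le.2 (hZ ω)⟩, hZe⟩
lemma integrable_res_mul (hm : m ≤ m0) {X Y Z : Ω → ℝ} (hX : BM X) (hY : BM Y) (hZ : BM Z) :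
    Integrable (fun ω => res m μ X ω * res m μ Y ω * Z ω) μ := by
  obtain ⟨X', hX', hXe⟩ := exists_res_BM (μ := μ) hm hX
  obtain ⟨Y', hY', hYe⟩ := exists_res_BM (μ := μ) hm hY
  refine (((hX'.mul hY').mul hZ).integrable μ).congr ?_
  filter_upwards [hXe, hYe] with ω h1 h2
  rw [h1, h2]
lemma integrable_res_sq (hm : m ≤ m0) {X : Ω → ℝ} (hX : BM X) :
    Integrable (fun ω => res m μ X ω ^ 2) μ := by
  simpa only [mul_one, sq] using integrable_res_mul (μ := μ) hm hX hX (BM.const 1)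
lemma res_congr {X Y : Ω → ℝ} (h : X =ᵐ[μ] Y) : res m μ X =ᵐ[μ] res m μ Y := by
  filter_upwards [h, condExp_congr_ae (m := m) h] with ω h1 h2
  simp only [res, h1, h2]
lemma res_sum {ι : Type*} (s : Finset ι) {X : ι → Ω → ℝ} (hX : ∀ i ∈ s, BM (X i)) :
    res m μ (fun ω => ∑ i ∈ s, X i ω) =ᵐ[μ] fun ω => ∑ i ∈ s, res m μ (X i) ω := by
  have h := condExp_finsetSum (μ := μ) (s := s) (f := X) (fun i hi => (hX i hi).integrable μ) m
  have h0 : (fun ω => ∑ i ∈ s, X i ω) = ∑ i ∈ s, X i := by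
    funext ω
    simp
  filter_upwards [h] with ω hω
  simp only [res, Finset.sum_sub_distrib]
  rw [h0, hω]
  simp
lemma res_add {X Y : Ω → ℝ} (hX : BM X) (hY : BM Y) :
    res m μ (fun ω => X ω + Y ω) =ᵐ[μ] fun ω => res m μ X ω + res m μ Y ω := by
  have h := condExp_add (hX.integrable μ) (hY.integrable μ) m
  filter_upwards [h] with ω hω
  have h0 : (fun ω => X ω + Y ω) = X + Y := rfl
  simp only [res]
  rw [h0, hω]
  simp only [Pi.add_apply]
  ring
lemma integral_mul_condExp_aux (hm : m ≤ m0) {Z Ψ : Ω → ℝ} (hZ : Integrable Z μ)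
    (hΨ : Measurable[m] Ψ) (hb : ∃ C, ∀ ω, |Ψ ω| ≤ C) :
    ∫ ω, Z ω * Ψ ω ∂μ = ∫ ω, (μ[Z | m]) ω * Ψ ω ∂μ := by
  obtain ⟨C, hC⟩ := hb
  have h := condExp_stronglyMeasurable_mul_of_bound hm hΨ.stronglyMeasurable hZ C
    (Eventually.of_forall hC)
  calc ∫ ω, Z ω * Ψ ω ∂μ = ∫ ω, (Ψ * Z) ω ∂μ := by simp only [Pi.mul_apply, mul_comm]
    _ = ∫ ω, (μ[Ψ * Z | m]) ω ∂μ := (integral_condExp hm).symm
    _ = ∫ ω, (μ[Z | m]) ω * Ψ ω ∂μ := by
        refine integral_congr_ae ?_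
        filter_upwards [h] with ω hω
        rw [hω, Pi.mul_apply, mul_comm]
lemma integral_res_mul (hm : m ≤ m0) {X Ψ : Ω → ℝ} (hX : BM X) (hΨ : Measurable[m] Ψ)
    (hb : ∃ C, ∀ ω, |Ψ ω| ≤ C) : ∫ ω, res m μ X ω * Ψ ω ∂μ = 0 := by
  have hΨb : BM Ψ := ⟨hΨ.mono hm le_rfl, hb⟩
  obtain ⟨C, hC⟩ := hb
  simp only [res, sub_mul]
  rw [integral_sub ((hX.mul hΨb).integrable μ)
    (integrable_condExp.mul_bdd hΨb.meas.aestronglyMeasurable (Eventually.of_forall hC)),
    integral_mul_condExp_aux hm (hX.integrable μ) hΨ ⟨C, hC⟩, sub_self]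
/-- self-adjointness of the conditional expectation -/
lemma integral_mul_condExp (hm : m ≤ m0) {Z β : Ω → ℝ} (hZ : Integrable Z μ) (hβ : BM β) :
    ∫ ω, Z ω * (μ[β | m]) ω ∂μ = ∫ ω, (μ[Z | m]) ω * β ω ∂μ := by
  obtain ⟨B, hBm, hB, hBe⟩ := exists_condExp_BM (μ := μ) hm hβ
  obtain ⟨C, hC⟩ := hβ.bdd
  have h := condExp_mul_of_stronglyMeasurable_left (m := m) (μ := μ) (f := μ[Z | m]) (g := β)
    stronglyMeasurable_condExp
    (integrable_condExp.mul_bdd hβ.meas.aestronglyMeasurable (Eventually.of_forall hC))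
    (hβ.integrable μ)
  calc ∫ ω, Z ω * (μ[β | m]) ω ∂μ = ∫ ω, Z ω * B ω ∂μ := by
        refine integral_congr_ae ?_
        filter_upwards [hBe] with ω hω
        rw [hω]
    _ = ∫ ω, (μ[Z | m]) ω * B ω ∂μ := integral_mul_condExp_aux hm hZ hBm hB.bdd
    _ = ∫ ω, (μ[μ[Z | m] * β | m]) ω ∂μ := by
        refine integral_congr_ae ?_
        filter_upwards [hBe, h] with ω hω h2
        rw [hω, h2, Pi.mul_apply]
    _ = ∫ ω, (μ[Z | m]) ω * β ω ∂μ := integral_condExp hm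
/-- characterisation of the conditional expectation by bounded test functions -/
lemma ae_eq_condExp_of_integral_mul (hm : m ≤ m0) {X Z : Ω → ℝ} (hX : BM X) (hZ : Measurable[m] Z)
    (hb : ∃ C, ∀ ω, |Z ω| ≤ C)
    (h : ∀ A : Set Ω, MeasurableSet[m] A →
      ∫ ω, X ω * A.indicator 1 ω ∂μ = ∫ ω, Z ω * A.indicator 1 ω ∂μ) : Z =ᵐ[μ] μ[X | m] := by
  have hZb : BM Z := ⟨hZ.mono hm le_rfl, hb⟩
  have key : ∀ (W : Ω → ℝ) (A : Set Ω), MeasurableSet A →
      ∫ ω, W ω * A.indicator 1 ω ∂μ = ∫ ω in A, W ω ∂μ := by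
    intro W A hA
    rw [← integral_indicator hA]
    refine integral_congr_ae (Eventually.of_forall fun ω => ?_)
    by_cases hω : ω ∈ A <;> simp [hω]
  refine ae_eq_condExp_of_forall_setIntegral_eq hm (hX.integrable μ)
    (fun A _ _ => (hZb.integrable μ).integrableOn) (fun A hA _ => ?_)
    hZ.stronglyMeasurable.aestronglyMeasurable
  rw [← key _ _ (hm A hA), ← key _ _ (hm A hA), h A hA]
lemma integral_mul_eq_of_condExp (hm : m ≤ m0) {X Z Ψ : Ω → ℝ} (hX : BM X) (hZ : Z =ᵐ[μ] μ[X | m])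
    (hΨ : Measurable[m] Ψ) (hb : ∃ C, ∀ ω, |Ψ ω| ≤ C) :
    ∫ ω, X ω * Ψ ω ∂μ = ∫ ω, Z ω * Ψ ω ∂μ := by
  rw [integral_mul_condExp_aux hm (hX.integrable μ) hΨ hb]
  refine integral_congr_ae ?_
  filter_upwards [hZ] with ω hω
  rw [hω]

lemma cvar_nonneg (X : Ω → ℝ) : 0 ≤ cvar m μ X := integral_nonneg fun _ => sq_nonneg _
lemma cvar_congr {X Y : Ω → ℝ} (h : X =ᵐ[μ] Y) : cvar m μ X = cvar m μ Y := by
  refine integral_congr_ae ?_
  filter_upwards [res_congr (m := m) h] with ω hω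
  rw [hω]
lemma cvar_le_sq (hm : m ≤ m0) {X Z : Ω → ℝ} (hX : BM X) (hZ : Measurable[m] Z)
    (hb : ∃ C, ∀ ω, |Z ω| ≤ C) : cvar m μ X ≤ ∫ ω, (X ω - Z ω) ^ 2 ∂μ := by
  have hZb : BM Z := ⟨hZ.mono hm le_rfl, hb⟩
  obtain ⟨B, hBm, hB, hBe⟩ := exists_condExp_BM (μ := μ) hm hX
  have h0 := integral_res_mul (μ := μ) hm hX (Ψ := fun ω => B ω - Z ω)
    (Measurable.sub (m := m) hBm hZ) (hB.sub hZb).bdd
  have hi : Integrable (fun ω => res m μ X ω * (B ω - Z ω)) μ := by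
    obtain ⟨R, hR, hRe⟩ := exists_res_BM (μ := μ) hm hX
    refine ((hR.mul (hB.sub hZb)).integrable μ).congr ?_
    filter_upwards [hRe] with ω hω
    rw [hω]
  calc cvar m μ X = ∫ ω, (res m μ X ω ^ 2 + 2 * (res m μ X ω * (B ω - Z ω))) ∂μ := by
        rw [integral_add (integrable_res_sq hm hX) (hi.const_mul 2), integral_const_mul, h0]
        simp [cvar]
    _ ≤ ∫ ω, (X ω - Z ω) ^ 2 ∂μ := by
        refine integral_mono_ae ((integrable_res_sq hm hX).add (hi.const_mul 2))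
          (((hX.sub hZb).pow 2).integrable μ) ?_
        filter_upwards [hBe] with ω hω
        simp only [res, ← hω]
        nlinarith [sq_nonneg (B ω - Z ω)]
lemma cvar_le_integral_sq (hm : m ≤ m0) {X : Ω → ℝ} (hX : BM X) :
    cvar m μ X ≤ ∫ ω, X ω ^ 2 ∂μ := by
  simpa using cvar_le_sq (μ := μ) hm hX (Z := fun _ => 0) measurable_const ⟨0, fun _ => by simp⟩
lemma cvar_add_le (hm : m ≤ m0) {X Y : Ω → ℝ} (hX : BM X) (hY : BM Y) {η : ℝ} (hη : 0 < η) :
    cvar m μ (fun ω => X ω + Y ω) ≤ (1 + η⁻¹) * cvar m μ X + (1 + η) * cvar m μ Y := by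
  simp only [cvar]
  rw [← integral_const_mul, ← integral_const_mul, ← integral_add
    ((integrable_res_sq hm hX).const_mul _) ((integrable_res_sq hm hY).const_mul _)]
  refine integral_mono_ae (integrable_res_sq hm (hX.add hY))
    (((integrable_res_sq hm hX).const_mul _).add ((integrable_res_sq hm hY).const_mul _)) ?_
  filter_upwards [res_add (m := m) (μ := μ) hX hY] with ω hω
  rw [hω]
  set x := res m μ X ω
  set y := res m μ Y ω
  have h1 : 0 ≤ η⁻¹ * (x - η * y) ^ 2 := by positivity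
  have h2 : η⁻¹ * (x - η * y) ^ 2 = η⁻¹ * x ^ 2 - 2 * x * y + η * y ^ 2 := by
    field_simp
    ring
  nlinarith
lemma cvar_const_mul (hm : m ≤ m0) {X : Ω → ℝ} (hX : BM X) (c : ℝ) :
    cvar m μ (fun ω => c * X ω) = c ^ 2 * cvar m μ X := by
  simp only [cvar]
  rw [← integral_const_mul]
  refine integral_congr_ae ?_
  filter_upwards [condExp_smul (μ := μ) c X m] with ω hω
  have h0 : (fun ω => c * X ω) = c • X := rfl
  simp only [res]
  rw [h0, hω]
  simp only [Pi.smul_apply, smul_eq_mul]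
  ring
/-- Lipschitz functions contract the conditional variance. -/
lemma cvar_lipschitz (hm : m ≤ m0) {X : Ω → ℝ} (hX : Measurable X) {a b : ℝ}
    (hab : ∀ ω, X ω ∈ Set.Icc a b) {φ : ℝ → ℝ} (hφ : Measurable φ) {L : ℝ}
    (hL : ∀ x ∈ Set.Icc a b, ∀ y ∈ Set.Icc a b, |φ x - φ y| ≤ L * |x - y|) :
    cvar m μ (fun ω => φ (X ω)) ≤ L ^ 2 * cvar m μ X := by
  obtain ⟨Z, hZm, hZ, hZe⟩ := exists_condExp_version (μ := μ) hm hX hab
  have hXb : BM X := ⟨hX, max |a| |b|, fun ω => abs_le_max_abs_abs (hab ω).1 (hab ω).2⟩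
  have hbd : ∀ x ∈ Set.Icc a b, |φ x| ≤ |φ a| + |L| * (b - a) := by
    intro x hx
    have h1 := hL x hx a ⟨le_rfl, hx.1.trans hx.2⟩
    have h2 : |x - a| ≤ b - a := by
      rw [abs_of_nonneg (sub_nonneg.2 hx.1)]
      linarith [hx.2]
    have h3 : L * |x - a| ≤ |L| * (b - a) :=
      mul_le_mul (le_abs_self L) h2 (abs_nonneg _) (abs_nonneg _)
    have h4 := abs_sub_abs_le_abs_sub (φ x) (φ a)
    linarith
  have hφX : BM fun ω => φ (X ω) := ⟨hφ.comp hX, _, fun ω => hbd _ (hab ω)⟩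
  have hφZ : BM fun ω => φ (Z ω) := ⟨hφ.comp (hZm.mono hm le_rfl), _, fun ω => hbd _ (hZ ω)⟩
  refine (cvar_le_sq hm hφX (Z := fun ω => φ (Z ω)) (hφ.comp hZm) hφZ.bdd).trans ?_
  simp only [cvar]
  rw [← integral_const_mul]
  refine integral_mono_ae (((hφX.sub hφZ).pow 2).integrable μ)
    ((integrable_res_sq hm hXb).const_mul _) ?_
  filter_upwards [hZe] with ω hω
  simp only [res, ← hω]
  have h1 := hL _ (hab ω) _ (hZ ω)
  calc (φ (X ω) - φ (Z ω)) ^ 2 = |φ (X ω) - φ (Z ω)| ^ 2 := (sq_abs _).symm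
    _ ≤ (L * |X ω - Z ω|) ^ 2 := pow_le_pow_left₀ (abs_nonneg _) h1 2
    _ = L ^ 2 * (X ω - Z ω) ^ 2 := by rw [mul_pow, sq_abs]
lemma ae_eq_condExp_of_cvar_eq_zero (hm : m ≤ m0) {X : Ω → ℝ} (hX : BM X) (h : cvar m μ X = 0) :
    X =ᵐ[μ] μ[X | m] := by
  have h1 := (integral_eq_zero_iff_of_nonneg (fun ω => sq_nonneg (res m μ X ω))
    (integrable_res_sq hm hX)).1 h
  filter_upwards [h1] with ω hω
  have h2 : res m μ X ω = 0 := pow_eq_zero_iff (two_ne_zero) |>.1 hω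
  exact sub_eq_zero.1 h2

/-- conditional expectations commute with measure preserving maps that preserve `m` -/
lemma condExp_comp (hm : m ≤ m0) {f : Ω → Ω} (hf : MeasurePreserving f μ μ) (hfm : m.comap f = m)
    {X : Ω → ℝ} (hX : Integrable X μ) :
    μ[fun ω => X (f ω) | m] =ᵐ[μ] fun ω => (μ[X | m]) (f ω) := by
  have hfmm : Measurable[m, m] f := Measurable.of_comap_le hfm.le
  have key : ∀ (g : Ω → ℝ), Integrable g μ → ∀ B : Set Ω, MeasurableSet B →
      ∫ ω in f ⁻¹' B, g (f ω) ∂μ = ∫ ω in B, g ω ∂μ := by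
    intro g hg B hB
    have h1 : AEStronglyMeasurable g (μ.map f) := by
      rw [hf.map_eq]
      exact hg.aestronglyMeasurable
    rw [← setIntegral_map hB h1 hf.measurable.aemeasurable, hf.map_eq]
  symm
  refine ae_eq_condExp_of_forall_setIntegral_eq hm (hf.integrable_comp_of_integrable hX)
    (fun A _ _ => (hf.integrable_comp_of_integrable integrable_condExp).integrableOn)
    (fun A hA _ => ?_) ?_
  · rw [← hfm] at hA
    obtain ⟨B, hB, rfl⟩ := hA
    rw [key _ integrable_condExp B (hm B hB), key _ hX B (hm B hB), setIntegral_condExp hm hX hB]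
  · exact (stronglyMeasurable_condExp.comp_measurable hfmm).aestronglyMeasurable
lemma res_comp (hm : m ≤ m0) {f : Ω → Ω} (hf : MeasurePreserving f μ μ) (hfm : m.comap f = m)
    {X : Ω → ℝ} (hX : BM X) :
    res m μ (fun ω => X (f ω)) =ᵐ[μ] fun ω => res m μ X (f ω) := by
  filter_upwards [condExp_comp hm hf hfm (hX.integrable μ)] with ω hω
  simp only [res, hω]
lemma cvar_comp (hm : m ≤ m0) {f : Ω → Ω} (hf : MeasurePreserving f μ μ) (hfm : m.comap f = m)
    {X : Ω → ℝ} (hX : BM X) : cvar m μ (fun ω => X (f ω)) = cvar m μ X := by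
  simp only [cvar]
  calc ∫ ω, res m μ (fun ω => X (f ω)) ω ^ 2 ∂μ = ∫ ω, res m μ X (f ω) ^ 2 ∂μ := by
        refine integral_congr_ae ?_
        filter_upwards [res_comp hm hf hfm hX] with ω hω
        rw [hω]
    _ = ∫ ω, res m μ X ω ^ 2 ∂(μ.map f) :=
        (integral_map hf.measurable.aemeasurable
          ((measurable_res hm hX.meas).pow_const 2).aestronglyMeasurable).symm
    _ = ∫ ω, res m μ X ω ^ 2 ∂μ := by rw [hf.map_eq]

lemma abs_exp_neg_sub_le {a b s : ℝ} (ha : s ≤ a) (hb : s ≤ b) :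
    |Real.exp (-a) - Real.exp (-b)| ≤ Real.exp (-s) * |a - b| := by
  have key : ∀ x y : ℝ, s ≤ x → x ≤ y →
      0 ≤ Real.exp (-x) - Real.exp (-y) ∧
        Real.exp (-x) - Real.exp (-y) ≤ Real.exp (-s) * (y - x) := by
    intro x y hx hxy
    refine ⟨sub_nonneg.2 (Real.exp_le_exp.2 (by linarith)), ?_⟩
    have h1 : Real.exp (-y) = Real.exp (-x) * Real.exp (-(y - x)) := by
      rw [← Real.exp_add]
      congr 1
      ring
    have h2 := Real.add_one_le_exp (-(y - x))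
    have h3 : Real.exp (-x) ≤ Real.exp (-s) := Real.exp_le_exp.2 (by linarith)
    have h4 := Real.exp_pos (-x)
    rw [h1]
    nlinarith [mul_le_mul_of_nonneg_right h3 (sub_nonneg.2 hxy)]
  rcases le_total a b with h | h
  · obtain ⟨h1, h2⟩ := key a b ha h
    rw [abs_of_nonneg h1, abs_sub_comm, abs_of_nonneg (sub_nonneg.2 h)]
    exact h2
  · obtain ⟨h1, h2⟩ := key b a hb h
    rw [abs_sub_comm, abs_of_nonneg h1, abs_of_nonneg (sub_nonneg.2 h)]
    exact h2

lemma sq_exp_neg_sub_le {a b s : ℝ} (ha : s ≤ a) (hb : s ≤ b) :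
    (Real.exp (-a) - Real.exp (-b)) ^ 2 ≤ Real.exp (-(2 * s)) * (a - b) ^ 2 := by
  calc (Real.exp (-a) - Real.exp (-b)) ^ 2 = |Real.exp (-a) - Real.exp (-b)| ^ 2 := (sq_abs _).symm
    _ ≤ (Real.exp (-s) * |a - b|) ^ 2 :=
        pow_le_pow_left₀ (abs_nonneg _) (abs_exp_neg_sub_le ha hb) 2
    _ = Real.exp (-(2 * s)) * (a - b) ^ 2 := by
        rw [mul_pow, sq_abs, ← Real.exp_nat_mul]
        congr 2
        push_cast
        ring

open Classical in
/-- Thresholding.  Competitor `exp (-A')` with `A'` a nonnegative version of `E[A|m]`;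
`|e^{-a} - e^{-b}| ≤ |a-b| e^{-min a b}`; and `A' < s₀` forces `P(A < 2 s₀ | m) > 1/2`. -/
lemma cvar_exp_neg_le (hm : m ≤ m0) {A : Ω → ℝ} (hA : BM A) (hA0 : ∀ ω, 0 ≤ A ω) {s₀ : ℝ}
    (hs : 0 ≤ s₀) :
    cvar m μ (fun ω => Real.exp (-A ω)) ≤
      Real.exp (-(2 * s₀)) * cvar m μ A +
        ∫ ω, res m μ A ω ^ 2 * (if A ω < 2 * s₀ then 1 else 0) ∂μ +
        2 * ∫ ω, res m μ A ω ^ 2 * (μ[fun ω => if A ω < 2 * s₀ then (1 : ℝ) else 0 | m]) ω ∂μ := by
  obtain ⟨C, hC⟩ := hA.bdd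
  obtain ⟨Z, hZm, hZ, hZe⟩ := exists_condExp_version (μ := μ) hm hA.meas (a := 0) (b := C)
    fun ω => ⟨hA0 ω, (le_abs_self _).trans (hC ω)⟩
  have hZb : BM Z := ⟨hZm.mono hm le_rfl, C, fun ω => by
    rw [abs_of_nonneg (hZ ω).1]; exact (hZ ω).2⟩
  have hcont : Continuous fun x : ℝ => Real.exp (-x) := by fun_prop
  have hI : BM fun ω => if A ω < 2 * s₀ then (1 : ℝ) else 0 :=
    BM.ite (measurableSet_lt hA.meas measurable_const) (BM.const 1) (BM.const 0)
  set J : Ω → ℝ := fun ω => if A ω < 2 * s₀ then (1 : ℝ) else 0 with hJ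
  obtain ⟨P, hPm, hP, hPe⟩ := exists_condExp_version (μ := μ) hm hI.meas (a := 0) (b := 1)
    fun ω => by simp only [hJ]; split_ifs <;> simp
  have hPb : BM P := ⟨hPm.mono hm le_rfl, 1, fun ω => by
    rw [abs_of_nonneg (hP ω).1]; exact (hP ω).2⟩
  -- conditional Markov inequality
  have hmk : ∀ᵐ ω ∂μ, 2 * s₀ ≤ Z ω + 2 * s₀ * P ω := by
    have h1 := condExp_mono (m := m) (μ := μ) (f := fun _ => 2 * s₀) (g := A + (2 * s₀) • J)
      (integrable_const _) ((hA.integrable μ).add ((hI.integrable μ).smul _))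
      (Eventually.of_forall fun ω => by
        simp only [hJ, Pi.add_apply, Pi.smul_apply, smul_eq_mul]
        split_ifs with h
        · linarith [hA0 ω]
        · linarith)
    rw [condExp_const hm] at h1
    filter_upwards [h1, condExp_add (hA.integrable μ) ((hI.integrable μ).smul (2 * s₀)) m,
      condExp_smul (μ := μ) (2 * s₀) J m, hZe, hPe] with ω h1 h2 h3 h4 h5
    rw [h2, Pi.add_apply, h3, Pi.smul_apply, smul_eq_mul, ← h4, ← h5] at h1
    exact h1
  have hi1 := integrable_res_sq (μ := μ) hm hA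
  have hi2 : Integrable (fun ω => res m μ A ω ^ 2 * J ω) μ := by
    simpa only [sq] using integrable_res_mul (μ := μ) hm hA hA hI
  have hi3 : Integrable (fun ω => res m μ A ω ^ 2 * P ω) μ := by
    simpa only [sq] using integrable_res_mul (μ := μ) hm hA hA hPb
  have he : ∫ ω, res m μ A ω ^ 2 * (μ[J | m]) ω ∂μ = ∫ ω, res m μ A ω ^ 2 * P ω ∂μ := by
    refine integral_congr_ae ?_
    filter_upwards [hPe] with ω hω
    rw [hω]
  refine (cvar_le_sq hm (hA.comp_continuous hcont) (Z := fun ω => Real.exp (-Z ω))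
    (hcont.measurable.comp hZm) (hZb.comp_continuous hcont).bdd).trans ?_
  have hi12 : Integrable (fun ω => Real.exp (-(2 * s₀)) * res m μ A ω ^ 2 +
      res m μ A ω ^ 2 * J ω) μ := (hi1.const_mul _).add hi2
  rw [he, cvar, ← integral_const_mul, ← integral_const_mul,
    ← integral_add (hi1.const_mul _) hi2,
    ← integral_add hi12 (hi3.const_mul _)]
  refine integral_mono_ae
    ((((hA.comp_continuous hcont).sub (hZb.comp_continuous hcont)).pow 2).integrable μ)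
    (hi12.add (hi3.const_mul _)) ?_
  filter_upwards [hZe, hmk] with ω h1 h2
  simp only [res, ← h1]
  have hsq := sq_nonneg (A ω - Z ω)
  have hJ0 : 0 ≤ J ω := by simp only [hJ]; split_ifs <;> simp
  have hP0 := (hP ω).1
  have hE := Real.exp_pos (-(2 * s₀))
  have hb0 : (Real.exp (-A ω) - Real.exp (-Z ω)) ^ 2 ≤ (A ω - Z ω) ^ 2 := by
    simpa using sq_exp_neg_sub_le (hA0 ω) (hZ ω).1
  by_cases ha : A ω < s₀
  · have : J ω = 1 := by simp only [hJ]; rw [if_pos (by linarith)]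
    rw [this]
    nlinarith [mul_nonneg hE.le hsq, mul_nonneg hsq hP0]
  · by_cases hz : Z ω < s₀
    · have hs' : 0 < s₀ := (hZ ω).1.trans_lt hz
      have h3 : 1 ≤ 2 * P ω := by nlinarith
      nlinarith [mul_nonneg hE.le hsq, mul_nonneg hsq hJ0, mul_le_mul_of_nonneg_left h3 hsq]
    · have := sq_exp_neg_sub_le (not_lt.1 ha) (not_lt.1 hz)
      nlinarith [mul_nonneg hsq hJ0, mul_nonneg hsq hP0]

end res

end Crest.Agent.R160
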