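import Crest.Agent.R160.Model0
import Crest.Agent.R160.Cav
import Crest.Agent.R160.Prod
import Crest.Agent.R160.Res

/-!
# Row 160 (S0241): Model1
The model: measurability, bounds, the spins, explicit formulas for the field `Y`.
-/

set_option autoImplicit false

open MeasureTheory Filter Topology
open scoped unitInterval

noncomputable section

namespace Crest.Agent.R160

universe u

namespace Setup

variable {V : Type u} (S : Setup V)

variable {S}

/-! ### times -/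
lemma sv_nonneg (a : V × ℕ) (ω : Om V) : 0 ≤ sv a ω := (ω (Idx.time a.1 a.2)).1.2.1
lemma sv_le_one (a : V × ℕ) (ω : Om V) : sv a ω ≤ 1 := (ω (Idx.time a.1 a.2)).1.2.2
lemma le_T (a : V × ℕ) (ω : Om V) : (a.2 : ℝ) ≤ T a ω := by
  have := sv_nonneg a ω
  unfold T tm
  linarith
lemma T_le (a : V × ℕ) (ω : Om V) : T a ω ≤ a.2 + 2 := by
  have := sv_le_one a ω
  unfold T tm
  linarith
lemma isTime_const {r : ℝ} {J : ℕ} (h : r ≤ J) : IsTime (fun _ : Om V => r) J :=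
  ⟨measurable_const, fun _ _ _ => rfl, fun _ => h⟩
lemma isTime_T (a : V × ℕ) : IsTime (T a) (a.2 + 2) := by
  refine ⟨measurable_T a, fun ω ω' h => ?_, fun ω => ?_⟩
  · unfold T sv
    rw [h (Idx.time a.1 a.2) (Or.inr ⟨a.1, a.2, rfl⟩)]
  · push_cast
    exact T_le a ω
lemma isTime_rho {r : X → ℝ} (hr : Measurable r) {J : ℕ} (h : ∀ ξ, r ξ ≤ J) :
    IsTime (fun ω : Om V => r (ω Idx.rho)) J := by
  refine ⟨hr.comp (measurable_pi_apply _), fun ω ω' hω => ?_, fun ω => h _⟩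
  rw [hω Idx.rho (Or.inl rfl)]
lemma tm_cut_lt_iff {r r' : ℝ} (h : r ≤ r') (l : V → Lab) (v : V) (j : ℕ) :
    tm j ((cut r' l v j).1 : ℝ) < r ↔ tm j ((l v j).1 : ℝ) < r := by
  unfold cut
  split_ifs with h1
  · exact Iff.rfl
  · have h2 : ((l v j).1 : ℝ) ≤ 1 := (l v j).1.2.2
    have h3 : tm j ((l v j).1 : ℝ) ≤ tm j (((1 : I) : ℝ)) := by
      unfold tm
      rw [Set.Icc.coe_one]
      linarith
    exact iff_of_false (by change ¬ tm j (((1 : I) : ℝ)) < r; linarith) (by linarith)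
lemma cut_cut {r r' : ℝ} (h : r ≤ r') (l : V → Lab) : cut r (cut r' l) = cut r l := by
  funext v j
  have h0 := tm_cut_lt_iff h l v j
  by_cases h1 : tm j ((l v j).1 : ℝ) < r
  · have e1 : cut r (cut r' l) v j = cut r' l v j := if_pos (h0.2 h1)
    have e2 : cut r' l v j = l v j := if_pos (h1.trans_le h)
    have e3 : cut r l v j = l v j := if_pos h1
    rw [e1, e2, e3]
  · have e1 : cut r (cut r' l) v j = (1, 0) := if_neg (fun h2 => h1 (h0.1 h2))
    have e3 : cut r l v j = (1, 0) := if_neg h1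
    rw [e1, e3]

/-! ### bounds -/
lemma eps_nonneg (a : V × ℕ) (ω : Om V) : 0 ≤ eps a ω := amp_nonneg _ (sv_nonneg a ω)
lemma eps_le_half (a : V × ℕ) (ω : Om V) : eps a ω ≤ 1 / 2 := amp_le_half _ _
lemma abs_eps_le (a : V × ℕ) (ω : Om V) : |eps a ω| ≤ 1 / 2 := by
  rw [abs_of_nonneg (eps_nonneg a ω)]
  exact eps_le_half a ω
lemma abs_wt_le (a : V × ℕ) (ω : Om V) : |wt a ω| ≤ 1 :=
  abs_Qf_le (abs_eps_le a ω) (ω (Idx.noise a.1 a.2)).1.2.1 (ω (Idx.noise a.1 a.2)).1.2.2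
lemma abs_eps_mul_wt_le_eps (a : V × ℕ) (ω : Om V) : |eps a ω * wt a ω| ≤ eps a ω := by
  rw [abs_mul, abs_of_nonneg (eps_nonneg a ω)]
  exact mul_le_of_le_one_right (eps_nonneg a ω) (abs_wt_le a ω)
lemma abs_eps_mul_wt_le (a : V × ℕ) (ω : Om V) : |eps a ω * wt a ω| ≤ 1 / 2 :=
  (abs_eps_mul_wt_le_eps a ω).trans (eps_le_half a ω)
lemma abs_zeta_le (a : V × ℕ) (r : ℝ) (ω : Om V) : |zeta a r ω| ≤ 1 := by
  unfold zeta
  split_ifs
  · have h := abs_eps_mul_wt_le a ω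
    linarith [abs_artanh_le h]
  · simp
lemma abs_tanh_zeta_le (a : V × ℕ) (r : ℝ) (ω : Om V) : |Real.tanh (zeta a r ω)| ≤ 1 / 2 := by
  unfold zeta
  split_ifs
  · have h := abs_eps_mul_wt_le a ω
    have h' := abs_le.1 h
    rw [Real.tanh_artanh ⟨by linarith [h'.1], by linarith [h'.2]⟩]
    exact h
  · simp
lemma zeta_eq_zero {a : V × ℕ} {r : ℝ} (h : r ≤ a.2) (ω : Om V) : zeta a r ω = 0 :=
  if_neg (not_lt.2 (h.trans (le_T a ω)))
lemma eta_eq (x y : V) (ω : Om V) : S.eta x y ω = 1 ∨ S.eta x y ω = -1 := by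
  unfold eta
  split_ifs
  · exact Or.inl rfl
  · exact Or.inr rfl
lemma eta_symm (x y : V) : S.eta x y = S.eta y x := by
  funext ω
  unfold eta
  rw [Sym2.eq_swap]
lemma eta_mul_self (x y : V) (ω : Om V) : S.eta x y ω * S.eta x y ω = 1 := by
  rcases eta_eq (S := S) x y ω with h | h <;> rw [h] <;> norm_num
lemma sgn_eq (b : Bool) : sgn b = 1 ∨ sgn b = -1 := by
  cases b <;> simp [sgn]
lemma pm_mul {a b : ℝ} (ha : a = 1 ∨ a = -1) (hb : b = 1 ∨ b = -1) : a * b = 1 ∨ a * b = -1 := by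
  rcases ha with rfl | rfl <;> rcases hb with rfl | rfl <;> norm_num
lemma spin_eq (v : V) (ω : Om V) : S.spin v ω = 1 ∨ S.spin v ω = -1 := by
  unfold spin
  refine pm_mul (sgn_eq _) ?_
  exact Finset.prod_induction _ (fun a : ℝ => a = 1 ∨ a = -1) (fun _ _ => pm_mul) (Or.inl rfl)
    fun i _ => eta_eq _ _ _
lemma spin_mul_self (v : V) (ω : Om V) : S.spin v ω * S.spin v ω = 1 := by
  rcases spin_eq (S := S) v ω with h | h <;> rw [h] <;> norm_num
lemma abs_spin (v : V) (ω : Om V) : |S.spin v ω| = 1 := by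
  rcases spin_eq (S := S) v ω with h | h <;> rw [h] <;> norm_num
lemma spin_o (ω : Om V) : S.spin S.o ω = sgn (ω Idx.root).2 := by
  simp [spin]
lemma spin_par {y : V} (h : y ≠ S.o) (ω : Om V) :
    S.spin y ω = S.spin (S.par S.o y) ω * S.eta y (S.par S.o y) ω := by
  have h1 := dist_par (S := S) h
  unfold spin
  rw [SimpleGraph.dist_comm (u := y), SimpleGraph.dist_comm (u := S.par S.o y), ← h1,
    Finset.prod_range_succ', mul_assoc]
  simp only [geod_succ' y S.o, geod_zero]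
lemma spin_adj {x y : V} (h : S.G.Adj x y) (ω : Om V) :
    S.spin y ω = S.spin x ω * S.eta x y ω := by
  have key : ∀ {x y : V}, S.G.Adj x y → S.G.dist S.o y = S.G.dist S.o x + 1 →
      S.spin y ω = S.spin x ω * S.eta x y ω := by
    intro x y h hd
    have hy : y ≠ S.o := by
      rintro rfl
      simp at hd
    have e : x = S.par S.o y := eq_par h.symm (by omega)
    rw [spin_par hy, ← e, eta_symm]
  rcases dist_adj h S.o with hd | hd
  · rw [key h.symm hd, eta_symm y x, mul_assoc, eta_mul_self, mul_one]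
  · exact key h hd
lemma abs_w_le (a : V × ℕ) (ω : Om V) : |S.w a ω| ≤ 1 := by
  unfold w
  rw [abs_mul, abs_spin, one_mul]
  exact abs_wt_le a ω
lemma abs_tau_le (a : V × ℕ) (ω : Om V) : |S.tau a ω| ≤ eps a ω := by
  unfold tau
  rw [abs_mul, abs_of_nonneg (eps_nonneg a ω)]
  exact mul_le_of_le_one_right (eps_nonneg a ω) (abs_w_le a ω)
lemma abs_tau_le_half (a : V × ℕ) (ω : Om V) : |S.tau a ω| ≤ 1 / 2 :=
  (abs_tau_le a ω).trans (eps_le_half a ω)
lemma abs_div_one_add_le {m τ : ℝ} (hm : |m| ≤ 1) (hτ : |τ| ≤ 1 / 2) : |τ / (1 + m * τ)| ≤ 1 := by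
  have h1 : |m * τ| ≤ 1 / 2 := by
    rw [abs_mul]
    exact (mul_le_of_le_one_left (abs_nonneg _) hm).trans hτ
  have h2 := (abs_le.1 h1).1
  rw [abs_div, abs_of_pos (show 0 < 1 + m * τ by linarith), div_le_one (by linarith)]
  linarith
lemma jump_sq_le_cov (D : Set V) (a : V × ℕ) (ω : Om V) :
    S.jump D a ω ^ 2 ≤ S.cov (S.Y D (T a ω) ω) (S.geod S.o a.1) (S.G.dist S.o a.1) ^ 2 := by
  unfold jump
  rw [mul_pow]
  refine mul_le_of_le_one_right (sq_nonneg _) ?_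
  rw [← sq_abs]
  exact pow_le_one₀ (abs_nonneg _) (abs_div_one_add_le (abs_mag_le _ _) (abs_tau_le_half a ω))
lemma abs_jump_le (D : Set V) (a : V × ℕ) (ω : Om V) : |S.jump D a ω| ≤ 1 := by
  have h1 := jump_sq_le_cov (S := S) D a ω
  have h2 := pow_le_one₀ (n := 2)
    (cov_nonneg (S := S) (S.Y D (T a ω) ω) (S.geod S.o a.1) (S.G.dist S.o a.1)) (cov_le_one _ _ _)
  exact (sq_le_one_iff_abs_le_one _).1 (h1.trans h2)
lemma BM_spin (v : V) : BM (S.spin v) := ⟨measurable_spin v, 1, fun ω => (abs_spin v ω).le⟩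
lemma BM_eta (x y : V) : BM (S.eta x y) := by
  refine ⟨measurable_eta x y, 1, fun ω => ?_⟩
  rcases eta_eq (S := S) x y ω with h | h <;> rw [h] <;> norm_num
lemma BM_zeta (a : V × ℕ) (r : ℝ) : BM (zeta a r) :=
  ⟨(measurable_zeta a).comp (measurable_const.prodMk measurable_id), 1, abs_zeta_le a r⟩
lemma BM_mR {R : Om V → ℝ} (hR : Measurable R) (v : V) : BM (S.mR R v) :=
  ⟨measurable_mR hR v, 1, fun _ => abs_mag_le _ _⟩
lemma BM_jump (D : Set V) (a : V × ℕ) : BM (S.jump D a) :=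
  ⟨measurable_jump D a, 1, abs_jump_le D a⟩

/-! ### the field -/
open Classical in
lemma Y_eq_tsum (D : Set V) (r : ℝ) (ω : Om V) (v : V) :
    S.Y D r ω v =
      ∑' j : ℕ, if T (v, j) ω < r ∧ v ∈ D then Real.artanh (S.tau (v, j) ω) else 0 := by
  unfold Y fld seen
  refine tsum_congr fun j => ?_
  dsimp only
  split_ifs
  · rfl
  · rw [mul_zero, Real.artanh_zero]

open Classical in
lemma Y_eq_sum (D : Set V) {r : ℝ} {J : ℕ} (hr : r ≤ J) (ω : Om V) (v : V) :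
    S.Y D r ω v =
      ∑ j ∈ Finset.range J, if T (v, j) ω < r ∧ v ∈ D then Real.artanh (S.tau (v, j) ω) else 0 := by
  rw [Y_eq_tsum]
  refine tsum_eq_sum fun j hj => if_neg ?_
  rintro ⟨h1, -⟩
  have h2 : (J : ℝ) ≤ j := by exact_mod_cast not_lt.1 (fun h => hj (Finset.mem_range.2 h))
  have h3 : (j : ℝ) ≤ T (v, j) ω := le_T (v, j) ω
  linarith
lemma artanh_tau (a : V × ℕ) (ω : Om V) :
    Real.artanh (S.tau a ω) = S.spin a.1 ω * Real.artanh (eps a ω * wt a ω) := by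
  unfold tau w
  rcases spin_eq (S := S) a.1 ω with h | h <;> rw [h]
  · rw [one_mul, one_mul]
  · rw [neg_one_mul, neg_one_mul, mul_neg, artanh_neg']
    linarith [abs_eps_mul_wt_le a ω]
lemma Y_eq_spin_mul {D : Set V} {r : ℝ} {J : ℕ} (hr : r ≤ J) (ω : Om V) {v : V} (hv : v ∈ D) :
    S.Y D r ω v = S.spin v ω * ∑ j ∈ Finset.range J, zeta (v, j) r ω := by
  rw [Y_eq_sum D hr, Finset.mul_sum]
  refine Finset.sum_congr rfl fun j _ => ?_
  unfold zeta
  by_cases h : T (v, j) ω < r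
  · rw [if_pos ⟨h, hv⟩, if_pos h, artanh_tau]
  · rw [if_neg (fun h' => h h'.1), if_neg h, mul_zero]
lemma Y_of_not_mem {D : Set V} (r : ℝ) (ω : Om V) {v : V} (hv : v ∉ D) : S.Y D r ω v = 0 := by
  rw [Y_eq_tsum]
  simp [hv]
lemma Y_inter (D D' : Set V) (r : ℝ) (ω : Om V) :
    S.Y (D ∩ D') r ω = D'.indicator (S.Y D r ω) := by
  funext v
  by_cases hv : v ∈ D'
  · rw [Set.indicator_of_mem hv, Y_eq_tsum, Y_eq_tsum]
    refine tsum_congr fun j => ?_
    by_cases h : T (v, j) ω < r ∧ v ∈ D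
    · rw [if_pos h, if_pos ⟨h.1, h.2, hv⟩]
    · rw [if_neg h, if_neg fun h' => h ⟨h'.1, h'.2.1⟩]
  · rw [Set.indicator_of_notMem hv, Y_of_not_mem r ω fun h => hv h.2]
lemma abs_Y_le (D : Set V) {r : ℝ} {J : ℕ} (hr : r ≤ J) (ω : Om V) (v : V) : |S.Y D r ω v| ≤ J := by
  by_cases hv : v ∈ D
  · rw [Y_eq_spin_mul hr ω hv, abs_mul, abs_spin, one_mul]
    refine (Finset.abs_sum_le_sum_abs _ _).trans ?_
    refine (Finset.sum_le_sum fun j _ => abs_zeta_le (v, j) r ω).trans ?_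
    simp
  · rw [Y_of_not_mem r ω hv]
    simp
lemma abs_zeta_le_small {v : V} {r : ℝ} (hr0 : 0 ≤ r) (hr : r ≤ 1) (ω : Om V) :
    |zeta (v, 0) r ω| ≤ r := by
  unfold zeta
  split_ifs with h
  · have h1 := abs_artanh_le (abs_eps_mul_wt_le (v, 0) ω)
    have h2 := abs_eps_mul_wt_le_eps (v, 0) ω
    have h3 : eps (v, 0) ω ≤ min r 1 / 2 := amp_le_of_tm_le 0 hr0 h.le
    rw [min_eq_left hr] at h3
    linarith
  · simpa using hr0
lemma abs_cav_Y_le (D : Set V) {r : ℝ} {J : ℕ} (hr : r ≤ J) (ω : Om V) (y x : V) :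
    |S.cav (S.Y D r ω) y x| ≤ J + S.d :=
  abs_cav_le (abs_Y_le D hr ω y) x
lemma abs_XX (r : ℝ) (y x : V) (ω : Om V) : |S.XX r y x ω| = |S.cav (S.Y Set.univ r ω) y x| := by
  unfold XX
  rw [abs_mul, abs_spin, one_mul]
lemma abs_XX_le {r : ℝ} {J : ℕ} (hr : r ≤ J) (y x : V) (ω : Om V) : |S.XX r y x ω| ≤ J + S.d := by
  rw [abs_XX]
  exact abs_cav_Y_le _ hr ω y x
lemma alpha_XX (r : ℝ) (y x : V) (ω : Om V) :
    alpha S.θ (S.XX r y x ω) = alpha S.θ (S.cav (S.Y Set.univ r ω) y x) := by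
  unfold XX
  rcases spin_eq (S := S) y ω with h | h <;> rw [h]
  · rw [one_mul]
  · rw [neg_one_mul, alpha_neg S.hθ0 S.theta_sq_le]
lemma BM_XX (r : ℝ) (y x : V) : BM (S.XX r y x) :=
  ⟨(measurable_XX y x).comp (measurable_const.prodMk measurable_id), _,
    abs_XX_le (Nat.le_ceil r) y x⟩
lemma BM_cav (D : Set V) {R : Om V → ℝ} {J : ℕ} (hR : IsTime R J) (y x : V) :
    BM fun ω => S.cav (S.Y D (R ω) ω) y x :=
  ⟨(measurable_cav y x).comp (measurable_YR D hR.meas), _,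
    fun ω => abs_cav_Y_le D (hR.le ω) ω y x⟩
lemma good_Y_finset (Λ : Finset V) (r : ℝ) (ω : Om V) : S.Good (S.Y Λ r ω) :=
  good_of_support (F := Λ) fun _ hv => Y_of_not_mem r ω fun h => hv (Finset.mem_coe.1 h)
lemma abs_eps_mul_mR_le (a : V × ℕ) (R : Om V → ℝ) (v : V) (ω : Om V) :
    |eps a ω * S.mR R v ω| ≤ 1 / 2 := by
  rw [abs_mul]
  exact (mul_le_of_le_one_right (abs_nonneg _) (abs_mag_le _ _)).trans (abs_eps_le a ω)
lemma coe_U (a : V × ℕ) (ω : Om V) :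
    (S.U a ω : ℝ) = Ff (eps a ω * S.mR (T a) a.1 ω) (S.w a ω) := by
  unfold U
  rw [Set.projIcc_of_mem _ (Ff_mem (abs_eps_mul_mR_le a _ _ ω) (abs_w_le a ω))]
/-- the innovation inverts the quantile function -/
lemma Qf_U (a : V × ℕ) (ω : Om V) : Qf (eps a ω * S.mR (T a) a.1 ω) (S.U a ω) = S.w a ω := by
  rw [coe_U, Qf_Ff (abs_eps_mul_mR_le a _ _ ω) (abs_w_le a ω)]
lemma jump_univ_eq (a : V × ℕ) (ω : Om V) :
    S.jump Set.univ a ω = S.cov (S.Y Set.univ (T a ω) ω) (S.geod S.o a.1) (S.G.dist S.o a.1) *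
      gj (eps a ω) (S.mR (T a) a.1 ω) (S.U a ω) := by
  unfold gj
  rw [Qf_U]
  rfl

/-! ### one-coordinate integrals -/
lemma integral_nu_fst' (φ : I → ℝ) : ∫ ξ, φ ξ.1 ∂nu = ∫ u, φ u := by
  unfold nu
  rw [integral_fun_fst, probReal_univ, one_smul]
lemma integral_nu_fst {φ : I → ℝ} (hφ : Measurable φ) : ∫ ξ, φ ξ.1 ∂nu = ∫ u, φ u :=
  integral_nu_fst' φ
lemma integral_coin (f : Bool → ℝ) : ∫ b, f b ∂coin = (f true + f false) / 2 := by
  unfold coin
  rw [integral_smul_measure, integral_add_measure Integrable.of_finite Integrable.of_finite,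
    integral_dirac, integral_dirac]
  simp
  ring
lemma integral_nu {φ : X → ℝ} (hφ : BM φ) :
    ∫ ξ, φ ξ ∂nu = ((∫ u : I, φ (u, true)) + ∫ u : I, φ (u, false)) / 2 := by
  have h := hφ.integrable nu
  unfold nu at h ⊢
  rw [integral_prod_symm _ h, integral_coin]
lemma integral_ite_lt {c : ℝ} (hc0 : 0 ≤ c) (hc1 : c ≤ 1) (a b : ℝ) :
    ∫ u : I, (if (u : ℝ) < c then a else b) = c * a + (1 - c) * b := by
  have e : (fun u : I => if (u : ℝ) < c then a else b) =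
      fun u : I => (Set.Iio (⟨c, hc0, hc1⟩ : I)).indicator (fun _ => a - b) u + b := by
    funext u
    by_cases h : (u : ℝ) < c
    · rw [if_pos h, Set.indicator_of_mem (show u ∈ Set.Iio (⟨c, hc0, hc1⟩ : I) from h)]
      ring
    · rw [if_neg h, Set.indicator_of_notMem (show u ∉ Set.Iio (⟨c, hc0, hc1⟩ : I) from h)]
      ring
  rw [e, integral_add ((integrable_const _).indicator measurableSet_Iio) (integrable_const _),
    integral_indicator measurableSet_Iio, setIntegral_const, integral_const, Measure.real,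
    unitInterval.volume_Iio, ENNReal.toReal_ofReal hc0]
  simp
  ring
lemma integral_eta (x y : V) (φ : ℝ → ℝ) :
    ∫ ω, φ (S.eta x y ω) ∂(mu V) = (1 + S.θ) / 2 * φ 1 + (1 - S.θ) / 2 * φ (-1) := by
  have h0 := S.hθ0
  have h1 := theta_le S.hθ0 S.theta_sq_le
  have hm : Measurable fun u : I => if (u : ℝ) < (1 + S.θ) / 2 then φ 1 else φ (-1) :=
    Measurable.ite (measurableSet_lt measurable_subtype_coe measurable_const) measurable_const
      measurable_const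
  have e : ∀ ω : Om V, φ (S.eta x y ω) =
      (fun ξ : X => if (ξ.1 : ℝ) < (1 + S.θ) / 2 then φ 1 else φ (-1)) (ω (Idx.edge s(x, y))) := by
    intro ω
    unfold eta
    beta_reduce
    split_ifs <;> rfl
  simp only [e]
  have h2 := integral_eval (ι := Idx V) nu (Idx.edge s(x, y)) (hm.comp measurable_fst)
  refine Eq.trans h2 ?_
  refine (integral_nu_fst' fun u : I => if (u : ℝ) < (1 + S.θ) / 2 then φ 1 else φ (-1)).trans ?_
  rw [integral_ite_lt (by linarith) (by linarith)]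
  ring
lemma integral_slot (a : V × ℕ) {φ : ℝ × ℝ → ℝ} (hφ : Measurable φ)
    (hb : ∃ C, ∀ s u : I, |φ (s, u)| ≤ C) :
    ∫ ω, φ (sv a ω, ((ω (Idx.noise a.1 a.2)).1 : ℝ)) ∂(mu V) = ∫ s : I, ∫ u : I, φ (s, u) := by
  obtain ⟨C, hC⟩ := hb
  have hB : BM fun p : X × X => φ ((p.1.1 : ℝ), (p.2.1 : ℝ)) :=
    ⟨hφ.comp (by fun_prop), C, fun p => hC _ _⟩
  have h := integral_eval_pair (ι := Idx V) nu (i := Idx.time a.1 a.2) (j := Idx.noise a.1 a.2)
    (fun h => by cases h) hB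
  refine Eq.trans h ?_
  rw [← integral_nu_fst' fun s : I => ∫ u : I, φ (s, u)]
  refine integral_congr_ae (Eventually.of_forall fun ξ => ?_)
  exact integral_nu_fst' fun u : I => φ (ξ.1, u)

end Setup

end Crest.Agent.R160
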