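import Crest.Agent.R160.Model1

/-!
# Row 160 (S0241): Model2
Symmetries: the global flip and the action of tree automorphisms.
`measurePreserving_act`: `act g ω` is `relab g ω` or its flip according to a condition that does not
depend on the root coordinate (`spin (g o) ω * spin o ω` is a product of `eta`s); use
`measurePreserving_update`/`integral_update` at `Idx.root`, or write the preimage of a set as a union of
two pieces.  `spin_act`: induction on `dist v o` using `spin_adj`.
-/

set_option autoImplicit false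

open MeasureTheory Filter Topology
open scoped unitInterval

noncomputable section

namespace Crest.Agent.R160

universe u

namespace Setup

variable {V : Type u} (S : Setup V)

variable {S}

lemma flip_flip (ω : Om V) : flip (flip ω) = ω := by
  funext i
  cases i <;> simp [flip]

lemma flip_apply {i : Idx V} (hi : i ≠ Idx.root) (ω : Om V) : flip ω i = ω i := by
  cases i <;> first | rfl | exact absurd rfl hi

lemma m2_coin_not : MeasurePreserving (fun b : Bool => !b) coin coin := by
  refine ⟨measurable_from_top, ?_⟩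
  unfold coin
  rw [Measure.map_smul, Measure.map_add _ _ measurable_from_top,
    Measure.map_dirac' measurable_from_top, Measure.map_dirac' measurable_from_top, add_comm]
  rfl

lemma measurePreserving_flip : MeasurePreserving (flip : Om V → Om V) (mu V) (mu V) := by
  classical
  have hneg : MeasurePreserving (Prod.map (id : I → I) (fun b : Bool => !b)) nu nu :=
    (MeasurePreserving.id _).prod m2_coin_not
  have hup : MeasurePreserving (fun p : Om V × X => Function.update p.1 Idx.root p.2)
      ((mu V).prod nu) (mu V) := measurePreserving_update (ν := nu) Idx.root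
  have h2 := hup.comp ((MeasurePreserving.id (mu V)).prod hneg)
  have h3 : (fun p : Om V × X => Function.update p.1 Idx.root p.2) ∘
      Prod.map id (Prod.map (id : I → I) (fun b : Bool => !b)) =
      flip ∘ (fun p : Om V × X => Function.update p.1 Idx.root p.2) := by
    funext p i
    cases i <;> simp [flip, Prod.map]
  rw [h3] at h2
  refine ⟨measurable_flip, ?_⟩
  conv_lhs => rw [← hup.map_eq]
  rw [Measure.map_map measurable_flip hup.measurable]
  exact h2.map_eq

lemma T_flip (a : V × ℕ) (ω : Om V) : T a (flip ω) = T a ω := rfl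

lemma spin_flip (v : V) (ω : Om V) : S.spin v (flip ω) = -S.spin v ω := by
  have h1 : sgn (flip ω Idx.root).2 = -sgn (ω Idx.root).2 := by
    change sgn (!(ω Idx.root).2) = _
    cases (ω Idx.root).2 <;> simp [sgn]
  unfold spin
  rw [h1, neg_mul]
  rfl

lemma m2_w_flip (a : V × ℕ) (ω : Om V) : S.w a (flip ω) = -S.w a ω := by
  unfold w
  rw [spin_flip, neg_mul]
  rfl

lemma m2_artanh_neg (x : ℝ) : Real.artanh (-x) = -Real.artanh x := by
  unfold Real.artanh
  rw [← Real.log_inv, ← Real.sqrt_inv, inv_div]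
  simp [sub_eq_add_neg]

lemma Y_flip (D : Set V) (r : ℝ) (ω : Om V) : S.Y D r (flip ω) = fun v => -S.Y D r ω v := by
  funext v
  unfold Y fld
  rw [← tsum_neg]
  refine tsum_congr fun j => ?_
  rw [← m2_artanh_neg]
  unfold seen
  simp only [T_flip, m2_w_flip]
  congr 1
  split_ifs
  · rw [mul_neg]; rfl
  · simp

lemma U_flip (a : V × ℕ) (ω : Om V) : S.U a (flip ω) = unitInterval.symm (S.U a ω) := by
  have h1 : S.mR (T a) a.1 (flip ω) = -S.mR (T a) a.1 ω := by
    unfold mR mag
    rw [Y_flip, cav_neg, Real.tanh_neg]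
    rfl
  unfold U
  rw [h1, m2_w_flip, unitInterval.symm_projIcc]
  congr 1
  change Ff (eps a ω * _) _ = _
  unfold Ff
  ring

lemma m2_comap_eq {Ω Z : Type*} [MeasurableSpace Z] {Γ : Ω → Z} {φ : Ω → Ω} {Ψ Ψ' : Z → Z}
    (hΨ : Measurable Ψ) (hΨ' : Measurable Ψ') (h1 : ∀ ω, Γ (φ ω) = Ψ (Γ ω))
    (h2 : ∀ ω, Γ ω = Ψ' (Γ (φ ω))) :
    (MeasurableSpace.comap Γ inferInstance).comap φ = MeasurableSpace.comap Γ inferInstance := by
  rw [MeasurableSpace.comap_comp]
  apply le_antisymm
  · rw [show Γ ∘ φ = Ψ ∘ Γ from funext h1, ← MeasurableSpace.comap_comp]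
    exact MeasurableSpace.comap_mono hΨ.comap_le
  · conv_lhs => rw [show Γ = Ψ' ∘ (Γ ∘ φ) from funext h2, ← MeasurableSpace.comap_comp]
    exact MeasurableSpace.comap_mono hΨ'.comap_le

lemma GG_comap_flip {r : X → ℝ} (hr : Measurable r) :
    (S.GG fun ω => r (ω Idx.rho)).comap flip = S.GG fun ω => r (ω Idx.rho) := by
  let sg : (V → Lab) → V → Lab := fun l v j => ((l v j).1, unitInterval.symm (l v j).2)
  have hsg : Measurable sg := by
    refine measurable_pi_lambda _ fun v => measurable_pi_lambda _ fun j => ?_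
    have h : Measurable fun l : V → Lab => l v j := (measurable_pi_apply j).comp (measurable_pi_apply v)
    exact h.fst.prodMk (unitInterval.continuous_symm.measurable.comp h.snd)
  let Ψ : X × (V → Lab) → X × (V → Lab) := fun p => (p.1, cut (r p.1) (sg p.2))
  have hΨ : Measurable Ψ :=
    measurable_fst.prodMk (measurable_cut.comp ((hr.comp measurable_fst).prodMk
      (hsg.comp measurable_snd)))
  have key : ∀ ω, S.Gam (fun ω => r (ω Idx.rho)) (flip ω) = Ψ (S.Gam (fun ω => r (ω Idx.rho)) ω) := by
    intro ω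
    refine Prod.ext rfl ?_
    funext v j
    have h := tm_cut_lt_iff (le_refl (r (ω Idx.rho))) (S.L ω) v j
    change (if tm j ((S.L ω v j).1 : ℝ) < r (ω Idx.rho) then S.L (flip ω) v j else (1, 0)) =
      if tm j ((cut (r (ω Idx.rho)) (S.L ω) v j).1 : ℝ) < r (ω Idx.rho) then
        sg (cut (r (ω Idx.rho)) (S.L ω)) v j else (1, 0)
    by_cases hc : tm j ((S.L ω v j).1 : ℝ) < r (ω Idx.rho)
    · rw [if_pos hc, if_pos (h.mpr hc)]
      simp only [sg, cut, if_pos hc]
      exact Prod.ext rfl (U_flip (v, j) ω)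
    · rw [if_neg hc, if_neg (fun h' => hc (h.mp h'))]
  exact m2_comap_eq hΨ hΨ key (fun ω => by rw [← key, flip_flip])

/-- averaging over the spin at `v` -/
lemma integral_spin_split (v : V) {Φ : ℝ → Om V → ℝ} (h1 : BM (Φ 1)) (h2 : BM (Φ (-1)))
    (hf : ∀ s ω, Φ s (flip ω) = Φ s ω) :
    ∫ ω, Φ (S.spin v ω) ω ∂(mu V) = ((∫ ω, Φ 1 ω ∂(mu V)) + ∫ ω, Φ (-1) ω ∂(mu V)) / 2 := by
  classical
  have hA : MeasurableSet {ω : Om V | S.spin v ω = 1} :=
    measurableSet_eq_fun (measurable_spin v) measurable_const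
  have e1 : (fun ω => Φ (S.spin v ω) ω) = fun ω => if S.spin v ω = 1 then Φ 1 ω else Φ (-1) ω := by
    funext ω
    rcases spin_eq (S := S) v ω with h | h
    · rw [if_pos h, h]
    · rw [if_neg (by rw [h]; norm_num), h]
  have hb : BM fun ω => Φ (S.spin v ω) ω := by
    rw [e1]
    obtain ⟨C1, hC1⟩ := h1.bdd
    obtain ⟨C2, hC2⟩ := h2.bdd
    refine ⟨Measurable.ite hA h1.meas h2.meas, max C1 C2, fun ω => ?_⟩
    split_ifs
    · exact (hC1 ω).trans (le_max_left _ _)
    · exact (hC2 ω).trans (le_max_right _ _)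
  have hint : Integrable (fun ω => Φ (S.spin v ω) ω) (mu V) := hb.integrable _
  have hint' : Integrable (fun ω => Φ (S.spin v (flip ω)) (flip ω)) (mu V) :=
    measurePreserving_flip.integrable_comp_of_integrable hint
  have e2 : ∫ ω, Φ (S.spin v ω) ω ∂(mu V) = ∫ ω, Φ (S.spin v (flip ω)) (flip ω) ∂(mu V) := by
    conv_lhs => rw [← (measurePreserving_flip (V := V)).map_eq]
    exact integral_map measurable_flip.aemeasurable hb.meas.aestronglyMeasurable
  have e3 : (∫ ω, Φ (S.spin v ω) ω ∂(mu V)) + ∫ ω, Φ (S.spin v (flip ω)) (flip ω) ∂(mu V) =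
      (∫ ω, Φ 1 ω ∂(mu V)) + ∫ ω, Φ (-1) ω ∂(mu V) := by
    rw [← integral_add hint hint', ← integral_add (h1.integrable _) (h2.integrable _)]
    refine integral_congr_ae (Eventually.of_forall fun ω => ?_)
    simp only [hf, spin_flip]
    rcases spin_eq (S := S) v ω with h | h
    · rw [h]
    · rw [h, neg_neg, add_comm]
  linarith

lemma Idx.map_injective {g : V → V} (hg : Function.Injective g) :
    Function.Injective (Idx.map g) := by
  intro i j h
  cases i <;> cases j <;> simp only [Idx.map, reduceCtorEq, Idx.edge.injEq, Idx.time.injEq,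
    Idx.noise.injEq] at h ⊢
  · exact Sym2.map.injective hg h
  · exact ⟨hg h.1, h.2⟩
  · exact ⟨hg h.1, h.2⟩

lemma measurePreserving_relab (g : S.G ≃g S.G) : MeasurePreserving (relab g) (mu V) (mu V) :=
  measurePreserving_relabel (ν := nu) (Idx.map_injective g.injective)

lemma act_eq_or (g : S.G ≃g S.G) (ω : Om V) :
    S.act g ω = relab g ω ∨ S.act g ω = flip (relab g ω) := by
  unfold act
  split_ifs
  · exact Or.inl rfl
  · exact Or.inr rfl

lemma m2_relab_flip (g : V → V) (ω : Om V) : relab g (flip ω) = flip (relab g ω) := by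
  funext i
  cases i <;> rfl

lemma measurePreserving_act (g : S.G ≃g S.G) : MeasurePreserving (S.act g) (mu V) (mu V) := by
  refine ⟨measurable_act g, ?_⟩
  ext B hB
  rw [Measure.map_apply (measurable_act g) hB]
  set A : Set (Om V) := {ω | S.spin (g S.o) ω = S.spin S.o ω} with hAdef
  have hA : MeasurableSet A := measurableSet_eq_fun (measurable_spin _) (measurable_spin _)
  have hB' : MeasurableSet (relab g ⁻¹' B) := measurable_relab g hB
  have e1 : S.act g ⁻¹' B ∩ A = relab g ⁻¹' B ∩ A := by
    ext ω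
    simp only [Set.mem_inter_iff, Set.mem_preimage, and_congr_left_iff]
    intro h
    rw [act, if_pos (show S.spin (g S.o) ω = S.spin S.o ω from h)]
  have e2 : S.act g ⁻¹' B \ A = flip ⁻¹' (relab g ⁻¹' B \ A) := by
    ext ω
    simp only [Set.mem_diff, Set.mem_preimage, hAdef, Set.mem_setOf_eq, spin_flip, neg_inj,
      and_congr_left_iff]
    intro h
    rw [act, if_neg h, m2_relab_flip]
  rw [← measure_inter_add_diff _ hA, e1, e2,
    measurePreserving_flip.measure_preimage (hB'.diff hA).nullMeasurableSet,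
    measure_inter_add_diff _ hA, (measurePreserving_relab g).measure_preimage hB.nullMeasurableSet]

lemma m2_act_apply (g : S.G ≃g S.G) (ω : Om V) {i : Idx V} (hi : i ≠ Idx.root) :
    S.act g ω i = ω (i.map g) := by
  rcases act_eq_or g ω with h | h
  · rw [h]; rfl
  · rw [h, flip_apply hi]; rfl

lemma act_rho (g : S.G ≃g S.G) (ω : Om V) : S.act g ω Idx.rho = ω Idx.rho :=
  m2_act_apply g ω (by simp)

lemma m2_act_time (g : S.G ≃g S.G) (ω : Om V) (v : V) (j : ℕ) :
    S.act g ω (Idx.time v j) = ω (Idx.time (g v) j) := m2_act_apply g ω (by simp)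

lemma m2_act_noise (g : S.G ≃g S.G) (ω : Om V) (v : V) (j : ℕ) :
    S.act g ω (Idx.noise v j) = ω (Idx.noise (g v) j) := m2_act_apply g ω (by simp)

lemma T_act (g : S.G ≃g S.G) (a : V × ℕ) (ω : Om V) : T a (S.act g ω) = T (g a.1, a.2) ω := by
  unfold T sv
  rw [m2_act_time]

lemma m2_eps_act (g : S.G ≃g S.G) (a : V × ℕ) (ω : Om V) :
    eps a (S.act g ω) = eps (g a.1, a.2) ω := by
  unfold eps sv
  rw [m2_act_time]

lemma eta_act (g : S.G ≃g S.G) (x y : V) (ω : Om V) :
    S.eta x y (S.act g ω) = S.eta (g x) (g y) ω := by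
  unfold eta
  rw [m2_act_apply g ω (by simp)]
  rfl

lemma spin_act (g : S.G ≃g S.G) (v : V) (ω : Om V) : S.spin v (S.act g ω) = S.spin (g v) ω := by
  have key : ∀ n v, S.G.dist S.o v = n → S.spin v (S.act g ω) = S.spin (g v) ω := by
    intro n
    induction n with
    | zero =>
      intro v hv
      rw [← dist_eq_zero.mp hv]
      have h0 : S.spin S.o (relab g ω) = S.spin S.o ω := by rw [spin_o, spin_o]; rfl
      unfold act
      split_ifs with h
      · rw [h0, h]
      · rw [spin_flip, h0]
        rcases spin_eq (S := S) (g S.o) ω with h1 | h1 <;>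
          rcases spin_eq (S := S) S.o ω with h2 | h2 <;> simp_all
    | succ n ih =>
      intro v hv
      have hne : v ≠ S.o := by
        rintro rfl
        rw [SimpleGraph.dist_self] at hv
        omega
      have h1 := (adj_par (S := S) hne).symm
      have h2 := dist_par (S := S) hne
      rw [spin_adj h1, ih _ (by omega), eta_act, ← spin_adj (g.map_adj_iff.mpr h1)]
  exact key _ v rfl

lemma m2_w_act (g : S.G ≃g S.G) (a : V × ℕ) (ω : Om V) :
    S.w a (S.act g ω) = S.w (g a.1, a.2) ω := by
  unfold w wt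
  rw [spin_act, m2_eps_act, m2_act_noise]

lemma Y_act (g : S.G ≃g S.G) (r : ℝ) (ω : Om V) :
    S.Y Set.univ r (S.act g ω) = fun v => S.Y Set.univ r ω (g v) := by
  funext v
  unfold Y fld seen
  simp only [T_act, m2_w_act, m2_act_time, Set.mem_univ]

lemma cav_act (g : S.G ≃g S.G) (r : ℝ) (ω : Om V) (y x : V) :
    S.cav (S.Y Set.univ r (S.act g ω)) y x = S.cav (S.Y Set.univ r ω) (g y) (g x) := by
  rw [Y_act, cav_map]

lemma XX_act (g : S.G ≃g S.G) (r : ℝ) (y x : V) (ω : Om V) :
    S.XX r y x (S.act g ω) = S.XX r (g y) (g x) ω := by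
  unfold XX
  rw [spin_act, cav_act]

lemma L_act (g : S.G ≃g S.G) (ω : Om V) : S.L (S.act g ω) = S.L ω ∘ g := by
  funext v j
  simp only [L, U, mR, mag, Function.comp, m2_act_time, m2_eps_act, m2_w_act, T_act, cav_act]

lemma GG_comap_act (g : S.G ≃g S.G) {r : X → ℝ} (hr : Measurable r) :
    (S.GG fun ω => r (ω Idx.rho)).comap (S.act g) = S.GG fun ω => r (ω Idx.rho) := by
  have hm : ∀ e : V → V, Measurable fun p : X × (V → Lab) => (p.1, p.2 ∘ e) := fun e =>
    measurable_fst.prodMk (measurable_pi_lambda _ fun v =>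
      (measurable_pi_apply (e v)).comp measurable_snd)
  have key : ∀ ω, S.Gam (fun ω => r (ω Idx.rho)) (S.act g ω) =
      ((S.Gam (fun ω => r (ω Idx.rho)) ω).1, (S.Gam (fun ω => r (ω Idx.rho)) ω).2 ∘ g) := by
    intro ω
    unfold Gam
    simp only [act_rho, L_act]
    rfl
  refine m2_comap_eq (hm g) (hm g.symm) key fun ω => ?_
  rw [key]
  refine Prod.ext rfl ?_
  funext v
  simp

end Setup

end Crest.Agent.R160
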