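import Crest.Agent.R160.Regime

/-!
# Row 160 (S0241): Psi
The spins are a function of the labels; the factor map.
* `mR_tendsto`: `(spin o - mR n o)² ≤ 2 (1 - tanh (XX n o o)) ≤ 4 exp (-XX n o o)`, and a.e.
  `XX n o o ≥ ∑_{j<n} zeta (o,j) n - d` (`XX_rec`); the slots are independent, `|zeta| ≤ 1`, and for
  `1 ≤ j`, `j + 2 < n` `slot_exp_neg` gives the factor `47/48`.
* `exists_psi`: `cvar m (spin o) ≤ ∫ (spin o - mR n o)² → 0` for `m = comap (rho, L)` since `NN n = 0` and
  `GG n ≤ m`.  So `spin o = ψ₀ (ω rho, L ω)` a.e.; freeze `rho` (`ae_update`, `L_dependsOn_rho`,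
  `Measure.ae_ae_comm`).
-/

set_option autoImplicit false

open MeasureTheory Filter Topology
open scoped unitInterval

noncomputable section

namespace Crest.Agent.R160

universe u

namespace Setup

variable {V : Type u} (S : Setup V)

variable {S}

lemma psi_one_sub_tanh_le (x : ℝ) : (1 - Real.tanh x) ^ 2 ≤ 2 * Real.exp (-x) := by
  have h1 : 1 - Real.tanh x ≤ Real.exp (-x) := by
    rw [Real.tanh_eq_sinh_div_cosh]
    have hc := Real.one_le_cosh x
    have : 1 - Real.sinh x / Real.cosh x = Real.exp (-x) / Real.cosh x := by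
      rw [← Real.cosh_sub_sinh]; field_simp
    rw [this]
    exact div_le_self (Real.exp_pos _).le hc
  have h2 := Real.neg_one_lt_tanh x
  have h3 := Real.tanh_lt_one x
  nlinarith

lemma psi_sq_eq (r : ℝ) (ω : Om V) :
    (S.spin S.o ω - S.mR (fun _ => r) S.o ω) ^ 2 = (1 - Real.tanh (S.XX r S.o S.o ω)) ^ 2 := by
  unfold mR mag XX
  rcases spin_eq (S := S) S.o ω with h | h <;> rw [h]
  · rw [one_mul]
  · rw [neg_one_mul, Real.tanh_neg]; ring

lemma psi_BM_exp (a : V × ℕ) (r : ℝ) : BM fun ω => Real.exp (-zeta a r ω) :=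
  (BM_zeta a r).comp_continuous (φ := fun x => Real.exp (-x)) (by fun_prop)

lemma psi_slot_crude (a : V × ℕ) (r : ℝ) :
    ∫ ω, Real.exp (-zeta a r ω) ∂(mu V) ≤ Real.exp 1 := by
  have h : ∫ ω, Real.exp (-zeta a r ω) ∂(mu V) ≤ ∫ _ω, Real.exp 1 ∂(mu V) := by
    refine integral_mono ((psi_BM_exp a r).integrable _) (integrable_const _) fun ω => ?_
    exact Real.exp_le_exp.2 (by linarith [(abs_le.1 (abs_zeta_le a r ω)).1])
  simpa using h

lemma psi_slot_fine (v : V) {j : ℕ} (hj : 1 ≤ j) {r : ℝ} (hr : (j : ℝ) + 2 < r) :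
    ∫ ω, Real.exp (-zeta (v, j) r ω) ∂(mu V) ≤ 47 / 48 := by
  let φ : X × X → ℝ := fun p =>
    Real.exp (-Real.artanh (amp j (p.1.1 : ℝ) * Qf (amp j (p.1.1 : ℝ)) (p.2.1 : ℝ)))
  have hm0 : Measurable fun p : I × I =>
      Real.exp (-Real.artanh (amp j (p.1 : ℝ) * Qf (amp j (p.1 : ℝ)) (p.2 : ℝ))) := by
    have h1 : Measurable fun p : I × I => amp j (p.1 : ℝ) :=
      (measurable_amp j).comp (measurable_subtype_coe.comp measurable_fst)
    have h2 : Measurable fun p : I × I => Qf (amp j (p.1 : ℝ)) (p.2 : ℝ) :=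
      measurable_Qf.comp (h1.prodMk (measurable_subtype_coe.comp measurable_snd))
    exact Real.measurable_exp.comp (measurable_artanh.comp (h1.mul h2)).neg
  have hφ : BM φ := by
    refine ⟨hm0.comp (f := fun p : X × X => (p.1.1, p.2.1)) (by fun_prop), Real.exp 1,
      fun p => ?_⟩
    rw [abs_of_pos (Real.exp_pos _)]
    have h0 : |amp j (p.1.1 : ℝ)| ≤ 1 / 2 := by
      rw [abs_of_nonneg (amp_nonneg j p.1.1.2.1)]; exact amp_le_half _ _
    have h1 := abs_mul_le_half h0 (abs_Qf_le h0 p.2.1.2.1 p.2.1.2.2)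
    have h2 := abs_artanh_le h1
    exact Real.exp_le_exp.2 (by linarith [(abs_le.1 (h2.trans (by linarith : _ ≤ (1 : ℝ)))).1])
  have e1 : ∀ ω : Om V, Real.exp (-zeta (v, j) r ω) = φ (ω (Idx.time v j), ω (Idx.noise v j)) := by
    intro ω
    have hT : T (v, j) ω < r := (T_le (v, j) ω).trans_lt hr
    simp only [zeta, if_pos hT, φ, eps, wt, sv]
  simp only [e1]
  unfold mu
  rw [integral_eval_pair nu (by simp) hφ]
  refine le_trans (le_of_eq ?_) (slot_exp_neg hj)
  have e2 : ∀ ξ : X, ∫ ξ', φ (ξ, ξ') ∂nu = ∫ u : I,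
      Real.exp (-Real.artanh (amp j (ξ.1 : ℝ) * Qf (amp j (ξ.1 : ℝ)) (u : ℝ))) := fun ξ =>
    integral_nu_fst (hm0.comp (f := fun u : I => (ξ.1, u)) (by fun_prop))
  simp only [e2]
  exact integral_nu_fst (hm0.stronglyMeasurable.integral_prod_right' (ν := volume)).measurable

lemma psi_bound (m : ℕ) :
    ∫ ω, (S.spin S.o ω - S.mR (fun _ => ((m + 3 : ℕ) : ℝ)) S.o ω) ^ 2 ∂(mu V) ≤
      2 * Real.exp S.d * Real.exp 1 ^ 3 * (47 / 48) ^ m := by
  set n := m + 3 with hn
  have hB : BM fun ω => ∏ j ∈ Finset.range n, Real.exp (-zeta (S.o, j) n ω) :=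
    BM.prod _ fun j _ => psi_BM_exp _ _
  have h1 : ∫ ω, (S.spin S.o ω - S.mR (fun _ => (n : ℝ)) S.o ω) ^ 2 ∂(mu V) ≤
      ∫ ω, 2 * Real.exp S.d * ∏ j ∈ Finset.range n, Real.exp (-zeta (S.o, j) n ω) ∂(mu V) := by
    refine integral_mono_ae
      ((((BM_spin S.o).sub (BM_mR measurable_const S.o)).pow 2).integrable _)
      (((BM.const _).mul hB).integrable _) ?_
    filter_upwards [XX_rec (S := S) (r := n) (J := n) le_rfl (Or.inl rfl : S.DE S.o S.o)]
      with ω hω
    rw [psi_sq_eq]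
    refine (psi_one_sub_tanh_le _).trans ?_
    rw [mul_assoc, ← Real.exp_sum, ← Real.exp_add]
    refine mul_le_mul_of_nonneg_left (Real.exp_le_exp.2 ?_) zero_le_two
    have h2 : -(S.d : ℝ) ≤ ∑ z ∈ S.ch S.o S.o, S.eta S.o z ω * fm S.θ (S.XX n z S.o ω) := by
      have h3 : ∑ z ∈ S.ch S.o S.o, (-1 : ℝ) ≤
          ∑ z ∈ S.ch S.o S.o, S.eta S.o z ω * fm S.θ (S.XX n z S.o ω) := by
        refine Finset.sum_le_sum fun z _ => ?_
        have h4 := abs_le.1 (abs_fm_le_one S.hθ0 S.theta_sq_le (S.XX n z S.o ω))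
        rcases eta_eq (S := S) S.o z ω with h | h <;> rw [h] <;> linarith [h4.1, h4.2]
      have h5 : ((S.ch S.o S.o).card : ℝ) ≤ S.d := by exact_mod_cast card_ch_le S.o S.o
      simp only [Finset.sum_const, nsmul_eq_mul, mul_neg, mul_one] at h3
      linarith
    rw [hω, Finset.sum_neg_distrib]
    linarith
  refine h1.trans ?_
  rw [integral_const_mul, mul_assoc (2 * Real.exp S.d)]
  refine mul_le_mul_of_nonneg_left ?_ (by positivity)
  unfold mu
  rw [integral_prod_of_dependsOn nu (Finset.range n) (fun j _ => psi_BM_exp _ _)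
    (K := fun j => slotIdx (S.o, j))
    (fun j _ ω ω' h => by simp only [zeta_dependsOn (S.o, j) (n : ℝ) h])
    (fun i _ j _ hij => slotIdx_disjoint (by simpa using hij))]
  have hnn : ∀ j, 0 ≤ ∫ ω, Real.exp (-zeta (S.o, j) n ω) ∂(mu V) := fun j =>
    integral_nonneg fun ω => (Real.exp_pos _).le
  have hc := fun j => psi_slot_crude (S.o, j) (n : ℝ)
  have hmid : ∏ j ∈ Finset.range m, ∫ ω, Real.exp (-zeta (S.o, j + 1) n ω) ∂(mu V) ≤
      (47 / 48) ^ m := by
    calc ∏ j ∈ Finset.range m, ∫ ω, Real.exp (-zeta (S.o, j + 1) n ω) ∂(mu V)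
        ≤ ∏ _j ∈ Finset.range m, (47 / 48 : ℝ) := by
          refine Finset.prod_le_prod (fun j _ => hnn _) fun j hj => psi_slot_fine _ (by omega) ?_
          have : j + 1 + 2 < n := by have := Finset.mem_range.1 hj; omega
          exact_mod_cast this
      _ = (47 / 48) ^ m := by rw [Finset.prod_const, Finset.card_range]
  change ∏ j ∈ Finset.range (m + 1 + 1 + 1), ∫ ω, Real.exp (-zeta (S.o, j) n ω) ∂(mu V) ≤ _
  rw [Finset.prod_range_succ, Finset.prod_range_succ, Finset.prod_range_succ']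
  have h0 := Finset.prod_nonneg (s := Finset.range m) fun j _ => hnn (j + 1)
  calc _ ≤ (47 / 48) ^ m * Real.exp 1 * Real.exp 1 * Real.exp 1 := by
        have := hnn 0
        have := hnn (m + 1)
        have := hnn (m + 1 + 1)
        gcongr <;> exact hc _
    _ = _ := by ring

theorem mR_tendsto :
    Tendsto (fun n : ℕ => ∫ ω, (S.spin S.o ω - S.mR (fun _ => (n : ℝ)) S.o ω) ^ 2 ∂(mu V)) atTop
      (𝓝 0) := by
  rw [← tendsto_add_atTop_iff_nat 3]
  refine squeeze_zero (fun m => integral_nonneg fun ω => sq_nonneg _) psi_bound ?_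
  have := (tendsto_pow_atTop_nhds_zero_of_lt_one (r := (47 / 48 : ℝ)) (by norm_num)
    (by norm_num)).const_mul (2 * Real.exp S.d * Real.exp 1 ^ 3)
  simpa using this

theorem exists_psi : ∃ ψ : (V → Lab) → ℝ, BM ψ ∧ ∀ᵐ ω ∂(mu V), ψ (S.L ω) = S.spin S.o ω := by
  classical
  let F : Om V → X × (V → Lab) := fun ω => (ω Idx.rho, S.L ω)
  have hF : Measurable F := (measurable_pi_apply Idx.rho).prodMk measurable_L
  have hm : MeasurableSpace.comap F inferInstance ≤ (inferInstance : MeasurableSpace (Om V)) :=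
    hF.comap_le
  have hcv : cvar (MeasurableSpace.comap F inferInstance) (mu V) (S.spin S.o) = 0 := by
    refine le_antisymm (ge_of_tendsto (mR_tendsto (S := S)) ?_) (cvar_nonneg _)
    filter_upwards [eventually_gt_atTop 0] with n hn
    have hn' : (0 : ℝ) < n := by exact_mod_cast hn
    have hG := GG_le (S := S) (R := fun _ => (n : ℝ)) measurable_const
    have hM := BM_mR (S := S) (R := fun _ => (n : ℝ)) measurable_const S.o
    obtain ⟨Z, hZm, hZ, hZe⟩ := exists_condExp_BM (μ := mu V) hG hM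
    have h0 : ∀ᵐ ω ∂(mu V), res (S.GG fun _ => (n : ℝ)) (mu V) (S.mR (fun _ => (n : ℝ)) S.o) ω ^ 2
        = 0 :=
      (integral_eq_zero_iff_of_nonneg (fun ω => sq_nonneg _) (integrable_res_sq hG hM)).1
        (NN_eq_zero (S := S) hn')
    have hle : (S.GG fun _ => (n : ℝ)) ≤ MeasurableSpace.comap F inferInstance := by
      have hg : Measurable fun p : X × (V → Lab) => (p.1, cut n p.2) :=
        measurable_fst.prodMk (measurable_cut.comp (measurable_const.prodMk measurable_snd))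
      have : S.Gam (fun _ => (n : ℝ)) = (fun p : X × (V → Lab) => (p.1, cut n p.2)) ∘ F := rfl
      unfold GG
      rw [this, ← MeasurableSpace.comap_comp]
      exact MeasurableSpace.comap_mono hg.comap_le
    refine (cvar_le_sq hm (BM_spin S.o) (hZm.mono hle le_rfl) hZ.bdd).trans (le_of_eq ?_)
    refine integral_congr_ae ?_
    filter_upwards [h0, hZe] with ω h1 h2
    have h3 := pow_eq_zero_iff (two_ne_zero) |>.1 h1
    unfold res at h3
    rw [h2, ← sub_eq_zero.1 h3]
  obtain ⟨Z, hZm, hZ, hZe⟩ := exists_condExp_version (μ := mu V) hm (measurable_spin (S := S) S.o)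
    (a := -1) (b := 1) fun ω => abs_le.1 (abs_spin S.o ω).le
  have h0 : ∀ᵐ ω ∂(mu V), res (MeasurableSpace.comap F inferInstance) (mu V) (S.spin S.o) ω ^ 2
      = 0 :=
    (integral_eq_zero_iff_of_nonneg (fun ω => sq_nonneg _)
      (integrable_res_sq hm (BM_spin S.o))).1 hcv
  obtain ⟨g, hg, hgZ⟩ := hZm.exists_eq_measurable_comp
  have h1 : ∀ᵐ ω ∂(mu V), clamp 1 (g (ω Idx.rho, S.L ω)) = S.spin S.o ω := by
    filter_upwards [h0, hZe] with ω h1 h2
    have h3 := pow_eq_zero_iff (two_ne_zero) |>.1 h1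
    unfold res at h3
    have h4 : g (ω Idx.rho, S.L ω) = S.spin S.o ω := by
      rw [sub_eq_zero.1 h3, ← h2, hgZ]; rfl
    rw [h4]
    unfold clamp
    rcases spin_eq (S := S) S.o ω with h | h <;> rw [h] <;> norm_num
  have h2 := (measurePreserving_update nu (ι := Idx V) Idx.rho).quasiMeasurePreserving.ae h1
  have h3 : ∀ᵐ p ∂((mu V).prod nu), clamp 1 (g (p.2, S.L p.1)) = S.spin S.o p.1 := by
    filter_upwards [h2] with p hp
    have e1 : S.L (Function.update p.1 Idx.rho p.2) = S.L p.1 :=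
      L_dependsOn_rho fun i hi => Function.update_of_ne hi _ _
    have e2 : S.spin S.o (Function.update p.1 Idx.rho p.2) = S.spin S.o p.1 := by
      refine spin_dependsOn S.o fun i hi => Function.update_of_ne ?_ _ _
      rcases hi with rfl | ⟨e, rfl⟩ <;> simp
    simpa only [Function.update_self, e1, e2] using hp
  have h4 := Measure.ae_ae_of_ae_prod
    ((Measure.measurePreserving_swap (μ := nu) (ν := mu V)).quasiMeasurePreserving.ae h3)
  obtain ⟨ξ, hξ⟩ := h4.exists
  refine ⟨fun l => clamp 1 (g (ξ, l)), ⟨(continuous_clamp 1).measurable.comp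
    (hg.comp (measurable_const.prodMk measurable_id)), 1, fun l => ?_⟩, hξ⟩
  unfold clamp
  rw [abs_le]
  exact ⟨le_max_left _ _, max_le (by norm_num) (min_le_left _ _)⟩

end Setup

end Crest.Agent.R160
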