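import Crest.Agent.R160.MainEst
import Crest.Agent.R160.Mgf

/-!
# Row 160 (S0241): Regime
Summation over the tree, the two regimes, and the conclusion `NN = 0`.
* `main_estimate`: `sum_ball_le`, `(d-1)^k θ^(2k) = γ^k ≤ exp (-(1-γ) n(k))`, `sum_exp_le`, `sum_geom_le`,
  `sum_min_le` (`Λ y ≤ 1` follows from `H1`).
* `step_of_sum_term`: `NN_le` for `r = const t` and for `r ξ = s + (t-s) ξ.1`.
* `regimeA`: `Λ' = 1`; `y = 0` if `γ < 1`, and `y = θ² √(min s₀ 1 ^ 3/384)` if `γ = 1`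
  (`sq_tanh_le_fm_sq`, `abs_fm_le_one`, `xm_lower`); `NA` from `cvar_ecost_crude`.
* `regimeB`: `ρ = (d-1)⁻¹`, `q = ρ^n`.  If `γ < 1` use the crude bound.  If `γ = 1`: `l = q²`,
  `Λ' = q⁻⁴`, `π = C exp (-1/q)` (`XX_tail`), `y = c q⁹` (`xm ≥ c' q⁹`, `π ≤ θ² xm/2` for large `n`),
  `NA = C (q⁴ N + min N (exp (-1/q)))` (`cvar_ecost_fine`, `cvar_ecost_crude`), `min_exp_le`; with
  `min t 1 ^ 2 ≤ q¹²` every term is `≲ q⁻⁵ (Λ N + exp (-Λ))`.
-/

set_option autoImplicit false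

open MeasureTheory Filter Topology
open scoped unitInterval

noncomputable section

namespace Crest.Agent.R160

universe u

namespace Setup

variable {V : Type u} (S : Setup V)

variable {S}

lemma H1_zero (r : ℝ) : S.H1 r 1 0 := by
  intro z v _
  rw [mul_zero]
  exact integral_nonneg fun ω => le_min (by positivity) zero_le_one

lemma BM_min_fm (r Λ : ℝ) (z v : V) :
    BM fun ω => min (Λ * fm S.θ (S.XX r z v ω) ^ 2) 1 := by
  have hc : Continuous fun x : ℝ => min (Λ * fm S.θ x ^ 2) 1 :=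
    (continuous_const.mul ((continuous_fm S.hθ0 S.theta_sq_le).pow 2)).min continuous_const
  exact (BM_XX (S := S) r z v).comp_continuous hc

lemma BM_tanh_sq (r : ℝ) (z v : V) : BM fun ω => Real.tanh (S.XX r z v ω) ^ 2 :=
  (BM_XX (S := S) r z v).comp_continuous (continuous_tanh'.pow 2)

lemma H1_one {r y : ℝ} (hy : ∀ z v, S.G.Adj z v → y ≤ S.θ ^ 2 * S.xm r z v) : S.H1 r 1 y := by
  intro z v h
  rw [one_mul]
  refine (hy z v h).trans ?_
  unfold xm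
  rw [← integral_const_mul]
  refine integral_mono (((BM_tanh_sq r z v).integrable _).const_mul _)
    ((BM_min_fm r 1 z v).integrable _) fun ω => ?_
  have h1 := sq_tanh_le_fm_sq S.hθ0 S.theta_sq_le (S.XX r z v ω)
  have h2 := abs_fm_le_one S.hθ0 S.theta_sq_le (S.XX r z v ω)
  have h3 : fm S.θ (S.XX r z v ω) ^ 2 ≤ 1 := by
    rw [← sq_abs]; nlinarith [abs_nonneg (fm S.θ (S.XX r z v ω))]
  exact le_min (by simpa using h1) (h1.trans h3)

lemma H1_fine {r Λ l π y : ℝ} (hΛ : 0 ≤ Λ) (hl : Λ * l ^ 2 ≤ 1)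
    (hπ : ∀ z v, S.G.Adj z v → (mu V).real {ω | l < |S.XX r z v ω|} ≤ π)
    (hy : ∀ z v, S.G.Adj z v → y ≤ S.θ ^ 2 * S.xm r z v - π) : S.H1 r Λ y := by
  intro z v h
  have hA : MeasurableSet {ω | l < |S.XX r z v ω|} :=
    measurableSet_lt measurable_const (BM_XX (S := S) r z v).meas.abs
  have hI1 : Integrable (fun ω => S.θ ^ 2 * Real.tanh (S.XX r z v ω) ^ 2) (mu V) :=
    ((BM_tanh_sq r z v).integrable _).const_mul _
  have hI2 : Integrable ({ω | l < |S.XX r z v ω|}.indicator fun _ => (1 : ℝ)) (mu V) :=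
    (integrable_const 1).indicator hA
  calc Λ * y ≤ Λ * (S.θ ^ 2 * S.xm r z v - (mu V).real {ω | l < |S.XX r z v ω|}) :=
        mul_le_mul_of_nonneg_left (by linarith [hy z v h, hπ z v h]) hΛ
    _ = ∫ ω, Λ * (S.θ ^ 2 * Real.tanh (S.XX r z v ω) ^ 2 -
          {ω | l < |S.XX r z v ω|}.indicator (fun _ => (1 : ℝ)) ω) ∂(mu V) := by
        rw [integral_const_mul, integral_sub hI1 hI2, integral_const_mul,
          integral_indicator_const _ hA]
        simp [xm]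
    _ ≤ _ := by
        refine integral_mono ((hI1.sub hI2).const_mul _) ((BM_min_fm r Λ z v).integrable _)
          fun ω => ?_
        have h1 := sq_tanh_le_fm_sq S.hθ0 S.theta_sq_le (S.XX r z v ω)
        have hθ := S.theta_sq_le
        by_cases hω : l < |S.XX r z v ω|
        · have hmem : ω ∈ {ω | l < |S.XX r z v ω|} := hω
          have h2 : Real.tanh (S.XX r z v ω) ^ 2 ≤ 1 := by
            rw [← sq_abs]
            nlinarith [abs_tanh_le_one (S.XX r z v ω), abs_nonneg (Real.tanh (S.XX r z v ω))]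
          have h3 : S.θ ^ 2 * Real.tanh (S.XX r z v ω) ^ 2 - 1 ≤ 0 := by
            nlinarith [sq_nonneg S.θ, sq_nonneg (Real.tanh (S.XX r z v ω))]
          simp only [Set.indicator_of_mem hmem]
          exact (mul_nonpos_of_nonneg_of_nonpos hΛ h3).trans (le_min (by positivity) zero_le_one)
        · have hmem : ω ∉ {ω | l < |S.XX r z v ω|} := hω
          simp only [Set.indicator_of_notMem hmem, sub_zero]
          have h2 := abs_fm_le S.hθ0 S.theta_sq_le (S.XX r z v ω)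
          have h3 : |fm S.θ (S.XX r z v ω)| ≤ l := by
            have h4 := theta_le S.hθ0 S.theta_sq_le
            have h5 := not_lt.mp hω
            nlinarith [abs_nonneg (S.XX r z v ω), S.hθ0]
          have h6 : fm S.θ (S.XX r z v ω) ^ 2 ≤ l ^ 2 := by
            rw [← sq_abs]; exact pow_le_pow_left₀ (abs_nonneg _) h3 2
          have h7 := mul_le_mul_of_nonneg_left h1 hΛ
          have h8 := mul_le_mul_of_nonneg_left h6 hΛ
          exact le_min h7 (by linarith)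

lemma measurable_rho_param (s t : ℝ) : Measurable fun ξ : X => s + (t - s) * (ξ.1 : ℝ) := by
  fun_prop

lemma rho_param_mem {s t : ℝ} (hst : s ≤ t) (ξ : X) :
    s ≤ s + (t - s) * (ξ.1 : ℝ) ∧ s + (t - s) * (ξ.1 : ℝ) ≤ t := by
  have h0 := ξ.1.2.1
  have h1 := ξ.1.2.2
  constructor <;> nlinarith

/-- the crude bound, valid whenever `1 - γ + y > 0` -/
lemma crude_bound (J : ℕ) {y : ℝ} (hy : 0 ≤ y) (hρ : 0 < 1 - S.gam + y) :
    ∃ A : ℝ, 0 ≤ A ∧ ∀ s t : ℝ, s ≤ t → t ≤ J → (∀ r, s ≤ r → r ≤ t → S.H1 r 1 y) →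
      ∀ Λ : ℝ, 1 ≤ Λ → ∀ n, ∑ u ∈ S.ball n S.o, S.term (rhoT s t) u ≤
        A * (Λ * S.NN (rhoT s t) + Real.exp (-Λ)) := by
  obtain ⟨C, hC, hmain⟩ := main_estimate (S := S) J
  set K := Real.cosh (J + S.d) ^ 4 with hK
  have hK0 : 0 ≤ K := by positivity
  set ρ := 1 - S.gam + y with hρdef
  refine ⟨C * (48 * K / ρ ^ 2 + 1 / ρ + 1 / ρ ^ 3 + 1), by positivity, ?_⟩
  intro s t hst ht h1 Λ hΛ n
  have hr := measurable_rho_param s t
  have hJ : ∀ ξ : X, s + (t - s) * (ξ.1 : ℝ) ≤ J := fun ξ => (rho_param_mem hst ξ).2.trans ht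
  have hN0 : 0 ≤ S.NN (rhoT s t) := cvar_nonneg _
  have h := hmain _ 1 y (48 * K * S.NN (rhoT s t)) hr hJ le_rfl hy
    (fun ξ => h1 _ (rho_param_mem hst ξ).1 (rho_param_mem hst ξ).2) (by positivity)
    (fun y' x hyx => cvar_ecost_crude hr hJ hyx) hρ Λ hΛ n
  refine le_trans h ?_
  change C * (48 * K * S.NN (rhoT s t) / ρ ^ 2 + S.NN (rhoT s t) / ρ +
    S.NN (rhoT s t) / (1 - S.gam + 1 * y) ^ 3 + (Λ * S.NN (rhoT s t) + Real.exp (-Λ))) ≤ _
  rw [one_mul, ← hρdef, mul_assoc C]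
  refine mul_le_mul_of_nonneg_left ?_ hC.le
  set N := S.NN (rhoT s t)
  set M := Λ * N + Real.exp (-Λ) with hM
  have hNM : N ≤ M := by nlinarith [Real.exp_pos (-Λ)]
  have a1 : 48 * K * N / ρ ^ 2 ≤ 48 * K / ρ ^ 2 * M := by
    rw [mul_div_right_comm]; exact mul_le_mul_of_nonneg_left hNM (by positivity)
  have a2 : N / ρ ≤ 1 / ρ * M := by
    rw [div_eq_mul_one_div, mul_comm]; exact mul_le_mul_of_nonneg_left hNM (by positivity)
  have a3 : N / ρ ^ 3 ≤ 1 / ρ ^ 3 * M := by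
    rw [div_eq_mul_one_div, mul_comm]; exact mul_le_mul_of_nonneg_left hNM (by positivity)
  linarith

lemma theta_sq_of_gam (hγ : S.gam = 1) : S.θ ^ 2 = ((S.d : ℝ) - 1)⁻¹ := by
  have h := S.two_le_d_sub_one
  unfold gam at hγ
  field_simp
  linarith

lemma min_one_sq_le {t : ℝ} (ht : 0 ≤ t) : min t 1 ^ 2 ≤ 1 := by
  have h1 : min t 1 ≤ 1 := min_le_right _ _
  have h0 : 0 ≤ min t 1 := le_min ht zero_le_one
  nlinarith

theorem regimeA (J : ℕ) (s₀ : ℝ) (hs₀ : 0 < s₀) : ∃ l : ℝ, 0 ≤ l ∧ ∀ (j : ℕ) (s t : ℝ), j < J →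
    s₀ ≤ s → s < t → (j : ℝ) ≤ s → t ≤ j + 1 → Step (fun t => S.NN fun _ => t) s t l := by
  obtain ⟨y, hy, hρ, hH⟩ : ∃ y : ℝ, 0 ≤ y ∧ 0 < 1 - S.gam + y ∧ ∀ r, s₀ ≤ r → S.H1 r 1 y := by
    rcases eq_or_lt_of_le S.gam_le_one with hγ | hγ
    · have hm : 0 < min s₀ 1 := lt_min hs₀ one_pos
      have hθ : 0 < S.θ ^ 2 := by
        rw [theta_sq_of_gam hγ]; have := S.two_le_d_sub_one; positivity
      refine ⟨S.θ ^ 2 * Real.sqrt (min s₀ 1 ^ 3 / 384), by positivity, ?_, fun r hr => ?_⟩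
      · rw [hγ, sub_self, zero_add]; positivity
      · refine H1_one fun z v h => mul_le_mul_of_nonneg_left ?_ hθ.le
        refine Real.sqrt_le_iff.mpr ⟨xm_nonneg _ _ _, le_trans ?_ (xm_lower hγ (hs₀.trans_le hr) h)⟩
        have : min s₀ 1 ≤ min r 1 := min_le_min hr le_rfl
        gcongr
    · exact ⟨0, le_rfl, by linarith, fun r _ => H1_zero r⟩
  obtain ⟨A, hA0, hA⟩ := crude_bound (S := S) J hy hρ
  refine ⟨32 * A, by positivity, fun j s t hj hs hst hjs ht => ?_⟩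
  have hs0 : 0 < s := hs₀.trans_le hs
  have hJ : t ≤ J := by
    have : (j : ℝ) + 1 ≤ J := by exact_mod_cast hj
    linarith
  have h := step_of_sum_term (S := S) hs0 hst hjs ht hA0
    (hA s t hst.le hJ fun r hr _ => hH r (hs.trans hr))
  refine h.mono (fun _ => cvar_nonneg _) hst.le (by positivity) ?_
  have := min_one_sq_le (hs0.trans hst).le
  nlinarith

/-- the fine bound at criticality -/
lemma fine_bound (hγ : S.gam = 1) : ∃ (A : ℝ) (n₀ : ℕ), 0 ≤ A ∧ ∀ (n : ℕ) (s t : ℝ), n₀ ≤ n →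
    ((((S.d : ℝ) - 1)⁻¹) ^ (n + 1)) ^ 6 ≤ s → s ≤ t → t ≤ ((((S.d : ℝ) - 1)⁻¹) ^ n) ^ 6 →
      ∀ Λ : ℝ, 1 ≤ Λ → ∀ n', ∑ u ∈ S.ball n' S.o, S.term (rhoT s t) u ≤
        A / ((((S.d : ℝ) - 1)⁻¹) ^ n) ^ 17 * (Λ * S.NN (rhoT s t) + Real.exp (-Λ)) := by
  obtain ⟨C, hC, hmain⟩ := main_estimate (S := S) 1
  obtain ⟨Ct, hCt, htail⟩ := XX_tail (S := S)
  have hd := S.two_le_d_sub_one
  set ρ : ℝ := ((S.d : ℝ) - 1)⁻¹ with hρ
  have hρ0 : 0 < ρ := by positivity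
  have hρ1 : ρ < 1 := inv_lt_one_of_one_lt₀ (by linarith)
  have hθ : S.θ ^ 2 = ρ := theta_sq_of_gam hγ
  set K := Real.cosh ((1 : ℕ) + S.d) ^ 4 with hK
  have hK0 : 0 ≤ K := by positivity
  set B : ℝ := ((1 : ℕ) : ℝ) + S.d with hB
  set Cn : ℝ := 384 * K + 8 * B ^ 2 * Ct with hCn
  have hCn0 : 0 ≤ Cn := by positivity
  set c : ℝ := ρ ^ 10 / 40 with hc
  have hc0 : 0 < c := by positivity
  obtain ⟨n₀, hn₀⟩ : ∃ n₀ : ℕ, ∀ n, n₀ ≤ n → ρ ^ n ≤ c / (Ct * (Nat.factorial 10)) := by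
    have h := tendsto_pow_atTop_nhds_zero_of_lt_one hρ0.le hρ1
    have hpos : 0 < c / (Ct * (Nat.factorial 10)) := by positivity
    exact eventually_atTop.mp (h.eventually (ge_mem_nhds hpos))
  refine ⟨C * (3 * Cn / c ^ 2 + 1 / c + 1 / c ^ 3 + 1), n₀, by positivity, ?_⟩
  intro n s t hn hs hst ht Λ hΛ n'
  set q : ℝ := ρ ^ n with hq
  have hq0 : 0 < q := by positivity
  have hq1 : q ≤ 1 := pow_le_one₀ hρ0.le hρ1.le
  have hq6 : q ^ 6 ≤ 1 := pow_le_one₀ hq0.le hq1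
  have hs0 : 0 < s := lt_of_lt_of_le (by positivity) hs
  have hr := measurable_rho_param s t
  have hmem := rho_param_mem hst
  have hJ : ∀ ξ : X, s + (t - s) * (ξ.1 : ℝ) ≤ (1 : ℕ) := fun ξ => by
    have := (hmem ξ).2
    push_cast
    linarith
  set π : ℝ := Ct * Real.exp (-(1 / q)) with hπ
  have hπb : ∀ (ξ : X) y x, S.G.Adj y x →
      (mu V).real {ω | q ^ 2 < |S.XX (s + (t - s) * (ξ.1 : ℝ)) y x ω|} ≤ π := fun ξ y x h =>
    htail n _ y x (hs0.le.trans (hmem ξ).1) ((hmem ξ).2.trans ht) h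
  have hπs : π ≤ c * q ^ 9 := by
    have h1 : (1 / q) ^ 10 / (Nat.factorial 10) ≤ Real.exp (1 / q) :=
      Real.pow_div_factorial_le_exp _ (by positivity) 10
    have h2 : Real.exp (-(1 / q)) ≤ (Nat.factorial 10) * q ^ 10 := by
      rw [Real.exp_neg, inv_le_comm₀ (Real.exp_pos _) (by positivity)]
      refine le_trans (le_of_eq ?_) h1
      field_simp
    have h3 : Ct * (Nat.factorial 10) * q ≤ c := by
      have := hn₀ n hn
      rw [le_div_iff₀ (by positivity)] at this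
      linarith
    calc π ≤ Ct * ((Nat.factorial 10) * q ^ 10) := mul_le_mul_of_nonneg_left h2 hCt.le
      _ = Ct * (Nat.factorial 10) * q * q ^ 9 := by ring
      _ ≤ c * q ^ 9 := mul_le_mul_of_nonneg_right h3 (by positivity)
  have hxm : ∀ (ξ : X) y x, S.G.Adj y x →
      2 * (c * q ^ 9) ≤ S.θ ^ 2 * S.xm (s + (t - s) * (ξ.1 : ℝ)) y x := by
    intro ξ y x h
    have h1 := xm_lower hγ (hs0.trans_le (hmem ξ).1) h
    have h2 : (ρ * q) ^ 6 ≤ min (s + (t - s) * (ξ.1 : ℝ)) 1 := by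
      refine le_min ?_ (pow_le_one₀ (by positivity) (mul_le_one₀ hρ1.le hq0.le hq1))
      refine le_trans ?_ (hmem ξ).1
      have : ρ ^ (n + 1) = ρ * q := by rw [hq, pow_succ']
      rw [← this]
      exact hs
    have h3 : ((ρ * q) ^ 6) ^ 3 ≤ min (s + (t - s) * (ξ.1 : ℝ)) 1 ^ 3 :=
      pow_le_pow_left₀ (by positivity) h2 3
    have h4 : ((ρ * q) ^ 9 / 20) ^ 2 ≤ S.xm (s + (t - s) * (ξ.1 : ℝ)) y x ^ 2 := by
      have h5 : ((ρ * q) ^ 9 / 20) ^ 2 = ((ρ * q) ^ 6) ^ 3 / 400 := by ring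
      have h6 : 0 ≤ ((ρ * q) ^ 6) ^ 3 := by positivity
      rw [h5]
      linarith
    have h7 : (ρ * q) ^ 9 / 20 ≤ S.xm (s + (t - s) * (ξ.1 : ℝ)) y x :=
      (pow_le_pow_iff_left₀ (by positivity) (xm_nonneg _ _ _) two_ne_zero).mp h4
    rw [hθ]
    calc 2 * (c * q ^ 9) = ρ * ((ρ * q) ^ 9 / 20) := by rw [hc]; ring
      _ ≤ _ := mul_le_mul_of_nonneg_left h7 hρ0.le
  have hΛ' : (1 : ℝ) ≤ (q ^ 4)⁻¹ := one_le_inv₀ (by positivity) |>.mpr (pow_le_one₀ hq0.le hq1)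
  have hH : ∀ ξ : X, S.H1 (s + (t - s) * (ξ.1 : ℝ)) (q ^ 4)⁻¹ (c * q ^ 9) := fun ξ =>
    H1_fine (l := q ^ 2) (π := π) (by positivity) (by field_simp; rfl) (hπb ξ)
      fun z v h => by linarith [hxm ξ z v h]
  set N := S.NN (rhoT s t) with hN
  have hN0 : 0 ≤ N := cvar_nonneg _
  set e := Real.exp (-(1 / q)) with he
  have he0 : 0 < e := Real.exp_pos _
  have hmin0 : 0 ≤ min N e := le_min hN0 he0.le
  have hNA : ∀ y' x, S.G.Adj y' x →
      cvar (S.GG fun ω : Om V => s + (t - s) * ((ω Idx.rho).1 : ℝ)) (mu V)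
        (fun ω => S.ecost (S.Y Set.univ (s + (t - s) * ((ω Idx.rho).1 : ℝ)) ω) y' x) ≤
      Cn * (q ^ 4 * N + min N e) := by
    intro y' x h
    have a := cvar_ecost_fine hr hJ (l := q ^ 2) (by positivity) (pow_le_one₀ hq0.le hq1) hπb h
    have b := cvar_ecost_crude hr hJ h
    change _ ≤ 384 * (q ^ 2) ^ 2 * K * N + 8 * B ^ 2 * π at a
    change _ ≤ 48 * K * N at b
    have hq4N : 0 ≤ q ^ 4 * N := by positivity
    have hBC : 0 ≤ 8 * B ^ 2 * Ct := by positivity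
    rcases le_total N e with hNe | hNe
    · rw [min_eq_left hNe]
      refine b.trans ?_
      rw [hCn]
      nlinarith [mul_nonneg hK0 hN0, mul_nonneg hK0 hq4N, mul_nonneg hBC hq4N, mul_nonneg hBC hN0]
    · rw [min_eq_right hNe]
      refine a.trans ?_
      rw [hCn, hπ]
      nlinarith [mul_nonneg hK0 he0.le, mul_nonneg hBC hq4N]
  have h := hmain _ (q ^ 4)⁻¹ (c * q ^ 9) (Cn * (q ^ 4 * N + min N e)) hr hJ hΛ' (by positivity) hH
    (by positivity) hNA (by rw [hγ, sub_self, zero_add]; positivity) Λ hΛ n'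
  refine le_trans h ?_
  change C * (Cn * (q ^ 4 * N + min N e) / (1 - S.gam + c * q ^ 9) ^ 2 + N / (1 - S.gam + c * q ^ 9) +
    N / (1 - S.gam + (q ^ 4)⁻¹ * (c * q ^ 9)) ^ 3 + (Λ * N + Real.exp (-Λ))) ≤ _
  rw [hγ, sub_self, zero_add, zero_add, mul_div_assoc Cn, mul_div_assoc C, mul_assoc C]
  refine mul_le_mul_of_nonneg_left ?_ hC.le
  set M := Λ * N + Real.exp (-Λ) with hM
  have hNM : N ≤ M := by nlinarith [Real.exp_pos (-Λ)]
  have hM0 : 0 ≤ M := hN0.trans hNM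
  have hmin : min N e ≤ 2 * q * M := min_exp_le hN0 hΛ hq0
  have hq4 : q ^ 4 ≤ q := by
    calc q ^ 4 = q ^ 3 * q := by ring
      _ ≤ 1 * q := mul_le_mul_of_nonneg_right (pow_le_one₀ hq0.le hq1) hq0.le
      _ = q := one_mul q
  have b0 : q ^ 4 * N + min N e ≤ 3 * q * M := by
    have : q ^ 4 * N ≤ q * M := mul_le_mul hq4 hNM hN0 hq0.le
    linarith
  have hqp : ∀ i : ℕ, i ≤ 17 → 1 / q ^ i ≤ 1 / q ^ 17 := fun i hi =>
    one_div_le_one_div_of_le (by positivity) (pow_le_pow_of_le_one hq0.le hq1 hi)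
  have a1 : Cn * ((q ^ 4 * N + min N e) / (c * q ^ 9) ^ 2) ≤ 3 * Cn / c ^ 2 * (1 / q ^ 17) * M := by
    calc _ ≤ Cn * (3 * q * M / (c * q ^ 9) ^ 2) := by gcongr
      _ = _ := by field_simp
  have a2 : N / (c * q ^ 9) ≤ 1 / c * (1 / q ^ 17) * M := by
    calc _ = 1 / c * (1 / q ^ 9) * N := by field_simp
      _ ≤ _ := by have := hqp 9 (by norm_num); gcongr
  have a3 : N / ((q ^ 4)⁻¹ * (c * q ^ 9)) ^ 3 ≤ 1 / c ^ 3 * (1 / q ^ 17) * M := by
    calc _ = 1 / c ^ 3 * (1 / q ^ 15) * N := by field_simp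
      _ ≤ _ := by have := hqp 15 (by norm_num); gcongr
  have a4 : M ≤ 1 / q ^ 17 * M := by
    have := hqp 0 (by norm_num)
    simp only [pow_zero, div_one] at this
    nlinarith
  calc _ ≤ 3 * Cn / c ^ 2 * (1 / q ^ 17) * M + 1 / c * (1 / q ^ 17) * M +
        1 / c ^ 3 * (1 / q ^ 17) * M + 1 / q ^ 17 * M := by linarith
    _ = _ := by ring

theorem regimeB : ∃ (ρ C : ℝ) (n₀ : ℕ), 0 < ρ ∧ ρ < 1 ∧ 0 ≤ C ∧ ∀ (n : ℕ) (s t : ℝ), n₀ ≤ n →
    (ρ ^ (n + 1)) ^ 6 ≤ s → s < t → t ≤ (ρ ^ n) ^ 6 →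
      Step (fun t => S.NN fun _ => t) s t (C * ρ ^ n / (ρ ^ n) ^ 6) := by
  have hd := S.two_le_d_sub_one
  set ρ : ℝ := ((S.d : ℝ) - 1)⁻¹ with hρ
  have hρ0 : 0 < ρ := by positivity
  have hρ1 : ρ < 1 := inv_lt_one_of_one_lt₀ (by linarith)
  obtain ⟨A, n₀, hA0, hA⟩ : ∃ (A : ℝ) (n₀ : ℕ), 0 ≤ A ∧ ∀ (n : ℕ) (s t : ℝ), n₀ ≤ n →
      (ρ ^ (n + 1)) ^ 6 ≤ s → s ≤ t → t ≤ (ρ ^ n) ^ 6 →
      ∀ Λ : ℝ, 1 ≤ Λ → ∀ n', ∑ u ∈ S.ball n' S.o, S.term (rhoT s t) u ≤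
        A / (ρ ^ n) ^ 17 * (Λ * S.NN (rhoT s t) + Real.exp (-Λ)) := by
    rcases eq_or_lt_of_le S.gam_le_one with hγ | hγ
    · exact fine_bound hγ
    · obtain ⟨A, hA0, hA⟩ := crude_bound (S := S) 1 (y := 0) le_rfl (by linarith)
      refine ⟨A, 0, hA0, fun n s t _ _ hst ht Λ hΛ n' => ?_⟩
      have hq0 : 0 < ρ ^ n := by positivity
      have hq1 : ρ ^ n ≤ 1 := pow_le_one₀ hρ0.le hρ1.le
      have h := hA s t hst (ht.trans (by simpa using pow_le_one₀ hq0.le hq1))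
        (fun r _ _ => H1_zero r) Λ hΛ n'
      refine h.trans (mul_le_mul_of_nonneg_right ?_ ?_)
      · exact le_div_self hA0 (by positivity) (pow_le_one₀ hq0.le hq1)
      · have : 0 ≤ S.NN (rhoT s t) := cvar_nonneg _
        positivity
  refine ⟨ρ, 32 * A, n₀, hρ0, hρ1, by positivity, fun n s t hn hs hst ht => ?_⟩
  set q := ρ ^ n with hq
  have hq0 : 0 < q := by positivity
  have hq1 : q ≤ 1 := pow_le_one₀ hρ0.le hρ1.le
  have hq6 : q ^ 6 ≤ 1 := pow_le_one₀ hq0.le hq1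
  have hs0 : 0 < s := lt_of_lt_of_le (by positivity) hs
  have h := step_of_sum_term (S := S) (j := 0) hs0 hst (by simpa using hs0.le)
    (by simpa using ht.trans hq6) (A := A / q ^ 17) (by positivity) (hA n s t hn hs hst.le ht)
  refine h.mono (fun _ => cvar_nonneg _) hst.le (by positivity) ?_
  have h1 : min t 1 ^ 2 ≤ (q ^ 6) ^ 2 :=
    pow_le_pow_left₀ (le_min (hs0.trans hst).le zero_le_one) ((min_le_left _ _).trans ht) 2
  calc 32 * min t 1 ^ 2 * (A / q ^ 17) ≤ 32 * (q ^ 6) ^ 2 * (A / q ^ 17) := by gcongr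
    _ = 32 * A * q / q ^ 6 := by field_simp

theorem NN_eq_zero {t : ℝ} (ht : 0 < t) : S.NN (fun _ => t) = 0 :=
  gronwall_zero (fun t => S.NN fun _ => t) (fun _ => cvar_nonneg _) NN_small regimeA regimeB t ht

end Setup

end Crest.Agent.R160
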