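import Crest.Agent.R160.Defs

/-!
# Row 160 (S0241): Res0
Toolkit for bounded measurable functions (`BM`), residuals `res` and expected conditional
variances `cvar` on an arbitrary probability space.
-/

set_option autoImplicit false

open MeasureTheory Filter Topology
open scoped unitInterval

noncomputable section

namespace Crest.Agent.R160

universe u

section BM
variable {Ω : Type*} [MeasurableSpace Ω]

lemma BM.const (c : ℝ) : BM fun _ : Ω => c := ⟨measurable_const, |c|, fun _ => le_rfl⟩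
lemma BM.add {X Y : Ω → ℝ} (hX : BM X) (hY : BM Y) : BM fun ω => X ω + Y ω := by
  obtain ⟨C, hC⟩ := hX.bdd
  obtain ⟨D, hD⟩ := hY.bdd
  exact ⟨hX.meas.add hY.meas, C + D, fun ω =>
    (abs_add_le _ _).trans (add_le_add (hC ω) (hD ω))⟩
lemma BM.sub {X Y : Ω → ℝ} (hX : BM X) (hY : BM Y) : BM fun ω => X ω - Y ω := by
  obtain ⟨C, hC⟩ := hX.bdd
  obtain ⟨D, hD⟩ := hY.bdd
  exact ⟨hX.meas.sub hY.meas, C + D, fun ω =>
    (abs_sub _ _).trans (add_le_add (hC ω) (hD ω))⟩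
lemma BM.mul {X Y : Ω → ℝ} (hX : BM X) (hY : BM Y) : BM fun ω => X ω * Y ω := by
  obtain ⟨C, hC⟩ := hX.bdd
  obtain ⟨D, hD⟩ := hY.bdd
  refine ⟨hX.meas.mul hY.meas, C * D, fun ω => ?_⟩
  rw [abs_mul]
  exact mul_le_mul (hC ω) (hD ω) (abs_nonneg _) ((abs_nonneg _).trans (hC ω))
lemma BM.neg {X : Ω → ℝ} (hX : BM X) : BM fun ω => -X ω := by
  obtain ⟨C, hC⟩ := hX.bdd
  exact ⟨hX.meas.neg, C, fun ω => by rw [abs_neg]; exact hC ω⟩
lemma BM.pow {X : Ω → ℝ} (hX : BM X) (n : ℕ) : BM fun ω => X ω ^ n := by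
  obtain ⟨C, hC⟩ := hX.bdd
  refine ⟨hX.meas.pow_const n, C ^ n, fun ω => ?_⟩
  rw [abs_pow]
  exact pow_le_pow_left₀ (abs_nonneg _) (hC ω) n
lemma BM.div_const {X : Ω → ℝ} (hX : BM X) (c : ℝ) : BM fun ω => X ω / c := by
  simpa only [div_eq_mul_inv] using hX.mul (BM.const c⁻¹)
lemma BM.sum {ι : Type*} (s : Finset ι) {X : ι → Ω → ℝ} (hX : ∀ i ∈ s, BM (X i)) :
    BM fun ω => ∑ i ∈ s, X i ω := by
  classical
  induction s using Finset.induction_on with
  | empty => simpa using BM.const (Ω := Ω) 0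
  | insert a s ha ih =>
    simp only [Finset.sum_insert ha]
    exact (hX a (Finset.mem_insert_self _ _)).add
      (ih fun i hi => hX i (Finset.mem_insert_of_mem hi))
lemma BM.prod {ι : Type*} (s : Finset ι) {X : ι → Ω → ℝ} (hX : ∀ i ∈ s, BM (X i)) :
    BM fun ω => ∏ i ∈ s, X i ω := by
  classical
  induction s using Finset.induction_on with
  | empty => simpa using BM.const (Ω := Ω) 1
  | insert a s ha ih =>
    simp only [Finset.prod_insert ha]
    exact (hX a (Finset.mem_insert_self _ _)).mul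
      (ih fun i hi => hX i (Finset.mem_insert_of_mem hi))
lemma BM.comp_continuous {X : Ω → ℝ} (hX : BM X) {φ : ℝ → ℝ} (hφ : Continuous φ) :
    BM fun ω => φ (X ω) := by
  obtain ⟨C, hC⟩ := hX.bdd
  obtain ⟨D, hD⟩ := (isCompact_Icc (a := -C) (b := C)).exists_bound_of_continuousOn
    hφ.continuousOn
  exact ⟨hφ.measurable.comp hX.meas, D, fun ω => hD _ (abs_le.1 (hC ω))⟩
lemma BM.comp {Ω' : Type*} [MeasurableSpace Ω'] {X : Ω → ℝ} (hX : BM X) {f : Ω' → Ω}
    (hf : Measurable f) : BM fun ω => X (f ω) := by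
  obtain ⟨C, hC⟩ := hX.bdd
  exact ⟨hX.meas.comp hf, C, fun ω => hC _⟩
lemma BM.ite {p : Ω → Prop} [DecidablePred p] (hp : MeasurableSet {ω | p ω}) {X Y : Ω → ℝ}
    (hX : BM X) (hY : BM Y) : BM fun ω => if p ω then X ω else Y ω := by
  obtain ⟨C, hC⟩ := hX.bdd
  obtain ⟨D, hD⟩ := hY.bdd
  refine ⟨Measurable.ite hp hX.meas hY.meas, max C D, fun ω => ?_⟩
  split_ifs
  · exact (hC ω).trans (le_max_left _ _)
  · exact (hD ω).trans (le_max_right _ _)
lemma BM.integrable {X : Ω → ℝ} (hX : BM X) (μ : Measure Ω) [IsFiniteMeasure μ] :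
    Integrable X μ := by
  obtain ⟨C, hC⟩ := hX.bdd
  exact Integrable.of_bound hX.meas.aestronglyMeasurable C (Eventually.of_forall hC)
lemma BM.memLp {X : Ω → ℝ} (hX : BM X) (μ : Measure Ω) [IsFiniteMeasure μ] (p : ENNReal) :
    MemLp X p μ := by
  obtain ⟨C, hC⟩ := hX.bdd
  exact MemLp.of_bound hX.meas.aestronglyMeasurable C (Eventually.of_forall hC)
/-- integrating out a parameter keeps `BM` -/
lemma BM.integral_prod_right {Ω' : Type*} [MeasurableSpace Ω'] {F : Ω × Ω' → ℝ} (hF : BM F)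
    (ν : Measure Ω') [IsProbabilityMeasure ν] : BM fun ω => ∫ ω', F (ω, ω') ∂ν := by
  obtain ⟨C, hC⟩ := hF.bdd
  refine ⟨(hF.meas.stronglyMeasurable.integral_prod_right' (ν := ν)).measurable, C, fun ω => ?_⟩
  have := norm_integral_le_of_norm_le_const (μ := ν) (f := fun ω' => F (ω, ω')) (C := C)
    (Eventually.of_forall fun ω' => hC _)
  simpa using this
/-- pairwise orthogonal sums -/
lemma integral_sq_sum_orth {ι : Type*} (μ : Measure Ω) [IsFiniteMeasure μ] (s : Finset ι)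
    {K : ι → Ω → ℝ} (hK : ∀ i ∈ s, BM (K i))
    (horth : ∀ i ∈ s, ∀ j ∈ s, i ≠ j → ∫ ω, K i ω * K j ω ∂μ = 0) :
    ∫ ω, (∑ i ∈ s, K i ω) ^ 2 ∂μ = ∑ i ∈ s, ∫ ω, K i ω ^ 2 ∂μ := by
  have h1 : ∀ ω, (∑ i ∈ s, K i ω) ^ 2 = ∑ i ∈ s, ∑ j ∈ s, K i ω * K j ω := fun ω => by
    rw [sq, Finset.sum_mul_sum]
  simp only [h1]
  rw [integral_finsetSum _ fun i hi =>
    (BM.sum s fun j hj => (hK i hi).mul (hK j hj)).integrable μ]
  refine Finset.sum_congr rfl fun i hi => ?_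
  rw [integral_finsetSum _ fun j hj => ((hK i hi).mul (hK j hj)).integrable μ,
    Finset.sum_eq_single_of_mem i hi fun j hj hne => horth i hi j hj hne.symm]
  simp only [sq]
/-- Cauchy–Schwarz -/
lemma sq_integral_mul_le (μ : Measure Ω) [IsFiniteMeasure μ] {X Y : Ω → ℝ} (hX : BM X) (hY : BM Y) :
    (∫ ω, X ω * Y ω ∂μ) ^ 2 ≤ (∫ ω, X ω ^ 2 ∂μ) * ∫ ω, Y ω ^ 2 ∂μ := by
  have h : ∀ t : ℝ, 0 ≤ (∫ ω, X ω ^ 2 ∂μ) * (t * t) + (2 * ∫ ω, X ω * Y ω ∂μ) * t
      + ∫ ω, Y ω ^ 2 ∂μ := by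
    intro t
    have h1 : ∫ ω, (t * X ω + Y ω) ^ 2 ∂μ = (∫ ω, X ω ^ 2 ∂μ) * (t * t)
        + (2 * ∫ ω, X ω * Y ω ∂μ) * t + ∫ ω, Y ω ^ 2 ∂μ := by
      have h2 : ∀ ω, (t * X ω + Y ω) ^ 2
          = X ω ^ 2 * (t * t) + (2 * (X ω * Y ω)) * t + Y ω ^ 2 := fun ω => by ring
      simp only [h2]
      rw [integral_add, integral_add, integral_mul_const, integral_mul_const, integral_const_mul]
      · exact ((hX.pow 2).mul (BM.const _)).integrable μ
      · exact (((BM.const 2).mul (hX.mul hY)).mul (BM.const _)).integrable μ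
      · exact (((hX.pow 2).mul (BM.const _)).add
          (((BM.const 2).mul (hX.mul hY)).mul (BM.const _))).integrable μ
      · exact (hY.pow 2).integrable μ
    rw [← h1]
    exact integral_nonneg fun ω => sq_nonneg _
  have := discrim_le_zero h
  unfold discrim at this
  nlinarith
end BM

end Crest.Agent.R160
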