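import Crest.Agent.R160.Model3

/-!
# Row 160 (S0241): Sigma
σ-algebras of observations, the posterior formula in infinite volume, a.s. convergence of the
cavity recursions.  For increasing finite sets `Λ n` with union `D`, `⨆ n, FF (Λ n) R = FF D R`, so by
`pf_fin` and Lévy's upward theorem `MeasureTheory.tendsto_ae_condExp`,
`mag (Y (Λ n) ..) v → E[spin v | FF D R]` a.s.; the fields are bounded, so `tendsto_of_tanh` gives
convergence of `cav (Y (Λ n) ..) v v`.  Use `cavN_eq_indicator`, `cav_eq_indicator`, `Y_inter` with
`Λ n = D ∩ DN n y x`, resp. `ball n o ∩ D y x`.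
-/

set_option autoImplicit false

open MeasureTheory Filter Topology
open scoped unitInterval

noncomputable section

namespace Crest.Agent.R160

universe u

namespace Setup

variable {V : Type u} (S : Setup V)

variable {S}

/-- the observation map is measurable for the σ-algebra it generates -/
lemma measurable_FF_obs (D : Set V) (R : Om V → ℝ) : Measurable[S.FF D R] (S.obs D R) :=
  comap_measurable _

/-- rebuild the time coordinates from an observation -/
def sigmaTimes (O : X × Seen V) : Om V := fun i =>
  match i with
  | Idx.rho => O.1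
  | Idx.time v j => (O.2 (v, j)).1
  | _ => O.1

lemma measurable_sigmaTimes : Measurable (sigmaTimes : X × Seen V → Om V) := by
  refine measurable_pi_lambda _ fun i => ?_
  cases i with
  | rho => exact measurable_fst
  | root => exact measurable_fst
  | edge e => exact measurable_fst
  | time v j => exact measurable_fst.comp ((measurable_pi_apply (v, j)).comp measurable_snd)
  | noise v j => exact measurable_fst

lemma measurable_FF_timeDep (D : Set V) (R : Om V → ℝ) {β : Type*} [MeasurableSpace β]
    {F : Om V → β} (hF : Measurable F) (hdep : DependsOn F (timeIdx V)) :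
    Measurable[S.FF D R] F := by
  have h : F = fun ω => F (sigmaTimes (S.obs D R ω)) := by
    funext ω
    refine hdep fun i hi => ?_
    rcases hi with rfl | ⟨v, j, rfl⟩
    · rfl
    · rfl
  rw [h]
  exact hF.comp (measurable_sigmaTimes.comp (measurable_FF_obs D R))

lemma measurable_FF_time (D : Set V) (R : Om V → ℝ) {R' : Om V → ℝ} {J : ℕ} (hR' : IsTime R' J) :
    Measurable[S.FF D R] R' := measurable_FF_timeDep D R hR'.meas hR'.dep

lemma measurable_FF_Y (D : Set V) (R : Om V → ℝ) :
    Measurable[S.FF D R] fun ω => S.Y D (R ω) ω :=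
  measurable_fld.comp (measurable_snd.comp (measurable_FF_obs D R))

open Classical in
/-- restrict an observation to a smaller vertex set -/
def sigmaRestrict (D : Set V) (O : X × Seen V) : X × Seen V :=
  (O.1, fun b => ((O.2 b).1, if b.1 ∈ D then (O.2 b).2 else 0))

lemma measurable_sigmaRestrict (D : Set V) :
    Measurable (sigmaRestrict D : X × Seen V → X × Seen V) := by
  classical
  refine measurable_fst.prodMk (measurable_pi_lambda _ fun b => ?_)
  have h : Measurable fun O : X × Seen V => O.2 b := (measurable_pi_apply b).comp measurable_snd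
  refine (measurable_fst.comp h).prodMk ?_
  by_cases hb : b.1 ∈ D
  · simp only [hb, if_true]
    exact measurable_snd.comp h
  · simp only [hb, if_false]
    exact measurable_const

lemma FF_mono {D D' : Set V} (h : D ⊆ D') (R : Om V → ℝ) : S.FF D R ≤ S.FF D' R := by
  have e : S.obs D R = fun ω => sigmaRestrict D (S.obs D' R ω) := by
    funext ω
    refine Prod.ext rfl (funext fun b => Prod.ext rfl ?_)
    simp only [obs, seen, sigmaRestrict]
    by_cases hb : b.1 ∈ D
    · simp [hb, h hb]
    · simp [hb]
  have hm : Measurable[S.FF D' R] (S.obs D R) := by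
    rw [e]
    exact (measurable_sigmaRestrict D).comp (measurable_FF_obs D' R)
  exact hm.comap_le

open Classical in
lemma measurable_FF_w {D : Set V} (R : Om V → ℝ) {b : V × ℕ} (hb : b.1 ∈ D) :
    Measurable[S.FF D R] fun ω => if T b ω < R ω then S.w b ω else 0 := by
  have e : (fun ω => if T b ω < R ω then S.w b ω else 0) = fun ω => ((S.obs D R ω).2 b).2 := by
    funext ω
    simp [obs, seen, hb]
  rw [e]
  exact measurable_snd.comp ((measurable_pi_apply b).comp
    (measurable_snd.comp (measurable_FF_obs D R)))

/-- rewind an observation to an earlier time -/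
def sigmaRewind (p : ℝ × (X × Seen V)) : X × Seen V :=
  (p.2.1, fun b => ((p.2.2 b).1, if tm b.2 ((p.2.2 b).1.1 : ℝ) < p.1 then (p.2.2 b).2 else 0))

lemma measurable_sigmaRewind : Measurable (sigmaRewind : ℝ × (X × Seen V) → X × Seen V) := by
  refine (measurable_fst.comp measurable_snd).prodMk (measurable_pi_lambda _ fun b => ?_)
  have h : Measurable fun p : ℝ × (X × Seen V) => p.2.2 b :=
    (measurable_pi_apply b).comp (measurable_snd.comp measurable_snd)
  refine (measurable_fst.comp h).prodMk ?_
  exact Measurable.ite (measurableSet_lt ((measurable_tm b.2).comp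
    (measurable_subtype_coe.comp (measurable_fst.comp (measurable_fst.comp h)))) measurable_fst)
    (measurable_snd.comp h) measurable_const

lemma sigmaRewind_obs (D : Set V) {R R' : Om V → ℝ} {ω : Om V} (h : R' ω ≤ R ω) :
    sigmaRewind (R' ω, S.obs D R ω) = S.obs D R' ω := by
  refine Prod.ext rfl (funext fun b => Prod.ext rfl ?_)
  simp only [obs, seen, sigmaRewind]
  have e : tm b.2 ((ω (Idx.time b.1 b.2)).1 : ℝ) = T b ω := rfl
  rw [e]
  by_cases h1 : T b ω < R' ω
  · have h2 : T b ω < R ω := h1.trans_le h
    rw [if_pos h1]
    by_cases hb : b.1 ∈ D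
    · rw [if_pos ⟨h2, hb⟩, if_pos ⟨h1, hb⟩]
    · rw [if_neg fun hh => hb hh.2, if_neg fun hh => hb hh.2]
  · simp [h1]

open Classical in
/-- information at an earlier time is available at a later time (general target) -/
lemma measurable_FF_past' (D : Set V) {R R' : Om V → ℝ} {J' : ℕ}
    (hR' : IsTime R' J') {β : Type*} [MeasurableSpace β] {g : X × Seen V → β} (hg : Measurable g)
    {p : Om V → Prop} (hp : MeasurableSet[S.FF D R] {ω | p ω}) (hpR : ∀ ω, p ω → R' ω ≤ R ω)
    {c : Om V → β} (hc : Measurable[S.FF D R] c) :
    Measurable[S.FF D R] fun ω => if p ω then g (S.obs D R' ω) else c ω := by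
  have e : (fun ω => if p ω then g (S.obs D R' ω) else c ω) =
      fun ω => if p ω then g (sigmaRewind (R' ω, S.obs D R ω)) else c ω := by
    funext ω
    by_cases h : p ω
    · simp only [h, if_true]
      rw [sigmaRewind_obs D (hpR ω h)]
    · simp only [h, if_false]
  rw [e]
  exact Measurable.ite hp (hg.comp (measurable_sigmaRewind.comp
    ((measurable_FF_time D R hR').prodMk (measurable_FF_obs D R)))) hc

open Classical in
/-- information at an earlier time is available at a later time -/
lemma measurable_FF_past (D : Set V) {R R' : Om V → ℝ} {J J' : ℕ} (hR : IsTime R J)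
    (hR' : IsTime R' J') {Z : Om V → ℝ} (hZ : Measurable[S.FF D R'] Z) :
    Measurable[S.FF D R] fun ω => if R' ω ≤ R ω then Z ω else 0 := by
  obtain ⟨g, hg, rfl⟩ := hZ.exists_eq_measurable_comp
  exact measurable_FF_past' D hR' hg
    (measurableSet_le (measurable_FF_time D R hR') (measurable_FF_time D R hR)) (fun _ h => h)
    measurable_const

end Setup

end Crest.Agent.R160
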