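import Crest.Agent.R160.Levy
import Crest.Agent.R160.Tree3

/-!
# Row 160 (S0241): Static
Static estimates at a fixed time `r`: recursion, likelihood-ratio symmetry, second moment bounds.
* `isLR_XX`: `∫ φ(XX) = ∫ spin y * φ(cav)`, and `cav (Y univ) y x = cav (Y (D y x)) y y`
  (`cav_eq_indicator`, `Y_inter`); apply `pf` with `D y x`.
* `xm_lower` (`γ = 1`): test function `g = ∑_{z ∈ ch y x} θ tanh (cav z y) + [T (y,0) < r] tau (y,0)`,
  `FF (D y x)`-measurable.  `∫ spin y * g = x + x₀ =: s` (`x₀ = ∫ tanh² (zeta (y,0) r) ≥ min r 1 ^ 3/192`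
  by `slot_zero_lower`), `∫ g² ≤ s + s²` (independent summands with `E g̃ᵢ² = E g̃ᵢ`), and by `pf` and
  Cauchy–Schwarz `s² ≤ x (s + s²)`.  So `x (x + x₀) ≥ x₀`, `x₀ ≤ 1/4`, whence `2 x² ≥ x₀`.
* `xm_upper`: `w = ∫ XX = ∫ XX tanh XX ≥ x`; `w = ∫ zeta + (d-1) ∫ fm(XX) tanh (fm XX)`,
  `fm_moment_le` and `∫ tanh⁴ ≥ x²` give `(1-γ) w + γ (1-θ²) x²/3 ≤ ∫ zeta (y,0) r ≤ r * r/2`.
-/

set_option autoImplicit false

open MeasureTheory Filter Topology
open scoped unitInterval

noncomputable section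

namespace Crest.Agent.R160

universe u

namespace Setup

variable {V : Type u} (S : Setup V)

/-- likelihood-ratio symmetry: the law of `ζ` has density `1 + tanh` w.r.t. a symmetric law -/
structure _root_.Crest.Agent.R160.IsLR (ζ : Om V → ℝ) : Prop where
  bm : BM ζ
  odd : ∀ φ : ℝ → ℝ, Continuous φ → (∀ x, φ (-x) = -φ x) →
    ∫ ω, φ (ζ ω) ∂(mu V) = ∫ ω, φ (ζ ω) * Real.tanh (ζ ω) ∂(mu V)

variable {S}

lemma static_odd_sgn {φ : ℝ → ℝ} (hφ : ∀ x, φ (-x) = -φ x) {s : ℝ} (hs : s = 1 ∨ s = -1) (c : ℝ) :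
    φ (s * c) = s * φ c := by
  rcases hs with rfl | rfl
  · simp
  · simp [hφ]

lemma static_odd_zero {φ : ℝ → ℝ} (hφ : ∀ x, φ (-x) = -φ x) : φ 0 = 0 := by
  have := hφ 0
  rw [neg_zero] at this
  linarith

theorem XX_rec {r : ℝ} {J : ℕ} (hr : r ≤ J) {y x : V} (h : S.DE y x) :
    ∀ᵐ ω ∂(mu V), S.XX r y x ω = ∑ j ∈ Finset.range J, zeta (y, j) r ω +
      ∑ z ∈ S.ch y x, S.eta y z ω * fm S.θ (S.XX r z y ω) := by
  filter_upwards [ae_good (S := S) Set.univ (isTime_const (V := V) hr)] with ω hω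
  unfold XX
  rw [hω.cav_rec h, Y_eq_spin_mul hr ω (Set.mem_univ y), mul_add, ← mul_assoc, spin_mul_self,
    one_mul, Finset.mul_sum]
  congr 1
  refine Finset.sum_congr rfl fun z hz => ?_
  have hadj := (mem_ch.1 hz).1
  rw [static_odd_sgn (fm_neg S.hθ0 S.theta_sq_le) (spin_eq z ω), spin_adj hadj]
  rcases eta_eq (S := S) y z ω with h1 | h1 <;> rw [h1] <;> ring

theorem integral_XX_eq (r : ℝ) {y x y' x' : V} (h : S.G.Adj y x) (h' : S.G.Adj y' x') {φ : ℝ → ℝ}
    (hφ : Measurable φ) :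
    ∫ ω, φ (S.XX r y x ω) ∂(mu V) = ∫ ω, φ (S.XX r y' x' ω) ∂(mu V) := by
  obtain ⟨g, rfl, rfl⟩ := exists_aut_edge h h'
  simp only [← XX_act]
  exact (integral_comp_mp (measurePreserving_act g) (Φ := fun ω => φ (S.XX r y x ω))
    (hφ.comp (BM_XX r y x).meas).aestronglyMeasurable).symm

theorem isLR_XX (r : ℝ) {y x : V} (h : S.DE y x) : IsLR (S.XX r y x) := by
  refine ⟨BM_XX r y x, fun φ hφ hodd => ?_⟩
  obtain ⟨J, hJ⟩ := exists_nat_ge r
  have hc : ∀ ω, S.cav (S.Y Set.univ r ω) y x = S.cav (S.Y (S.D y x) r ω) y y := by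
    intro ω
    rw [cav_eq_indicator _ h, ← Y_inter, Set.univ_inter]
  have hT := isTime_const (V := V) hJ
  have hm : Measurable[S.FF (S.D y x) fun _ => r]
      fun ω => φ (S.cav (S.Y (S.D y x) r ω) y y) :=
    hφ.measurable.comp ((measurable_cav y y).comp (measurable_FF_Y (S.D y x) fun _ => r))
  have hb := ((BM_cav (S := S) (S.D y x) hT y y).comp_continuous hφ).bdd
  have := pf (S.D y x) hT y hm hb
  calc ∫ ω, φ (S.XX r y x ω) ∂(mu V)
      = ∫ ω, S.spin y ω * φ (S.cav (S.Y (S.D y x) r ω) y y) ∂(mu V) := by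
        refine integral_congr_ae (Eventually.of_forall fun ω => ?_)
        simp only [XX]
        rw [static_odd_sgn hodd (spin_eq y ω), hc]
    _ = _ := this
    _ = _ := by
        refine integral_congr_ae (Eventually.of_forall fun ω => ?_)
        simp only [XX, mag]
        rw [static_odd_sgn hodd (spin_eq y ω), static_odd_sgn Real.tanh_neg (spin_eq y ω), hc]
        have := spin_mul_self (S := S) y ω
        linear_combination (-(φ (S.cav (S.Y (S.D y x) r ω) y y) *
          Real.tanh (S.cav (S.Y (S.D y x) r ω) y y))) * this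

/-- the field increment of a slot as a function of its two uniform coordinates -/
def staticZfun (j : ℕ) (r : ℝ) (p : ℝ × ℝ) : ℝ :=
  if tm j p.1 < r then Real.artanh (amp j p.1 * Qf (amp j p.1) p.2) else 0

lemma static_zeta_eq (a : V × ℕ) (r : ℝ) (ω : Om V) :
    zeta a r ω = staticZfun a.2 r (sv a ω, ((ω (Idx.noise a.1 a.2)).1 : ℝ)) := rfl

lemma static_measurable_zfun (j : ℕ) (r : ℝ) : Measurable (staticZfun j r) := by
  unfold staticZfun
  refine Measurable.ite (measurableSet_lt ((measurable_tm j).comp measurable_fst) measurable_const)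
    ?_ measurable_const
  have h1 : Measurable fun p : ℝ × ℝ => amp j p.1 := (measurable_amp j).comp measurable_fst
  exact measurable_artanh.comp (h1.mul (measurable_Qf.comp (h1.prodMk measurable_snd)))

lemma static_abs_amp_Qf_le (j : ℕ) (s u : I) : |amp j s * Qf (amp j s) u| ≤ 1 / 2 := by
  have h0 := amp_nonneg j s.2.1
  have h1 := amp_le_half j (s : ℝ)
  have h2 := abs_Qf_le (a := amp j s) (u := u) (by rw [abs_of_nonneg h0]; exact h1) u.2.1 u.2.2
  rw [abs_mul, abs_of_nonneg h0]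
  nlinarith [abs_nonneg (Qf (amp j s) u)]

lemma static_abs_zfun_le (j : ℕ) (r : ℝ) (s u : I) : |staticZfun j r (s, u)| ≤ 1 := by
  unfold staticZfun
  split_ifs
  · have h := static_abs_amp_Qf_le j s u
    have := abs_artanh_le h
    linarith
  · simp

lemma static_integral_zeta (a : V × ℕ) (r : ℝ) {φ : ℝ → ℝ} (hφ : Continuous φ) :
    ∫ ω, φ (zeta a r ω) ∂(mu V) = ∫ s : I, ∫ u : I, φ (staticZfun a.2 r (s, u)) := by
  obtain ⟨C, hC⟩ := (isCompact_Icc (a := (-1 : ℝ)) (b := 1)).exists_bound_of_continuousOn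
    hφ.continuousOn
  exact integral_slot a (φ := fun p => φ (staticZfun a.2 r p)) (hφ.measurable.comp (static_measurable_zfun _ _))
    ⟨C, fun s u => hC _ (abs_le.1 (static_abs_zfun_le _ _ s u))⟩

theorem isLR_zeta (a : V × ℕ) (r : ℝ) : IsLR (zeta a r) := by
  refine ⟨BM_zeta a r, fun φ hφ hodd => ?_⟩
  rw [static_integral_zeta a r hφ, static_integral_zeta a r (φ := fun x => φ x * Real.tanh x)
    (hφ.mul continuous_tanh')]
  refine integral_congr_ae (Eventually.of_forall fun s => ?_)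
  by_cases hs : tm a.2 s < r
  · simp only [staticZfun, if_pos hs]
    exact slot_LR (amp_nonneg _ s.2.1) (amp_le_half _ _) hφ hodd
  · simp only [staticZfun, if_neg hs, static_odd_zero hodd, zero_mul]

/-- averaging over the edge variable -/
theorem integral_xi (r : ℝ) {y z : V} (h : S.G.Adj y z) {φ : ℝ → ℝ} (hφ : Continuous φ) :
    ∫ ω, φ (S.eta y z ω * fm S.θ (S.XX r z y ω)) ∂(mu V) =
      (1 + S.θ) / 2 * ∫ ω, φ (fm S.θ (S.XX r z y ω)) ∂(mu V) +
        (1 - S.θ) / 2 * ∫ ω, φ (-fm S.θ (S.XX r z y ω)) ∂(mu V) := by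
  have hf := continuous_fm S.hθ0 S.theta_sq_le
  have hX := XX_dependsOn (S := S) r (y := z) (x := y) (Or.inr h.symm)
  have hdisj : Disjoint ({Idx.edge s(y, z)} : Set (Idx V)) (idx (S.D z y)) :=
    Set.disjoint_singleton_left.2 (edge_not_mem_idx (not_mem_D h.symm))
  have key : ∀ (ψ χ : ℝ → ℝ), Continuous ψ → Continuous χ →
      ∫ ω, ψ (S.eta y z ω) * χ (S.XX r z y ω) ∂(mu V) =
        ((1 + S.θ) / 2 * ψ 1 + (1 - S.θ) / 2 * ψ (-1)) * ∫ ω, χ (S.XX r z y ω) ∂(mu V) := by
    intro ψ χ hψ hχ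
    rw [← integral_eta]
    exact integral_mul_of_dependsOn nu ((BM_eta y z).comp_continuous hψ)
      ((BM_XX r z y).comp_continuous hχ)
      (fun ω ω' hh => by
        show ψ (S.eta y z ω) = ψ (S.eta y z ω')
        rw [eta_dependsOn y z hh])
      (fun ω ω' hh => by
        show χ (S.XX r z y ω) = χ (S.XX r z y ω')
        rw [hX hh]) hdisj
  have c1 : Continuous fun x : ℝ => (1 + x) / 2 := by fun_prop
  have c2 : Continuous fun x : ℝ => (1 - x) / 2 := by fun_prop
  have c3 : Continuous fun x : ℝ => φ (fm S.θ x) := hφ.comp hf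
  have c4 : Continuous fun x : ℝ => φ (-fm S.θ x) := hφ.comp hf.neg
  have k1 := key _ _ c1 c3
  have k2 := key _ _ c2 c4
  have e : ∀ ω, φ (S.eta y z ω * fm S.θ (S.XX r z y ω)) =
      (1 + S.eta y z ω) / 2 * φ (fm S.θ (S.XX r z y ω)) +
        (1 - S.eta y z ω) / 2 * φ (-fm S.θ (S.XX r z y ω)) := by
    intro ω
    rcases eta_eq (S := S) y z ω with h1 | h1 <;> rw [h1] <;> simp
  simp only [e]
  rw [integral_add, k1, k2]
  · ring
  · exact (((BM_eta y z).comp_continuous c1).mul ((BM_XX r z y).comp_continuous c3)).integrable _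
  · exact (((BM_eta y z).comp_continuous c2).mul ((BM_XX r z y).comp_continuous c4)).integrable _

theorem isLR_xi (r : ℝ) {y z : V} (h : S.G.Adj y z) :
    IsLR fun ω => S.eta y z ω * fm S.θ (S.XX r z y ω) := by
  have hf := continuous_fm S.hθ0 S.theta_sq_le
  refine ⟨(BM_eta y z).mul ((BM_XX r z y).comp_continuous hf), fun φ hφ hodd => ?_⟩
  rw [integral_xi r h hφ, integral_xi r h (φ := fun x => φ x * Real.tanh x)
    (hφ.mul continuous_tanh')]
  have h1 := (isLR_XX (S := S) r (y := z) (x := y) (Or.inr h.symm)).odd (fun x => φ (fm S.θ x))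
    (hφ.comp hf) (fun x => by rw [fm_neg S.hθ0 S.theta_sq_le, hodd])
  simp only [hodd, Real.tanh_neg, neg_mul_neg, integral_neg, tanh_fm S.hθ0 S.theta_sq_le]
  have h2 : ∫ ω, φ (fm S.θ (S.XX r z y ω)) * (S.θ * Real.tanh (S.XX r z y ω)) ∂(mu V) =
      S.θ * ∫ ω, φ (fm S.θ (S.XX r z y ω)) * Real.tanh (S.XX r z y ω) ∂(mu V) := by
    rw [← integral_const_mul]
    exact integral_congr_ae (Eventually.of_forall fun ω => by simp only; ring)
  rw [h2, ← h1]
  ring

theorem zeta_zero_lower (v : V) {r : ℝ} (hr : 0 < r) :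
    min r 1 ^ 3 / 192 ≤ ∫ ω, Real.tanh (zeta (v, 0) r ω) ^ 2 ∂(mu V) := by
  rw [static_integral_zeta (v, 0) r (φ := fun x => Real.tanh x ^ 2) (continuous_tanh'.pow 2)]
  refine (slot_zero_lower hr).trans (le_of_eq ?_)
  refine integral_congr_ae (Eventually.of_forall fun s => ?_)
  refine integral_congr_ae (Eventually.of_forall fun u => ?_)
  simp only [staticZfun]
  split_ifs
  · have := static_abs_amp_Qf_le 0 s u
    rw [Real.tanh_artanh (abs_lt.1 (by linarith))]
  · simp

theorem integral_abs_zeta_zero_le (v : V) {r : ℝ} (hr0 : 0 ≤ r) (hr : r ≤ 1) :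
    ∫ ω, |zeta (v, 0) r ω| ∂(mu V) ≤ r ^ 2 / 2 := by
  set c : I := ⟨r / 2, by constructor <;> linarith⟩ with hc
  have hm : Measurable fun u : I => (Set.Iio c).indicator (fun _ => r) u :=
    measurable_const.indicator measurableSet_Iio
  have h1 : ∀ ω : Om V, |zeta (v, 0) r ω| ≤
      (Set.Iio c).indicator (fun _ => r) (ω (Idx.time v 0)).1 := by
    intro ω
    by_cases hT : T (v, 0) ω < r
    · rw [Set.indicator_of_mem]
      · exact abs_zeta_le_small hr0 hr ω
      · show ((ω (Idx.time v 0)).1 : ℝ) < r / 2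
        simp only [T, tm, sv, Nat.cast_zero, zero_add] at hT
        linarith
    · simp only [zeta, if_neg hT, abs_zero]
      exact Set.indicator_nonneg (fun _ _ => hr0) _
  have hB : BM fun ω : Om V => (Set.Iio c).indicator (fun _ => r) (ω (Idx.time v 0)).1 := by
    refine ⟨hm.comp (measurable_fst.comp (measurable_pi_apply _)), r, fun ω => ?_⟩
    by_cases h : (ω (Idx.time v 0)).1 ∈ Set.Iio c
    · rw [Set.indicator_of_mem h, abs_of_nonneg hr0]
    · rw [Set.indicator_of_notMem h, abs_zero]; exact hr0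
  calc ∫ ω, |zeta (v, 0) r ω| ∂(mu V)
      ≤ ∫ ω, (Set.Iio c).indicator (fun _ => r) (ω (Idx.time v 0)).1 ∂(mu V) :=
        integral_mono ((BM_zeta (v, 0) r).comp_continuous continuous_abs |>.integrable _)
          (hB.integrable _) h1
    _ = ∫ ξ : X, (Set.Iio c).indicator (fun _ => r) ξ.1 ∂nu :=
        integral_eval nu (Idx.time v 0) (φ := fun ξ : X => (Set.Iio c).indicator (fun _ => r) ξ.1)
          (hm.comp measurable_fst)
    _ = ∫ u : I, (Set.Iio c).indicator (fun _ => r) u := integral_nu_fst hm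
    _ = r ^ 2 / 2 := by
        rw [integral_indicator_const _ measurableSet_Iio, measureReal_def, unitInterval.volume_Iio,
          ENNReal.toReal_ofReal c.2.1, smul_eq_mul]
        show r / 2 * r = _
        ring

end Setup

end Crest.Agent.R160
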