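import Crest.Agent.R160.Static

/-!
# Row 160 (S0241): Static2
Static estimates at a fixed time `r`: recursion, likelihood-ratio symmetry, second moment bounds.
* `isLR_XX`: `∫ φ(XX) = ∫ spin y * φ(cav)`, and `cav (Y univ) y x = cav (Y (D y x)) y y`
  (`cav_eq_indicator`, `Y_inter`); apply `pf` with `D y x`.
* `xm_lower` (`γ = 1`): test function `g = ∑_{z ∈ ch y x} θ tanh (cav z y) + [T (y,0) < r] tau (y,0)`,
  `FF (D y x)`-measurable.  `∫ spin y * g = x + x₀ =: s` (`x₀ = ∫ tanh² (zeta (y,0) r) ≥ min r 1 ^ 3/192`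
  by `slot_zero_lower`), `∫ g² ≤ s + s²` (independent summands with `E g̃ᵢ² = E g̃ᵢ`), and by `pf` and
  Cauchy–Schwarz `s² ≤ x (s + s²)`.  So `x (x + x₀) ≥ x₀`, `x₀ ≤ 1/4`, whence `2 x² ≥ x₀`.
* `xm_upper`: `w = ∫ XX = ∫ XX tanh XX ≥ x`; `w = ∫ zeta + (d-1) ∫ fm(XX) tanh (fm XX)`,
  `fm_moment_le` and `∫ tanh⁴ ≥ x²` give `(1-γ) w + γ (1-θ²) x²/3 ≤ ∫ zeta (y,0) r ≤ r * r/2`.
-/

set_option autoImplicit false

open MeasureTheory Filter Topology
open scoped unitInterval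

noncomputable section

namespace Crest.Agent.R160

universe u

namespace Setup

variable {V : Type u} (S : Setup V)

variable {S}

lemma xm_nonneg (r : ℝ) (y x : V) : 0 ≤ S.xm r y x :=
  integral_nonneg fun _ => sq_nonneg _

lemma st2_tanh_sq_le (h : ℝ) : Real.tanh h ^ 2 ≤ h * Real.tanh h := by
  have h1 : |Real.tanh h| ≤ |h| := by simpa using tanh_lipschitz h 0
  have h2 : h * Real.tanh h = |h| * |Real.tanh h| := by
    rw [← abs_mul, abs_of_nonneg (mul_tanh_nonneg h)]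
  rw [h2, ← sq_abs, sq]
  exact mul_le_mul_of_nonneg_right h1 (abs_nonneg _)

lemma st2_abs_le {h B : ℝ} (hB : |h| ≤ B) : |h| ≤ Real.cosh B ^ 2 * |Real.tanh h| := by
  have := sub_le_cosh_sq_mul (a := h) (b := 0) hB (by simpa using (abs_nonneg h).trans hB)
  simpa using this

lemma st2_tanh_sgn {c : ℝ} (hc : c = 1 ∨ c = -1) (h : ℝ) :
    Real.tanh (c * h) = c * Real.tanh h := by
  rcases hc with rfl | rfl <;> simp [Real.tanh_neg]

lemma st2_BM_tanh {Z : Om V → ℝ} (hZ : BM Z) : BM fun ω => Real.tanh (Z ω) :=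
  hZ.comp_continuous continuous_tanh'

lemma st2_BM_fm {Z : Om V → ℝ} (hZ : BM Z) : BM fun ω => fm S.θ (Z ω) :=
  hZ.comp_continuous (continuous_fm S.hθ0 S.theta_sq_le)

lemma st2_LR_id {ζ : Om V → ℝ} (h : IsLR ζ) :
    ∫ ω, ζ ω ∂(mu V) = ∫ ω, ζ ω * Real.tanh (ζ ω) ∂(mu V) :=
  h.odd (fun x => x) continuous_id fun _ => rfl

lemma st2_LR_tanh {ζ : Om V → ℝ} (h : IsLR ζ) :
    ∫ ω, Real.tanh (ζ ω) ∂(mu V) = ∫ ω, Real.tanh (ζ ω) ^ 2 ∂(mu V) := by
  rw [h.odd Real.tanh continuous_tanh' Real.tanh_neg]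
  simp only [sq]

lemma st2_xm_le_one (r : ℝ) (y x : V) : S.xm r y x ≤ 1 := by
  have h := integral_mono (μ := mu V) (((st2_BM_tanh (BM_XX (S := S) r y x)).pow 2).integrable _)
    (integrable_const (1 : ℝ)) (fun ω => by
      have := abs_tanh_le_one (S.XX r y x ω)
      exact (sq_le_one_iff_abs_le_one _).2 this)
  simpa [xm] using h

lemma st2_xm_le_integral (r : ℝ) {y x : V} (h : S.DE y x) :
    S.xm r y x ≤ ∫ ω, S.XX r y x ω ∂(mu V) := by
  rw [st2_LR_id (isLR_XX r h)]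
  exact integral_mono (((st2_BM_tanh (BM_XX (S := S) r y x)).pow 2).integrable _)
    (((BM_XX r y x).mul (st2_BM_tanh (BM_XX (S := S) r y x))).integrable _)
    fun ω => st2_tanh_sq_le _

/-- mean of the message along one branch -/
lemma st2_integral_xi_le (r : ℝ) {y z : V} (h : S.G.Adj y z) :
    ∫ ω, S.eta y z ω * fm S.θ (S.XX r z y ω) ∂(mu V) ≤
      S.θ ^ 2 * ∫ ω, S.XX r z y ω ∂(mu V) - S.θ ^ 2 * (1 - S.θ ^ 2) / 3 * S.xm r z y ^ 2 := by
  have hX := BM_XX (S := S) r z y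
  have hT := st2_BM_tanh hX
  have hF := st2_BM_fm (S := S) hX
  have h1 : ∫ ω, S.eta y z ω * fm S.θ (S.XX r z y ω) ∂(mu V) =
      ∫ ω, fm S.θ (S.XX r z y ω) * Real.tanh (fm S.θ (S.XX r z y ω)) ∂(mu V) := by
    rw [st2_LR_id (isLR_xi r h)]
    refine integral_congr_ae (Eventually.of_forall fun ω => ?_)
    simp only
    rw [st2_tanh_sgn (eta_eq y z ω)]
    rcases eta_eq (S := S) y z ω with h | h <;> rw [h] <;> ring
  have h2 : ∫ ω, fm S.θ (S.XX r z y ω) * Real.tanh (fm S.θ (S.XX r z y ω)) ∂(mu V) ≤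
      ∫ ω, (S.θ ^ 2 * (S.XX r z y ω * Real.tanh (S.XX r z y ω)) -
        S.θ ^ 2 * (1 - S.θ ^ 2) / 3 * Real.tanh (S.XX r z y ω) ^ 4) ∂(mu V) :=
    integral_mono ((hF.mul (st2_BM_tanh hF)).integrable _)
      ((((BM.const _).mul (hX.mul hT)).sub ((BM.const _).mul (hT.pow 4))).integrable _)
      fun ω => fm_moment_le S.hθ0 S.theta_sq_le _
  rw [integral_sub (((BM.const _).mul (hX.mul hT)).integrable _)
    (((BM.const _).mul (hT.pow 4)).integrable _), integral_const_mul, integral_const_mul,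
    ← st2_LR_id (isLR_XX r (Or.inr h.symm))] at h2
  have h3 : S.xm r z y ^ 2 ≤ ∫ ω, Real.tanh (S.XX r z y ω) ^ 4 ∂(mu V) := by
    have := sq_integral_mul_le (mu V) (hT.pow 2) (BM.const 1)
    simp only [mul_one, one_pow, integral_const, probReal_univ, smul_eq_mul, ← pow_mul] at this
    exact this
  have h4 : 0 ≤ S.θ ^ 2 * (1 - S.θ ^ 2) / 3 := by
    have := S.theta_sq_le
    have : 0 ≤ 1 - S.θ ^ 2 := by linarith
    positivity
  rw [h1]
  nlinarith [mul_le_mul_of_nonneg_left h3 h4]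

lemma st2_integral_rec {r : ℝ} (hr : r ≤ 1) {y x : V} (h : S.DE y x) :
    ∫ ω, S.XX r y x ω ∂(mu V) = ∫ ω, zeta (y, 0) r ω ∂(mu V) +
      ∑ z ∈ S.ch y x, ∫ ω, S.eta y z ω * fm S.θ (S.XX r z y ω) ∂(mu V) := by
  have hb : ∀ z ∈ S.ch y x, BM fun ω => S.eta y z ω * fm S.θ (S.XX r z y ω) := fun z _ =>
    (BM_eta y z).mul (st2_BM_fm (BM_XX r z y))
  rw [integral_congr_ae (XX_rec (J := 1) (by simpa using hr) h)]
  simp only [Finset.range_one, Finset.sum_singleton]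
  rw [integral_add ((BM_zeta _ _).integrable _) ((BM.sum _ hb).integrable _),
    integral_finsetSum _ fun z hz => (hb z hz).integrable _]

lemma st2_integral_zeta_le (v : V) {r : ℝ} (hr0 : 0 ≤ r) (hr : r ≤ 1) :
    ∫ ω, zeta (v, 0) r ω ∂(mu V) ≤ r ^ 2 / 2 :=
  (integral_mono ((BM_zeta _ _).integrable _) ((BM_zeta _ _).integrable _).abs
    fun _ => le_abs_self _).trans (integral_abs_zeta_zero_le v hr0 hr)

lemma st2_xm_eq (r : ℝ) {y x y' x' : V} (h : S.G.Adj y x) (h' : S.G.Adj y' x') :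
    S.xm r y x = S.xm r y' x' :=
  integral_XX_eq r h h' (φ := fun t => Real.tanh t ^ 2) (continuous_tanh'.measurable.pow_const 2)

lemma st2_card {y x : V} (h : S.G.Adj y x) : ((S.ch y x).card : ℝ) = (S.d : ℝ) - 1 := by
  rw [card_ch_adj h, Nat.cast_sub (by have := S.hd; omega), Nat.cast_one]

/-- second moment of a sum of pairwise uncorrelated variables -/
lemma st2_sq_sum {ι : Type*} (s : Finset ι) {t : ι → Om V → ℝ} (ht : ∀ i ∈ s, BM (t i))
    (hind : ∀ i ∈ s, ∀ j ∈ s, i ≠ j →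
      ∫ ω, t i ω * t j ω ∂(mu V) = (∫ ω, t i ω ∂(mu V)) * ∫ ω, t j ω ∂(mu V)) :
    ∫ ω, (∑ i ∈ s, t i ω) ^ 2 ∂(mu V) ≤
      ∑ i ∈ s, ∫ ω, t i ω ^ 2 ∂(mu V) + (∑ i ∈ s, ∫ ω, t i ω ∂(mu V)) ^ 2 := by
  classical
  simp only [sq, Finset.sum_mul_sum]
  rw [integral_finsetSum _ fun i hi =>
    (BM.sum _ fun j hj => (ht i hi).mul (ht j hj)).integrable _, ← Finset.sum_add_distrib]
  refine Finset.sum_le_sum fun i hi => ?_
  rw [integral_finsetSum _ fun j hj => ((ht i hi).mul (ht j hj)).integrable _,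
    ← Finset.add_sum_erase _ _ hi, ← Finset.add_sum_erase _ _ hi,
    Finset.sum_congr rfl fun j hj =>
      hind i hi j (Finset.mem_of_mem_erase hj) (Finset.ne_of_mem_erase hj).symm]
  nlinarith [mul_self_nonneg (∫ ω, t i ω ∂(mu V))]

open Classical in
lemma st2_tanh_zeta (a : V × ℕ) (r : ℝ) (ω : Om V) :
    Real.tanh (zeta a r ω) = S.spin a.1 ω * (eps a ω * if T a ω < r then S.w a ω else 0) := by
  unfold zeta
  split_ifs
  · have h1 : |eps a ω * wt a ω| < 1 := by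
      rw [abs_mul, abs_of_nonneg (eps_nonneg a ω)]
      have h1 := eps_le_half a ω
      have h2 := abs_wt_le a ω
      have h3 := eps_nonneg a ω
      have h4 := abs_nonneg (wt a ω)
      nlinarith
    rw [Real.tanh_artanh (abs_lt.1 h1), w]
    linear_combination (-(eps a ω * wt a ω)) * spin_mul_self (S := S) a.1 ω
  · simp

lemma st2_tanh_xi (r : ℝ) {y z : V} (h : S.G.Adj y z) (ω : Om V) :
    Real.tanh (S.eta y z ω * fm S.θ (S.XX r z y ω)) =
      S.spin y ω * (S.θ * Real.tanh (S.cav (S.Y Set.univ r ω) z y)) := by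
  rw [st2_tanh_sgn (eta_eq y z ω), tanh_fm S.hθ0 S.theta_sq_le, XX,
    st2_tanh_sgn (spin_eq z ω), spin_adj h ω]
  rcases eta_eq (S := S) y z ω with h | h <;> rw [h] <;> ring

lemma st2_cav_D (r : ℝ) {y x : V} (h : S.DE y x) (ω : Om V) :
    S.cav (S.Y Set.univ r ω) y x = S.cav (S.Y (S.D y x) r ω) y y := by
  rw [cav_eq_indicator _ h, ← Y_inter, Set.univ_inter]

lemma st2_cav_ch (r : ℝ) {y x z : V} (h : S.DE y x) (hz : z ∈ S.ch y x) (ω : Om V) :
    S.cav (S.Y Set.univ r ω) z y = S.cav (S.Y (S.D y x) r ω) z y := by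
  refine cav_congr (DE_of_mem_ch hz) fun v hv => ?_
  have := Y_inter (S := S) Set.univ (S.D y x) r ω
  rw [Set.univ_inter] at this
  rw [this, Set.indicator_of_mem (D_subset h hz hv)]

lemma st2_eps_dep (a : V × ℕ) : DependsOn (eps a) (timeIdx V) := by
  intro ω ω' h
  simp only [eps, sv, h _ (Or.inr ⟨a.1, a.2, rfl⟩)]

theorem xm_lower (hγ : S.gam = 1) {r : ℝ} (hr : 0 < r) {y x : V} (h : S.G.Adj y x) :
    min r 1 ^ 3 / 384 ≤ S.xm r y x ^ 2 := by
  classical
  have hDE : S.DE y x := Or.inr h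
  have hR : IsTime (fun _ : Om V => r) ⌈r⌉₊ := isTime_const (Nat.le_ceil r)
  -- the test function
  set g : Om V → ℝ := fun ω => eps (y, 0) ω * (if T (y, 0) ω < r then S.w (y, 0) ω else 0) +
    ∑ z ∈ S.ch y x, S.θ * Real.tanh (S.cav (S.Y (S.D y x) r ω) z y) with hg
  have hgm : Measurable[S.FF (S.D y x) fun _ => r] g := by
    refine Measurable.add (Measurable.mul ?_ ?_) (Finset.measurable_sum _ fun z _ => ?_)
    · exact measurable_FF_timeDep _ _ (measurable_eps _) (st2_eps_dep _)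
    · exact measurable_FF_w (fun _ => r) (b := (y, 0)) (self_mem_D hDE)
    · exact Measurable.const_mul (continuous_tanh'.measurable.comp
        ((measurable_cav z y).comp (measurable_FF_Y (S.D y x) fun _ => r))) _
  -- the summands
  set t : Option V → Om V → ℝ := fun o ω => o.elim (Real.tanh (zeta (y, 0) r ω))
    fun z => Real.tanh (S.eta y z ω * fm S.θ (S.XX r z y ω)) with ht
  set F : Finset (Option V) := Finset.insertNone (S.ch y x) with hF
  have htb : ∀ o, BM (t o) := by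
    rintro (_ | z)
    · exact st2_BM_tanh (BM_zeta _ _)
    · exact st2_BM_tanh ((BM_eta y z).mul (st2_BM_fm (BM_XX r z y)))
  have hsum : ∀ ω, ∑ o ∈ F, t o ω = S.spin y ω * g ω := by
    intro ω
    rw [hF, Finset.sum_insertNone, hg]
    simp only [ht, Option.elim_none, Option.elim_some, mul_add, Finset.mul_sum]
    rw [st2_tanh_zeta (S := S)]
    congr 1
    refine Finset.sum_congr rfl fun z hz => ?_
    rw [st2_tanh_xi r (mem_ch.1 hz).1, st2_cav_ch r hDE hz]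
  have hgg : ∀ ω, g ω = S.spin y ω * ∑ o ∈ F, t o ω := by
    intro ω
    rw [hsum, ← mul_assoc, spin_mul_self, one_mul]
  have hgb : BM g := by
    have : g = fun ω => S.spin y ω * ∑ o ∈ F, t o ω := funext hgg
    rw [this]
    exact (BM_spin y).mul (BM.sum _ fun o _ => htb o)
  set K : Option V → Set (Idx V) := fun o => o.elim (slotIdx (y, 0)) fun z => S.branch z y with hK
  have hdep : ∀ o ∈ F, DependsOn (t o) (K o) := by
    rintro (_ | z) ho
    · intro ω ω' hω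
      simp only [ht, Option.elim_none]
      rw [zeta_dependsOn (y, 0) r hω]
    · intro ω ω' hω
      have hz : z ∈ S.ch y x := Finset.some_mem_insertNone.1 ho
      simp only [ht, Option.elim_some]
      exact congrArg Real.tanh (xi_dependsOn r (mem_ch.1 hz).1 hω)
  have hdisj : ∀ o ∈ F, ∀ o' ∈ F, o ≠ o' → Disjoint (K o) (K o') := by
    rintro (_ | z) ho (_ | z') ho' hne
    · exact absurd rfl hne
    · exact (branch_disjoint_slot (mem_ch.1 (Finset.some_mem_insertNone.1 ho')).1 0).symm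
    · exact branch_disjoint_slot (mem_ch.1 (Finset.some_mem_insertNone.1 ho)).1 0
    · exact branch_disjoint (mem_ch.1 (Finset.some_mem_insertNone.1 ho)).1
        (mem_ch.1 (Finset.some_mem_insertNone.1 ho')).1 fun h => hne (congrArg some h)
  have hLR : ∀ o ∈ F, ∫ ω, t o ω ∂(mu V) = ∫ ω, t o ω ^ 2 ∂(mu V) := by
    rintro (_ | z) ho
    · exact st2_LR_tanh (isLR_zeta (y, 0) r)
    · exact st2_LR_tanh (isLR_xi r (mem_ch.1 (Finset.some_mem_insertNone.1 ho)).1)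
  set x0 : ℝ := ∫ ω, Real.tanh (zeta (y, 0) r ω) ^ 2 ∂(mu V) with hx0
  set m : ℝ := S.xm r y x with hm
  have hs : ∑ o ∈ F, ∫ ω, t o ω ^ 2 ∂(mu V) = x0 + m := by
    rw [hF, Finset.sum_insertNone]
    congr 1
    have : ∀ z ∈ S.ch y x, ∫ ω, t (some z) ω ^ 2 ∂(mu V) = S.θ ^ 2 * m := by
      intro z hz
      rw [hm, st2_xm_eq r h (mem_ch.1 hz).1.symm, xm, ← integral_const_mul]
      refine integral_congr_ae (Eventually.of_forall fun ω => ?_)
      simp only [ht, Option.elim_some]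
      rw [st2_tanh_sgn (eta_eq y z ω), tanh_fm S.hθ0 S.theta_sq_le]
      rcases eta_eq (S := S) y z ω with h | h <;> rw [h] <;> ring
    rw [Finset.sum_congr rfl this, Finset.sum_const, nsmul_eq_mul, st2_card h, ← mul_assoc]
    have : ((S.d : ℝ) - 1) * S.θ ^ 2 = 1 := hγ
    rw [this, one_mul]
  have hs1 : ∑ o ∈ F, ∫ ω, t o ω ∂(mu V) = x0 + m := by
    rw [Finset.sum_congr rfl hLR, hs]
  have h2 : ∫ ω, g ω ^ 2 ∂(mu V) ≤ (x0 + m) + (x0 + m) ^ 2 := by
    have h3 := st2_sq_sum F (fun o _ => htb o) fun o ho o' ho' hne =>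
      integral_mul_of_dependsOn nu (htb o) (htb o') (hdep o ho) (hdep o' ho') (hdisj o ho o' ho' hne)
    rw [hs, hs1] at h3
    refine le_of_eq_of_le (integral_congr_ae (Eventually.of_forall fun ω => ?_)) h3
    simp only
    rw [hgg, mul_pow, sq (S.spin y ω), spin_mul_self, one_mul]
  have h1 : x0 + m = ∫ ω, S.mag (S.Y (S.D y x) r ω) y * g ω ∂(mu V) := by
    rw [← pf (S.D y x) hR y hgm hgb.bdd, ← hs1,
      ← integral_finsetSum _ fun o _ => (htb o).integrable _]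
    simp only [hsum]
  have hmag : BM fun ω => S.mag (S.Y (S.D y x) r ω) y :=
    st2_BM_tanh (BM_cav (S.D y x) hR y y)
  have h4 := sq_integral_mul_le (mu V) hmag hgb
  have h5 : ∫ ω, S.mag (S.Y (S.D y x) r ω) y ^ 2 ∂(mu V) = m := by
    refine integral_congr_ae (Eventually.of_forall fun ω => ?_)
    simp only
    rw [mag, ← st2_cav_D r hDE, XX, st2_tanh_sgn (spin_eq y ω), mul_pow, sq (S.spin y ω),
      spin_mul_self, one_mul]
  rw [← h1, h5] at h4
  have hm0 : 0 ≤ m := xm_nonneg r y x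
  have hx1 : min r 1 ^ 3 / 192 ≤ x0 := zeta_zero_lower y hr
  have hmin : 0 < min r 1 := lt_min hr one_pos
  have hx2 : 0 < x0 := lt_of_lt_of_le (by positivity) hx1
  have hx3 : x0 ≤ 1 / 4 := by
    have := integral_mono (μ := mu V) (((st2_BM_tanh (BM_zeta (y, 0) r)).pow 2).integrable _)
      (integrable_const (1 / 4 : ℝ)) (fun ω => by
        have h1 := abs_tanh_zeta_le (y, 0) r ω
        have h2 := abs_nonneg (Real.tanh (zeta (y, 0) r ω))
        simp only
        rw [← sq_abs]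
        nlinarith)
    simpa using this
  have h6 : (x0 + m) ^ 2 ≤ m * ((x0 + m) + (x0 + m) ^ 2) :=
    h4.trans (mul_le_mul_of_nonneg_left h2 hm0)
  have hpos : 0 < x0 + m := by linarith
  have h7 : x0 + m ≤ m * (1 + (x0 + m)) := by
    by_contra hc
    push Not at hc
    nlinarith
  by_cases hm2 : m ≤ 1 / 2
  · nlinarith
  · push Not at hm2
    nlinarith

theorem xm_upper {r : ℝ} (hr0 : 0 ≤ r) (hr : r ≤ 1) {y x : V} (h : S.G.Adj y x) :
    S.xm r y x ≤ 2 * r := by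
  have hDE : S.DE y x := Or.inr h
  set W : ℝ := ∫ ω, S.XX r y x ω ∂(mu V) with hW
  set m : ℝ := S.xm r y x with hm
  have h1 : ∀ z ∈ S.ch y x, ∫ ω, S.eta y z ω * fm S.θ (S.XX r z y ω) ∂(mu V) ≤
      S.θ ^ 2 * W - S.θ ^ 2 * (1 - S.θ ^ 2) / 3 * m ^ 2 := by
    intro z hz
    have hz' := (mem_ch.1 hz).1
    have := st2_integral_xi_le r hz'
    rwa [st2_xm_eq r hz'.symm h, integral_XX_eq r hz'.symm h (φ := fun t => t) measurable_id] at this
  have h2 := Finset.sum_le_sum h1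
  rw [Finset.sum_const, nsmul_eq_mul, st2_card h] at h2
  have h3 := st2_integral_rec hr hDE
  have h4 := st2_integral_zeta_le y hr0 hr
  have h5 : m ≤ W := st2_xm_le_integral r hDE
  have h6 : 0 ≤ m := xm_nonneg r y x
  have h7 : m ≤ 1 := st2_xm_le_one r y x
  have hg0 : 0 ≤ S.gam := S.gam_nonneg
  have hg1 : S.gam ≤ 1 := S.gam_le_one
  have hθ := S.theta_sq_le
  have h8 : W ≤ r ^ 2 / 2 + S.gam * W - S.gam * (1 - S.θ ^ 2) / 3 * m ^ 2 := by
    have : ((S.d : ℝ) - 1) * (S.θ ^ 2 * W - S.θ ^ 2 * (1 - S.θ ^ 2) / 3 * m ^ 2) =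
        S.gam * W - S.gam * (1 - S.θ ^ 2) / 3 * m ^ 2 := by
      unfold gam; ring
    rw [this] at h2
    linarith
  have h9 : (1 - S.gam) * (m ^ 2 / 6) ≤ (1 - S.gam) * W :=
    mul_le_mul_of_nonneg_left (by nlinarith) (by linarith)
  have h10 : S.gam * (m ^ 2 / 6) ≤ S.gam * (1 - S.θ ^ 2) / 3 * m ^ 2 := by
    have : S.gam * (1 - S.θ ^ 2) / 3 * m ^ 2 - S.gam * (m ^ 2 / 6) =
        S.gam * m ^ 2 * (1 / 2 - S.θ ^ 2) / 3 := by ring
    have h11 : 0 ≤ S.gam * m ^ 2 * (1 / 2 - S.θ ^ 2) / 3 := by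
      have : 0 ≤ 1 / 2 - S.θ ^ 2 := by linarith
      positivity
    linarith
  have h11 : m ^ 2 ≤ (2 * r) ^ 2 := by nlinarith
  exact (pow_le_pow_iff_left₀ h6 (by positivity) two_ne_zero).1 h11

theorem integral_XX_le {r : ℝ} {J : ℕ} (hr : r ≤ J) {y x : V} (h : S.DE y x) :
    ∫ ω, S.XX r y x ω ∂(mu V) ≤ Real.cosh (J + S.d) ^ 2 * S.xm r y x := by
  have hX := BM_XX (S := S) r y x
  have hT := st2_BM_tanh hX
  rw [st2_LR_id (isLR_XX r h), xm, ← integral_const_mul]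
  refine integral_mono ((hX.mul hT).integrable _) (((BM.const _).mul (hT.pow 2)).integrable _)
    fun ω => ?_
  have h1 := st2_abs_le (abs_XX_le (S := S) hr y x ω)
  simp only
  rw [← sq_abs (Real.tanh _), sq |Real.tanh _|, ← mul_assoc]
  refine (le_abs_self _).trans ?_
  rw [abs_mul]
  exact mul_le_mul_of_nonneg_right h1 (abs_nonneg _)

theorem integral_XX_sq_le {r : ℝ} {J : ℕ} (hr : r ≤ J) (y x : V) :
    ∫ ω, S.XX r y x ω ^ 2 ∂(mu V) ≤ Real.cosh (J + S.d) ^ 4 * S.xm r y x := by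
  have hX := BM_XX (S := S) r y x
  have hT := st2_BM_tanh hX
  rw [xm, ← integral_const_mul]
  refine integral_mono ((hX.pow 2).integrable _) (((BM.const _).mul (hT.pow 2)).integrable _)
    fun ω => ?_
  have h1 := st2_abs_le (abs_XX_le (S := S) hr y x ω)
  have h2 := pow_le_pow_left₀ (abs_nonneg _) h1 2
  simp only
  rw [sq_abs, mul_pow, sq_abs, ← pow_mul] at h2
  exact h2

/-- (C): small-time bound -/
theorem NN_small : ∃ C : ℝ, ∀ s : ℝ, 0 < s → s ≤ 1 → S.NN (fun _ => s) ≤ C * s := by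
  refine ⟨1 + S.d * (2 * Real.cosh ((1 : ℕ) + S.d) ^ 2), fun s hs0 hs1 => ?_⟩
  have h1 : S.NN (fun _ => s) ≤ S.xm s S.o S.o := by
    refine (cvar_le_integral_sq (GG_le measurable_const) (BM_mR measurable_const S.o)).trans
      (le_of_eq (integral_congr_ae (Eventually.of_forall fun ω => ?_)))
    simp only
    rw [XX, st2_tanh_sgn (spin_eq S.o ω), mul_pow, sq (S.spin S.o ω), spin_mul_self, one_mul]
    rfl
  have h2 := st2_xm_le_integral (S := S) s (DE_self S.o)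
  have h3 := st2_integral_rec (S := S) hs1 (DE_self S.o)
  have h4 := st2_integral_zeta_le S.o hs0.le hs1
  have h5 : ∀ z ∈ S.ch S.o S.o, ∫ ω, S.eta S.o z ω * fm S.θ (S.XX s z S.o ω) ∂(mu V) ≤
      2 * Real.cosh ((1 : ℕ) + S.d) ^ 2 * s := by
    intro z hz
    have hz' := (mem_ch.1 hz).1
    have h6 := st2_integral_xi_le s hz'
    have h7 := integral_XX_le (S := S) (J := 1) (r := s) (by simpa using hs1) (Or.inr hz'.symm)
    have h8 := xm_upper hs0.le hs1 hz'.symm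
    have h9 := (xm_nonneg s z S.o).trans (st2_xm_le_integral (S := S) s (Or.inr hz'.symm))
    have hθ := S.theta_sq_le
    have h10 : 0 ≤ S.θ ^ 2 * (1 - S.θ ^ 2) / 3 * S.xm s z S.o ^ 2 := by
      have : 0 ≤ 1 - S.θ ^ 2 := by linarith
      positivity
    have h11 := mul_le_mul_of_nonneg_left h8 (sq_nonneg (Real.cosh ((1 : ℕ) + S.d)))
    nlinarith
  have h6 := Finset.sum_le_sum h5
  rw [Finset.sum_const, nsmul_eq_mul, ch_self, card_nb] at h6
  rw [ch_self] at h3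
  nlinarith

end Setup

end Crest.Agent.R160
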