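import Crest.Agent.R160.Model3

/-!
# Row 160 (S0241): Subst
Substitution of the time of a slot for the uniform random time.
Resample `time a` (`integral_update`).  Let `ω¹ = update ω (time a) (1, true)` (a late time).  On
`s ≤ T a < t`, `F (T a) ω = F (T a) ω¹` by `hna`, and the change of variables `j + 2σ = s + (t-s) u` gives
`((t-s)/2) ∫ du ∫ F (s + (t-s) u) ω¹`.  Conversely for `r ≤ j+1`,
`∫ F r ω ≥ P(time label ≥ 1/2) ∫ F r ω¹`.
-/

set_option autoImplicit false

open MeasureTheory Filter Topology
open scoped unitInterval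

noncomputable section

namespace Crest.Agent.R160

universe u

namespace Setup

variable {V : Type u} (S : Setup V)

variable {S}

lemma integral_I_eq_interval (φ : ℝ → ℝ) : ∫ u : I, φ u = ∫ x in (0 : ℝ)..1, φ x := by
  rw [intervalIntegral.integral_of_le zero_le_one, ← integral_Icc_eq_integral_Ioc]
  exact unitInterval.measurePreserving_coe.integral_comp unitInterval.measurableEmbedding_coe φ

lemma integral_window (j : ℕ) {s t : ℝ} (hs : (j : ℝ) ≤ s) (hst : s < t) (ht : t ≤ j + 1)
    (G : ℝ → ℝ) :
    ∫ u : I, (if s ≤ tm j u ∧ tm j u < t then G (tm j u) else 0) =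
      (t - s) / 2 * ∫ u : I, G (s + (t - s) * u) := by
  have h1 := integral_I_eq_interval fun x => (Set.Ico s t).indicator G ((j : ℝ) + 2 * x)
  have h2 := integral_I_eq_interval fun x => G (s + (t - s) * x)
  have h3 := intervalIntegral.integral_comp_add_mul (a := 0) (b := 1)
    ((Set.Ico s t).indicator G) (two_ne_zero) (j : ℝ)
  have h4 := intervalIntegral.integral_comp_add_mul (a := 0) (b := 1) G (sub_pos.2 hst).ne' s
  have h5 : ∫ x in ((j : ℝ) + 2 * 0)..((j : ℝ) + 2 * 1), (Set.Ico s t).indicator G x =
      ∫ x in (s + (t - s) * 0)..(s + (t - s) * 1), G x := by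
    rw [intervalIntegral.integral_of_le (by linarith), ← integral_Icc_eq_integral_Ioc,
      setIntegral_indicator measurableSet_Ico, Set.inter_eq_right.2
        (Set.Ico_subset_Icc_self.trans (Set.Icc_subset_Icc (by linarith) (by linarith))),
      intervalIntegral.integral_of_le (by linarith), integral_Ico_eq_integral_Ioo,
      integral_Ioc_eq_integral_Ioo]
    simp
  rw [h2, h4, ← h5, smul_eq_mul, ← mul_assoc]
  rw [h3, smul_eq_mul] at h1
  have h6 : (t - s) / 2 * (t - s)⁻¹ = 2⁻¹ := by
    have := (sub_pos.2 hst).ne'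
    field_simp
  rw [h6, ← h1]
  simp only [Set.indicator_apply, Set.mem_Ico, tm]

lemma integral_late (c : ℝ) : ∫ u : I, (if 1 / 2 ≤ (u : ℝ) then c else 0) = c / 2 := by
  have h1 := integral_I_eq_interval fun x => (Set.Ici (1 / 2 : ℝ)).indicator (fun _ => c) x
  rw [intervalIntegral.integral_of_le zero_le_one, ← integral_Icc_eq_integral_Ioc,
    setIntegral_indicator measurableSet_Ici, show Set.Icc (0 : ℝ) 1 ∩ Set.Ici (1 / 2) = Set.Icc (1 / 2) 1 by
      ext x; simp only [Set.mem_inter_iff, Set.mem_Icc, Set.mem_Ici]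
      exact ⟨fun h => ⟨h.2, h.1.2⟩, fun h => ⟨⟨by linarith [h.1], h.2⟩, h.1⟩⟩, setIntegral_const] at h1
  simp only [Set.indicator_apply, Set.mem_Ici] at h1
  rw [h1, Real.volume_real_Icc]
  norm_num
  ring

open Classical in
theorem subst_time (a : V × ℕ) {s t : ℝ} (hs : (a.2 : ℝ) ≤ s) (hst : s < t) (ht : t ≤ a.2 + 1)
    {F : ℝ × Om V → ℝ} (hF : BM F) (hF0 : ∀ p, 0 ≤ F p)
    (hna : ∀ r (ω ω' : Om V), (∀ i, i ≠ Idx.time a.1 a.2 → ω i = ω' i) → r ≤ T a ω → r ≤ T a ω' →
      F (r, ω) = F (r, ω')) :
    ∫ ω, (if s ≤ T a ω ∧ T a ω < t then F (T a ω, ω) else 0) ∂(mu V) ≤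
      (t - s) * ∫ u : I, ∫ ω, F (s + (t - s) * u, ω) ∂(mu V) := by
  set i : Idx V := Idx.time a.1 a.2 with hi
  set late : Om V → Om V := fun ω => Function.update ω i (1, true) with hlate
  have mlate : Measurable late := measurable_update_left
  have hTl : ∀ ω, T a (late ω) = a.2 + 2 := by
    intro ω
    simp only [T, sv, hlate, ← hi, Function.update_self, tm]
    norm_num
  have hFl : ∀ r ω, r ≤ T a ω → F (r, ω) = F (r, late ω) := by
    intro r ω h
    refine hna r ω (late ω) (fun k hk => ?_) h (by rw [hTl]; exact h.trans (T_le a ω))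
    simp only [hlate, Function.update_of_ne hk]
  have hdl : ∀ ω ω' : Om V, (∀ k ∈ ({i}ᶜ : Set (Idx V)), ω k = ω' k) → late ω = late ω' := by
    intro ω ω' h
    funext k
    by_cases hk : k = i
    · subst hk; simp only [hlate, Function.update_self]
    · simp only [hlate, Function.update_of_ne hk, h k hk]
  have m1 : Measurable fun p : X × Om V => ((p.1.1 : I) : ℝ) :=
    measurable_subtype_coe.comp (measurable_fst.comp measurable_fst)
  have mt : Measurable fun p : X × Om V => tm a.2 (p.1.1 : ℝ) := (measurable_tm a.2).comp m1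
  have bFl : BM fun p : ℝ × Om V => F (p.1, late p.2) :=
    hF.comp (measurable_fst.prodMk (mlate.comp measurable_snd))
  set G : ℝ → ℝ := fun r => ∫ ω, F (r, late ω) ∂(mu V) with hG
  have bG : BM G := bFl.integral_prod_right (mu V)
  -- the left-hand side
  have h1 : ∫ ω, (if s ≤ T a ω ∧ T a ω < t then F (T a ω, ω) else 0) ∂(mu V) =
      (t - s) / 2 * ∫ u : I, G (s + (t - s) * u) := by
    have e1 := integral_param nu i (F := fun p : X × Om V =>
        if s ≤ tm a.2 (p.1.1 : ℝ) ∧ tm a.2 (p.1.1 : ℝ) < t then F (tm a.2 (p.1.1 : ℝ), late p.2) else 0)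
      (BM.ite (p := fun p : X × Om V => s ≤ tm a.2 (p.1.1 : ℝ) ∧ tm a.2 (p.1.1 : ℝ) < t)
        ((measurableSet_le measurable_const mt).inter (measurableSet_lt mt measurable_const))
        (bFl.comp (mt.prodMk measurable_snd)) (BM.const 0))
      (fun ξ ω ω' h => by simp only [hdl ω ω' h])
    have e2 := integral_nu_fst (φ := fun u : I =>
        if s ≤ tm a.2 (u : ℝ) ∧ tm a.2 (u : ℝ) < t then G (tm a.2 u) else 0) (by
      have mt' : Measurable fun u : I => tm a.2 (u : ℝ) :=
        (measurable_tm a.2).comp measurable_subtype_coe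
      exact Measurable.ite ((measurableSet_le measurable_const mt').inter
        (measurableSet_lt mt' measurable_const)) (bG.meas.comp mt') measurable_const)
    rw [← integral_window a.2 hs hst ht G, ← e2]
    refine Eq.trans ?_ (e1.trans ?_)
    · refine integral_congr_ae (Eventually.of_forall fun ω => ?_)
      simp only
      rw [hFl _ ω le_rfl]
      rfl
    · refine integral_congr_ae (Eventually.of_forall fun ξ => ?_)
      simp only
      split_ifs
      · rfl
      · simp
  -- the late time has probability `1/2`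
  have h2 : ∀ r : ℝ, r ≤ a.2 + 1 → G r / 2 ≤ ∫ ω, F (r, ω) ∂(mu V) := by
    intro r hr
    have bF : BM fun ω : Om V => F (r, ω) := hF.comp (measurable_const.prodMk measurable_id)
    have bΦ : BM fun p : X × Om V => if 1 / 2 ≤ (p.1.1 : ℝ) then F (r, late p.2) else 0 :=
      BM.ite (measurableSet_le measurable_const m1)
        (bFl.comp (measurable_const.prodMk measurable_snd)) (BM.const 0)
    have e1 := integral_param nu i bΦ (fun ξ ω ω' h => by simp only [hdl ω ω' h])
    have e2 := integral_nu_fst (φ := fun u : I => if 1 / 2 ≤ (u : ℝ) then G r else 0)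
      (Measurable.ite (measurableSet_le measurable_const measurable_subtype_coe) measurable_const
        measurable_const)
    rw [← integral_late, ← e2]
    refine le_trans (le_of_eq (Eq.trans ?_ e1.symm)) ?_
    · refine integral_congr_ae (Eventually.of_forall fun ξ => ?_)
      simp only
      split_ifs
      · rfl
      · simp
    · refine integral_mono ((bΦ.comp ((measurable_pi_apply i).prodMk measurable_id)).integrable _)
        (bF.integrable _) fun ω => ?_
      simp only
      split_ifs with h
      · refine (hFl r ω ?_).ge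
        simp only [T, sv, tm, ← hi]
        linarith
      · exact hF0 _
  rw [h1]
  have mu' : Measurable fun u : I => s + (t - s) * (u : ℝ) :=
    (measurable_subtype_coe.const_mul _).const_add _
  have h3 : ∫ u : I, G (s + (t - s) * u) / 2 ≤ ∫ u : I, ∫ ω, F (s + (t - s) * u, ω) ∂(mu V) := by
    refine integral_mono (((bG.comp mu').div_const 2).integrable _)
      (((hF.integral_prod_right (mu V)).comp mu').integrable _) fun u => h2 _ ?_
    have := u.2.2
    nlinarith
  rw [integral_div] at h3
  have h4 := mul_le_mul_of_nonneg_left h3 (sub_pos.2 hst).le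
  linarith

end Setup

end Crest.Agent.R160
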