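import Crest.Agent.R160.Model3

/-!
# Row 160 (S0241): Telescope
The martingale `mR · o` is the `L²` sum of its jumps.
`telescope`: deterministic; induction on the finite set of slots ordered by time
(`Finset.induction_on_max_value`), each step is `mag_update` along `geod o a.1` (`Y_eq_sum`,
`good_Y_finset`).  `expansion`: for `N ≥ n` the finite-volume remainder (volume `ball N o`) is the sum of
the jumps with `a.1 ∈ ball N o \ ball n o`; these are orthogonal (`integral_mul_jump`,
`measurable_FF_jump`, `measurable_FF_time`, `ae_distinct`), so its second moment is at most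
`J ∑_{k ≥ n} 2 (d-1)^k (θ² q)^k ≤ 2 J q^n/(1-q)` (`integral_jump_sq_le`, `sum_annulus_le`).  Let
`N → ∞` with `ae_tendsto_ball` (at the times `R`, `s`, `T a`), `tendsto_cov` and dominated convergence.
-/

set_option autoImplicit false

open MeasureTheory Filter Topology
open scoped unitInterval

noncomputable section

namespace Crest.Agent.R160

universe u

namespace Setup

variable {V : Type u} (S : Setup V)

variable {S}

open Classical in
/-- no slot of `Λ` in `[s, r)`: the field does not change -/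
lemma telescope_Y_eq (Λ : Finset V) {J : ℕ} {s r : ℝ} (hsr : s ≤ r) (hr : r ≤ J) {ω : Om V}
    (h : ∀ b ∈ Λ ×ˢ Finset.range J, ¬ (s ≤ T b ω ∧ T b ω < r)) :
    S.Y Λ r ω = S.Y Λ s ω := by
  funext v
  rw [Y_eq_sum _ hr, Y_eq_sum _ (hsr.trans hr)]
  refine Finset.sum_congr rfl fun j hj => ?_
  by_cases hv : v ∈ Λ
  · have h1 := h (v, j) (Finset.mem_product.2 ⟨hv, hj⟩)
    have h2 : T (v, j) ω < r ↔ T (v, j) ω < s :=
      ⟨fun h3 => by
        by_contra h4
        exact h1 ⟨not_lt.1 h4, h3⟩, fun h3 => h3.trans_le hsr⟩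
    by_cases h6 : T (v, j) ω < r
    · simp [h6, h2.1 h6]
    · simp [h6, mt h2.2 h6]
  · simp [hv]

open Classical in
/-- exactly one slot `a` in `[T a, r)`: the field is updated at `a.1` -/
lemma telescope_Y_update (Λ : Finset V) {J : ℕ} {r : ℝ} (hr : r ≤ J) {ω : Om V} {a : V × ℕ}
    (ha : a ∈ Λ ×ˢ Finset.range J) (har : T a ω < r)
    (h : ∀ b ∈ Λ ×ˢ Finset.range J, T a ω ≤ T b ω → T b ω < r → b = a) :
    S.Y Λ r ω = Function.update (S.Y Λ (T a ω) ω) a.1
      (S.Y Λ (T a ω) ω a.1 + Real.artanh (S.tau a ω)) := by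
  have hr' : T a ω ≤ J := har.le.trans hr
  obtain ⟨u, k⟩ := a
  obtain ⟨hu, hk⟩ := Finset.mem_product.1 ha
  have key : ∀ v ∈ Λ, ∀ j ∈ Finset.range J, (v, j) ≠ (u, k) →
      (T (v, j) ω < r ↔ T (v, j) ω < T (u, k) ω) := by
    intro v hv j hj hne
    refine ⟨fun h3 => ?_, fun h3 => h3.trans har⟩
    by_contra h4
    exact hne (h (v, j) (Finset.mem_product.2 ⟨hv, hj⟩) (not_lt.1 h4) h3)
  funext v
  by_cases hvu : v = u
  · subst hvu
    simp only [Function.update_self]
    rw [Y_eq_sum _ hr, Y_eq_sum _ hr', ← Finset.add_sum_erase _ _ hk,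
      ← Finset.add_sum_erase _ _ hk]
    have hu' : v ∈ (Λ : Set V) := hu
    rw [if_pos ⟨har, hu'⟩, if_neg (fun h5 => lt_irrefl _ h5.1), zero_add, add_comm]
    congr 1
    refine Finset.sum_congr rfl fun j hj => ?_
    obtain ⟨hjk, hj⟩ := Finset.mem_erase.1 hj
    have h2 := key v hu j hj (fun h5 => hjk (Prod.ext_iff.1 h5).2)
    by_cases h6 : T (v, j) ω < r
    · simp [h6, h2.1 h6]
    · simp [h6, mt h2.2 h6]
  · rw [Function.update_of_ne hvu, Y_eq_sum _ hr, Y_eq_sum _ hr']
    refine Finset.sum_congr rfl fun j hj => ?_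
    by_cases hv : v ∈ Λ
    · have h2 := key v hv j hj (fun h5 => hvu (Prod.ext_iff.1 h5).1)
      by_cases h6 : T (v, j) ω < r
      · simp [h6, h2.1 h6]
      · simp [h6, mt h2.2 h6]
    · simp [hv]

open Classical in
lemma telescope_step (Λ : Finset V) {J : ℕ} {r : ℝ} (hr : r ≤ J) {ω : Om V} {a : V × ℕ}
    (ha : a ∈ Λ ×ˢ Finset.range J) (har : T a ω < r)
    (h : ∀ b ∈ Λ ×ˢ Finset.range J, T a ω ≤ T b ω → T b ω < r → b = a) :
    S.mag (S.Y Λ r ω) S.o - S.mag (S.Y Λ (T a ω) ω) S.o = S.jump Λ a ω := by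
  have hY := telescope_Y_update (S := S) Λ hr ha har h
  have hτ : |S.tau a ω| < 1 :=
    ((abs_tau_le a ω).trans (eps_le_half a ω)).trans_lt (by norm_num)
  have hp := geod_isNB (S := S) S.o a.1
  have he : S.geod S.o a.1 (S.G.dist S.o a.1) = a.1 := geod_dist _ _
  have h0 : S.geod S.o a.1 0 = S.o := geod_zero _ _
  have hG : S.Good (S.Y Λ r ω) := good_Y_finset Λ r ω
  have := mag_update (Y := S.Y Λ (T a ω) ω) hp hτ (good_Y_finset Λ _ ω)
    (by rw [he, ← hY]; exact hG)
  rw [he, h0, ← hY] at this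
  exact this

open Classical in
theorem telescope (Λ : Finset V) {J : ℕ} {s r : ℝ} (hsr : s ≤ r) (hr : r ≤ J) {ω : Om V}
    (hω : ∀ a b : V × ℕ, T a ω = T b ω → a = b) :
    S.mag (S.Y Λ r ω) S.o - S.mag (S.Y Λ s ω) S.o =
      ∑ a ∈ Λ ×ˢ Finset.range J, if s ≤ T a ω ∧ T a ω < r then S.jump Λ a ω else 0 := by
  rw [← Finset.sum_filter]
  generalize hn : ((Λ ×ˢ Finset.range J).filter fun a => s ≤ T a ω ∧ T a ω < r).card = n
  induction n generalizing r with
  | zero =>
    have h0 := Finset.card_eq_zero.1 hn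
    rw [h0, Finset.sum_empty, telescope_Y_eq Λ hsr hr, sub_self]
    intro b hb hb'
    have : b ∈ (Λ ×ˢ Finset.range J).filter fun a => s ≤ T a ω ∧ T a ω < r :=
      Finset.mem_filter.2 ⟨hb, hb'⟩
    rw [h0] at this
    exact Finset.notMem_empty _ this
  | succ n ih =>
    have hne : ((Λ ×ˢ Finset.range J).filter fun a => s ≤ T a ω ∧ T a ω < r).Nonempty :=
      Finset.card_pos.1 (by omega)
    obtain ⟨a, ha, hmax⟩ := Finset.exists_max_image _ (fun b => T b ω) hne
    obtain ⟨haP, hsa, har⟩ := Finset.mem_filter.1 ha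
    have huniq : ∀ b ∈ Λ ×ˢ Finset.range J, T a ω ≤ T b ω → T b ω < r → b = a := by
      intro b hb h1 h2
      exact hω b a (le_antisymm (hmax b (Finset.mem_filter.2 ⟨hb, hsa.trans h1, h2⟩)) h1)
    have herase : ((Λ ×ˢ Finset.range J).filter fun b => s ≤ T b ω ∧ T b ω < T a ω) =
        ((Λ ×ˢ Finset.range J).filter fun b => s ≤ T b ω ∧ T b ω < r).erase a := by
      ext b
      simp only [Finset.mem_erase, Finset.mem_filter]
      constructor
      · rintro ⟨hb, h1, h2⟩
        exact ⟨fun h3 => by rw [h3] at h2; exact lt_irrefl _ h2, hb, h1, h2.trans har⟩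
      · rintro ⟨hba, hb, h1, h2⟩
        refine ⟨hb, h1, ?_⟩
        by_contra h4
        exact hba (huniq b hb (not_lt.1 h4) h2)
    have hcard : ((Λ ×ˢ Finset.range J).filter fun b => s ≤ T b ω ∧ T b ω < T a ω).card = n := by
      rw [herase, Finset.card_erase_of_mem ha, hn]; rfl
    have h1 := ih hsa (har.le.trans hr) hcard
    have h2 := telescope_step (S := S) Λ hr haP har huniq
    rw [← Finset.add_sum_erase _ _ ha, ← herase, ← h1, ← h2]
    ring

end Setup

end Crest.Agent.R160
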