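import Crest.Agent.R160.Var
import Crest.Agent.R160.Decay
import Crest.Agent.R160.Model3
import Crest.Agent.R160.Res

/-!
# Row 160 (S0241): Var2
Comparison of conditional variances.  Throughout `R ω = r (ω rho) ≤ J`, `B = J + d`, `N = NN R`.
* `cvar_cav`: a.e. `cav y x = cav y y - fm (cav x y)` (`ae_good`, `Good.cav_self`); `cvar_add_le` with
  `η = 1/2`, `θ² ≤ 1/2`, and `cvar (cav x y) = cvar (cav y x)` by an automorphism swapping `x`, `y`.
* `cvar_ecost_fine`: `α = α ∘ clamp l + (α - α ∘ clamp l)`; the second part vanishes when `|cav| ≤ l`, is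
  bounded by `2B`, and `P(l < |cav|) ≤ π` by `integral_param` at `rho`.
* `cvar_sum_ecost`: apply `integral_sq_sum_path_le` to bounded versions `z x y` of
  `res (GG R) (ecost x y)` of the form `ecost x y - ψ ∘ Gam R`; invariance under `relab g` from `res_comp` for
  `act g` and `flip` (`act_eq_or`); orthogonality from `exists_dependsOn_root` (integrate out the root
  coordinate) and `integral_res_mul`.
-/

set_option autoImplicit false

open MeasureTheory Filter Topology
open scoped unitInterval

noncomputable section

namespace Crest.Agent.R160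

universe u

namespace Setup

variable {V : Type u} (S : Setup V)

variable {S} {r : X → ℝ} {J : ℕ}

theorem cvar_sum_ecost (hr : Measurable r) (hJ : ∀ ξ, r ξ ≤ J) {NA : ℝ}
    (hNA : ∀ y x, S.G.Adj y x → cvar (S.GG fun ω => r (ω Idx.rho)) (mu V)
      (fun ω => S.ecost (S.Y Set.univ (r (ω Idx.rho)) ω) y x) ≤ NA)
    {p : ℕ → V} {k : ℕ} (hp : S.IsNB p k) :
    cvar (S.GG fun ω => r (ω Idx.rho)) (mu V)
        (fun ω => ∑ i ∈ Finset.range k, S.ecost (S.Y Set.univ (r (ω Idx.rho)) ω) (p i) (p (i + 1))) ≤
      25 * S.d * k * NA := by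
  classical
  have hRm : Measurable fun ω : Om V => r (ω Idx.rho) := hr.comp (measurable_pi_apply _)
  have hm := GG_le (S := S) hRm
  let F : V → V → Om V → ℝ := fun x y ω => S.ecost (S.Y Set.univ (r (ω Idx.rho)) ω) x y
  have hF : ∀ x y, BM (F x y) := fun x y =>
    (((BM_cav Set.univ (isTime_rho hr hJ) x y).comp_continuous
      (continuous_alpha S.hθ0 S.theta_sq_le)).add
      ((BM_cav Set.univ (isTime_rho hr hJ) y x).comp_continuous
        (continuous_alpha S.hθ0 S.theta_sq_le))).div_const 2
  choose Z hZm hZb hZ using fun x y => exists_condExp_BM (μ := mu V) hm (hF x y)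
  let z : V → V → Om V → ℝ := fun x y ω => F x y ω - Z x y ω
  have hzb : ∀ x y, BM (z x y) := fun x y => (hF x y).sub (hZb x y)
  have hz : ∀ x y, z x y =ᵐ[mu V] res (S.GG fun ω => r (ω Idx.rho)) (mu V) (F x y) := by
    intro x y
    filter_upwards [hZ x y] with ω hω
    simp only [z, res, hω]
  have hflip : ∀ x y, (fun ω => z x y (flip ω)) =ᵐ[mu V] z x y := by
    intro x y
    have h1 := res_comp hm measurePreserving_flip (GG_comap_flip hr) (hF x y)
    have h2 : (fun ω => F x y (flip ω)) = F x y := by
      funext ω
      simp only [F]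
      rw [flip_apply (by simp), Y_flip, ecost_neg]
    rw [h2] at h1
    filter_upwards [h1, hz x y, measurePreserving_flip.quasiMeasurePreserving.ae (hz x y)]
      with ω a b c
    rw [c, b, a]
  have key := integral_sq_sum_path_le (S := S) z NA (fun x y _ => hzb x y) (fun x y hxy => ?_)
    (fun g x y _ => ?_) (fun x y _ Ψ hΨ hdep => ?_) hp
  · refine le_trans (le_of_eq ?_) key
    refine integral_congr_ae ?_
    filter_upwards [res_sum (m := S.GG fun ω => r (ω Idx.rho)) (μ := mu V) (Finset.range k)
      (X := fun i => F (p i) (p (i + 1))) fun i _ => hF _ _,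
      ae_all_iff.2 fun i : ℕ => hz (p i) (p (i + 1))] with ω h1 h2
    simp only [h2]
    exact congrArg (· ^ 2) h1
  · refine le_trans (le_of_eq ?_) (hNA x y hxy)
    refine integral_congr_ae ?_
    filter_upwards [hz x y] with ω hω
    rw [hω]
  · have h1 := res_act hr g (hF x y) (F' := F (g x) (g y)) fun ω => by
      simp only [F, ecost, act_rho, cav_act]
    filter_upwards [h1, hz (g x) (g y), (measurePreserving_act g).quasiMeasurePreserving.ae (hz x y),
      (measurePreserving_relab g).quasiMeasurePreserving.ae (hflip x y)] with ω a b c d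
    rw [b, a, ← c]
    rcases act_eq_or g ω with h | h
    · rw [h]
    · rw [h, d]
  · have hu : ∀ ω (u : I), z x y (Function.update ω Idx.root (u, (ω Idx.root).2)) = z x y ω := by
      intro ω u
      have h0 : Function.update ω Idx.root (u, (ω Idx.root).2) Idx.rho = ω Idx.rho :=
        Function.update_of_ne (by simp) _ _
      simp only [z, F]
      rw [h0, Y_update_root]
      congr 1
      refine (hZm x y).factorsThrough ?_
      simp only [Gam]
      rw [h0, L_update_root]
    obtain ⟨Z', hZ'b, hZ'd, hZ'⟩ := exists_dependsOn_root (hzb x y) hu (hflip x y)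
    · let φ : X → ℝ := fun ξ₀ => ∫ ξ, Ψ (Function.update (fun _ => ξ₀) Idx.root ξ) ∂nu
      have hφ : BM φ := BM.integral_prod_right
        (F := fun q : X × X => Ψ (Function.update (fun _ => q.1) Idx.root q.2))
        (hΨ.comp (measurable_update'.comp
          ((measurable_pi_lambda _ fun _ => measurable_fst).prodMk measurable_snd))) nu
      have h1 := integral_update nu Idx.root ((hZ'b.mul hΨ).integrable (PP (Idx V) nu))
      have h2 : ∀ ω : Om V, ∫ ξ, Z' (Function.update ω Idx.root ξ) *
          Ψ (Function.update ω Idx.root ξ) ∂nu = Z' ω * φ (ω Idx.rho) := by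
        intro ω
        rw [← integral_const_mul]
        congr 1
        funext ξ
        congr 1
        · exact hZ'd fun i hi => Function.update_of_ne hi _ _
        · refine hdep fun i hi => ?_
          rcases hi with rfl | rfl
          · simp
          · simp
      simp only [h2] at h1
      have h3 := integral_res_mul (μ := mu V) hm (hF x y) (Ψ := fun ω => φ (ω Idx.rho))
        (hφ.meas.comp (measurable_fst.comp (comap_measurable (S.Gam fun ω => r (ω Idx.rho)))))
        (by obtain ⟨C, hC⟩ := hφ.bdd; exact ⟨C, fun ω => hC _⟩)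
      calc ∫ ω, z x y ω * Ψ ω ∂(mu V) = ∫ ω, Z' ω * Ψ ω ∂(mu V) := by
            refine integral_congr_ae ?_
            filter_upwards [hZ'] with ω hω
            rw [hω]
        _ = ∫ ω, Z' ω * φ (ω Idx.rho) ∂(mu V) := h1
        _ = _ := by
            rw [← h3]
            refine integral_congr_ae ?_
            filter_upwards [hZ', hz x y] with ω hω hω'
            rw [hω, hω']

end Setup

end Crest.Agent.R160
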