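import Crest.Agent.R160.Bad
import Crest.Agent.R160.Var2

/-!
# Row 160 (S0241): Term
The contribution of one vertex.  `k = dist o u`, `n = (k-1)/4`, `s₀ = y n/256`, `p = geod o u`.
A.e. `cov = θ^k exp (-cost)` (`Good.cov_eq_exp_cost`).  `cvar_exp_neg_le` with `A = cost`:
main part `exp (-2 s₀) cvar cost ≤ exp (-2s₀) * 3 (25 d k NA + 2 cosh⁴ N)`.  Bad part: `(res cost)² ≤
(k+2) ∑_ξ (res A_ξ)²` over the `k` edges and two endpoints.  `bad_le` bounds `∫ Z 1{cost < 2 s₀}` for any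
bounded `Z ≥ 0` invariant under the automorphisms fixing an edge `p i, p (i+1)` of the path: either
`k - i - 1 ≥ 2n` (use `q l = p (i + l)`) or `i ≥ 2n` (use `q l = p (i + 1 - l)`), and
`1{cost < 2 s₀} ≤ beta` because `cost ≥ (1/2) ∑ (outward alpha on the portion)`; `decouple`.  For the
conditional indicator use `integral_mul_condExp` and `condExp_act`.  The second summand of `term`:
`exp (-2 cost) ≤ exp (-2 s₀) + 1{cost < 2 s₀}`.  The case `k = 0` is direct.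
-/

set_option autoImplicit false

open MeasureTheory Filter Topology
open scoped unitInterval

noncomputable section

namespace Crest.Agent.R160

universe u

namespace Setup

variable {V : Type u} (S : Setup V)

variable {S} {r : X → ℝ} {J : ℕ}

lemma BM_ecost (hr : Measurable r) (hJ : ∀ ξ, r ξ ≤ J) (x y : V) :
    BM fun ω : Om V => S.ecost (S.Y Set.univ (r (ω Idx.rho)) ω) x y := by
  have hT := isTime_rho (V := V) hr hJ
  have h1 := (BM_cav (S := S) Set.univ hT x y).comp_continuous (continuous_alpha S.hθ0 S.theta_sq_le)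
  have h2 := (BM_cav (S := S) Set.univ hT y x).comp_continuous (continuous_alpha S.hθ0 S.theta_sq_le)
  exact (h1.add h2).div_const 2

lemma abs_ecost_le (hJ : ∀ ξ, r ξ ≤ J) (x y : V) (ω : Om V) :
    |S.ecost (S.Y Set.univ (r (ω Idx.rho)) ω) x y| ≤ 2 * ((J : ℝ) + S.d) := by
  rw [abs_of_nonneg (ecost_nonneg _ _ _)]
  have h1 := alpha_le S.hθ0 S.theta_sq_le (S.cav (S.Y Set.univ (r (ω Idx.rho)) ω) x y)
  have h2 := alpha_le S.hθ0 S.theta_sq_le (S.cav (S.Y Set.univ (r (ω Idx.rho)) ω) y x)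
  have h3 := abs_cav_Y_le (S := S) Set.univ (hJ (ω Idx.rho)) ω x y
  have h4 := abs_cav_Y_le (S := S) Set.univ (hJ (ω Idx.rho)) ω y x
  unfold ecost
  linarith

lemma BM_lc_cav (hr : Measurable r) (hJ : ∀ ξ, r ξ ≤ J) (v : V) :
    BM fun ω : Om V => lc (S.cav (S.Y Set.univ (r (ω Idx.rho)) ω) v v) :=
  (BM_cav (S := S) Set.univ (isTime_rho (V := V) hr hJ) v v).comp_continuous continuous_lc

lemma abs_lc_cav_le (hJ : ∀ ξ, r ξ ≤ J) (v : V) (ω : Om V) :
    |lc (S.cav (S.Y Set.univ (r (ω Idx.rho)) ω) v v)| ≤ 2 * ((J : ℝ) + S.d) := by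
  rw [abs_of_nonneg (lc_nonneg _)]
  have h1 := lc_le (S.cav (S.Y Set.univ (r (ω Idx.rho)) ω) v v)
  have h3 := abs_cav_Y_le (S := S) Set.univ (hJ (ω Idx.rho)) ω v v
  have : (0 : ℝ) ≤ (J : ℝ) + S.d := by positivity
  linarith

lemma BM_cost (hr : Measurable r) (hJ : ∀ ξ, r ξ ≤ J) (p : ℕ → V) (k : ℕ) :
    BM fun ω : Om V => S.cost (S.Y Set.univ (r (ω Idx.rho)) ω) p k :=
  ((BM.sum _ fun i _ => BM_ecost hr hJ (p i) (p (i + 1))).add (BM_lc_cav hr hJ _)).add
    (BM_lc_cav hr hJ _)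

open Classical in
lemma BM_badInd (hr : Measurable r) (hJ : ∀ ξ, r ξ ≤ J) (p : ℕ → V) (k : ℕ) (c : ℝ) :
    BM fun ω : Om V => if S.cost (S.Y Set.univ (r (ω Idx.rho)) ω) p k < c then (1 : ℝ) else 0 :=
  BM.ite (measurableSet_lt (BM_cost hr hJ p k).meas measurable_const) (BM.const 1) (BM.const 0)

/-- the right-hand side of `bad_le` -/
def badRHS (Λ y N : ℝ) (n : ℕ) : ℝ :=
  (2 * Real.exp (-(Λ * y * (n : ℝ) / 64)) + (3 / 4 : ℝ) ^ n) * N +
    min N (Real.exp (-((3 / 2 : ℝ) ^ n)))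

open Classical in
/-- the two bad-event integrals for one site of the path -/
lemma site_bad (hr : Measurable r) (hJ : ∀ ξ, r ξ ≤ J) {Λ y : ℝ} (hΛ : 1 ≤ Λ) (hy : 0 ≤ y)
    (h1 : ∀ ξ, S.H1 (r ξ) Λ y) {p : ℕ → V} {k i : ℕ} (hp : S.IsNB p k) (hi : i < k)
    {F : Om V → ℝ} (hF : BM F) {B C N : ℝ} (hB : ∀ ω, |F ω| ≤ B) (hC : 4 * B ^ 2 ≤ C)
    (hinv : ∀ g : S.G ≃g S.G, g (p i) = p i → g (p (i + 1)) = p (i + 1) →
      ∀ ω, F ω = F (S.act g ω))
    (hN : cvar (S.GG fun ω => r (ω Idx.rho)) (mu V) F ≤ C * N) :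
    (∫ ω, res (S.GG fun ω => r (ω Idx.rho)) (mu V) F ω ^ 2 *
      (if S.cost (S.Y Set.univ (r (ω Idx.rho)) ω) p k <
        2 * (y * (((k - 1) / 4 : ℕ) : ℝ) / 256) then 1 else 0) ∂(mu V) ≤
      C * badRHS Λ y N ((k - 1) / 4)) ∧
    (∫ ω, res (S.GG fun ω => r (ω Idx.rho)) (mu V) F ω ^ 2 *
      ((mu V)[fun ω => if S.cost (S.Y Set.univ (r (ω Idx.rho)) ω) p k <
        2 * (y * (((k - 1) / 4 : ℕ) : ℝ) / 256) then (1 : ℝ) else 0 |
          S.GG fun ω => r (ω Idx.rho)]) ω ∂(mu V) ≤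
      C * badRHS Λ y N ((k - 1) / 4)) := by
  have hR : Measurable fun ω : Om V => r (ω Idx.rho) := hr.comp (measurable_pi_apply _)
  have hm := GG_le (S := S) hR
  have hC0 : 0 ≤ C := le_trans (by positivity) hC
  set Z : Om V → ℝ := fun ω => res (S.GG fun ω => r (ω Idx.rho)) (mu V) F ω ^ 2 with hZdef
  have hZm : Measurable Z := (measurable_res hm hF.meas).pow_const 2
  have hZ0 : ∀ᵐ ω ∂(mu V), 0 ≤ Z ω := Eventually.of_forall fun ω => sq_nonneg _
  have hZC : ∀ᵐ ω ∂(mu V), Z ω ≤ C := by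
    filter_upwards [ae_abs_res_le (μ := mu V) hm hF.meas hB] with ω hω
    have : Z ω ≤ (2 * B) ^ 2 := by
      simp only [hZdef]
      rw [← sq_abs]
      exact pow_le_pow_left₀ (abs_nonneg _) hω 2
    nlinarith
  have hZinv : ∀ g : S.G ≃g S.G, g (p i) = p i → g (p (i + 1)) = p (i + 1) →
      (fun ω => Z (S.act g ω)) =ᵐ[mu V] Z := by
    intro g hg1 hg2
    filter_upwards [res_act (S := S) hr g hF (hinv g hg1 hg2)] with ω hω
    simp only [hZdef]
    rw [hω]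
  have hZint : Integrable Z (mu V) := integrable_res_sq hm hF
  refine ⟨bad_le hr hΛ hy h1 hp hi hZm hC0 hZ0 hZC hZinv hN, ?_⟩
  rw [integral_mul_condExp hm hZint (BM_badInd hr hJ p k _)]
  refine bad_le hr hΛ hy h1 hp hi
    ((stronglyMeasurable_condExp (m := S.GG fun ω => r (ω Idx.rho))).mono hm).measurable hC0
    (condExp_nonneg hZ0) ?_ (fun g hg1 hg2 => condExp_act hr g hZint (hZinv g hg1 hg2)) ?_
  · have := condExp_mono (m := S.GG fun ω => r (ω Idx.rho)) hZint (integrable_const C) hZC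
    rw [condExp_const hm] at this
    exact this
  · rw [integral_condExp hm]
    exact hN

/-- the residual of the cost against a weight, from the residuals of its pieces -/
lemma res_cost_le (hr : Measurable r) (hJ : ∀ ξ, r ξ ≤ J) (p : ℕ → V) (k : ℕ) {W : Om V → ℝ}
    (hW : BM W) (hW0 : ∀ ω, 0 ≤ W ω) {c : ℝ}
    (he : ∀ i, i < k → ∫ ω, res (S.GG fun ω => r (ω Idx.rho)) (mu V)
      (fun ω => S.ecost (S.Y Set.univ (r (ω Idx.rho)) ω) (p i) (p (i + 1))) ω ^ 2 * W ω ∂(mu V) ≤ c)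
    (h0 : ∫ ω, res (S.GG fun ω => r (ω Idx.rho)) (mu V)
      (fun ω => lc (S.cav (S.Y Set.univ (r (ω Idx.rho)) ω) (p 0) (p 0))) ω ^ 2 * W ω ∂(mu V) ≤ c)
    (hk : ∫ ω, res (S.GG fun ω => r (ω Idx.rho)) (mu V)
      (fun ω => lc (S.cav (S.Y Set.univ (r (ω Idx.rho)) ω) (p k) (p k))) ω ^ 2 * W ω ∂(mu V) ≤ c) :
    ∫ ω, res (S.GG fun ω => r (ω Idx.rho)) (mu V)
      (fun ω => S.cost (S.Y Set.univ (r (ω Idx.rho)) ω) p k) ω ^ 2 * W ω ∂(mu V) ≤
      3 * ((k : ℝ) + 2) ^ 2 * c := by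
  have hR : Measurable fun ω : Om V => r (ω Idx.rho) := hr.comp (measurable_pi_apply _)
  have hm := GG_le (S := S) hR
  set e : ℕ → Om V → ℝ := fun i ω => S.ecost (S.Y Set.univ (r (ω Idx.rho)) ω) (p i) (p (i + 1))
    with hedef
  set l0 : Om V → ℝ := fun ω => lc (S.cav (S.Y Set.univ (r (ω Idx.rho)) ω) (p 0) (p 0)) with hl0
  set lk : Om V → ℝ := fun ω => lc (S.cav (S.Y Set.univ (r (ω Idx.rho)) ω) (p k) (p k)) with hlk
  have hBe : ∀ i, BM (e i) := fun i => BM_ecost hr hJ _ _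
  have hB0 : BM l0 := BM_lc_cav hr hJ _
  have hBk : BM lk := BM_lc_cav hr hJ _
  have hBs : BM fun ω => ∑ i ∈ Finset.range k, e i ω := BM.sum _ fun i _ => hBe i
  have hI : ∀ {F : Om V → ℝ}, BM F → Integrable (fun ω => res (S.GG fun ω => r (ω Idx.rho)) (mu V) F ω ^ 2 * W ω) (mu V) := by
    intro F hF
    simpa only [sq] using integrable_res_mul hm hF hF hW
  have hres : res (S.GG fun ω => r (ω Idx.rho)) (mu V) (fun ω => S.cost (S.Y Set.univ (r (ω Idx.rho)) ω) p k) =ᵐ[mu V]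
      fun ω => ∑ i ∈ Finset.range k, res (S.GG fun ω => r (ω Idx.rho)) (mu V) (e i) ω + res (S.GG fun ω => r (ω Idx.rho)) (mu V) l0 ω +
        res (S.GG fun ω => r (ω Idx.rho)) (mu V) lk ω := by
    have a1 := res_add (m := S.GG fun ω => r (ω Idx.rho)) (μ := mu V) (hBs.add hB0) hBk
    have a2 := res_add (m := S.GG fun ω => r (ω Idx.rho)) (μ := mu V) hBs hB0
    have a3 := res_sum (m := S.GG fun ω => r (ω Idx.rho)) (μ := mu V) (Finset.range k) (X := e) fun i _ => hBe i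
    filter_upwards [a1, a2, a3] with ω h1 h2 h3
    rw [← h3, ← h2, ← h1]
    rfl
  have hk2 : (0 : ℝ) ≤ (k : ℝ) := Nat.cast_nonneg k
  calc ∫ ω, res (S.GG fun ω => r (ω Idx.rho)) (mu V) (fun ω => S.cost (S.Y Set.univ (r (ω Idx.rho)) ω) p k) ω ^ 2 * W ω ∂(mu V)
      ≤ ∫ ω, 3 * ((k : ℝ) + 2) * (∑ i ∈ Finset.range k, res (S.GG fun ω => r (ω Idx.rho)) (mu V) (e i) ω ^ 2 * W ω +
          res (S.GG fun ω => r (ω Idx.rho)) (mu V) l0 ω ^ 2 * W ω + res (S.GG fun ω => r (ω Idx.rho)) (mu V) lk ω ^ 2 * W ω) ∂(mu V) := by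
        refine integral_mono_ae (hI (BM_cost hr hJ p k)) ?_ ?_
        · exact (((integrable_finsetSum _ fun i _ => hI (hBe i)).add (hI hB0)).add
            (hI hBk)).const_mul _
        · filter_upwards [hres] with ω hω
          rw [hω]
          have hcs : (∑ i ∈ Finset.range k, res (S.GG fun ω => r (ω Idx.rho)) (mu V) (e i) ω) ^ 2 ≤
              k * ∑ i ∈ Finset.range k, res (S.GG fun ω => r (ω Idx.rho)) (mu V) (e i) ω ^ 2 := by
            simpa using sq_sum_le_card_mul_sum_sq (s := Finset.range k)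
              (f := fun i => res (S.GG fun ω => r (ω Idx.rho)) (mu V) (e i) ω)
          rw [← Finset.sum_mul, ← add_mul, ← add_mul, ← mul_assoc]
          refine mul_le_mul_of_nonneg_right ?_ (hW0 ω)
          set A := ∑ i ∈ Finset.range k, res (S.GG fun ω => r (ω Idx.rho)) (mu V) (e i) ω
          set Q := ∑ i ∈ Finset.range k, res (S.GG fun ω => r (ω Idx.rho)) (mu V) (e i) ω ^ 2
          have hQ : 0 ≤ Q := Finset.sum_nonneg fun i _ => sq_nonneg _
          set b := res (S.GG fun ω => r (ω Idx.rho)) (mu V) l0 ω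
          set c' := res (S.GG fun ω => r (ω Idx.rho)) (mu V) lk ω
          nlinarith [sq_nonneg (A - b), sq_nonneg (A - c'), sq_nonneg (b - c'), sq_nonneg b,
            sq_nonneg c', mul_nonneg hk2 (sq_nonneg b), mul_nonneg hk2 (sq_nonneg c')]
    _ = 3 * ((k : ℝ) + 2) * (∑ i ∈ Finset.range k, ∫ ω, res (S.GG fun ω => r (ω Idx.rho)) (mu V) (e i) ω ^ 2 * W ω ∂(mu V) +
          ∫ ω, res (S.GG fun ω => r (ω Idx.rho)) (mu V) l0 ω ^ 2 * W ω ∂(mu V) + ∫ ω, res (S.GG fun ω => r (ω Idx.rho)) (mu V) lk ω ^ 2 * W ω ∂(mu V)) := by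
        rw [integral_const_mul, integral_add, integral_add, integral_finsetSum]
        · exact fun i _ => hI (hBe i)
        · exact integrable_finsetSum _ fun i _ => hI (hBe i)
        · exact hI hB0
        · exact (integrable_finsetSum _ fun i _ => hI (hBe i)).add (hI hB0)
        · exact hI hBk
    _ ≤ 3 * ((k : ℝ) + 2) * (k * c + c + c) := by
        refine mul_le_mul_of_nonneg_left ?_ (by positivity)
        have : ∑ i ∈ Finset.range k, ∫ ω, res (S.GG fun ω => r (ω Idx.rho)) (mu V) (e i) ω ^ 2 * W ω ∂(mu V) ≤ k * c := by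
          calc _ ≤ ∑ _i ∈ Finset.range k, c :=
                Finset.sum_le_sum fun i hi => he i (Finset.mem_range.mp hi)
            _ = k * c := by simp
        linarith
    _ = 3 * ((k : ℝ) + 2) ^ 2 * c := by ring

lemma cvar_cost_le (hr : Measurable r) (hJ : ∀ ξ, r ξ ≤ J) {NA : ℝ}
    (hNA : ∀ y x, S.G.Adj y x → cvar (S.GG fun ω => r (ω Idx.rho)) (mu V)
      (fun ω => S.ecost (S.Y Set.univ (r (ω Idx.rho)) ω) y x) ≤ NA)
    {p : ℕ → V} {k : ℕ} (hp : S.IsNB p k) :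
    cvar (S.GG fun ω => r (ω Idx.rho)) (mu V)
        (fun ω => S.cost (S.Y Set.univ (r (ω Idx.rho)) ω) p k) ≤
      100 * S.d * k * NA + 6 * (Real.cosh (J + S.d) ^ 4 * S.NN fun ω => r (ω Idx.rho)) := by
  have hR : Measurable fun ω : Om V => r (ω Idx.rho) := hr.comp (measurable_pi_apply _)
  have hm := GG_le (S := S) hR
  have hBs : BM fun ω : Om V => ∑ i ∈ Finset.range k,
      S.ecost (S.Y Set.univ (r (ω Idx.rho)) ω) (p i) (p (i + 1)) :=
    BM.sum _ fun i _ => BM_ecost hr hJ _ _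
  have hB0 := BM_lc_cav (S := S) hr hJ (p 0)
  have hBk := BM_lc_cav (S := S) hr hJ (p k)
  have a1 := cvar_add_le (μ := mu V) hm (hBs.add hB0) hBk one_pos
  have a2 := cvar_add_le (μ := mu V) hm hBs hB0 one_pos
  have a3 := cvar_sum_ecost hr hJ hNA hp
  have a4 := cvar_lc (S := S) hr hJ (p 0)
  have a5 := cvar_lc (S := S) hr hJ (p k)
  norm_num at a1 a2
  unfold cost
  linarith

open Classical in
lemma term_le_pos (hr : Measurable r) (hJ : ∀ ξ, r ξ ≤ J) {Λ y NA : ℝ} (hΛ : 1 ≤ Λ) (hy : 0 ≤ y)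
    (h1 : ∀ ξ, S.H1 (r ξ) Λ y)
    (hNA : ∀ y x, S.G.Adj y x → cvar (S.GG fun ω => r (ω Idx.rho)) (mu V)
      (fun ω => S.ecost (S.Y Set.univ (r (ω Idx.rho)) ω) y x) ≤ NA)
    {u : V} (hk : 0 < S.G.dist S.o u) {C : ℝ} (hC1 : 16 * ((J : ℝ) + S.d) ^ 2 ≤ C)
    (hC2 : 48 * Real.cosh (J + S.d) ^ 4 ≤ C) :
    S.term (fun ω => r (ω Idx.rho)) u ≤ (S.θ ^ 2) ^ S.G.dist S.o u *
      (Real.exp (-(y * (((S.G.dist S.o u - 1) / 4 : ℕ) : ℝ) / 128)) *
          (100 * S.d * (S.G.dist S.o u) * NA +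
            7 * (Real.cosh (J + S.d) ^ 4 * S.NN fun ω => r (ω Idx.rho))) +
        10 * ((S.G.dist S.o u : ℝ) + 2) ^ 2 *
          (C * badRHS Λ y (S.NN fun ω => r (ω Idx.rho)) ((S.G.dist S.o u - 1) / 4))) := by
  have hR : Measurable fun ω : Om V => r (ω Idx.rho) := hr.comp (measurable_pi_apply _)
  have hm := GG_le (S := S) hR
  have hT := isTime_rho (V := V) hr hJ
  set k := S.G.dist S.o u with hkdef
  set p := S.geod S.o u with hpdef
  have hp : S.IsNB p k := geod_isNB _ _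
  have hpk : p k = u := geod_dist _ _
  set N := S.NN fun ω => r (ω Idx.rho) with hNdef
  have hN0 : 0 ≤ N := cvar_nonneg _
  set K := Real.cosh (J + S.d) ^ 4 with hKdef
  have hK1 : 1 ≤ K := one_le_pow₀ (Real.one_le_cosh _)
  set n : ℕ := (k - 1) / 4 with hndef
  set s₀ : ℝ := y * (n : ℝ) / 256 with hs₀
  have hs₀0 : 0 ≤ s₀ := by positivity
  have hd3 : (3 : ℝ) ≤ S.d := by exact_mod_cast S.hd
  have hJ0 : (0 : ℝ) ≤ J := Nat.cast_nonneg J
  have hC0 : 0 ≤ C := le_trans (by positivity) hC1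
  have hbad0 : 0 ≤ C * badRHS Λ y N n := by
    unfold badRHS
    have : 0 ≤ min N (Real.exp (-((3 / 2 : ℝ) ^ n))) := le_min hN0 (Real.exp_pos _).le
    positivity
  have hB4 : 4 * (2 * ((J : ℝ) + S.d)) ^ 2 ≤ C := by linarith
  have hKN : K * N ≤ C * N := mul_le_mul_of_nonneg_right (by linarith) hN0
  -- the sites
  have site_e : ∀ i, i < k → _ := fun i hi =>
    site_bad (S := S) hr hJ hΛ hy h1 hp hi (BM_ecost hr hJ (p i) (p (i + 1)))
      (abs_ecost_le hJ (p i) (p (i + 1))) hB4 (N := N)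
      (fun g hg1 hg2 ω => by
        unfold ecost
        rw [act_rho, cav_act, cav_act, hg1, hg2])
      ((cvar_ecost_crude hr hJ (hp.1 i hi)).trans (mul_le_mul_of_nonneg_right hC2 hN0))
  have site_0 := site_bad (S := S) hr hJ hΛ hy h1 hp hk (BM_lc_cav hr hJ (p 0))
      (abs_lc_cav_le hJ (p 0)) hB4 (N := N)
      (fun g hg1 _ ω => by rw [act_rho, cav_act, hg1])
      ((cvar_lc hr hJ (p 0)).trans hKN)
  have hk1 : k - 1 + 1 = k := Nat.sub_add_cancel hk
  have site_k := site_bad (S := S) hr hJ hΛ hy h1 hp (Nat.sub_lt hk one_pos) (BM_lc_cav hr hJ (p k))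
      (abs_lc_cav_le hJ (p k)) hB4 (N := N)
      (fun g _ hg2 ω => by rw [hk1] at hg2; rw [act_rho, cav_act, hg2])
      ((cvar_lc hr hJ (p k)).trans hKN)
  have site_m := site_bad (S := S) hr hJ hΛ hy h1 hp (Nat.sub_lt hk one_pos) (BM_mR hR u)
      (B := 2 * ((J : ℝ) + S.d)) (fun ω => (abs_mag_le _ _).trans (by linarith)) hB4 (N := N)
      (fun g _ hg2 ω => by
        rw [hk1, hpk] at hg2
        simp only [mR, mag]
        rw [act_rho, cav_act, hg2])
      ((cvar_mR hr u).le.trans (by nlinarith))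
  set b : Om V → ℝ := fun ω => if S.cost (S.Y Set.univ (r (ω Idx.rho)) ω) p k < 2 * s₀
    then (1 : ℝ) else 0 with hbdef
  have hBb : BM b := BM_badInd hr hJ p k _
  have hb0 : ∀ ω, 0 ≤ b ω := fun ω => by simp only [hbdef]; split_ifs <;> norm_num
  have hb01 : ∀ ω, b ω ∈ Set.Icc (0 : ℝ) 1 := fun ω => by
    simp only [hbdef]; split_ifs <;> norm_num
  obtain ⟨W, hWm, hW01, hWae⟩ := exists_condExp_version (μ := mu V) hm hBb.meas hb01
  have hBW : BM W := ⟨hWm.mono hm le_rfl, 1, fun ω => abs_le.mpr ⟨by linarith [(hW01 ω).1],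
    (hW01 ω).2⟩⟩
  have hWeq : ∀ F : Om V → ℝ, ∫ ω, F ω * W ω ∂(mu V) =
      ∫ ω, F ω * ((mu V)[b | S.GG fun ω => r (ω Idx.rho)]) ω ∂(mu V) := fun F =>
    integral_congr_ae (by filter_upwards [hWae] with ω hω; rw [hω])
  have hbad1 := res_cost_le (S := S) hr hJ p k hBb hb0 (c := C * badRHS Λ y N n)
    (fun i hi => (site_e i hi).1) site_0.1 site_k.1
  have hbad2 := res_cost_le (S := S) hr hJ p k hBW (fun ω => (hW01 ω).1) (c := C * badRHS Λ y N n)
    (fun i hi => by rw [hWeq]; exact (site_e i hi).2) (by rw [hWeq]; exact site_0.2)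
    (by rw [hWeq]; exact site_k.2)
  rw [hWeq] at hbad2
  have hexp := cvar_exp_neg_le (μ := mu V) hm (BM_cost (S := S) hr hJ p k)
    (fun ω => cost_nonneg _ _ _) hs₀0
  have hcost := cvar_cost_le hr hJ hNA hp
  have hgood := ae_good (S := S) Set.univ hT
  have he : Real.exp (-(2 * s₀)) = Real.exp (-(y * (n : ℝ) / 128)) := by
    congr 1; rw [hs₀]; ring
  have hθk : 0 ≤ (S.θ ^ 2) ^ k := by positivity
  -- first summand
  have hfirst : cvar (S.GG fun ω => r (ω Idx.rho)) (mu V)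
      (fun ω => S.cov (S.Y Set.univ (r (ω Idx.rho)) ω) p k) = (S.θ ^ 2) ^ k *
      cvar (S.GG fun ω => r (ω Idx.rho)) (mu V)
        (fun ω => Real.exp (-S.cost (S.Y Set.univ (r (ω Idx.rho)) ω) p k)) := by
    have hBe : BM fun ω : Om V => Real.exp (-S.cost (S.Y Set.univ (r (ω Idx.rho)) ω) p k) :=
      (BM_cost (S := S) hr hJ p k).neg.comp_continuous Real.continuous_exp
    rw [← pow_mul, mul_comm 2 k, pow_mul, ← cvar_const_mul hm hBe]
    refine cvar_congr ?_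
    filter_upwards [hgood] with ω hω
    exact hω.cov_eq_exp_cost hp
  -- second summand
  have hsecond : ∫ ω, S.cov (S.Y Set.univ (r (ω Idx.rho)) ω) p k ^ 2 *
      res (S.GG fun ω => r (ω Idx.rho)) (mu V) (S.mR (fun ω => r (ω Idx.rho)) u) ω ^ 2 ∂(mu V) ≤
      (S.θ ^ 2) ^ k * (Real.exp (-(2 * s₀)) * N + C * badRHS Λ y N n) := by
    have hBm := BM_mR (S := S) hR u
    have hI1 := integrable_res_sq (μ := mu V) hm hBm
    have hI2 : Integrable (fun ω => res (S.GG fun ω => r (ω Idx.rho)) (mu V)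
        (S.mR (fun ω => r (ω Idx.rho)) u) ω ^ 2 * b ω) (mu V) := by
      simpa only [sq] using integrable_res_mul hm hBm hBm hBb
    calc _ ≤ ∫ ω, (S.θ ^ 2) ^ k * (Real.exp (-(2 * s₀)) *
            res (S.GG fun ω => r (ω Idx.rho)) (mu V) (S.mR (fun ω => r (ω Idx.rho)) u) ω ^ 2 +
            res (S.GG fun ω => r (ω Idx.rho)) (mu V) (S.mR (fun ω => r (ω Idx.rho)) u) ω ^ 2 * b ω)
            ∂(mu V) := by
          refine integral_mono_of_nonneg (Eventually.of_forall fun ω => by positivity)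
            (((hI1.const_mul _).add hI2).const_mul _) ?_
          filter_upwards [hgood] with ω hω
          rw [hω.cov_eq_exp_cost hp, mul_pow, ← pow_mul, mul_comm k 2, pow_mul, mul_assoc]
          refine mul_le_mul_of_nonneg_left ?_ hθk
          set x := res (S.GG fun ω => r (ω Idx.rho)) (mu V) (S.mR (fun ω => r (ω Idx.rho)) u) ω ^ 2
          have hx : 0 ≤ x := sq_nonneg _
          have hc0 := cost_nonneg (S := S) (S.Y Set.univ (r (ω Idx.rho)) ω) p k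
          have key : Real.exp (-S.cost (S.Y Set.univ (r (ω Idx.rho)) ω) p k) ^ 2 ≤
              Real.exp (-(2 * s₀)) + b ω := by
            rw [← Real.exp_nat_mul]
            simp only [hbdef]
            split_ifs with hc
            · have : Real.exp (((2 : ℕ) : ℝ) * -S.cost (S.Y Set.univ (r (ω Idx.rho)) ω) p k) ≤ 1 :=
                Real.exp_le_one_iff.mpr (by push_cast; linarith)
              linarith [Real.exp_pos (-(2 * s₀))]
            · rw [add_zero]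
              exact Real.exp_le_exp.mpr (by push_cast; linarith [not_lt.mp hc])
          nlinarith [mul_le_mul_of_nonneg_right key hx]
      _ = (S.θ ^ 2) ^ k * (Real.exp (-(2 * s₀)) * N + ∫ ω,
            res (S.GG fun ω => r (ω Idx.rho)) (mu V) (S.mR (fun ω => r (ω Idx.rho)) u) ω ^ 2 * b ω
            ∂(mu V)) := by
          rw [integral_const_mul, integral_add (hI1.const_mul _) hI2, integral_const_mul]
          congr 3
          exact cvar_mR hr u
      _ ≤ _ := by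
          refine mul_le_mul_of_nonneg_left ?_ hθk
          linarith [site_m.1]
  unfold term
  rw [hfirst]
  have hk2 : (1 : ℝ) ≤ ((k : ℝ) + 2) ^ 2 := by
    have : (0 : ℝ) ≤ k := Nat.cast_nonneg k
    nlinarith
  have hE := Real.exp_pos (-(2 * s₀))
  have h3 : cvar (S.GG fun ω => r (ω Idx.rho)) (mu V)
        (fun ω => Real.exp (-S.cost (S.Y Set.univ (r (ω Idx.rho)) ω) p k)) ≤
      Real.exp (-(2 * s₀)) * (100 * S.d * k * NA + 6 * (K * N)) +
        9 * ((k : ℝ) + 2) ^ 2 * (C * badRHS Λ y N n) := by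
    have := mul_le_mul_of_nonneg_left hcost hE.le
    linarith
  have h4 : Real.exp (-(2 * s₀)) * N ≤ Real.exp (-(2 * s₀)) * (K * N) :=
    mul_le_mul_of_nonneg_left (by nlinarith) hE.le
  have h5 : C * badRHS Λ y N n ≤ ((k : ℝ) + 2) ^ 2 * (C * badRHS Λ y N n) := by nlinarith
  rw [← he]
  have h6 := mul_le_mul_of_nonneg_left h3 hθk
  have h7 : (S.θ ^ 2) ^ k * (Real.exp (-(2 * s₀)) * N + C * badRHS Λ y N n) ≤
      (S.θ ^ 2) ^ k * (Real.exp (-(2 * s₀)) * (K * N) + ((k : ℝ) + 2) ^ 2 * (C * badRHS Λ y N n)) :=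
    mul_le_mul_of_nonneg_left (by linarith) hθk
  nlinarith

lemma term_o_le (hr : Measurable r) :
    S.term (fun ω => r (ω Idx.rho)) S.o ≤ 5 * S.NN fun ω => r (ω Idx.rho) := by
  have hR : Measurable fun ω : Om V => r (ω Idx.rho) := hr.comp (measurable_pi_apply _)
  have hm := GG_le (S := S) hR
  have hBm := BM_mR (S := S) hR S.o
  have hcov : ∀ Y : V → ℝ, S.cov Y (S.geod S.o S.o) (S.G.dist S.o S.o) = 1 - S.mag Y S.o ^ 2 := by
    intro Y
    simp [cov, geod_zero]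
  have h1 : cvar (S.GG fun ω => r (ω Idx.rho)) (mu V)
      (fun ω => 1 - S.mR (fun ω => r (ω Idx.rho)) S.o ω ^ 2) ≤
      2 ^ 2 * cvar (S.GG fun ω => r (ω Idx.rho)) (mu V) (S.mR (fun ω => r (ω Idx.rho)) S.o) := by
    refine cvar_lipschitz (μ := mu V) hm hBm.meas (a := -1) (b := 1)
      (fun ω => abs_le.mp (abs_mag_le _ _)) (φ := fun x => 1 - x ^ 2) (by fun_prop) ?_
    intro x hx z hz
    have : 1 - x ^ 2 - (1 - z ^ 2) = -(x + z) * (x - z) := by ring
    rw [this, abs_mul, abs_neg]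
    refine mul_le_mul_of_nonneg_right (abs_le.mpr ⟨?_, ?_⟩) (abs_nonneg _) <;>
      linarith [hx.1, hx.2, hz.1, hz.2]
  have h2 : ∫ ω, S.cov (S.Y Set.univ (r (ω Idx.rho)) ω) (S.geod S.o S.o) (S.G.dist S.o S.o) ^ 2 *
      res (S.GG fun ω => r (ω Idx.rho)) (mu V) (S.mR (fun ω => r (ω Idx.rho)) S.o) ω ^ 2 ∂(mu V) ≤
      cvar (S.GG fun ω => r (ω Idx.rho)) (mu V) (S.mR (fun ω => r (ω Idx.rho)) S.o) := by
    refine integral_mono_of_nonneg (Eventually.of_forall fun ω => by positivity)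
      (integrable_res_sq hm hBm) (Eventually.of_forall fun ω => ?_)
    have a := cov_nonneg (S := S) (S.Y Set.univ (r (ω Idx.rho)) ω) (S.geod S.o S.o) (S.G.dist S.o S.o)
    have b := cov_le_one (S := S) (S.Y Set.univ (r (ω Idx.rho)) ω) (S.geod S.o S.o) (S.G.dist S.o S.o)
    have c : S.cov (S.Y Set.univ (r (ω Idx.rho)) ω) (S.geod S.o S.o) (S.G.dist S.o S.o) ^ 2 ≤ 1 := by
      nlinarith
    exact mul_le_of_le_one_left (sq_nonneg _) c
  unfold term
  simp only [hcov] at h2 ⊢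
  unfold NN
  unfold mR at h1 h2 ⊢
  linarith

theorem term_le (J : ℕ) : ∃ C : ℝ, 0 < C ∧ ∀ (r : X → ℝ) (Λ y NA : ℝ) (u : V), Measurable r →
    (∀ ξ, r ξ ≤ J) → 1 ≤ Λ → 0 ≤ y → (∀ ξ, S.H1 (r ξ) Λ y) → 0 ≤ NA →
    (∀ y' x, S.G.Adj y' x → cvar (S.GG fun ω => r (ω Idx.rho)) (mu V)
      (fun ω => S.ecost (S.Y Set.univ (r (ω Idx.rho)) ω) y' x) ≤ NA) →
    S.term (fun ω => r (ω Idx.rho)) u ≤
      C * (S.θ ^ 2) ^ S.G.dist S.o u *
        (Real.exp (-(y * (((S.G.dist S.o u - 1) / 4 : ℕ) : ℝ) / 128)) *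
            (((S.G.dist S.o u : ℝ) + 2) * NA + S.NN fun ω => r (ω Idx.rho)) +
          ((S.G.dist S.o u : ℝ) + 2) ^ 2 *
            ((Real.exp (-(Λ * y * (((S.G.dist S.o u - 1) / 4 : ℕ) : ℝ) / 64)) +
                (3 / 4 : ℝ) ^ ((S.G.dist S.o u - 1) / 4)) * (S.NN fun ω => r (ω Idx.rho)) +
              min (S.NN fun ω => r (ω Idx.rho))
                (Real.exp (-((3 / 2 : ℝ) ^ ((S.G.dist S.o u - 1) / 4)))))) := by
  set C₀ : ℝ := 16 * ((J : ℝ) + S.d) ^ 2 + 48 * Real.cosh (J + S.d) ^ 4 with hC₀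
  set K := Real.cosh (J + S.d) ^ 4 with hK
  have hK1 : 1 ≤ K := one_le_pow₀ (Real.one_le_cosh _)
  have hd3 : (3 : ℝ) ≤ S.d := by exact_mod_cast S.hd
  have hC₀0 : 0 ≤ C₀ := by positivity
  refine ⟨100 * S.d + 7 * K + 20 * C₀, by positivity, ?_⟩
  intro r Λ y NA u hr hJ hΛ hy h1 hNA0 hNA
  set N := S.NN fun ω => r (ω Idx.rho) with hN
  have hN0 : 0 ≤ N := cvar_nonneg _
  set k := S.G.dist S.o u with hk
  set n : ℕ := (k - 1) / 4 with hn
  have hk0 : (0 : ℝ) ≤ k := Nat.cast_nonneg k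
  set e₀ := Real.exp (-(y * (n : ℝ) / 128)) with he₀
  set e₁ := Real.exp (-(Λ * y * (n : ℝ) / 64)) with he₁
  set μ₁ := min N (Real.exp (-((3 / 2 : ℝ) ^ n))) with hμ₁
  have he₀0 : 0 < e₀ := Real.exp_pos _
  have he₁0 : 0 < e₁ := Real.exp_pos _
  have hμ0 : 0 ≤ μ₁ := le_min hN0 (Real.exp_pos _).le
  have hη : (0 : ℝ) ≤ (3 / 4 : ℝ) ^ n := by positivity
  set A := e₀ * (((k : ℝ) + 2) * NA + N) with hA
  set Bd := ((k : ℝ) + 2) ^ 2 * ((e₁ + (3 / 4 : ℝ) ^ n) * N + μ₁) with hBd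
  have hA0 : 0 ≤ A := by positivity
  have hBd0 : 0 ≤ Bd := by positivity
  rcases Nat.eq_zero_or_pos k with h0 | hpos
  · have hu : u = S.o := (dist_eq_zero.mp h0).symm
    have hn0 : n = 0 := by rw [hn, h0]
    have he1 : e₀ = 1 := by rw [he₀, hn0]; simp
    have h5 : S.term (fun ω => r (ω Idx.rho)) u ≤ 5 * N := by rw [hu]; exact term_o_le hr
    have hNA' : N ≤ A := by rw [hA, he1]; nlinarith
    rw [h0, pow_zero, mul_one]
    nlinarith
  · have h := term_le_pos (S := S) hr hJ hΛ hy h1 hNA hpos (C := C₀) (by rw [hC₀]; linarith)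
      (by rw [hC₀]; nlinarith [sq_nonneg ((J : ℝ) + S.d)])
    refine h.trans ?_
    have hθk : 0 ≤ (S.θ ^ 2) ^ k := by positivity
    rw [mul_comm (100 * (S.d : ℝ) + 7 * K + 20 * C₀), mul_assoc ((S.θ ^ 2) ^ k)]
    refine mul_le_mul_of_nonneg_left ?_ hθk
    have a1 : e₀ * (100 * S.d * k * NA + 7 * (K * N)) ≤ (100 * S.d + 7 * K) * A := by
      rw [hA, mul_left_comm (100 * (S.d : ℝ) + 7 * K)]
      refine mul_le_mul_of_nonneg_left ?_ he₀0.le
      have b1 : 0 ≤ (S.d : ℝ) * NA := by positivity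
      have b2 : 0 ≤ (S.d : ℝ) * N := by positivity
      have b3 : 0 ≤ K * ((k + 2) * NA) := by positivity
      nlinarith
    have a2 : 10 * ((k : ℝ) + 2) ^ 2 * (C₀ * badRHS Λ y N n) ≤ 20 * C₀ * Bd := by
      have : badRHS Λ y N n ≤ 2 * ((e₁ + (3 / 4 : ℝ) ^ n) * N + μ₁) := by
        unfold badRHS
        rw [← he₁, ← hμ₁]
        nlinarith [mul_nonneg hη hN0]
      have h3 : 0 ≤ 10 * ((k : ℝ) + 2) ^ 2 * C₀ := mul_nonneg (by positivity) hC₀0
      have h2 := mul_le_mul_of_nonneg_left this h3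
      rw [hBd]
      nlinarith
    have a3 : 0 ≤ (100 * (S.d : ℝ) + 7 * K) * Bd := by positivity
    have a4 : 0 ≤ 20 * C₀ * A := by positivity
    nlinarith

end Setup

end Crest.Agent.R160
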