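import Crest.Agent.R160.Defs

/-!
# Row 160 (S0241): Tree1
Basic geometry of the regular tree: neighbours, parent towards a vertex, half-trees `D`,
truncations `DN`, non-backtracking paths, geodesics, automorphisms.
Main tools in Mathlib: `SimpleGraph.IsTree.dist_eq_dist_add_one_of_adj`, `IsTree.existsUnique_path`,
`Connected.exists_walk_length_eq_dist`, `Walk.isPath_of_length_eq_dist`.  The only real use of
acyclicity besides `dist_adj` is `eq_par` (uniqueness of the neighbour closer to `u`); everything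
else follows by induction on distances.
-/

set_option autoImplicit false

open MeasureTheory Filter Topology
open scoped unitInterval

noncomputable section

namespace Crest.Agent.R160

universe u

namespace Setup

variable {V : Type u} (S : Setup V)

lemma two_le_d_sub_one : (2 : ℝ) ≤ (S.d : ℝ) - 1 := by
  have : (3 : ℝ) ≤ S.d := by exact_mod_cast S.hd
  linarith
lemma theta_sq_le : S.θ ^ 2 ≤ 1 / 2 := by
  have h1 := S.two_le_d_sub_one
  have h2 := S.hθ
  nlinarith [sq_nonneg S.θ]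
lemma gam_nonneg : 0 ≤ S.gam :=
  mul_nonneg (by linarith [S.two_le_d_sub_one]) (sq_nonneg _)
lemma gam_le_one : S.gam ≤ 1 := S.hθ

variable {S}

lemma mem_nb {x y : V} : x ∈ S.nb y ↔ S.G.Adj y x := by
  simp [nb]
lemma card_nb (y : V) : (S.nb y).card = S.d := by
  have := S.reg y
  rw [nb, SimpleGraph.card_neighborFinset_eq_degree]
  exact this
lemma mem_ch {y x z : V} : z ∈ S.ch y x ↔ S.G.Adj y z ∧ z ≠ x := by
  classical
  rw [ch, Finset.mem_erase, mem_nb, and_comm]
lemma ch_self (y : V) : S.ch y y = S.nb y := by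
  ext z
  rw [mem_ch, mem_nb]
  exact ⟨fun h => h.1, fun h => ⟨h, h.ne'⟩⟩
lemma card_ch_adj {y x : V} (h : S.G.Adj y x) : (S.ch y x).card = S.d - 1 := by
  classical
  rw [ch, Finset.card_erase_of_mem (mem_nb.2 h), card_nb]
lemma card_ch_le (y x : V) : (S.ch y x).card ≤ S.d := by
  classical
  rw [ch, ← card_nb y]
  exact Finset.card_erase_le
/-- splitting off the neighbour `x` -/
lemma sum_nb_eq {y x : V} (h : S.G.Adj y x) (F : V → ℝ) :
    ∑ z ∈ S.ch y y, F z = F x + ∑ z ∈ S.ch y x, F z := by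
  classical
  rw [ch_self, ch]
  convert (Finset.add_sum_erase _ F (mem_nb.2 h)).symm
/-- there is always a third neighbour -/
lemma exists_ch_ne (y x x' : V) : ∃ z ∈ S.ch y x, z ≠ x' := by
  classical
  have h1 : S.d - 1 ≤ (S.ch y x).card := by
    rw [ch, ← card_nb y]
    convert Finset.pred_card_le_card_erase
  have h2 : 1 < (S.ch y x).card := by
    have := S.hd
    omega
  exact Finset.exists_mem_ne h2 x'

lemma dist_adj {x y : V} (h : S.G.Adj x y) (v : V) :
    S.G.dist v x = S.G.dist v y + 1 ∨ S.G.dist v y = S.G.dist v x + 1 :=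
  S.tree.dist_eq_dist_add_one_of_adj v h
lemma dist_eq_zero {x y : V} : S.G.dist x y = 0 ↔ x = y :=
  S.tree.connected.dist_eq_zero_iff
lemma dist_eq_one {x y : V} : S.G.dist x y = 1 ↔ S.G.Adj x y :=
  SimpleGraph.dist_eq_one_iff_adj
lemma par_self (u : V) : S.par u u = u := by
  rw [par, dif_neg]
  rintro ⟨z, -, hz⟩
  simp at hz

/-- a vertex other than `u` has a neighbour closer to `u` -/
lemma exists_closer {u x : V} (h : x ≠ u) :
    ∃ z, S.G.Adj x z ∧ S.G.dist u z < S.G.dist u x := by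
  obtain ⟨p, hp⟩ := S.tree.connected.exists_walk_length_eq_dist x u
  cases p with
  | nil => exact absurd rfl h
  | @cons _ z _ hxz q =>
    refine ⟨z, hxz, ?_⟩
    have h1 := SimpleGraph.dist_le q
    rw [SimpleGraph.Walk.length_cons] at hp
    rw [SimpleGraph.dist_comm (u := u) (v := z), SimpleGraph.dist_comm (u := u) (v := x)]
    omega

lemma par_spec {u x : V} (h : x ≠ u) :
    S.G.Adj x (S.par u x) ∧ S.G.dist u (S.par u x) < S.G.dist u x := by
  have h1 := exists_closer (S := S) h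
  rw [par, dif_pos h1]
  exact h1.choose_spec

/-- the neighbour closer to `u` is unique -/
lemma closer_unique {u x z z' : V} (h : S.G.Adj x z) (h' : S.G.Adj x z')
    (hlt : S.G.dist u z < S.G.dist u x) (hlt' : S.G.dist u z' < S.G.dist u x) : z = z' := by
  obtain ⟨p, hp⟩ := S.tree.connected.exists_walk_length_eq_dist u z
  obtain ⟨p', hp'⟩ := S.tree.connected.exists_walk_length_eq_dist u z'
  have e := dist_adj h u
  have e' := dist_adj h' u
  have hq : (p.concat h.symm).IsPath :=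
    SimpleGraph.Walk.isPath_of_length_eq_dist _ (by rw [SimpleGraph.Walk.length_concat]; omega)
  have hq' : (p'.concat h'.symm).IsPath :=
    SimpleGraph.Walk.isPath_of_length_eq_dist _ (by rw [SimpleGraph.Walk.length_concat]; omega)
  have hE : (⟨_, hq⟩ : S.G.Path u x) = ⟨_, hq'⟩ :=
    (S.tree.isAcyclic.subsingleton_path u x).elim _ _
  have hE' : p.concat h.symm = p'.concat h'.symm := congrArg Subtype.val hE
  exact (SimpleGraph.Walk.concat_inj hE').1

lemma adj_par {u x : V} (h : x ≠ u) : S.G.Adj x (S.par u x) := (par_spec h).1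
lemma dist_par {u x : V} (h : x ≠ u) : S.G.dist u (S.par u x) + 1 = S.G.dist u x := by
  have h1 := par_spec (S := S) h
  have h2 := dist_adj h1.1 u
  omega
lemma eq_par {u x z : V} (h : S.G.Adj x z) (hlt : S.G.dist u z < S.G.dist u x) :
    z = S.par u x := by
  have hne : x ≠ u := by
    rintro rfl
    simp at hlt
  exact closer_unique h (par_spec hne).1 hlt (par_spec hne).2
lemma dist_of_ne_par {u x z : V} (h : S.G.Adj x z) (hne : z ≠ S.par u x) :
    S.G.dist u z = S.G.dist u x + 1 := by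
  rcases dist_adj h u with h1 | h1
  · exact absurd (eq_par h (by omega)) hne
  · exact h1

lemma D_self (y : V) : S.D y y = Set.univ := by
  ext v
  simp [D]
lemma mem_D_adj {y x v : V} (h : S.G.Adj y x) :
    v ∈ S.D y x ↔ S.G.dist v y < S.G.dist v x := by
  simp [D, h.ne]
lemma self_mem_D {y x : V} (h : S.DE y x) : y ∈ S.D y x := by
  rcases h with rfl | h
  · simp [D_self]
  · rw [mem_D_adj h, dist_eq_one.2 h]
    simp
lemma not_mem_D {y x : V} (h : S.G.Adj y x) : x ∉ S.D y x := by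
  rw [mem_D_adj h]
  simp
lemma D_compl {y x : V} (h : S.G.Adj y x) : S.D x y = (S.D y x)ᶜ := by
  ext v
  rw [Set.mem_compl_iff, mem_D_adj h, mem_D_adj h.symm]
  have := dist_adj h v
  omega
lemma D_subset {y x z : V} (h : S.DE y x) (hz : z ∈ S.ch y x) : S.D z y ⊆ S.D y x := by
  intro v hv
  rcases h with rfl | h
  · simp [D_self]
  obtain ⟨hz1, hz2⟩ := mem_ch.1 hz
  rw [mem_D_adj hz1.symm] at hv
  rw [mem_D_adj h]
  have h1 := eq_par hz1 hv
  have h2 := dist_of_ne_par (u := v) h (h1 ▸ hz2.symm)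
  omega
lemma D_disjoint {y z z' : V} (hz : S.G.Adj y z) (hz' : S.G.Adj y z') (hne : z ≠ z') :
    Disjoint (S.D z y) (S.D z' y) := by
  rw [Set.disjoint_left]
  intro v hv hv'
  rw [mem_D_adj hz.symm] at hv
  rw [mem_D_adj hz'.symm] at hv'
  exact hne (closer_unique hz hz' hv hv')
lemma mem_D_iff {y x v : V} (h : S.DE y x) :
    v ∈ S.D y x ↔ v = y ∨ ∃ z ∈ S.ch y x, v ∈ S.D z y := by
  constructor
  · intro hv
    by_cases hvy : v = y
    · exact Or.inl hvy
    right
    obtain ⟨h1, h2⟩ := par_spec (S := S) (Ne.symm hvy)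
    refine ⟨S.par v y, mem_ch.2 ⟨h1, ?_⟩, (mem_D_adj h1.symm).2 h2⟩
    rcases h with rfl | h
    · exact h1.ne'
    · rw [mem_D_adj h] at hv
      intro e
      rw [e] at h2
      omega
  · rintro (rfl | ⟨z, hz, hv⟩)
    · exact self_mem_D h
    · exact D_subset h hz hv
lemma par_mem_D {y x v : V} (h : S.DE y x) (hv : v ∈ S.D y x) : S.par y v ∈ S.D y x := by
  by_cases hvy : v = y
  · rw [hvy, par_self]
    exact self_mem_D h
  rcases h with rfl | h
  · simp [D_self]
  rw [mem_D_adj h] at hv ⊢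
  have h1 := adj_par (S := S) hvy
  have h2 := dist_par (S := S) hvy
  have h3 := dist_adj h1 x
  rw [SimpleGraph.dist_comm (u := v) (v := y), SimpleGraph.dist_comm (u := v) (v := x)] at hv
  rw [SimpleGraph.dist_comm (v := y), SimpleGraph.dist_comm (v := x)]
  omega

lemma mem_DN_succ {y x v : V} {n : ℕ} :
    v ∈ S.DN (n + 1) y x ↔ v = y ∨ ∃ z ∈ S.ch y x, v ∈ S.DN n z y := by
  classical
  simp only [DN, Finset.mem_insert, Finset.mem_biUnion]

lemma mem_DN {y x v : V} {n : ℕ} (h : S.DE y x) :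
    v ∈ S.DN n y x ↔ v ∈ S.D y x ∧ S.G.dist v y < n := by
  induction n generalizing y x with
  | zero => simp [DN]
  | succ n ih =>
    rw [mem_DN_succ, mem_D_iff h]
    constructor
    · rintro (rfl | ⟨z, hz, hv⟩)
      · simp
      · have hz1 := (mem_ch.1 hz).1
        rw [ih (Or.inr hz1.symm)] at hv
        refine ⟨Or.inr ⟨z, hz, hv.1⟩, ?_⟩
        have := dist_adj hz1 v
        omega
    · rintro ⟨rfl | ⟨z, hz, hv⟩, hd⟩
      · exact Or.inl rfl
      · have hz1 := (mem_ch.1 hz).1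
        refine Or.inr ⟨z, hz, (ih (Or.inr hz1.symm)).2 ⟨hv, ?_⟩⟩
        rw [mem_D_adj hz1.symm] at hv
        omega
lemma mem_ball {u v : V} {n : ℕ} : u ∈ S.ball n v ↔ S.G.dist u v < n := by
  rw [ball, mem_DN (Or.inl rfl), D_self]
  simp
/-- the recursive description of sums over `DN` -/
lemma sum_DN_succ {y x : V} (h : S.DE y x) (n : ℕ) (F : V → ℝ) :
    ∑ v ∈ S.DN (n + 1) y x, F v = F y + ∑ z ∈ S.ch y x, ∑ v ∈ S.DN n z y, F v := by
  classical
  have e : S.DN (n + 1) y x = insert y ((S.ch y x).biUnion fun z => S.DN n z y) := by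
    ext v
    rw [mem_DN_succ]
    simp only [Finset.mem_insert, Finset.mem_biUnion]
  rw [e, Finset.sum_insert, Finset.sum_biUnion]
  · intro z hz z' hz' hne
    have hz1 := (mem_ch.1 hz).1
    have hz1' := (mem_ch.1 hz').1
    rw [Function.onFun, Finset.disjoint_left]
    intro v hv hv'
    rw [mem_DN (Or.inr hz1.symm)] at hv
    rw [mem_DN (Or.inr hz1'.symm)] at hv'
    exact Set.disjoint_left.1 (D_disjoint hz1 hz1' hne) hv.1 hv'.1
  · rw [Finset.mem_biUnion]
    rintro ⟨z, hz, hv⟩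
    have hz1 := (mem_ch.1 hz).1
    rw [mem_DN (Or.inr hz1.symm)] at hv
    exact not_mem_D hz1.symm hv.1

lemma IsNB.mono {p : ℕ → V} {k k' : ℕ} (h : S.IsNB p k) (hk : k' ≤ k) : S.IsNB p k' :=
  ⟨fun i hi => h.1 i (by omega), fun i hi => h.2 i (by omega)⟩
lemma IsNB.shift {p : ℕ → V} {k : ℕ} (h : S.IsNB p k) (i : ℕ) :
    S.IsNB (fun l => p (i + l)) (k - i) :=
  ⟨fun l hl => h.1 (i + l) (by omega), fun l hl => h.2 (i + l) (by omega)⟩
lemma IsNB.rev {p : ℕ → V} {k : ℕ} (h : S.IsNB p k) : S.IsNB (fun l => p (k - l)) k := by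
  refine ⟨fun l hl => ?_, fun l hl => ?_⟩
  · have := (h.1 (k - (l + 1)) (by omega)).symm
    rwa [show k - (l + 1) + 1 = k - l by omega] at this
  · have := (h.2 (k - (l + 2)) (by omega)).symm
    rwa [show k - (l + 2) + 2 = k - l by omega] at this

lemma IsNB.dist_add {p : ℕ → V} {k : ℕ} (h : S.IsNB p k) (i m : ℕ) (hm : i + m ≤ k) :
    S.G.dist (p i) (p (i + m)) = m := by
  induction m using Nat.twoStepInduction with
  | zero => simp
  | one => exact dist_eq_one.2 (h.1 i (by omega))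
  | more m ih0 ih1 =>
    have e0 := ih0 (by omega)
    have e1 := ih1 (by omega)
    have a0 : S.G.Adj (p (i + (m + 1))) (p (i + m)) := (h.1 (i + m) (by omega)).symm
    have a1 : S.G.Adj (p (i + (m + 1))) (p (i + (m + 2))) := h.1 (i + (m + 1)) (by omega)
    have hp := eq_par (u := p i) a0 (by omega)
    have hne : p (i + (m + 2)) ≠ p (i + m) := h.2 (i + m) (by omega)
    have := dist_of_ne_par (u := p i) a1 (hp ▸ hne)
    omega

lemma IsNB.dist {p : ℕ → V} {k i j : ℕ} (h : S.IsNB p k) (hij : i ≤ j) (hj : j ≤ k) :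
    S.G.dist (p i) (p j) = j - i := by
  have := h.dist_add i (j - i) (by omega)
  rwa [show i + (j - i) = j by omega] at this
lemma IsNB.mem_D {p : ℕ → V} {k i j : ℕ} (h : S.IsNB p k) (hij : i < j) (hj : j ≤ k) :
    p j ∈ S.D (p (i + 1)) (p i) := by
  rw [mem_D_adj (h.1 i (by omega)).symm, SimpleGraph.dist_comm, h.dist (by omega) hj,
    SimpleGraph.dist_comm, h.dist hij.le hj]
  omega
lemma IsNB.not_mem_D {p : ℕ → V} {k i j : ℕ} (h : S.IsNB p k) (hij : i < j) (hj : j ≤ k) :
    p j ∉ S.D (p i) (p (i + 1)) := by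
  rw [D_compl (h.1 i (by omega)).symm, Set.mem_compl_iff, not_not]
  exact h.mem_D hij hj
lemma IsNB.D_subset {p : ℕ → V} {k i j : ℕ} (h : S.IsNB p k) (hij : i ≤ j) (hj : j < k) :
    S.D (p (j + 1)) (p j) ⊆ S.D (p (i + 1)) (p i) := by
  induction j, hij using Nat.le_induction with
  | base => exact subset_rfl
  | succ j hij ih =>
    refine subset_trans ?_ (ih (by omega))
    exact Setup.D_subset (Or.inr (h.1 j (by omega)).symm)
      (mem_ch.2 ⟨h.1 (j + 1) hj, h.2 j (by omega)⟩)
lemma IsNB.D_subset' {p : ℕ → V} {k i j : ℕ} (h : S.IsNB p k) (hij : i ≤ j) (hj : j < k) :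
    S.D (p i) (p (i + 1)) ⊆ S.D (p j) (p (j + 1)) := by
  induction j, hij using Nat.le_induction with
  | base => exact subset_rfl
  | succ j hij ih =>
    refine subset_trans (ih (by omega)) ?_
    exact Setup.D_subset (Or.inr (h.1 (j + 1) hj))
      (mem_ch.2 ⟨(h.1 j (by omega)).symm, (h.2 j (by omega)).symm⟩)

lemma IsNB.extend_one {p : ℕ → V} {k : ℕ} (h : S.IsNB p k) :
    ∃ q : ℕ → V, S.IsNB q (k + 1) ∧ ∀ i, i ≤ k → q i = p i := by
  obtain ⟨z, hz, -⟩ := exists_ch_ne (S := S) (p k) (p (k - 1)) (p k)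
  obtain ⟨hz1, hz2⟩ := mem_ch.1 hz
  refine ⟨fun i => if i ≤ k then p i else z, ⟨fun i hi => ?_, fun i hi => ?_⟩,
    fun i hi => if_pos hi⟩
  · beta_reduce
    rw [if_pos (show i ≤ k by omega)]
    split_ifs with h1
    · exact h.1 i (by omega)
    · rw [show i = k by omega]
      exact hz1
  · beta_reduce
    rw [if_pos (show i ≤ k by omega)]
    split_ifs with h1
    · exact h.2 i h1
    · rw [show i = k - 1 by omega]
      exact hz2

lemma IsNB.extend {p : ℕ → V} {k : ℕ} (h : S.IsNB p k) (k' : ℕ) :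
    ∃ q : ℕ → V, S.IsNB q k' ∧ ∀ i, i ≤ k → q i = p i := by
  have H : ∀ m, ∃ q : ℕ → V, S.IsNB q (k + m) ∧ ∀ i, i ≤ k → q i = p i := by
    intro m
    induction m with
    | zero => exact ⟨p, h, fun _ _ => rfl⟩
    | succ m ih =>
      obtain ⟨q, hq, hqp⟩ := ih
      obtain ⟨q', hq', hqq⟩ := hq.extend_one
      exact ⟨q', hq', fun i hi => (hqq i (by omega)).trans (hqp i hi)⟩
  obtain ⟨q, hq, hqp⟩ := H k'
  exact ⟨q, hq.mono (by omega), hqp⟩

lemma geod_zero (x u : V) : S.geod x u 0 = x := rfl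
lemma geod_succ (x u : V) (i : ℕ) : S.geod x u (i + 1) = S.par u (S.geod x u i) :=
  Function.iterate_succ_apply' _ _ _
lemma geod_succ' (x u : V) (i : ℕ) : S.geod x u (i + 1) = S.geod (S.par u x) u i :=
  Function.iterate_succ_apply _ _ _

lemma dist_par' (u x : V) : S.G.dist u (S.par u x) = S.G.dist u x - 1 := by
  by_cases h : x = u
  · rw [h, par_self]
    simp
  · have := dist_par (S := S) h
    omega

lemma dist_geod_end (x u : V) (i : ℕ) : S.G.dist u (S.geod x u i) = S.G.dist x u - i := by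
  induction i with
  | zero => rw [geod_zero, SimpleGraph.dist_comm]; simp
  | succ i ih => rw [geod_succ, dist_par', ih]; omega

lemma geod_dist (x u : V) : S.geod x u (S.G.dist x u) = u := by
  have := dist_geod_end (S := S) x u (S.G.dist x u)
  rw [Nat.sub_self, dist_eq_zero] at this
  exact this.symm
lemma geod_isNB (x u : V) : S.IsNB (S.geod x u) (S.G.dist x u) := by
  refine ⟨fun i hi => ?_, fun i hi e => ?_⟩
  · rw [geod_succ]
    refine adj_par fun e => ?_
    have := dist_geod_end (S := S) x u i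
    rw [e, SimpleGraph.dist_self] at this
    omega
  · have h1 := dist_geod_end (S := S) x u i
    have h2 := dist_geod_end (S := S) x u (i + 2)
    rw [e] at h2
    omega
lemma dist_geod (x u : V) {i : ℕ} (hi : i ≤ S.G.dist x u) : S.G.dist x (S.geod x u i) = i := by
  have := (geod_isNB (S := S) x u).dist (Nat.zero_le i) hi
  rwa [geod_zero, Nat.sub_zero] at this
lemma IsNB.eq_geod {p : ℕ → V} {k i : ℕ} (h : S.IsNB p k) (hi : i ≤ k) :
    p i = S.geod (p 0) (p k) i := by
  induction i with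
  | zero => rfl
  | succ i ih =>
    rw [geod_succ, ← ih (by omega)]
    refine eq_par (h.1 i hi) ?_
    rw [SimpleGraph.dist_comm, h.dist hi le_rfl, SimpleGraph.dist_comm, h.dist (by omega) le_rfl]
    omega

lemma dist_map_le (g : S.G ≃g S.G) (x y : V) : S.G.dist (g x) (g y) ≤ S.G.dist x y := by
  obtain ⟨p, hp⟩ := S.tree.connected.exists_walk_length_eq_dist x y
  have := SimpleGraph.dist_le (p.map g.toHom)
  rw [SimpleGraph.Walk.length_map, hp] at this
  exact this

lemma dist_map (g : S.G ≃g S.G) (x y : V) : S.G.dist (g x) (g y) = S.G.dist x y := by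
  refine le_antisymm (dist_map_le g x y) ?_
  have := dist_map_le g.symm (g x) (g y)
  simpa using this
lemma DE.map {y x : V} (h : S.DE y x) (g : S.G ≃g S.G) : S.DE (g y) (g x) := by
  rcases h with rfl | h
  · exact Or.inl rfl
  · exact Or.inr (g.map_adj_iff.2 h)
lemma sum_ch_map (g : S.G ≃g S.G) (y x : V) (F : V → ℝ) :
    ∑ z ∈ S.ch (g y) (g x), F z = ∑ z ∈ S.ch y x, F (g z) := by
  symm
  refine Finset.sum_equiv g.toEquiv (fun z => ?_) (fun z _ => rfl)
  rw [mem_ch, mem_ch]
  change _ ↔ S.G.Adj (g y) (g z) ∧ g z ≠ g x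
  rw [g.map_adj_iff, g.injective.ne_iff]
lemma IsNB.map {p : ℕ → V} {k : ℕ} (h : S.IsNB p k) (g : S.G ≃g S.G) :
    S.IsNB (fun i => g (p i)) k :=
  ⟨fun i hi => g.map_adj_iff.2 (h.1 i hi), fun i hi => g.injective.ne (h.2 i hi)⟩
lemma mem_ball_map (g : S.G ≃g S.G) {u v : V} {n : ℕ} :
    g u ∈ S.ball n (g v) ↔ u ∈ S.ball n v := by
  rw [mem_ball, mem_ball, dist_map]

end Setup

end Crest.Agent.R160
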