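import Crest.Agent.R160.Levy
import Crest.Agent.R160.Tree3

/-!
# Row 160 (S0241): Var
Comparison of conditional variances.  Throughout `R ω = r (ω rho) ≤ J`, `B = J + d`, `N = NN R`.
* `cvar_cav`: a.e. `cav y x = cav y y - fm (cav x y)` (`ae_good`, `Good.cav_self`); `cvar_add_le` with
  `η = 1/2`, `θ² ≤ 1/2`, and `cvar (cav x y) = cvar (cav y x)` by an automorphism swapping `x`, `y`.
* `cvar_ecost_fine`: `α = α ∘ clamp l + (α - α ∘ clamp l)`; the second part vanishes when `|cav| ≤ l`, is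
  bounded by `2B`, and `P(l < |cav|) ≤ π` by `integral_param` at `rho`.
* `cvar_sum_ecost`: apply `integral_sq_sum_path_le` to bounded versions `z x y` of
  `res (GG R) (ecost x y)` of the form `ecost x y - ψ ∘ Gam R`; invariance under `relab g` from `res_comp` for
  `act g` and `flip` (`act_eq_or`); orthogonality from `exists_dependsOn_root` (integrate out the root
  coordinate) and `integral_res_mul`.
-/

set_option autoImplicit false

open MeasureTheory Filter Topology
open scoped unitInterval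

noncomputable section

namespace Crest.Agent.R160

universe u

namespace Setup

variable {V : Type u} (S : Setup V)

variable {S} {r : X → ℝ} {J : ℕ}

/-- equivariance of residuals -/
lemma res_act (hr : Measurable r) (g : S.G ≃g S.G) {F F' : Om V → ℝ} (hF : BM F)
    (h : ∀ ω, F' ω = F (S.act g ω)) :
    res (S.GG fun ω => r (ω Idx.rho)) (mu V) F' =ᵐ[mu V]
      fun ω => res (S.GG fun ω => r (ω Idx.rho)) (mu V) F (S.act g ω) := by
  obtain rfl : F' = fun ω => F (S.act g ω) := funext h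
  exact res_comp (GG_le (hr.comp (measurable_pi_apply _))) (measurePreserving_act g)
    (GG_comap_act g hr) hF
lemma condExp_act (hr : Measurable r) (g : S.G ≃g S.G) {Z : Om V → ℝ} (hZ : Integrable Z (mu V))
    (h : (fun ω => Z (S.act g ω)) =ᵐ[mu V] Z) :
    (fun ω => ((mu V)[Z | S.GG fun ω => r (ω Idx.rho)]) (S.act g ω)) =ᵐ[mu V]
      (mu V)[Z | S.GG fun ω => r (ω Idx.rho)] :=
  (condExp_comp (GG_le (hr.comp (measurable_pi_apply _))) (measurePreserving_act g)
    (GG_comap_act g hr) hZ).symm.trans (condExp_congr_ae h)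

lemma var_cvar_act (hr : Measurable r) (g : S.G ≃g S.G) {F F' : Om V → ℝ} (hF : BM F)
    (h : ∀ ω, F' ω = F (S.act g ω)) :
    cvar (S.GG fun ω => r (ω Idx.rho)) (mu V) F' = cvar (S.GG fun ω => r (ω Idx.rho)) (mu V) F := by
  obtain rfl : F' = fun ω => F (S.act g ω) := funext h
  exact cvar_comp (GG_le (hr.comp (measurable_pi_apply _))) (measurePreserving_act g)
    (GG_comap_act g hr) hF

theorem cvar_mR (hr : Measurable r) (v : V) :
    cvar (S.GG fun ω => r (ω Idx.rho)) (mu V) (S.mR (fun ω => r (ω Idx.rho)) v) =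
      S.NN fun ω => r (ω Idx.rho) := by
  obtain ⟨g, hg⟩ := exists_aut_vertex (S := S) S.o v
  refine var_cvar_act hr g (BM_mR (hr.comp (measurable_pi_apply _)) S.o) fun ω => ?_
  simp only [mR, mag, act_rho, cav_act, hg]
theorem cvar_cav_self (hr : Measurable r) (hJ : ∀ ξ, r ξ ≤ J) (v : V) :
    cvar (S.GG fun ω => r (ω Idx.rho)) (mu V)
        (fun ω => S.cav (S.Y Set.univ (r (ω Idx.rho)) ω) v v) ≤
      Real.cosh (J + S.d) ^ 4 * S.NN fun ω => r (ω Idx.rho) := by
  have hR : Measurable fun ω : Om V => r (ω Idx.rho) := hr.comp (measurable_pi_apply _)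
  set B : ℝ := J + S.d with hB
  have hart : ∀ x ∈ Set.Icc (Real.tanh (-B)) (Real.tanh B),
      |Real.artanh x| ≤ B ∧ Real.tanh (Real.artanh x) = x := by
    intro x hx
    have h1 : -1 < x := (Real.neg_one_lt_tanh _).trans_le hx.1
    have h2 : x < 1 := hx.2.trans_lt (Real.tanh_lt_one _)
    refine ⟨abs_le.2 ⟨?_, ?_⟩, Real.tanh_artanh ⟨h1, h2⟩⟩
    · rw [← Real.artanh_tanh (-B)]
      exact Real.artanh_le_artanh (Real.neg_one_lt_tanh _) h2 hx.1
    · conv_rhs => rw [← Real.artanh_tanh B]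
      exact Real.artanh_le_artanh h1 (Real.tanh_lt_one _) hx.2
  have h := cvar_lipschitz (μ := mu V) (GG_le (S := S) hR) (measurable_mR (S := S) hR v)
    (a := Real.tanh (-B)) (b := Real.tanh B) (fun ω => by
      have := abs_le.1 (abs_cav_Y_le (S := S) Set.univ (hJ (ω Idx.rho)) ω v v)
      exact ⟨tanh_mono' this.1, tanh_mono' this.2⟩) measurable_artanh (L := Real.cosh B ^ 2)
    (fun x hx y hy => by
      have := sub_le_cosh_sq_mul (hart x hx).1 (hart y hy).1
      rwa [(hart x hx).2, (hart y hy).2] at this)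
  rw [cvar_mR hr v, ← pow_mul] at h
  simpa only [mR, mag, Real.artanh_tanh] using h

lemma var_cvar_lip (hr : Measurable r) (hJ : ∀ ξ, r ξ ≤ J) (y x : V) {φ : ℝ → ℝ}
    (hφ : Measurable φ) {L : ℝ} (hL : ∀ a b, |φ a - φ b| ≤ L * |a - b|) :
    cvar (S.GG fun ω => r (ω Idx.rho)) (mu V)
        (fun ω => φ (S.cav (S.Y Set.univ (r (ω Idx.rho)) ω) y x)) ≤
      L ^ 2 * cvar (S.GG fun ω => r (ω Idx.rho)) (mu V)
        (fun ω => S.cav (S.Y Set.univ (r (ω Idx.rho)) ω) y x) :=
  cvar_lipschitz (μ := mu V) (GG_le (S := S) (hr.comp (measurable_pi_apply _)))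
    (BM_cav Set.univ (isTime_rho hr hJ) y x).meas
    (fun ω => abs_le.1 (abs_cav_Y_le (S := S) Set.univ (hJ (ω Idx.rho)) ω y x)) hφ
    fun a _ b _ => hL a b

theorem cvar_lc (hr : Measurable r) (hJ : ∀ ξ, r ξ ≤ J) (v : V) :
    cvar (S.GG fun ω => r (ω Idx.rho)) (mu V)
        (fun ω => lc (S.cav (S.Y Set.univ (r (ω Idx.rho)) ω) v v)) ≤
      Real.cosh (J + S.d) ^ 4 * S.NN fun ω => r (ω Idx.rho) := by
  have h := var_cvar_lip (S := S) hr hJ v v continuous_lc.measurable (L := 1)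
    fun a b => by simpa using lc_lipschitz a b
  rw [one_pow, one_mul] at h
  exact h.trans (cvar_cav_self hr hJ v)
theorem cvar_cav (hr : Measurable r) (hJ : ∀ ξ, r ξ ≤ J) {y x : V} (h : S.G.Adj y x) :
    cvar (S.GG fun ω => r (ω Idx.rho)) (mu V)
        (fun ω => S.cav (S.Y Set.univ (r (ω Idx.rho)) ω) y x) ≤
      12 * Real.cosh (J + S.d) ^ 4 * S.NN fun ω => r (ω Idx.rho) := by
  have hR : Measurable fun ω : Om V => r (ω Idx.rho) := hr.comp (measurable_pi_apply _)
  have hT := isTime_rho (V := V) hr hJ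
  obtain ⟨g, hg1, hg2⟩ := exists_aut_edge h h.symm
  have hsw : cvar (S.GG fun ω => r (ω Idx.rho)) (mu V)
        (fun ω => S.cav (S.Y Set.univ (r (ω Idx.rho)) ω) x y) =
      cvar (S.GG fun ω => r (ω Idx.rho)) (mu V)
        (fun ω => S.cav (S.Y Set.univ (r (ω Idx.rho)) ω) y x) := by
    refine var_cvar_act hr g (BM_cav Set.univ hT y x) fun ω => ?_
    simp only [act_rho, cav_act, hg1, hg2]
  have hc : Continuous fun t => -fm S.θ t := (continuous_fm S.hθ0 S.theta_sq_le).neg
  have h1 := var_cvar_lip (S := S) hr hJ x y hc.measurable (L := S.θ) fun a b => by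
    rw [← abs_neg]
    convert fm_lipschitz S.hθ0 S.theta_sq_le a b using 2
    ring
  have h2 := cvar_add_le (μ := mu V) (GG_le (S := S) hR) (BM_cav (S := S) Set.univ hT y y)
    ((BM_cav (S := S) Set.univ hT x y).comp_continuous hc) (η := 1 / 2) (by norm_num)
  have h3 : cvar (S.GG fun ω => r (ω Idx.rho)) (mu V)
        (fun ω => S.cav (S.Y Set.univ (r (ω Idx.rho)) ω) y x) =
      cvar (S.GG fun ω => r (ω Idx.rho)) (mu V)
        (fun ω => S.cav (S.Y Set.univ (r (ω Idx.rho)) ω) y y +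
          -fm S.θ (S.cav (S.Y Set.univ (r (ω Idx.rho)) ω) x y)) := by
    refine cvar_congr ?_
    filter_upwards [ae_good (S := S) Set.univ hT] with ω hω
    rw [hω.cav_self h]
    ring
  have h4 := cvar_cav_self (S := S) hr hJ y
  rw [hsw] at h1
  rw [← h3] at h2
  have h5 := cvar_nonneg (m := S.GG fun ω => r (ω Idx.rho)) (μ := mu V)
    (fun ω => S.cav (S.Y Set.univ (r (ω Idx.rho)) ω) y x)
  have h6 := mul_le_mul_of_nonneg_right S.theta_sq_le h5
  norm_num at h2
  linarith

lemma var_cvar_ecost (hr : Measurable r) (hJ : ∀ ξ, r ξ ≤ J) {y x : V} {c : ℝ}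
    (h1 : cvar (S.GG fun ω => r (ω Idx.rho)) (mu V)
        (fun ω => alpha S.θ (S.cav (S.Y Set.univ (r (ω Idx.rho)) ω) y x)) ≤ c)
    (h2 : cvar (S.GG fun ω => r (ω Idx.rho)) (mu V)
        (fun ω => alpha S.θ (S.cav (S.Y Set.univ (r (ω Idx.rho)) ω) x y)) ≤ c) :
    cvar (S.GG fun ω => r (ω Idx.rho)) (mu V)
        (fun ω => S.ecost (S.Y Set.univ (r (ω Idx.rho)) ω) y x) ≤ c := by
  have hR : Measurable fun ω : Om V => r (ω Idx.rho) := hr.comp (measurable_pi_apply _)
  have hT := isTime_rho (V := V) hr hJ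
  have hc := continuous_alpha S.hθ0 S.theta_sq_le
  have hb1 := (BM_cav (S := S) Set.univ hT y x).comp_continuous hc
  have hb2 := (BM_cav (S := S) Set.univ hT x y).comp_continuous hc
  have h3 := cvar_add_le (μ := mu V) (GG_le (S := S) hR) hb1 hb2 (η := 1) one_pos
  have h4 := cvar_const_mul (μ := mu V) (GG_le (S := S) hR) (hb1.add hb2) (1 / 2)
  have h5 : (fun ω => S.ecost (S.Y Set.univ (r (ω Idx.rho)) ω) y x) = fun ω =>
      1 / 2 * (alpha S.θ (S.cav (S.Y Set.univ (r (ω Idx.rho)) ω) y x) +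
        alpha S.θ (S.cav (S.Y Set.univ (r (ω Idx.rho)) ω) x y)) := by
    funext ω
    unfold ecost
    ring
  rw [h5, h4]
  norm_num at h3 ⊢
  linarith

theorem cvar_ecost_crude (hr : Measurable r) (hJ : ∀ ξ, r ξ ≤ J) {y x : V} (h : S.G.Adj y x) :
    cvar (S.GG fun ω => r (ω Idx.rho)) (mu V)
        (fun ω => S.ecost (S.Y Set.univ (r (ω Idx.rho)) ω) y x) ≤
      48 * Real.cosh (J + S.d) ^ 4 * S.NN fun ω => r (ω Idx.rho) := by
  have key : ∀ {y x : V}, S.G.Adj y x → cvar (S.GG fun ω => r (ω Idx.rho)) (mu V)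
        (fun ω => alpha S.θ (S.cav (S.Y Set.univ (r (ω Idx.rho)) ω) y x)) ≤
      48 * Real.cosh (J + S.d) ^ 4 * S.NN fun ω => r (ω Idx.rho) := by
    intro y x h
    have h1 := var_cvar_lip (S := S) hr hJ y x (continuous_alpha S.hθ0 S.theta_sq_le).measurable
      (alpha_lipschitz S.hθ0 S.theta_sq_le)
    have h2 := cvar_cav hr hJ h
    linarith
  exact var_cvar_ecost hr hJ (key h) (key h.symm)

open Classical in
lemma var_prob_le (hr : Measurable r) {l π : ℝ} {y x : V} (h : S.G.Adj y x)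
    (hπ : ∀ ξ, (mu V).real {ω | l < |S.XX (r ξ) y x ω|} ≤ π) :
    ∫ ω, (if l < |S.cav (S.Y Set.univ (r (ω Idx.rho)) ω) y x| then (1 : ℝ) else 0) ∂(mu V) ≤ π := by
  have hm : Measurable fun p : X × Om V => S.XX (r p.1) y x p.2 :=
    (measurable_XX y x).comp ((hr.comp measurable_fst).prodMk measurable_snd)
  have hF : BM fun p : X × Om V => if l < |S.XX (r p.1) y x p.2| then (1 : ℝ) else 0 :=
    BM.ite (measurableSet_lt measurable_const hm.abs) (BM.const 1) (BM.const 0)
  have h1 := integral_param nu (Idx.rho : Idx V) hF fun ξ ω ω' hω => by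
    have : S.XX (r ξ) y x ω = S.XX (r ξ) y x ω' :=
      XX_dependsOn (r ξ) (Or.inr h) fun i hi => hω i fun hi' => rho_not_mem_idx _ (hi' ▸ hi)
    simp only [this]
  simp only [← abs_XX]
  refine h1.trans_le ?_
  have h2 : ∀ ξ, ∫ ω, (if l < |S.XX (r ξ) y x ω| then (1 : ℝ) else 0) ∂(PP (Idx V) nu) ≤ π := by
    intro ξ
    refine le_trans (le_of_eq ?_) (hπ ξ)
    rw [← integral_indicator_one (measurableSet_lt measurable_const (BM_XX (r ξ) y x).meas.abs)]
    rfl
  have h3 := integral_mono ((BM.integral_prod_right hF (PP (Idx V) nu)).integrable nu)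
    (integrable_const π) h2
  simpa using h3

theorem cvar_ecost_fine (hr : Measurable r) (hJ : ∀ ξ, r ξ ≤ J) {l π : ℝ} (hl0 : 0 ≤ l) (hl1 : l ≤ 1)
    (hπ : ∀ ξ y x, S.G.Adj y x → (mu V).real {ω | l < |S.XX (r ξ) y x ω|} ≤ π)
    {y x : V} (h : S.G.Adj y x) :
    cvar (S.GG fun ω => r (ω Idx.rho)) (mu V)
        (fun ω => S.ecost (S.Y Set.univ (r (ω Idx.rho)) ω) y x) ≤
      384 * l ^ 2 * Real.cosh (J + S.d) ^ 4 * (S.NN fun ω => r (ω Idx.rho)) +
        8 * ((J : ℝ) + S.d) ^ 2 * π := by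
  classical
  have hR : Measurable fun ω : Om V => r (ω Idx.rho) := hr.comp (measurable_pi_apply _)
  have hT := isTime_rho (V := V) hr hJ
  have hc := continuous_alpha S.hθ0 S.theta_sq_le
  have hc1 : Continuous fun t => alpha S.θ (clamp l t) := hc.comp (continuous_clamp l)
  have hc2 : Continuous fun t => alpha S.θ t - alpha S.θ (clamp l t) := hc.sub hc1
  have key : ∀ {y x : V}, S.G.Adj y x → cvar (S.GG fun ω => r (ω Idx.rho)) (mu V)
        (fun ω => alpha S.θ (S.cav (S.Y Set.univ (r (ω Idx.rho)) ω) y x)) ≤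
      384 * l ^ 2 * Real.cosh (J + S.d) ^ 4 * (S.NN fun ω => r (ω Idx.rho)) +
        8 * ((J : ℝ) + S.d) ^ 2 * π := by
    intro y x h
    have hb := BM_cav (S := S) Set.univ hT y x
    have h1 := var_cvar_lip (S := S) hr hJ y x hc1.measurable
      (alpha_clamp_lipschitz S.hθ0 S.theta_sq_le hl0 hl1)
    have h2 := cvar_cav hr hJ h
    have h3 := cvar_add_le (μ := mu V) (GG_le (S := S) hR) (hb.comp_continuous hc1)
      (hb.comp_continuous hc2) (η := 1) one_pos
    have h4 := cvar_le_integral_sq (μ := mu V) (GG_le (S := S) hR) (hb.comp_continuous hc2)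
    have h5 := var_prob_le (S := S) hr h fun ξ => hπ ξ y x h
    have hI : BM fun ω : Om V =>
        if l < |S.cav (S.Y Set.univ (r (ω Idx.rho)) ω) y x| then (1 : ℝ) else 0 :=
      BM.ite (measurableSet_lt measurable_const hb.meas.abs) (BM.const 1) (BM.const 0)
    have h6 : ∫ ω, (alpha S.θ (S.cav (S.Y Set.univ (r (ω Idx.rho)) ω) y x) -
          alpha S.θ (clamp l (S.cav (S.Y Set.univ (r (ω Idx.rho)) ω) y x))) ^ 2 ∂(mu V) ≤
        ∫ ω, 4 * ((J : ℝ) + S.d) ^ 2 *
          (if l < |S.cav (S.Y Set.univ (r (ω Idx.rho)) ω) y x| then (1 : ℝ) else 0) ∂(mu V) := by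
      refine integral_mono (((hb.comp_continuous hc2).pow 2).integrable _)
        (((BM.const _).mul hI).integrable _) fun ω => ?_
      have hB := abs_cav_Y_le (S := S) Set.univ (hJ (ω Idx.rho)) ω y x
      dsimp only
      generalize S.cav (S.Y Set.univ (r (ω Idx.rho)) ω) y x = t at hB ⊢
      split_ifs with ht
      · have a1 := alpha_nonneg S.hθ0 S.theta_sq_le t
        have a2 := alpha_nonneg S.hθ0 S.theta_sq_le (clamp l t)
        have a3 := alpha_le S.hθ0 S.theta_sq_le t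
        have a4 := alpha_le S.hθ0 S.theta_sq_le (clamp l t)
        have a5 := abs_clamp_le hl0 t
        have a6 : |alpha S.θ t - alpha S.θ (clamp l t)| ≤ 2 * ((J : ℝ) + S.d) :=
          abs_le.2 ⟨by linarith, by linarith⟩
        have a7 := pow_le_pow_left₀ (abs_nonneg _) a6 2
        rw [sq_abs] at a7
        linarith
      · rw [clamp_eq (not_lt.1 ht)]
        simp
    rw [integral_const_mul] at h6
    have h7 := mul_le_mul_of_nonneg_left h5 (show 0 ≤ 4 * ((J : ℝ) + S.d) ^ 2 by positivity)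
    have h8 := mul_le_mul_of_nonneg_left h2 (sq_nonneg (4 * l))
    simp only [add_sub_cancel] at h3
    norm_num at h3
    linarith
  exact var_cvar_ecost hr hJ (key h) (key h.symm)

end Setup

end Crest.Agent.R160
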